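import Vale.Agent.Lib.P184.MatrixForm

/-!
# The abelianization corollary

If the image of `g` in the abelianization of `G` has infinite order, there is a homomorphism
`G → ℝ` not vanishing at `g`, and the vanishing theorem applies.
-/

namespace Vale.Agent.Lib.P184

open scoped BigOperators Topology

/-- A real-valued additive character of `G` that does not vanish at `g`, when `g` has infinite
order in the abelianization. -/
theorem exists_hom_real {G : Type*} [Group G] (g : G)
    (hg : ¬ IsOfFinOrder (Abelianization.of g)) :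
    ∃ ψ : G → ℝ, (∀ x y, ψ (x * y) = ψ x + ψ y) ∧ ψ g ≠ 0 := by
  obtain ⟨a, ha⟩ : ∃ a : Additive (Abelianization G), a = Additive.ofMul (Abelianization.of g) :=
    ⟨_, rfl⟩
  have ha_inf : ¬ IsOfFinAddOrder a := by
    rw [ha]
    exact fun h => hg (isOfFinAddOrder_ofMul_iff.mp h)
  let f : ℤ →ₗ[ℤ] Additive (Abelianization G) := LinearMap.toSpanSingleton ℤ _ a
  have hf : Function.Injective f := by
    rw [injective_iff_map_eq_zero]
    intro n hn
    have h1 : n • a = 0 := by simpa [f] using hn
    by_contra hne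
    exact ha_inf (isOfFinAddOrder_iff_zsmul_eq_zero.mpr ⟨n, hne, h1⟩)
  let g₀ : ℤ →ₗ[ℤ] ℝ := (Int.castAddHom ℝ).toIntLinearMap
  obtain ⟨h, hh⟩ := Module.Baer.extension_property (Module.Baer.of_divisible ℝ) f hf g₀
  refine ⟨fun x => h (Additive.ofMul (Abelianization.of x)), fun x y => ?_, ?_⟩
  · simp only [map_mul, ofMul_mul, map_add]
  · have h1 : h (f 1) = g₀ 1 := by rw [← hh]; rfl
    have h2 : f 1 = a := by simp [f]
    have h3 : g₀ 1 = 1 := by simp [g₀]
    rw [h2, h3] at h1
    simp only [← ha, h1]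
    exact one_ne_zero

theorem abelianization_class_trace {G : Type*} [Group G] (q : ℕ) (e : Fin q → Fin q → G → ℂ)
    (he_sum : ∀ i j, Summable (fun x => ‖e i j x‖))
    (he_idem : ∀ i j x, ∑ l, ∑' y, e i l y * e l j (y⁻¹ * x) = e i j x)
    (g : G) (hg : ¬ IsOfFinOrder (Abelianization.of g)) :
    HasSum (fun c : {c : G // IsConj g c} => ∑ i, e i i c.1) 0 := by
  obtain ⟨ψ, hψ, hψg⟩ := exists_hom_real g hg
  have h1 : ψ 1 = 0 := by
    have := hψ 1 1
    rw [one_mul] at this
    linarith
  refine matrix_class_trace q e he_sum he_idem g ψ (fun m => ⟨|ψ m|, fun h => ?_⟩)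
    (fun z _ h => ?_) ?_
  · rw [hψ]
    simp
  · rw [hψ, h1]
    ring
  · rw [h1]
    exact hψg

end Vale.Agent.Lib.P184
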