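import Vale.Agent.Lib.P184.MatrixForm

/-!
# Axial isometries of spaces satisfying the quadrilateral inequality

Let a group `G` act by isometries on a pseudo-metric space `X` in which the quadrilateral
inequality `d(x,z)² + d(y,w)² ≤ d(x,y)² + d(y,z)² + d(z,w)² + d(w,x)²` holds (every `CAT(0)` space
has this property).  Let `g : G` translate a point `x₀` along an axis: `d(x₀, g^k x₀) = k τ` with
`τ > 0`.  Then the Busemann function of the axis, `b(x) = inf_k (d(x, g^k x₀) - k τ)`, is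
`1`-Lipschitz and is changed by an additive constant by each element of the centralizer of `g`.
Hence `h ↦ b(h⁻¹ x₀)` satisfies the hypotheses of the twisting criterion `matrix_class_trace`.
-/

namespace Vale.Agent.Lib.P184

open scoped BigOperators

section Busemann

variable {G : Type*} [Group G] {X : Type*} [PseudoMetricSpace X] [MulAction G X]

/-- The sequence whose infimum is the Busemann function of the orbit `k ↦ g ^ k • y`. -/
noncomputable def axisSeq (g : G) (τ : ℝ) (y x : X) (k : ℕ) : ℝ :=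
  dist x (g ^ k • y) - k * τ

/-- The Busemann function of the orbit `k ↦ g ^ k • y`. -/
noncomputable def axisBus (g : G) (τ : ℝ) (y x : X) : ℝ :=
  ⨅ k : ℕ, axisSeq g τ y x k

theorem axisSeq_lower (g : G) (τ : ℝ) (y : X) (hy : ∀ k : ℕ, dist y (g ^ k • y) = k * τ)
    (x : X) (k : ℕ) : -dist x y ≤ axisSeq g τ y x k := by
  unfold axisSeq
  have h1 : dist y (g ^ k • y) ≤ dist y x + dist x (g ^ k • y) := dist_triangle _ _ _
  rw [hy k, dist_comm y x] at h1
  linarith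

theorem axisSeq_bddBelow (g : G) (τ : ℝ) (y : X) (hy : ∀ k : ℕ, dist y (g ^ k • y) = k * τ)
    (x : X) : BddBelow (Set.range (axisSeq g τ y x)) :=
  ⟨-dist x y, by rintro _ ⟨k, rfl⟩; exact axisSeq_lower g τ y hy x k⟩

theorem axisBus_le (g : G) (τ : ℝ) (y : X) (hy : ∀ k : ℕ, dist y (g ^ k • y) = k * τ)
    (x : X) (k : ℕ) : axisBus g τ y x ≤ axisSeq g τ y x k :=
  ciInf_le (axisSeq_bddBelow g τ y hy x) k

theorem le_axisBus (g : G) (τ : ℝ) (y x : X) (c : ℝ) (h : ∀ k, c ≤ axisSeq g τ y x k) :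
    c ≤ axisBus g τ y x :=
  le_ciInf h

theorem axisBus_lipschitz (g : G) (τ : ℝ) (y : X) (hy : ∀ k : ℕ, dist y (g ^ k • y) = k * τ)
    (u v : X) : |axisBus g τ y u - axisBus g τ y v| ≤ dist u v := by
  have key : ∀ a b : X, axisBus g τ y a - dist a b ≤ axisBus g τ y b := by
    intro a b
    apply le_axisBus
    intro k
    have h1 := axisBus_le g τ y hy a k
    have h2 : dist a (g ^ k • y) ≤ dist a b + dist b (g ^ k • y) := dist_triangle _ _ _
    unfold axisSeq at h1 ⊢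
    linarith
  rw [abs_le]
  constructor
  · have := key v u
    rw [dist_comm v u] at this
    linarith
  · have := key u v
    linarith

theorem axisSeq_triangle [IsIsometricSMul G X] (g : G) (τ : ℝ) (y₀ y₁ x : X) (k j : ℕ) :
    axisSeq g τ y₁ x (k + j) ≤ axisSeq g τ y₀ x k + axisSeq g τ y₁ y₀ j := by
  unfold axisSeq
  have h1 : dist x (g ^ (k + j) • y₁) ≤ dist x (g ^ k • y₀) + dist (g ^ k • y₀) (g ^ (k + j) • y₁) :=
    dist_triangle _ _ _
  have h2 : dist (g ^ k • y₀) (g ^ (k + j) • y₁) = dist y₀ (g ^ j • y₁) := by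
    rw [pow_add, mul_smul, dist_smul]
  rw [h2] at h1
  push_cast
  linarith

theorem axisBus_le_add [IsIsometricSMul G X] (g : G) (τ : ℝ) (y₀ y₁ : X)
    (hy₁ : ∀ k : ℕ, dist y₁ (g ^ k • y₁) = k * τ)
    (x : X) : axisBus g τ y₁ x ≤ axisBus g τ y₀ x + axisBus g τ y₁ y₀ := by
  have h1 : axisBus g τ y₁ x - axisBus g τ y₀ x ≤ axisBus g τ y₁ y₀ := by
    apply le_axisBus
    intro j
    have h2 : axisBus g τ y₁ x - axisSeq g τ y₁ y₀ j ≤ axisBus g τ y₀ x := by
      apply le_axisBus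
      intro k
      have h3 := axisBus_le g τ y₁ hy₁ x (k + j)
      have h4 := axisSeq_triangle g τ y₀ y₁ x k j
      linarith
    linarith
  linarith

theorem axisBus_add_le_zero [IsIsometricSMul G X]
    (hquad : ∀ x y z w : X, dist x z ^ 2 + dist y w ^ 2
      ≤ dist x y ^ 2 + dist y z ^ 2 + dist z w ^ 2 + dist w x ^ 2)
    (g : G) (τ : ℝ) (hτ : 0 < τ) (y₀ y₁ : X)
    (hy₀ : ∀ k : ℕ, dist y₀ (g ^ k • y₀) = k * τ) (hy₁ : ∀ k : ℕ, dist y₁ (g ^ k • y₁) = k * τ) :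
    axisBus g τ y₁ y₀ + axisBus g τ y₀ y₁ ≤ 0 := by
  by_contra hcon
  push Not at hcon
  obtain ⟨s, hs⟩ : ∃ s : ℝ, s = axisBus g τ y₁ y₀ + axisBus g τ y₀ y₁ := ⟨_, rfl⟩
  rw [← hs] at hcon
  obtain ⟨k, hk⟩ := exists_nat_gt ((dist y₀ y₁ ^ 2 + 1) / (τ * s))
  have hk0 : (0 : ℝ) < k := by
    have : 0 ≤ (dist y₀ y₁ ^ 2 + 1) / (τ * s) := by positivity
    linarith
  have hu := axisBus_le g τ y₁ hy₁ y₀ k
  have hv := axisBus_le g τ y₀ hy₀ y₁ k
  have hul := axisSeq_lower g τ y₁ hy₁ y₀ k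
  have hvl := axisSeq_lower g τ y₀ hy₀ y₁ k
  have hq := hquad y₀ (g ^ k • y₀) (g ^ k • y₁) y₁
  rw [hy₀ k, dist_smul, dist_comm (g ^ k • y₁) y₁, hy₁ k, dist_comm y₁ y₀,
    dist_comm (g ^ k • y₀) y₁] at hq
  obtain ⟨u, hu'⟩ : ∃ u : ℝ, u = axisSeq g τ y₁ y₀ k := ⟨_, rfl⟩
  obtain ⟨v, hv'⟩ : ∃ v : ℝ, v = axisSeq g τ y₀ y₁ k := ⟨_, rfl⟩
  have e1 : dist y₀ (g ^ k • y₁) = k * τ + u := by rw [hu']; unfold axisSeq; ring
  have e2 : dist y₁ (g ^ k • y₀) = k * τ + v := by rw [hv']; unfold axisSeq; ring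
  rw [e1, e2] at hq
  rw [← hu'] at hu hul
  rw [← hv'] at hv hvl
  have hsum : s ≤ u + v := by rw [hs]; linarith
  have h5 : (dist y₀ y₁ ^ 2 + 1) < k * (τ * s) := by
    rw [div_lt_iff₀ (mul_pos hτ hcon)] at hk
    exact hk
  have h6 : k * (τ * s) ≤ k * τ * (u + v) := by
    have : 0 ≤ (k : ℝ) * τ := by positivity
    nlinarith
  nlinarith [sq_nonneg u, sq_nonneg v]

theorem axisBus_eq_add [IsIsometricSMul G X]
    (hquad : ∀ x y z w : X, dist x z ^ 2 + dist y w ^ 2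
      ≤ dist x y ^ 2 + dist y z ^ 2 + dist z w ^ 2 + dist w x ^ 2)
    (g : G) (τ : ℝ) (hτ : 0 < τ) (y₀ y₁ : X)
    (hy₀ : ∀ k : ℕ, dist y₀ (g ^ k • y₀) = k * τ) (hy₁ : ∀ k : ℕ, dist y₁ (g ^ k • y₁) = k * τ)
    (x : X) : axisBus g τ y₁ x = axisBus g τ y₀ x + axisBus g τ y₁ y₀ := by
  have h1 := axisBus_le_add g τ y₀ y₁ hy₁ x
  have h2 := axisBus_le_add g τ y₁ y₀ hy₀ x
  have h3 := axisBus_add_le_zero hquad g τ hτ y₀ y₁ hy₀ hy₁
  linarith

end Busemann

theorem axis_class_trace {G : Type*} [Group G] {X : Type*} [PseudoMetricSpace X] [MulAction G X]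
    [IsIsometricSMul G X]
    (hquad : ∀ x y z w : X, dist x z ^ 2 + dist y w ^ 2
      ≤ dist x y ^ 2 + dist y z ^ 2 + dist z w ^ 2 + dist w x ^ 2)
    (g : G) (x₀ : X) (τ : ℝ) (hτ : 0 < τ) (haxis : ∀ k : ℕ, dist x₀ (g ^ k • x₀) = k * τ)
    (q : ℕ) (e : Fin q → Fin q → G → ℂ)
    (he_sum : ∀ i j, Summable (fun x => ‖e i j x‖))
    (he_idem : ∀ i j x, ∑ l, ∑' y, e i l y * e l j (y⁻¹ * x) = e i j x) :
    HasSum (fun c : {c : G // IsConj g c} => ∑ i, e i i c.1) 0 := by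
  classical
  obtain ⟨ψ, hψ⟩ : ∃ ψ : G → ℝ, ψ = fun h => axisBus g τ x₀ (h⁻¹ • x₀) := ⟨_, rfl⟩
  refine matrix_class_trace q e he_sum he_idem g ψ ?_ ?_ ?_
  · intro m
    refine ⟨dist (m⁻¹ • x₀) x₀, fun h => ?_⟩
    rw [hψ]
    have h1 := axisBus_lipschitz g τ x₀ haxis ((m * h)⁻¹ • x₀) (h⁻¹ • x₀)
    have h2 : dist ((m * h)⁻¹ • x₀) (h⁻¹ • x₀) = dist (m⁻¹ • x₀) x₀ := by
      rw [mul_inv_rev, mul_smul, dist_smul]
    rw [h2] at h1
    exact h1
  · intro z hz h
    have hcomm : ∀ k : ℕ, g ^ k * z = z * g ^ k := by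
      intro k
      have : Commute z g := hz
      exact (this.pow_right k).eq.symm
    have hzaxis : ∀ k : ℕ, dist (z • x₀) (g ^ k • z • x₀) = k * τ := by
      intro k
      rw [← mul_smul, hcomm k, mul_smul, dist_smul]
      exact haxis k
    have hequiv : ∀ u : X, axisBus g τ x₀ (z⁻¹ • u) = axisBus g τ (z • x₀) u := by
      intro u
      unfold axisBus
      congr 1
      funext k
      unfold axisSeq
      congr 1
      rw [← mul_smul, hcomm k, mul_smul]
      conv_rhs => rw [← dist_smul z⁻¹]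
      rw [inv_smul_smul]
    have hconst : ∀ u : X, axisBus g τ x₀ (z⁻¹ • u)
        = axisBus g τ x₀ u + axisBus g τ (z • x₀) x₀ := by
      intro u
      rw [hequiv u]
      exact axisBus_eq_add hquad g τ hτ x₀ (z • x₀) haxis hzaxis u
    rw [hψ]
    simp only [mul_inv_rev, mul_smul, inv_one, one_smul]
    rw [hconst (h⁻¹ • x₀), hconst x₀]
    ring
  · rw [hψ]
    simp only [inv_one, one_smul]
    have h1 : axisBus g τ x₀ x₀ = 0 := by
      unfold axisBus
      have : axisSeq g τ x₀ x₀ = fun _ => 0 := by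
        funext k
        unfold axisSeq
        rw [haxis k]
        ring
      rw [this]
      exact ciInf_const
    have h2 : axisBus g τ x₀ (g⁻¹ • x₀) = τ := by
      unfold axisBus
      have : axisSeq g τ x₀ (g⁻¹ • x₀) = fun _ => τ := by
        funext k
        unfold axisSeq
        have h3 : dist (g⁻¹ • x₀) (g ^ k • x₀) = dist x₀ (g ^ (k + 1) • x₀) := by
          rw [← dist_smul g, smul_inv_smul, ← mul_smul, ← pow_succ']
        rw [h3, haxis (k + 1)]
        push_cast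
        ring
      rw [this]
      exact ciInf_const
    rw [h1, h2]
    exact hτ.ne'

end Vale.Agent.Lib.P184
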