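import Vale.Agent.Lib.P184.Axis

/-!
# Hyperbolic isometries of spaces satisfying the `CN` inequality of Bruhat and Tits

A pseudo-metric space satisfies the `CN` inequality (the semi-parallelogram law) if for all `x, y`
there is a point `m` with `d(z,m)² ≤ (d(z,x)² + d(z,y)²)/2 - d(x,y)²/4` for all `z`.  The
geodesic spaces with this property are exactly the `CAT(0)` spaces.

* `quadrilateral_of_cn`: the `CN` inequality implies the quadrilateral inequality.
* `cn_axis`: if the displacement function of an isometry `g` attains its minimum `t` at `x₀`, then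
  `d(x₀, g^k x₀) = k t` for all `k`.
* `cn_hyperbolic_class_trace`: the vanishing theorem at the class of a hyperbolic isometry.
-/

namespace Vale.Agent.Lib.P184

open scoped BigOperators

section CN

variable {X : Type*} [PseudoMetricSpace X]

theorem quadrilateral_of_cn
    (hCN : ∀ x y : X, ∃ m : X, ∀ z : X,
      dist z m ^ 2 ≤ (dist z x ^ 2 + dist z y ^ 2) / 2 - dist x y ^ 2 / 4)
    (x y z w : X) :
    dist x z ^ 2 + dist y w ^ 2 ≤ dist x y ^ 2 + dist y z ^ 2 + dist z w ^ 2 + dist w x ^ 2 := by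
  obtain ⟨m, hm⟩ := hCN x z
  have h1 := hm y
  have h2 := hm w
  have h3 : dist y w ≤ dist y m + dist w m := dist_triangle_right y w m
  have h4 : dist y w ^ 2 ≤ 2 * dist y m ^ 2 + 2 * dist w m ^ 2 := by
    nlinarith [sq_nonneg (dist y m - dist w m), dist_nonneg (x := y) (y := w),
      dist_nonneg (x := y) (y := m), dist_nonneg (x := w) (y := m)]
  rw [dist_comm z w, dist_comm y x] at *
  linarith

theorem cn_point_dist_le (x y m : X)
    (hm : ∀ z : X, dist z m ^ 2 ≤ (dist z x ^ 2 + dist z y ^ 2) / 2 - dist x y ^ 2 / 4) :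
    dist x m ≤ dist x y / 2 ∧ dist y m ≤ dist x y / 2 := by
  have h1 := hm x
  have h2 := hm y
  rw [dist_self] at h1 h2
  rw [dist_comm y x] at h2
  constructor
  · have h3 : dist x m ^ 2 ≤ (dist x y / 2) ^ 2 := by nlinarith
    exact (pow_le_pow_iff_left₀ dist_nonneg (by positivity) two_ne_zero).mp h3
  · have h3 : dist y m ^ 2 ≤ (dist x y / 2) ^ 2 := by nlinarith
    exact (pow_le_pow_iff_left₀ dist_nonneg (by positivity) two_ne_zero).mp h3

theorem cn_point_unique (x y m m' : X)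
    (hm : ∀ z : X, dist z m ^ 2 ≤ (dist z x ^ 2 + dist z y ^ 2) / 2 - dist x y ^ 2 / 4)
    (h1 : dist x m' ≤ dist x y / 2) (h2 : dist y m' ≤ dist x y / 2) : dist m' m = 0 := by
  have h3 := hm m'
  rw [dist_comm m' x, dist_comm m' y] at h3
  have h4 : dist x m' ^ 2 ≤ (dist x y / 2) ^ 2 :=
    pow_le_pow_left₀ dist_nonneg h1 2
  have h5 : dist y m' ^ 2 ≤ (dist x y / 2) ^ 2 :=
    pow_le_pow_left₀ dist_nonneg h2 2
  have h6 : dist m' m ^ 2 ≤ 0 := by nlinarith
  have h7 : dist m' m ^ 2 = 0 := le_antisymm h6 (sq_nonneg _)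
  exact pow_eq_zero_iff two_ne_zero |>.mp h7

theorem cn_of_midpoint
    (hCN : ∀ x y : X, ∃ m : X, ∀ z : X,
      dist z m ^ 2 ≤ (dist z x ^ 2 + dist z y ^ 2) / 2 - dist x y ^ 2 / 4)
    (x y m' : X) (h1 : dist x m' ≤ dist x y / 2) (h2 : dist y m' ≤ dist x y / 2) (z : X) :
    dist z m' ^ 2 ≤ (dist z x ^ 2 + dist z y ^ 2) / 2 - dist x y ^ 2 / 4 := by
  obtain ⟨m, hm⟩ := hCN x y
  have h3 := cn_point_unique x y m m' hm h1 h2
  have h4 : dist z m' = dist z m := by
    apply le_antisymm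
    · have := dist_triangle z m m'
      rw [dist_comm m m', h3] at this
      linarith
    · have := dist_triangle z m' m
      rw [h3] at this
      linarith
  rw [h4]
  exact hm z

end CN

section Axis

variable {G : Type*} [Group G] {X : Type*} [PseudoMetricSpace X] [MulAction G X]
  [IsIsometricSMul G X]

theorem cn_dist_sq (hCN : ∀ x y : X, ∃ m : X, ∀ z : X,
      dist z m ^ 2 ≤ (dist z x ^ 2 + dist z y ^ 2) / 2 - dist x y ^ 2 / 4)
    (g : G) (x₀ : X) (hmin : ∀ x : X, dist x₀ (g • x₀) ≤ dist x (g • x)) :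
    dist x₀ (g • g • x₀) = 2 * dist x₀ (g • x₀) := by
  obtain ⟨t, ht⟩ : ∃ t : ℝ, t = dist x₀ (g • x₀) := ⟨_, rfl⟩
  rw [← ht]
  have ht0 : 0 ≤ t := by rw [ht]; exact dist_nonneg
  obtain ⟨m, hm⟩ := hCN x₀ (g • x₀)
  rw [← ht] at hm
  obtain ⟨hm1, hm2⟩ := cn_point_dist_le x₀ (g • x₀) m (by rw [← ht]; exact hm)
  rw [← ht] at hm1 hm2
  have hgm : ∀ z : X, dist z (g • m) ^ 2
      ≤ (dist z (g • x₀) ^ 2 + dist z (g • g • x₀) ^ 2) / 2 - t ^ 2 / 4 := by
    intro z
    have h1 := hm (g⁻¹ • z)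
    have e1 : dist (g⁻¹ • z) m = dist z (g • m) := by
      rw [← dist_smul g, smul_inv_smul]
    have e2 : dist (g⁻¹ • z) x₀ = dist z (g • x₀) := by
      rw [← dist_smul g, smul_inv_smul]
    have e3 : dist (g⁻¹ • z) (g • x₀) = dist z (g • g • x₀) := by
      rw [← dist_smul g, smul_inv_smul]
    rw [e1, e2, e3] at h1
    exact h1
  have h2 : t ≤ dist m (g • m) := by rw [ht]; exact hmin m
  have h3 := hgm m
  have h4 := hm (g • g • x₀)
  have h5 : dist (g • g • x₀) (g • x₀) = t := by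
    rw [dist_smul, dist_comm, ht]
  rw [h5] at h4
  have h6 : dist m (g • x₀) ≤ t / 2 := by rw [dist_comm]; exact hm2
  have h7 : dist m (g • x₀) ^ 2 ≤ (t / 2) ^ 2 := pow_le_pow_left₀ dist_nonneg h6 2
  have h8 : t ^ 2 ≤ dist m (g • m) ^ 2 := pow_le_pow_left₀ ht0 h2 2
  have h9 : (3 * t / 2) ^ 2 ≤ dist m (g • g • x₀) ^ 2 := by nlinarith
  rw [dist_comm m (g • g • x₀)] at h9
  have h10 : (2 * t) ^ 2 ≤ dist (g • g • x₀) x₀ ^ 2 := by nlinarith
  have h11 : 2 * t ≤ dist (g • g • x₀) x₀ :=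
    (pow_le_pow_iff_left₀ (by positivity) dist_nonneg two_ne_zero).mp h10
  have h12 : dist x₀ (g • g • x₀) ≤ dist x₀ (g • x₀) + dist (g • x₀) (g • g • x₀) :=
    dist_triangle _ _ _
  rw [dist_smul, ← ht] at h12
  rw [dist_comm] at h11
  linarith

theorem cn_axis (hCN : ∀ x y : X, ∃ m : X, ∀ z : X,
      dist z m ^ 2 ≤ (dist z x ^ 2 + dist z y ^ 2) / 2 - dist x y ^ 2 / 4)
    (g : G) (x₀ : X) (hmin : ∀ x : X, dist x₀ (g • x₀) ≤ dist x (g • x)) (k : ℕ) :
    dist x₀ (g ^ k • x₀) = k * dist x₀ (g • x₀) := by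
  obtain ⟨t, ht⟩ : ∃ t : ℝ, t = dist x₀ (g • x₀) := ⟨_, rfl⟩
  rw [← ht]
  have ht0 : 0 ≤ t := by rw [ht]; exact dist_nonneg
  have h2t : dist x₀ (g • g • x₀) = 2 * t := by rw [ht]; exact cn_dist_sq hCN g x₀ hmin
  have key : ∀ k : ℕ, dist x₀ (g ^ k • x₀) = k * t ∧ dist x₀ (g ^ (k + 1) • x₀) = (k + 1 : ℕ) * t := by
    intro k
    induction k with
    | zero =>
      constructor
      · simp
      · simp [ht]
    | succ k ih =>
      obtain ⟨ih1, ih2⟩ := ih
      refine ⟨ih2, ?_⟩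
      have hpr : dist (g ^ k • x₀) (g ^ (k + 1 + 1) • x₀) = 2 * t := by
        have : g ^ (k + 1 + 1) • x₀ = g ^ k • g • g • x₀ := by
          rw [← mul_smul, ← mul_smul, ← pow_succ, ← pow_succ]
        rw [this, dist_smul, h2t]
      have hpm : dist (g ^ k • x₀) (g ^ (k + 1) • x₀) = t := by
        have : g ^ (k + 1) • x₀ = g ^ k • g • x₀ := by
          rw [← mul_smul, ← pow_succ]
        rw [this, dist_smul, ht]
      have hrm : dist (g ^ (k + 1 + 1) • x₀) (g ^ (k + 1) • x₀) = t := by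
        have : g ^ (k + 1 + 1) • x₀ = g ^ (k + 1) • g • x₀ := by
          rw [← mul_smul, ← pow_succ]
        rw [this, dist_smul, dist_comm, ht]
      have hcn := cn_of_midpoint hCN (g ^ k • x₀) (g ^ (k + 1 + 1) • x₀) (g ^ (k + 1) • x₀)
        (by rw [hpr, hpm]; linarith) (by rw [hpr, hrm]; linarith) x₀
      rw [hpr, ih1, ih2] at hcn
      push_cast at hcn ⊢
      have h10 : ((k + 1 + 1) * t) ^ 2 ≤ dist x₀ (g ^ (k + 1 + 1) • x₀) ^ 2 := by nlinarith
      have h11 : (k + 1 + 1) * t ≤ dist x₀ (g ^ (k + 1 + 1) • x₀) :=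
        (pow_le_pow_iff_left₀ (by positivity) dist_nonneg two_ne_zero).mp h10
      have h12 : dist x₀ (g ^ (k + 1 + 1) • x₀)
          ≤ dist x₀ (g ^ (k + 1) • x₀) + dist (g ^ (k + 1) • x₀) (g ^ (k + 1 + 1) • x₀) :=
        dist_triangle _ _ _
      rw [ih2, dist_comm (g ^ (k + 1) • x₀), hrm] at h12
      push_cast at h12
      linarith
  exact (key k).1

end Axis

theorem cn_hyperbolic_class_trace {G : Type*} [Group G] {X : Type*} [PseudoMetricSpace X]
    [MulAction G X] [IsIsometricSMul G X]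
    (hCN : ∀ x y : X, ∃ m : X, ∀ z : X,
      dist z m ^ 2 ≤ (dist z x ^ 2 + dist z y ^ 2) / 2 - dist x y ^ 2 / 4)
    (g : G) (x₀ : X) (hmin : ∀ x : X, dist x₀ (g • x₀) ≤ dist x (g • x))
    (hpos : 0 < dist x₀ (g • x₀))
    (q : ℕ) (e : Fin q → Fin q → G → ℂ)
    (he_sum : ∀ i j, Summable (fun x => ‖e i j x‖))
    (he_idem : ∀ i j x, ∑ l, ∑' y, e i l y * e l j (y⁻¹ * x) = e i j x) :
    HasSum (fun c : {c : G // IsConj g c} => ∑ i, e i i c.1) 0 :=
  axis_class_trace (quadrilateral_of_cn hCN) g x₀ (dist x₀ (g • x₀)) hpos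
    (cn_axis hCN g x₀ hmin) q e he_sum he_idem

end Vale.Agent.Lib.P184
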