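import Vale.Agent.Lib.P184.CatZero

/-!
# Groups acting properly and cocompactly on spaces satisfying the `CN` inequality

Let a group `G` act by isometries, metrically properly and cocompactly, on a non-empty metric space
satisfying the `CN` inequality of Bruhat and Tits (so `G` is a `CAT(0)` group).

* `exists_min_displacement`: every element is semi-simple (its displacement function attains its
  infimum).
* `cn_proper_cocompact_bass`: for every idempotent matrix over the Banach group algebra, the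
  Hattori-Stallings coefficients vanish outside a finite set of conjugacy classes of elements of
  finite order.
-/

namespace Vale.Agent.Lib.P184

open scoped BigOperators

theorem conj_smul {G : Type*} [Group G] {X : Type*} [MulAction G X] (γ g : G) (x : X) :
    (γ * g * γ⁻¹) • γ • x = γ • g • x := by
  rw [← mul_smul, inv_mul_cancel_right, mul_smul]

section Proper

variable {G : Type*} [Group G] {X : Type*} [MetricSpace X] [MulAction G X] [IsIsometricSMul G X]

theorem finite_moving_set (hproper : ∀ (x : X) (R : ℝ), {γ : G | dist (γ • x) x ≤ R}.Finite)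
    (K : Set X) (hK : IsCompact K) (R : ℝ) :
    {s : G | ∃ y ∈ K, dist (s • y) y ≤ R}.Finite := by
  rcases K.eq_empty_or_nonempty with hKe | ⟨xK, hxK⟩
  · subst hKe
    simp
  obtain ⟨D, hD⟩ := Metric.isBounded_iff.mp hK.isBounded
  refine (hproper xK (R + 2 * D)).subset ?_
  rintro s ⟨y, hy, hsy⟩
  have h1 : dist (s • xK) xK ≤ dist (s • xK) (s • y) + dist (s • y) y + dist y xK :=
    dist_triangle4 _ _ _ _
  rw [dist_smul] at h1
  have h2 := hD hxK hy
  have h3 := hD hy hxK
  change dist (s • xK) xK ≤ R + 2 * D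
  linarith

theorem exists_min_displacement [Nonempty X]
    (hproper : ∀ (x : X) (R : ℝ), {γ : G | dist (γ • x) x ≤ R}.Finite)
    (K : Set X) (hK : IsCompact K) (hcocompact : ∀ x : X, ∃ γ : G, γ • x ∈ K) (g : G) :
    ∃ x₀ : X, ∀ x : X, dist x₀ (g • x₀) ≤ dist x (g • x) := by
  classical
  obtain ⟨x₁⟩ := ‹Nonempty X›
  obtain ⟨γ₁, hγ₁⟩ := hcocompact x₁
  have hKne : K.Nonempty := ⟨_, hγ₁⟩
  have hminK : ∀ s : G, ∃ y ∈ K, ∀ y' ∈ K, dist (s • y) y ≤ dist (s • y') y' := by
    intro s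
    have hcont : ContinuousOn (fun y : X => dist (s • y) y) K :=
      (Continuous.dist (continuous_const_smul s) continuous_id).continuousOn
    obtain ⟨y, hy, hmin⟩ := hK.exists_isMinOn hKne hcont
    exact ⟨y, hy, fun y' hy' => hmin hy'⟩
  choose ymin hyminK hymin using hminK
  obtain ⟨R, hR⟩ : ∃ R : ℝ, R = dist x₁ (g • x₁) := ⟨_, rfl⟩
  have hTfin : {s : G | IsConj g s ∧ ∃ y ∈ K, dist (s • y) y ≤ R}.Finite :=
    (finite_moving_set hproper K hK R).subset (fun s hs => hs.2)
  have hs₁ : γ₁ * g * γ₁⁻¹ ∈ hTfin.toFinset := by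
    rw [Set.Finite.mem_toFinset]
    refine ⟨isConj_iff.mpr ⟨γ₁, rfl⟩, γ₁ • x₁, hγ₁, ?_⟩
    rw [conj_smul, dist_smul, dist_comm, hR]
  obtain ⟨s, hsT, hsmin⟩ := Finset.exists_min_image hTfin.toFinset
    (fun s => dist (s • ymin s) (ymin s)) ⟨_, hs₁⟩
  rw [Set.Finite.mem_toFinset] at hsT
  obtain ⟨γ, hγ⟩ := isConj_iff.mp hsT.1
  refine ⟨γ⁻¹ • ymin s, fun x => ?_⟩
  have hval : dist (γ⁻¹ • ymin s) (g • γ⁻¹ • ymin s) = dist (s • ymin s) (ymin s) := by
    rw [← hγ, ← dist_smul γ, smul_inv_smul, dist_comm]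
    congr 1
    rw [mul_smul, mul_smul]
  rw [hval]
  by_cases hx : dist x (g • x) ≤ R
  · obtain ⟨γ', hγ'⟩ := hcocompact x
    have hs' : γ' * g * γ'⁻¹ ∈ hTfin.toFinset := by
      rw [Set.Finite.mem_toFinset]
      refine ⟨isConj_iff.mpr ⟨γ', rfl⟩, γ' • x, hγ', ?_⟩
      rw [conj_smul, dist_smul, dist_comm]
      exact hx
    have h1 := hsmin _ hs'
    have h2 := hymin (γ' * g * γ'⁻¹) (γ' • x) hγ'
    rw [conj_smul, dist_smul, dist_comm (g • x) x] at h2
    exact h1.trans h2
  · push Not at hx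
    have h1 := hsmin _ hs₁
    have h2 := hymin (γ₁ * g * γ₁⁻¹) (γ₁ • x₁) hγ₁
    rw [conj_smul, dist_smul, dist_comm (g • x₁) x₁, ← hR] at h2
    have h3 := h1.trans h2
    linarith

end Proper

theorem cn_proper_cocompact_bass {G : Type*} [Group G] {X : Type*} [MetricSpace X] [Nonempty X]
    [MulAction G X] [IsIsometricSMul G X]
    (hCN : ∀ x y : X, ∃ m : X, ∀ z : X,
      dist z m ^ 2 ≤ (dist z x ^ 2 + dist z y ^ 2) / 2 - dist x y ^ 2 / 4)
    (hproper : ∀ (x : X) (R : ℝ), {γ : G | dist (γ • x) x ≤ R}.Finite)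
    (K : Set X) (hK : IsCompact K) (hcocompact : ∀ x : X, ∃ γ : G, γ • x ∈ K)
    (q : ℕ) (e : Fin q → Fin q → G → ℂ)
    (he_sum : ∀ i j, Summable (fun x => ‖e i j x‖))
    (he_idem : ∀ i j x, ∑ l, ∑' y, e i l y * e l j (y⁻¹ * x) = e i j x) :
    ∃ F : Finset (ConjClasses G), (∀ g : G, ConjClasses.mk g ∈ F → IsOfFinOrder g) ∧
      ∀ g : G, ConjClasses.mk g ∉ F →
        HasSum (fun c : {c : G // IsConj g c} => ∑ i, e i i c.1) 0 := by
  classical
  have hSfin : {s : G | ∃ y ∈ K, s • y = y}.Finite := by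
    refine (finite_moving_set hproper K hK 0).subset ?_
    rintro s ⟨y, hy, hsy⟩
    exact ⟨y, hy, by rw [hsy, dist_self]⟩
  refine ⟨hSfin.toFinset.image ConjClasses.mk, ?_, ?_⟩
  · intro g hg
    rw [Finset.mem_image] at hg
    obtain ⟨s, hs, hsg⟩ := hg
    rw [Set.Finite.mem_toFinset] at hs
    obtain ⟨y, hy, hsy⟩ := hs
    have hpow : ∀ n : ℕ, s ^ n ∈ {s : G | ∃ y ∈ K, s • y = y} := by
      intro n
      refine ⟨y, hy, ?_⟩
      induction n with
      | zero => simp
      | succ n ih => rw [pow_succ, mul_smul, hsy, ih]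
    have hsfin : IsOfFinOrder s := by
      rw [← finite_powers, Submonoid.coe_powers]
      refine hSfin.subset ?_
      rintro _ ⟨n, rfl⟩
      exact hpow n
    obtain ⟨n, hn, hsn⟩ := isOfFinOrder_iff_pow_eq_one.mp hsfin
    obtain ⟨c, hc⟩ := isConj_iff.mp (ConjClasses.mk_eq_mk_iff_isConj.mp hsg)
    rw [isOfFinOrder_iff_pow_eq_one]
    refine ⟨n, hn, ?_⟩
    rw [← hc, conj_pow, hsn, mul_one, mul_inv_cancel]
  · intro g hg
    obtain ⟨x₀, hx₀⟩ := exists_min_displacement hproper K hK hcocompact g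
    have hpos : 0 < dist x₀ (g • x₀) := by
      rcases (dist_nonneg (x := x₀) (y := g • x₀)).lt_or_eq with h | h
      · exact h
      · exfalso
        apply hg
        have hfix : g • x₀ = x₀ := (dist_eq_zero.mp h.symm).symm
        obtain ⟨γ, hγ⟩ := hcocompact x₀
        rw [Finset.mem_image]
        refine ⟨γ * g * γ⁻¹, ?_, ?_⟩
        · rw [Set.Finite.mem_toFinset]
          exact ⟨γ • x₀, hγ, by rw [conj_smul, hfix]⟩
        · exact ConjClasses.mk_eq_mk_iff_isConj.mpr (isConj_iff.mpr ⟨γ, rfl⟩).symm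
    exact cn_hyperbolic_class_trace hCN g x₀ hx₀ hpos q e he_sum he_idem

end Vale.Agent.Lib.P184
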