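import Vale.Agent.Lib.P184.RootsOfUnity

/-!
# Absolute values on number fields detecting non-roots of unity

* `exists_absoluteValue_ne_one`: an element of a number field which is not a root of unity has
  absolute value different from `1` for some absolute value of the field (an archimedean one by
  Kronecker's theorem if the element is an algebraic integer, a `𝔭`-adic one otherwise).
* `numberField_class_trace`: the vanishing theorem for representations over number fields at
  elements no positive power of which is unipotent.
-/

namespace Vale.Agent.Lib.P184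

open scoped BigOperators

theorem exists_absoluteValue_ne_one {L : Type*} [Field L] [NumberField L] (lam : L)
    (hlam : ∀ k : ℕ, 0 < k → lam ^ k ≠ 1) : ∃ abv : AbsoluteValue L ℝ, abv lam ≠ 1 := by
  classical
  by_cases hint : IsIntegral ℤ lam
  · by_contra hcon
    push Not at hcon
    have h1 : ∀ φ : L →+* ℂ, ‖φ lam‖ = 1 := fun φ => hcon (NumberField.place φ)
    obtain ⟨k, hk, hk1⟩ := NumberField.Embeddings.pow_eq_one_of_norm_eq_one L ℂ hint h1
    exact hlam k hk hk1
  · have h2 : ¬ ∀ v : IsDedekindDomain.HeightOneSpectrum (NumberField.RingOfIntegers L),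
        v.valuation L lam ≤ 1 := by
      intro h
      obtain ⟨y, hy⟩ :=
        IsDedekindDomain.HeightOneSpectrum.mem_integers_of_valuation_le_one L lam h
      apply hint
      rw [← hy]
      exact NumberField.RingOfIntegers.isIntegral_coe y
    push Not at h2
    obtain ⟨v, hv⟩ := h2
    have hb : (1 : NNReal) < 2 := by norm_num
    refine ⟨(v.adicAbv hb : AbsoluteValue L ℝ), fun h => ?_⟩
    have h3 : (WithZeroMulInt.toNNReal (ne_zero_of_lt hb) (v.valuation L lam) : ℝ) = 1 := h
    have h4 : WithZeroMulInt.toNNReal (ne_zero_of_lt hb) (v.valuation L lam) = 1 := by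
      exact_mod_cast h3
    rw [WithZeroMulInt.toNNReal_eq_one_iff _ (ne_zero_of_lt hb) hb.ne'] at h4
    rw [h4] at hv
    exact lt_irrefl _ hv

theorem numberField_class_trace {G : Type*} [Group G] {K : Type*} [Field K] [NumberField K]
    {n : ℕ} (ρ : G →* Matrix (Fin n) (Fin n) K) (g : G)
    (hg : ∀ k : ℕ, 0 < k → (ρ g ^ k - 1) ^ n ≠ 0)
    (q : ℕ) (e : Fin q → Fin q → G → ℂ)
    (he_sum : ∀ i j, Summable (fun x => ‖e i j x‖))
    (he_idem : ∀ i j x, ∑ l, ∑' y, e i l y * e l j (y⁻¹ * x) = e i j x) :
    HasSum (fun c : {c : G // IsConj g c} => ∑ i, e i i c.1) 0 := by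
  classical
  have : NumberField (ρ g).charpoly.SplittingField :=
    { to_charZero := charZero_of_injective_algebraMap
        (algebraMap K (ρ g).charpoly.SplittingField).injective
      to_finiteDimensional := Module.Finite.trans K _ }
  obtain ⟨lam, v, hv, hev, hlam⟩ := exists_eigen_not_root_of_unity (ρ g)
    (Polynomial.SplittingField.splits (ρ g).charpoly) hg
  obtain ⟨abv, habv⟩ := exists_absoluteValue_ne_one lam hlam
  exact linear_class_trace abv
    ((RingHom.mapMatrix (algebraMap K (ρ g).charpoly.SplittingField)).toMonoidHom.comp ρ)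
    g lam v hv hev habv q e he_sum he_idem

end Vale.Agent.Lib.P184
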