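import Vale.Agent.Lib.P184.PadicRoot
import Vale.Agent.Lib.P184.NumberFieldAbs

/-!
# Absolute values on `ℂ` detecting non-roots of unity

`exists_absoluteValue_complex`: a complex number which is not a root of unity has absolute value
different from `1` for some (possibly exotic) absolute value on the field `ℂ`.
-/

namespace Vale.Agent.Lib.P184

open scoped IntermediateField

theorem exists_absoluteValue_complex (lam : ℂ) (hlam : ∀ k : ℕ, 0 < k → lam ^ k ≠ 1) :
    ∃ abv : AbsoluteValue ℂ ℝ, abv lam ≠ 1 := by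
  classical
  by_cases htr : Transcendental ℚ lam
  · exact exists_absoluteValue_of_transcendental' (k₀ := ℚ) lam htr
  have halg : IsAlgebraic ℚ lam := by rwa [Transcendental, not_not] at htr
  have hintQ : IsIntegral ℚ lam := halg.isIntegral
  have hfd : FiniteDimensional ℚ ℚ⟮lam⟯ := IntermediateField.adjoin.finiteDimensional hintQ
  have hnf : NumberField ℚ⟮lam⟯ :=
    { to_charZero := inferInstance
      to_finiteDimensional := hfd }
  have hgen : ((IntermediateField.AdjoinSimple.gen ℚ lam : ℚ⟮lam⟯) : ℂ) = lam :=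
    IntermediateField.AdjoinSimple.coe_gen ℚ lam
  by_cases hint : IsIntegral ℤ lam
  · have hgen_int : IsIntegral ℤ (IntermediateField.AdjoinSimple.gen ℚ lam : ℚ⟮lam⟯) := by
      have h1 : IsIntegral ℤ (algebraMap ℚ⟮lam⟯ ℂ (IntermediateField.AdjoinSimple.gen ℚ lam)) := by
        rw [IntermediateField.algebraMap_apply, hgen]
        exact hint
      exact (isIntegral_algebraMap_iff (algebraMap ℚ⟮lam⟯ ℂ).injective).mp h1
    have hgen_pow : ∀ k : ℕ, 0 < k →
        (IntermediateField.AdjoinSimple.gen ℚ lam : ℚ⟮lam⟯) ^ k ≠ 1 := by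
      intro k hk h
      apply hlam k hk
      have h2 := congrArg (fun z : ℚ⟮lam⟯ => (z : ℂ)) h
      simpa [hgen] using h2
    have hex : ∃ φ : ℚ⟮lam⟯ →+* ℂ, ‖φ (IntermediateField.AdjoinSimple.gen ℚ lam)‖ ≠ 1 := by
      by_contra hcon
      push Not at hcon
      obtain ⟨k, hk, hk1⟩ :=
        NumberField.Embeddings.pow_eq_one_of_norm_eq_one ℚ⟮lam⟯ ℂ hgen_int hcon
      exact hgen_pow k hk hk1
    obtain ⟨φ, hφ⟩ := hex
    obtain ⟨τ, hτ⟩ := exists_ringHom_extension (RingHom.id ℂ) ℚ⟮lam⟯ φ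
    refine ⟨(NormedField.toAbsoluteValue ℂ).comp τ.injective, ?_⟩
    have h3 := hτ (IntermediateField.AdjoinSimple.gen ℚ lam)
    rw [hgen] at h3
    change ‖τ lam‖ ≠ 1
    rw [h3]
    exact hφ
  · have hcoef : ∃ i, ((minpoly ℚ lam).coeff i).den ≠ 1 := by
      by_contra hcon
      push Not at hcon
      apply hint
      have hl : minpoly ℚ lam ∈ Polynomial.lifts (Int.castRingHom ℚ) := by
        rw [Polynomial.lifts_iff_coeff_lifts]
        intro i
        exact ⟨((minpoly ℚ lam).coeff i).num, Rat.coe_int_num_of_den_eq_one (hcon i)⟩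
      obtain ⟨P, hP, -, hmonic⟩ :=
        Polynomial.lifts_and_degree_eq_and_monic hl (minpoly.monic hintQ)
      refine ⟨P, hmonic, ?_⟩
      have h4 := minpoly.aeval ℚ lam
      rw [← hP, Polynomial.aeval_def, Polynomial.eval₂_map] at h4
      have h5 : (algebraMap ℚ ℂ).comp (Int.castRingHom ℚ) = algebraMap ℤ ℂ :=
        RingHom.ext_int _ _
      rw [h5] at h4
      exact h4
    obtain ⟨i, hi⟩ := hcoef
    obtain ⟨p, hp, μ, hμ, hμ1⟩ :=
      exists_padic_root_norm_gt_one (minpoly ℚ lam) (minpoly.monic hintQ) i hi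
    have hroot : μ ∈ (minpoly ℚ lam).aroots (PadicAlgCl p) := by
      rw [Polynomial.mem_aroots]
      exact ⟨minpoly.ne_zero hintQ, hμ⟩
    have hσ := IntermediateField.algHomAdjoinIntegralEquiv_symm_apply_gen ℚ hintQ
      (⟨μ, hroot⟩ : { x // x ∈ (minpoly ℚ lam).aroots (PadicAlgCl p) })
    obtain ⟨j⟩ := nonempty_complex_ringEquiv_padicAlgCl p
    obtain ⟨τ, hτ⟩ := exists_ringHom_extension (j : ℂ →+* PadicAlgCl p) ℚ⟮lam⟯
      (((IntermediateField.algHomAdjoinIntegralEquiv ℚ hintQ).symm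
        (⟨μ, hroot⟩ : { x // x ∈ (minpoly ℚ lam).aroots (PadicAlgCl p) }) :
          ℚ⟮lam⟯ →ₐ[ℚ] PadicAlgCl p) : ℚ⟮lam⟯ →+* PadicAlgCl p)
    refine ⟨(NormedField.toAbsoluteValue (PadicAlgCl p)).comp τ.injective, ?_⟩
    have h3 := hτ (IntermediateField.AdjoinSimple.gen ℚ lam)
    rw [hgen] at h3
    change ‖τ lam‖ ≠ 1
    rw [h3]
    have h6 : ((((IntermediateField.algHomAdjoinIntegralEquiv ℚ hintQ).symm
        (⟨μ, hroot⟩ : { x // x ∈ (minpoly ℚ lam).aroots (PadicAlgCl p) }) :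
          ℚ⟮lam⟯ →ₐ[ℚ] PadicAlgCl p) : ℚ⟮lam⟯ →+* PadicAlgCl p)
            (IntermediateField.AdjoinSimple.gen ℚ lam)) = μ := hσ
    rw [h6]
    exact hμ1.ne'

end Vale.Agent.Lib.P184
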