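import Vale.Agent.Lib.P184.ComplexAbs

/-!
# The vanishing theorem for complex linear representations

`complex_class_trace`: for a representation `ρ : G → M_n(ℂ)` of an arbitrary group and an element
`g` such that no positive power of `ρ g` is unipotent, the Hattori-Stallings coefficient at the
class of `g` of every idempotent matrix over the Banach group algebra vanishes.
-/

namespace Vale.Agent.Lib.P184

open scoped BigOperators

theorem complex_class_trace {G : Type*} [Group G] {n : ℕ}
    (ρ : G →* Matrix (Fin n) (Fin n) ℂ) (g : G)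
    (hg : ∀ k : ℕ, 0 < k → (ρ g ^ k - 1) ^ n ≠ 0)
    (q : ℕ) (e : Fin q → Fin q → G → ℂ)
    (he_sum : ∀ i j, Summable (fun x => ‖e i j x‖))
    (he_idem : ∀ i j x, ∑ l, ∑' y, e i l y * e l j (y⁻¹ * x) = e i j x) :
    HasSum (fun c : {c : G // IsConj g c} => ∑ i, e i i c.1) 0 := by
  classical
  obtain ⟨lam, v, hv, hev, hlam⟩ := exists_eigen_not_root_of_unity (L := ℂ) (ρ g)
    (IsAlgClosed.splits _) hg
  obtain ⟨abv, habv⟩ := exists_absoluteValue_complex lam hlam
  have hmap : (ρ g).map (algebraMap ℂ ℂ) = ρ g := by
    ext i j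
    rfl
  rw [hmap] at hev
  exact linear_class_trace abv ρ g lam v hv hev habv q e he_sum he_idem

end Vale.Agent.Lib.P184
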