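import Vale.Agent.Lib.P184.Kernel

/-!
# The ring of dominated invariant kernels and its trace
-/

namespace Vale.Agent.Lib.P184

open scoped BigOperators Topology

variable {G : Type*} [Group G] {R : Type*} [NormedRing R] {g : G}

/-- Kernels `K : G → G → R` invariant under simultaneous right translation by elements commuting
with `g`, dominated by a summable weight of `k * h⁻¹`. -/
structure DKer (G : Type*) [Group G] (R : Type*) [NormedRing R] (g : G) where
  K : G → G → R
  inv' : ∀ z : G, z * g = g * z → ∀ k h, K (k * z) (h * z) = K k h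
  dom' : ∃ w : G → ℝ, Dom w K

namespace DKer

theorem ext' {A B : DKer G R g} (h : ∀ k h, A.K k h = B.K k h) : A = B := by
  cases A; cases B
  simp only [mk.injEq]
  funext k h'
  exact h k h'

instance : Zero (DKer G R g) :=
  ⟨⟨fun _ _ => 0, fun _ _ _ _ => rfl, ⟨fun _ => 0, fun _ => le_rfl, summable_zero,
    fun _ _ => by simp⟩⟩⟩

instance : Add (DKer G R g) :=
  ⟨fun A B => ⟨fun k h => A.K k h + B.K k h,
    fun z hz k h => by rw [A.inv' z hz, B.inv' z hz],
    by
      obtain ⟨u, hu⟩ := A.dom'
      obtain ⟨v, hv⟩ := B.dom'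
      exact ⟨_, hu.add hv⟩⟩⟩

instance : Neg (DKer G R g) :=
  ⟨fun A => ⟨fun k h => -A.K k h,
    fun z hz k h => by rw [A.inv' z hz],
    by
      obtain ⟨u, hu⟩ := A.dom'
      exact ⟨_, hu.neg⟩⟩⟩

open Classical in
noncomputable instance : One (DKer G R g) :=
  ⟨⟨fun k h => if k = h then 1 else 0,
    fun z _ k h => by simp,
    ⟨fun x => if x = 1 then ‖(1 : R)‖ else 0,
      fun x => by
        dsimp only
        split_ifs <;> simp,
      summable_of_ne_finset_zero (s := {1}) (fun b hb => by simp at hb; simp [hb]),
      fun k h => by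
        by_cases hkh : k = h
        · subst hkh; simp
        · have : k * h⁻¹ ≠ 1 := fun hh => hkh (mul_inv_eq_one.mp hh)
          simp [hkh, this]⟩⟩⟩

@[simp] theorem zero_K (k h : G) : (0 : DKer G R g).K k h = 0 := rfl
@[simp] theorem add_K (A B : DKer G R g) (k h : G) : (A + B).K k h = A.K k h + B.K k h := rfl
@[simp] theorem neg_K (A : DKer G R g) (k h : G) : (-A).K k h = -A.K k h := rfl
open Classical in
theorem one_K (k h : G) : (1 : DKer G R g).K k h = if k = h then 1 else 0 := rfl

variable [CompleteSpace R]

noncomputable instance : Mul (DKer G R g) :=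
  ⟨fun A B => ⟨fun k h => ∑' m, A.K k m * B.K m h,
    fun z hz k h => by
      have h1 := Equiv.tsum_eq (Equiv.mulRight z) (fun m => A.K (k * z) m * B.K m (h * z))
      rw [← h1]
      refine tsum_congr (fun m => ?_)
      simp [A.inv' z hz, B.inv' z hz],
    by
      obtain ⟨u, hu⟩ := A.dom'
      obtain ⟨v, hv⟩ := B.dom'
      exact ⟨_, hu.mul hv⟩⟩⟩

theorem mul_K (A B : DKer G R g) (k h : G) : (A * B).K k h = ∑' m, A.K k m * B.K m h := rfl

theorem summable_mul (A B : DKer G R g) (k h : G) : Summable (fun m => A.K k m * B.K m h) := by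
  obtain ⟨u, hu⟩ := A.dom'
  obtain ⟨v, hv⟩ := B.dom'
  exact hu.summable_mul hv k h

noncomputable instance : Ring (DKer G R g) where
  add := (· + ·)
  add_assoc A B C := ext' (fun k h => by simp [add_assoc])
  zero := 0
  zero_add A := ext' (fun k h => by simp)
  add_zero A := ext' (fun k h => by simp)
  nsmul := nsmulRec
  neg := Neg.neg
  zsmul := zsmulRec
  neg_add_cancel A := ext' (fun k h => by simp)
  add_comm A B := ext' (fun k h => by simp [add_comm])
  mul := (· * ·)
  left_distrib A B C := ext' (fun k h => by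
    simp only [mul_K, add_K, mul_add]
    exact (summable_mul A B k h).tsum_add (summable_mul A C k h))
  right_distrib A B C := ext' (fun k h => by
    simp only [mul_K, add_K, add_mul]
    exact (summable_mul A C k h).tsum_add (summable_mul B C k h))
  zero_mul A := ext' (fun k h => by simp [mul_K])
  mul_zero A := ext' (fun k h => by simp [mul_K])
  mul_assoc A B C := ext' (fun k h => by
    obtain ⟨u, hu⟩ := A.dom'
    obtain ⟨v, hv⟩ := B.dom'
    obtain ⟨w, hw⟩ := C.dom'
    simp only [mul_K]
    have h1 : ∀ m, (∑' n, A.K k n * B.K n m) * C.K m h = ∑' n, A.K k n * B.K n m * C.K m h :=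
      fun m => ((summable_mul A B k m).tsum_mul_right _).symm
    have h2 : ∀ n, A.K k n * ∑' m, B.K n m * C.K m h = ∑' m, A.K k n * B.K n m * C.K m h :=
      fun n => by
        rw [← (summable_mul B C n h).tsum_mul_left]
        exact tsum_congr (fun m => (mul_assoc _ _ _).symm)
    rw [tsum_congr h1, tsum_congr h2]
    exact (hu.summable_triple hv hw k h).tsum_comm)
  one := 1
  one_mul A := ext' (fun k h => by
    classical
    simp only [mul_K, one_K]
    rw [tsum_eq_single k (fun m hm => by simp [hm.symm])]
    simp)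
  mul_one A := ext' (fun k h => by
    classical
    simp only [mul_K, one_K]
    rw [tsum_eq_single h (fun m hm => by simp [hm])]
    simp)

@[simp] theorem sub_K (A B : DKer G R g) (k h : G) : (A - B).K k h = A.K k h - B.K k h := by
  rw [sub_eq_add_neg, add_K, neg_K, sub_eq_add_neg]

end DKer

end Vale.Agent.Lib.P184
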