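import Vale.Agent.Lib.P184.TranscAbs

/-!
# Extending embeddings of subfields algebraic over `ℚ`

`exists_ringHom_extension`: let `Ω` be a field of characteristic zero, `L₀` a subfield algebraic
over `ℚ`, and `Ω₂` an algebraically closed field into which `Ω` embeds.  Then every embedding
`σ : L₀ → Ω₂` extends to an embedding `Ω → Ω₂`.  (Fix a transcendence basis `B` of `Ω` over `ℚ`;
it stays algebraically independent over `L₀`, and its image in `Ω₂` is algebraically independent
over `σ L₀`.)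
-/

namespace Vale.Agent.Lib.P184

theorem isAlgebraic_of_subfield_le {k₁ k₂ Ω : Type*} [Field k₁] [Field k₂] [Field Ω]
    [Algebra k₁ Ω] [Algebra k₂ Ω] (K₁ : IntermediateField k₁ Ω) (K₂ : IntermediateField k₂ Ω)
    (hle : ∀ y : Ω, y ∈ K₁ → y ∈ K₂) (h : Algebra.IsAlgebraic K₁ Ω) :
    Algebra.IsAlgebraic K₂ Ω := by
  let f : K₁ →+* K₂ :=
    { toFun := fun y => ⟨y.1, hle y.1 y.2⟩
      map_one' := rfl
      map_mul' := fun _ _ => rfl
      map_zero' := rfl
      map_add' := fun _ _ => rfl }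
  let _ : Algebra K₁ K₂ := f.toAlgebra
  have : IsScalarTower K₁ K₂ Ω := IsScalarTower.of_algebraMap_eq (congrFun rfl)
  exact Algebra.IsAlgebraic.extendScalars (R := K₁) f.injective

theorem exists_ringHom_extension {Ω Ω₂ : Type*} [Field Ω] [CharZero Ω] [Field Ω₂]
    [IsAlgClosed Ω₂] (j : Ω →+* Ω₂) (L₀ : IntermediateField ℚ Ω) [Algebra.IsAlgebraic ℚ L₀]
    (σ : L₀ →+* Ω₂) : ∃ τ : Ω →+* Ω₂, ∀ x : L₀, τ (x : Ω) = σ x := by
  classical
  have : CharZero Ω₂ := charZero_of_injective_ringHom j.injective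
  obtain ⟨B, hB⟩ := exists_isTranscendenceBasis ℚ Ω
  let _ : Algebra L₀ Ω₂ := σ.toAlgebra
  have : IsScalarTower ℚ L₀ Ω₂ := IsScalarTower.of_algebraMap_eq (fun r =>
    RingHom.congr_fun (Subsingleton.elim (algebraMap ℚ Ω₂) (σ.comp (algebraMap ℚ L₀))) r)
  have hxL : AlgebraicIndependent L₀ ((↑) : B → Ω) := hB.1.extendScalars L₀
  have hyQ : AlgebraicIndependent ℚ (fun b : B => j (b : Ω)) :=
    hB.1.map' (f := j.toRatAlgHom) j.injective
  have hyL : AlgebraicIndependent L₀ (fun b : B => j (b : Ω)) := hyQ.extendScalars L₀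
  let τ₀ : IntermediateField.adjoin L₀ (Set.range ((↑) : B → Ω)) →ₐ[L₀] Ω₂ :=
    ((IntermediateField.val _).comp hyL.aevalEquivField.toAlgHom).comp
      hxL.aevalEquivField.symm.toAlgHom
  have halg : Algebra.IsAlgebraic (IntermediateField.adjoin L₀ (Set.range ((↑) : B → Ω))) Ω := by
    have h5 : Algebra.IsAlgebraic (IntermediateField.adjoin ℚ (Set.range ((↑) : B → Ω))) Ω :=
      hB.isAlgebraic_field
    refine isAlgebraic_of_subfield_le _ _ ?_ h5
    have h6 : IntermediateField.adjoin ℚ (Set.range ((↑) : B → Ω))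
        ≤ (IntermediateField.adjoin L₀ (Set.range ((↑) : B → Ω))).restrictScalars ℚ := by
      rw [IntermediateField.adjoin_le_iff]
      exact IntermediateField.subset_adjoin L₀ _
    exact fun y hy => h6 hy
  let _ : Algebra (IntermediateField.adjoin L₀ (Set.range ((↑) : B → Ω))) Ω₂ :=
    τ₀.toRingHom.toAlgebra
  have htf : Module.IsTorsionFree (IntermediateField.adjoin L₀ (Set.range ((↑) : B → Ω))) Ω₂ :=
    DivisionSemiring.to_moduleIsTorsionFree
  let φ : Ω →ₐ[IntermediateField.adjoin L₀ (Set.range ((↑) : B → Ω))] Ω₂ := IsAlgClosed.lift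
  refine ⟨φ.toRingHom, fun c => ?_⟩
  have h1 : φ (algebraMap (IntermediateField.adjoin L₀ (Set.range ((↑) : B → Ω))) Ω
      (algebraMap L₀ (IntermediateField.adjoin L₀ (Set.range ((↑) : B → Ω))) c))
      = τ₀ (algebraMap L₀ (IntermediateField.adjoin L₀ (Set.range ((↑) : B → Ω))) c) :=
    φ.commutes _
  rw [τ₀.commutes] at h1
  exact h1

end Vale.Agent.Lib.P184
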