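import Vale.Agent.Lib.P184.FineGraph

namespace Vale.Agent.Lib.P184

open SimpleGraph

/-- Far case of the angle bound: both geodesics are long compared with the distance of their
starting points, so they fellow-travel near `y`. -/
theorem fineAngle_far {V : Type*} (K : SimpleGraph V) (hconn : K.Connected) (δ : ℝ)
    (hδ : ∀ x y z w : V, (K.dist x z : ℝ) + K.dist y w
      ≤ max ((K.dist x y : ℝ) + K.dist z w) ((K.dist x w : ℝ) + K.dist y z) + 2 * δ)
    (a b y α β : V) (s : ℕ) (hs1 : 4 * δ < s) (hs2 : (s : ℝ) ≤ 4 * δ + 1) (hs0 : 1 ≤ s)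
    (hcase : 2 * s + K.dist a b ≤ K.dist a y + K.dist b y)
    (hα : K.Adj y α) (hα' : K.dist a α + 1 = K.dist a y)
    (hβ : K.Adj y β) (hβ' : K.dist b β + 1 = K.dist b y) :
    ∃ p : K.Walk α β, y ∉ p.support ∧ (p.length : ℝ) ≤ 12 * δ := by
  have t1 : K.dist a y ≤ K.dist a b + K.dist b y := hconn.dist_triangle
  have t2 : K.dist b y ≤ K.dist b a + K.dist a y := hconn.dist_triangle
  have cab : K.dist b a = K.dist a b := SimpleGraph.dist_comm
  have hsa : s ≤ K.dist a y := by omega
  have hsb : s ≤ K.dist b y := by omega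
  have cαa : K.dist α a = K.dist a α := SimpleGraph.dist_comm
  have cβb : K.dist β b = K.dist b β := SimpleGraph.dist_comm
  obtain ⟨xa, pa, hpa, hxa, hsuppa⟩ := exists_prefix_walk K hconn (s - 1) α a (by omega)
  obtain ⟨xb, pb, hpb, hxb, hsuppb⟩ := exists_prefix_walk K hconn (s - 1) β b (by omega)
  -- distances from y to the two cut points
  have hya1 : K.dist y xa ≤ s := by
    have h := K.dist_le (Walk.cons hα pa)
    rw [Walk.length_cons, hpa] at h
    omega
  have hyb1 : K.dist y xb ≤ s := by
    have h := K.dist_le (Walk.cons hβ pb)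
    rw [Walk.length_cons, hpb] at h
    omega
  have cxa : K.dist a xa = K.dist xa a := SimpleGraph.dist_comm
  have cxb : K.dist b xb = K.dist xb b := SimpleGraph.dist_comm
  have cyxa : K.dist xa y = K.dist y xa := SimpleGraph.dist_comm
  have cyxb : K.dist xb y = K.dist y xb := SimpleGraph.dist_comm
  have hya2 : K.dist a y ≤ K.dist a xa + K.dist xa y := hconn.dist_triangle
  have hyb2 : K.dist b y ≤ K.dist b xb + K.dist xb y := hconn.dist_triangle
  have hya : K.dist y xa = s := by omega
  have hyb : K.dist y xb = s := by omega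
  have hxa' : K.dist xa a + s = K.dist a y := by omega
  have hxb' : K.dist xb b + s = K.dist b y := by omega
  -- four point estimates
  have e1 := hδ xa a b y
  have e2 := hδ xa b xb y
  have hxaR : (K.dist xa a : ℝ) + s = K.dist a y := by exact_mod_cast hxa'
  have hxbR : (K.dist xb b : ℝ) + s = K.dist b y := by exact_mod_cast hxb'
  have hcaseR : (2 : ℝ) * s + K.dist a b ≤ K.dist a y + K.dist b y := by exact_mod_cast hcase
  have hyaR : (K.dist xa y : ℝ) = s := by
    rw [cyxa]
    exact_mod_cast hya
  have hybR : (K.dist xb y : ℝ) = s := by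
    rw [cyxb]
    exact_mod_cast hyb
  have hbxbR : (K.dist b xb : ℝ) = K.dist xb b := by rw [cxb]
  have f1 : (K.dist xa b : ℝ) ≤ K.dist b y - s + 2 * δ := by
    have hmax : max ((K.dist xa a : ℝ) + K.dist b y) ((K.dist xa y : ℝ) + K.dist a b)
        ≤ (K.dist xa a : ℝ) + K.dist b y := by
      apply max_le le_rfl
      rw [hyaR]
      linarith
    linarith
  have f2 : (K.dist xa xb : ℝ) ≤ 4 * δ := by
    have hmax : max ((K.dist xa b : ℝ) + K.dist xb y) ((K.dist xa y : ℝ) + K.dist b xb)
        ≤ (K.dist b y : ℝ) + 2 * δ := by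
      apply max_le
      · rw [hybR]
        linarith
      · rw [hyaR, hbxbR]
        have hδ0 : 0 ≤ δ := by
          have h0 := hδ y y y y
          simp only [SimpleGraph.dist_self, Nat.cast_zero, add_zero, max_self] at h0
          linarith
        linarith
    linarith
  have f3 : K.dist xa xb < s := by
    have : (K.dist xa xb : ℝ) < s := lt_of_le_of_lt f2 hs1
    exact_mod_cast this
  obtain ⟨m, hm, hsuppm⟩ := exists_geodesic_support K hconn (K.dist xa xb) xa xb rfl
  refine ⟨pa.append (m.append pb.reverse), ?_, ?_⟩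
  · intro hy
    rw [Walk.mem_support_append_iff, Walk.mem_support_append_iff, Walk.support_reverse,
      List.mem_reverse] at hy
    have cya : K.dist y a = K.dist a y := SimpleGraph.dist_comm
    have cyb : K.dist y b = K.dist b y := SimpleGraph.dist_comm
    rcases hy with hy | hy | hy
    · have h := hsuppa y hy
      omega
    · have h := hsuppm y hy
      omega
    · have h := hsuppb y hy
      omega
  · rw [Walk.length_append, Walk.length_append, Walk.length_reverse, hpa, hpb, hm]
    have hs0R : (1 : ℝ) ≤ s := by exact_mod_cast hs0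
    push_cast [Nat.cast_sub hs0]
    linarith

/-- In a hyperbolic graph, two geodesics arriving at the same vertex `y` from nearby starting
points `a`, `b` arrive through neighbours of `y` that are joined by a short walk avoiding `y`,
unless `y` lies between `a` and `b`. -/
theorem fine_angle_bound {V : Type*} (K : SimpleGraph V) (hconn : K.Connected) (δ : ℝ)
    (hδ : ∀ x y z w : V, (K.dist x z : ℝ) + K.dist y w
      ≤ max ((K.dist x y : ℝ) + K.dist z w) ((K.dist x w : ℝ) + K.dist y z) + 2 * δ)
    (a b y α β : V) (hay : a ≠ y) (hby : b ≠ y)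
    (hnb : K.dist a b < K.dist a y + K.dist y b)
    (hα : K.Adj y α) (hα' : K.dist a α + 1 = K.dist a y)
    (hβ : K.Adj y β) (hβ' : K.dist b β + 1 = K.dist b y) :
    ∃ p : K.Walk α β, y ∉ p.support ∧ (p.length : ℝ) ≤ 2 * K.dist a b + 12 * δ + 2 := by
  have hδ0 : 0 ≤ δ := by
    have h0 := hδ y y y y
    simp only [SimpleGraph.dist_self, Nat.cast_zero, add_zero, max_self] at h0
    linarith
  have hρ0 : (0 : ℝ) ≤ K.dist a b := Nat.cast_nonneg _
  obtain ⟨s, hsdef⟩ : ∃ s : ℕ, s = ⌊4 * δ⌋₊ + 1 := ⟨_, rfl⟩
  have hs1 : 4 * δ < s := by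
    rw [hsdef]
    push_cast
    exact Nat.lt_floor_add_one (4 * δ)
  have hs2 : (s : ℝ) ≤ 4 * δ + 1 := by
    rw [hsdef]
    push_cast
    have := Nat.floor_le (show (0 : ℝ) ≤ 4 * δ by linarith)
    linarith
  have hs0 : 1 ≤ s := by omega
  by_cases hcase : 2 * s + K.dist a b ≤ K.dist a y + K.dist b y
  · obtain ⟨p, hp1, hp2⟩ := fineAngle_far K hconn δ hδ a b y α β s hs1 hs2 hs0 hcase hα hα' hβ hβ'
    exact ⟨p, hp1, by linarith⟩
  · have hcase' : K.dist a y + K.dist b y < 2 * s + K.dist a b := by omega
    have cαa : K.dist α a = K.dist a α := SimpleGraph.dist_comm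
    have cβb : K.dist β b = K.dist b β := SimpleGraph.dist_comm
    have cya : K.dist y a = K.dist a y := SimpleGraph.dist_comm
    have cyb : K.dist y b = K.dist b y := SimpleGraph.dist_comm
    obtain ⟨qa, hqa, hsuppa⟩ := exists_geodesic_support K hconn (K.dist α a) α a rfl
    obtain ⟨qb, hqb, hsuppb⟩ := exists_geodesic_support K hconn (K.dist β b) β b rfl
    obtain ⟨m, hm, hsuppm⟩ := exists_geodesic_support K hconn (K.dist a b) a b rfl
    refine ⟨qa.append (m.append qb.reverse), ?_, ?_⟩
    · intro hy
      rw [Walk.mem_support_append_iff, Walk.mem_support_append_iff, Walk.support_reverse,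
        List.mem_reverse] at hy
      rcases hy with hy | hy | hy
      · have h := hsuppa y hy
        omega
      · have h := hsuppm y hy
        omega
      · have h := hsuppb y hy
        omega
    · rw [Walk.length_append, Walk.length_append, Walk.length_reverse, hqa, hqb, hm]
      have h1 : K.dist α a + (K.dist a b + K.dist β b) + 2 < 2 * s + 2 * K.dist a b := by omega
      have h1R : ((K.dist α a + (K.dist a b + K.dist β b) : ℕ) : ℝ) + 2
          < 2 * s + 2 * K.dist a b := by exact_mod_cast h1
      linarith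

end Vale.Agent.Lib.P184
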