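import Vale.Agent.Lib.P184.FineGraph

namespace Vale.Agent.Lib.P184

open SimpleGraph

theorem fine_angle_finite {V : Type*} (K : SimpleGraph V)
    (hpaths : ∀ (u w : V) (n : ℕ), {p : K.Walk u w | p.IsPath ∧ p.length ≤ n}.Finite)
    (v r : V) (n : ℕ) :
    {u : V | K.Adj v u ∧ ∃ p : K.Walk u r, v ∉ p.support ∧ p.length ≤ n}.Finite := by
  classical
  refine Set.Finite.subset
    (Set.Finite.image (fun c : K.Walk v r => c.getVert 1) (hpaths v r (n + 1))) ?_
  rintro u ⟨h, p, hv, hlen⟩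
  refine ⟨Walk.cons h p.bypass, ⟨?_, ?_⟩, ?_⟩
  · rw [Walk.cons_isPath_iff]
    exact ⟨p.bypass_isPath, fun hmem => hv (p.support_bypass_subset_support hmem)⟩
  · rw [Walk.length_cons]
    have := p.length_bypass_le_length
    omega
  · simp
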