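import Vale.Agent.Lib.P184.FineAngleFinite

/-!
# Fine graphs: a uniform bound on the number of centres of a set

In a connected graph with uniformly finitely many paths of bounded length between any two
vertices, a set of minimal radius `r` with `1 ≤ r ≤ R` has a uniformly bounded number of
centres at pairwise distance at most `D`.
-/

namespace Vale.Agent.Lib.P184

open SimpleGraph

/-- A set which is not finite with at most `A` elements contains a finite subset with exactly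
`A + 1` elements. -/
theorem fineTorsionBound_exists_subset {α : Type*} (s : Set α) (A : ℕ)
    (h : ¬ (s.Finite ∧ s.ncard ≤ A)) : ∃ t : Set α, t ⊆ s ∧ t.Finite ∧ t.ncard = A + 1 := by
  by_cases hfin : s.Finite
  · have hlt : A + 1 ≤ s.ncard := by
      by_contra hc
      exact h ⟨hfin, by omega⟩
    obtain ⟨t, hts, htc⟩ := Set.exists_subset_card_eq hlt
    exact ⟨t, hts, hfin.subset hts, htc⟩
  · exact Set.Infinite.exists_subset_ncard_eq hfin (A + 1)

/-- Counting a union, indexed by a finite set of indices, of sets with at most `b` elements. -/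
theorem fineTorsionBound_biUnion_finset {ι α : Type*} (T : Finset ι) (f : ι → Set α) (b : ℕ)
    (hf : ∀ i ∈ T, (f i).Finite ∧ (f i).ncard ≤ b) :
    (⋃ i ∈ T, f i).Finite ∧ (⋃ i ∈ T, f i).ncard ≤ T.card * b := by
  classical
  induction T using Finset.induction_on with
  | empty => simp
  | insert i T hi ih =>
    have ih' := ih (fun j hj => hf j (Finset.mem_insert_of_mem hj))
    have hfi := hf i (Finset.mem_insert_self i T)
    rw [Finset.set_biUnion_insert, Finset.card_insert_of_notMem hi]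
    refine ⟨hfi.1.union ih'.1, ?_⟩
    calc (f i ∪ ⋃ x ∈ T, f x).ncard ≤ (f i).ncard + (⋃ x ∈ T, f x).ncard :=
          Set.ncard_union_le _ _
      _ ≤ b + T.card * b := Nat.add_le_add hfi.2 ih'.2
      _ = (T.card + 1) * b := by ring

/-- Counting a union, indexed by a set with at most `a` elements, of sets with at most `b`
elements. -/
theorem fineTorsionBound_biUnion {ι α : Type*} (s : Set ι) (f : ι → Set α) (a b : ℕ)
    (hs : s.Finite) (hsa : s.ncard ≤ a) (hf : ∀ i ∈ s, (f i).Finite ∧ (f i).ncard ≤ b) :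
    (⋃ i ∈ s, f i).Finite ∧ (⋃ i ∈ s, f i).ncard ≤ a * b := by
  have h := fineTorsionBound_biUnion_finset hs.toFinset f b
    (fun i hi => hf i ((Set.Finite.mem_toFinset hs).mp hi))
  have heq : (⋃ i ∈ hs.toFinset, f i) = ⋃ i ∈ s, f i := by
    ext x
    simp [Set.Finite.mem_toFinset]
  rw [heq] at h
  refine ⟨h.1, le_trans h.2 ?_⟩
  rw [← Set.ncard_eq_toFinset_card s hs]
  exact Nat.mul_le_mul_right b hsa

/-- The angle count: the neighbours of `w` joined to `o` by a short walk avoiding `w` are at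
most as many as the short paths from `w` to `o`. -/
theorem fineTorsionBound_angle {V : Type*} (K : SimpleGraph V)
    (hpaths : ∀ (u w : V) (n : ℕ), {p : K.Walk u w | p.IsPath ∧ p.length ≤ n}.Finite)
    (w o : V) (n A : ℕ) (hA : {p : K.Walk w o | p.IsPath ∧ p.length ≤ n + 1}.ncard ≤ A) :
    {u : V | K.Adj w u ∧ ∃ p : K.Walk u o, w ∉ p.support ∧ p.length ≤ n}.ncard ≤ A := by
  classical
  have hsub : {u : V | K.Adj w u ∧ ∃ p : K.Walk u o, w ∉ p.support ∧ p.length ≤ n}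
      ⊆ (fun c : K.Walk w o => c.getVert 1) ''
        {p : K.Walk w o | p.IsPath ∧ p.length ≤ n + 1} := by
    rintro u ⟨h, p, hv, hlen⟩
    refine ⟨Walk.cons h p.bypass, ⟨?_, ?_⟩, ?_⟩
    · rw [Walk.cons_isPath_iff]
      exact ⟨p.bypass_isPath, fun hmem => hv (p.support_bypass_subset_support hmem)⟩
    · rw [Walk.length_cons]
      have h1 := p.length_bypass_le_length
      omega
    · simp
  calc {u : V | K.Adj w u ∧ ∃ p : K.Walk u o, w ∉ p.support ∧ p.length ≤ n}.ncard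
      ≤ ((fun c : K.Walk w o => c.getVert 1) ''
          {p : K.Walk w o | p.IsPath ∧ p.length ≤ n + 1}).ncard :=
        Set.ncard_le_ncard hsub ((hpaths w o (n + 1)).image _)
    _ ≤ {p : K.Walk w o | p.IsPath ∧ p.length ≤ n + 1}.ncard :=
        Set.ncard_image_le (hpaths w o (n + 1))
    _ ≤ A := hA

/-- No big hubs: few neighbours of `w` lie on geodesics from `w` to centres at distance `ℓ`. -/
theorem fineTorsionBound_hub {V : Type*} (K : SimpleGraph V) (hconn : K.Connected)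
    (hpaths : ∀ (u w : V) (n : ℕ), {p : K.Walk u w | p.IsPath ∧ p.length ≤ n}.Finite)
    (R D A : ℕ) (hA : ∀ u w : V, {p : K.Walk u w | p.IsPath ∧ p.length ≤ D + R}.ncard ≤ A)
    (O : Set V) (r : ℕ) (hr1 : 1 ≤ r) (hrR : r ≤ R)
    (hmin : ∀ (c : V) (r' : ℕ), (∀ o ∈ O, K.dist c o ≤ r') → r ≤ r')
    (C : Set V) (hC : ∀ c ∈ C, ∀ o ∈ O, K.dist c o ≤ r)
    (w : V) (ℓ : ℕ) (hℓ1 : 1 ≤ ℓ) (hℓD : ℓ ≤ D) :
    {u : V | K.Adj w u ∧ ∃ c ∈ C, K.dist w c = ℓ ∧ K.dist u c + 1 = ℓ}.Finite ∧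
      {u : V | K.Adj w u ∧ ∃ c ∈ C, K.dist w c = ℓ ∧ K.dist u c + 1 = ℓ}.ncard ≤ A := by
  by_contra hcon
  obtain ⟨U₀, hU₀sub, hU₀fin, hU₀card⟩ := fineTorsionBound_exists_subset _ A hcon
  have hclaim : ∀ o ∈ O, K.dist w o ≤ r - 1 := by
    intro o ho
    by_cases how : o = w
    · rw [how, SimpleGraph.dist_self]
      exact Nat.zero_le _
    have hNGfin := fine_angle_finite K hpaths w o (D + R - 1)
    have hNGcard : {u : V | K.Adj w u ∧
        ∃ p : K.Walk u o, w ∉ p.support ∧ p.length ≤ D + R - 1}.ncard ≤ A := by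
      apply fineTorsionBound_angle K hpaths w o (D + R - 1) A
      have e : D + R - 1 + 1 = D + R := by omega
      rw [e]
      exact hA w o
    have hex : ∃ u ∈ U₀, u ∉ {u : V | K.Adj w u ∧
        ∃ p : K.Walk u o, w ∉ p.support ∧ p.length ≤ D + R - 1} := by
      by_contra hall
      push Not at hall
      have h1 := Set.ncard_le_ncard (fun u hu => hall u hu) hNGfin
      omega
    obtain ⟨u, huU, huNG⟩ := hex
    obtain ⟨hadj, c, hcC, hwc, huc⟩ := hU₀sub huU
    have hco := hC c hcC o ho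
    have hcw : K.dist c w = ℓ := by
      rw [SimpleGraph.dist_comm]
      exact hwc
    have htri := hconn.dist_triangle (u := c) (v := w) (w := o)
    have hge : ℓ + K.dist w o ≤ K.dist c o := by
      by_contra hlt
      push Not at hlt
      apply huNG
      obtain ⟨q, hqlen, hqsupp⟩ := exists_geodesic_support K hconn (ℓ - 1) u c (by omega)
      obtain ⟨m, hmlen, hmsupp⟩ := exists_geodesic_support K hconn (K.dist c o) c o rfl
      refine ⟨hadj, q.append m, ?_, ?_⟩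
      · rw [Walk.mem_support_append_iff]
        rintro (hw | hw)
        · have h1 := hqsupp w hw
          omega
        · have h1 := hmsupp w hw
          omega
      · rw [Walk.length_append, hqlen, hmlen]
        omega
    omega
  have h2 := hmin w (r - 1) hclaim
  omega

/-- Counting the centres at a given distance from a vertex. -/
theorem fineTorsionBound_sphere {V : Type*} (K : SimpleGraph V) (hconn : K.Connected)
    (D A : ℕ) (C : Set V)
    (hDir : ∀ (w : V) (ℓ : ℕ), 1 ≤ ℓ → ℓ ≤ D →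
      {u : V | K.Adj w u ∧ ∃ c ∈ C, K.dist w c = ℓ ∧ K.dist u c + 1 = ℓ}.Finite ∧
        {u : V | K.Adj w u ∧ ∃ c ∈ C, K.dist w c = ℓ ∧ K.dist u c + 1 = ℓ}.ncard ≤ A) :
    ∀ ℓ : ℕ, ℓ ≤ D → ∀ w : V, {c : V | c ∈ C ∧ K.dist w c = ℓ}.Finite ∧
      {c : V | c ∈ C ∧ K.dist w c = ℓ}.ncard ≤ A ^ ℓ := by
  intro ℓ
  induction ℓ with
  | zero =>
    intro _ w
    have hsub : {c : V | c ∈ C ∧ K.dist w c = 0} ⊆ {w} := by
      rintro c ⟨-, hc⟩
      exact ((hconn.dist_eq_zero_iff).mp hc).symm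
    refine ⟨(Set.finite_singleton w).subset hsub, ?_⟩
    have h1 := Set.ncard_le_ncard hsub (Set.finite_singleton w)
    rw [Set.ncard_singleton] at h1
    rw [pow_zero]
    exact h1
  | succ ℓ ih =>
    intro hℓ w
    have hdir := hDir w (ℓ + 1) (by omega) hℓ
    have hsub : {c : V | c ∈ C ∧ K.dist w c = ℓ + 1}
        ⊆ ⋃ u ∈ {u : V | K.Adj w u ∧ ∃ c ∈ C, K.dist w c = ℓ + 1 ∧ K.dist u c + 1 = ℓ + 1},
          {c : V | c ∈ C ∧ K.dist u c = ℓ} := by
      rintro c ⟨hcC, hc⟩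
      have hne : w ≠ c := by
        intro hwc
        rw [hwc, SimpleGraph.dist_self] at hc
        omega
      obtain ⟨u, hadj, hu⟩ := exists_adj_dist_succ K hconn w c hne
      exact Set.mem_iUnion₂.mpr ⟨u, ⟨hadj, c, hcC, hc, by omega⟩, ⟨hcC, by omega⟩⟩
    have hU := fineTorsionBound_biUnion _ (fun u => {c : V | c ∈ C ∧ K.dist u c = ℓ}) A (A ^ ℓ)
      hdir.1 hdir.2 (fun u _ => ih (by omega) u)
    refine ⟨hU.1.subset hsub, ?_⟩
    calc {c : V | c ∈ C ∧ K.dist w c = ℓ + 1}.ncard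
        ≤ (⋃ u ∈ {u : V | K.Adj w u ∧ ∃ c ∈ C, K.dist w c = ℓ + 1 ∧ K.dist u c + 1 = ℓ + 1},
            {c : V | c ∈ C ∧ K.dist u c = ℓ}).ncard := Set.ncard_le_ncard hsub hU.1
      _ ≤ A * A ^ ℓ := hU.2
      _ = A ^ (ℓ + 1) := by ring

theorem fine_torsion_centre_bound {V : Type*} (K : SimpleGraph V) (hconn : K.Connected)
    (hpaths : ∀ (u w : V) (n : ℕ), {p : K.Walk u w | p.IsPath ∧ p.length ≤ n}.Finite)
    (hpathsU : ∀ n : ℕ, ∃ A : ℕ, ∀ u w : V,
      {p : K.Walk u w | p.IsPath ∧ p.length ≤ n}.ncard ≤ A)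
    (R D : ℕ) :
    ∃ M : ℕ, ∀ (O : Set V) (r : ℕ), 1 ≤ r → r ≤ R →
      (∀ (c : V) (r' : ℕ), (∀ o ∈ O, K.dist c o ≤ r') → r ≤ r') →
      ∀ C : Set V, (∀ c ∈ C, ∀ o ∈ O, K.dist c o ≤ r) →
        (∀ c ∈ C, ∀ c' ∈ C, K.dist c c' ≤ D) → C.Finite ∧ C.ncard ≤ M := by
  obtain ⟨A, hA⟩ := hpathsU (D + R)
  refine ⟨(D + 1) * (A + 1) ^ D, ?_⟩
  intro O r hr1 hrR hmin C hC hCD
  rcases Set.eq_empty_or_nonempty C with hemp | ⟨c₀, hc₀⟩
  · rw [hemp]
    exact ⟨Set.finite_empty, by simp⟩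
  have hDir := fun w ℓ h1 h2 =>
    fineTorsionBound_hub K hconn hpaths R D A hA O r hr1 hrR hmin C hC w ℓ h1 h2
  have hS := fineTorsionBound_sphere K hconn D A C hDir
  have hsub : C ⊆ ⋃ ℓ ∈ Finset.range (D + 1), {c : V | c ∈ C ∧ K.dist c₀ c = ℓ} := by
    intro c hc
    exact Set.mem_iUnion₂.mpr ⟨K.dist c₀ c,
      Finset.mem_range.mpr (Nat.lt_succ_of_le (hCD c₀ hc₀ c hc)), ⟨hc, rfl⟩⟩
  have hU := fineTorsionBound_biUnion_finset (Finset.range (D + 1))
    (fun ℓ => {c : V | c ∈ C ∧ K.dist c₀ c = ℓ}) ((A + 1) ^ D) (fun ℓ hℓ => by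
      have hℓD : ℓ ≤ D := Nat.lt_succ_iff.mp (Finset.mem_range.mp hℓ)
      have h := hS ℓ hℓD c₀
      refine ⟨h.1, le_trans h.2 ?_⟩
      exact le_trans (Nat.pow_le_pow_left (Nat.le_succ A) ℓ)
        (Nat.pow_le_pow_right (Nat.succ_pos A) hℓD))
  rw [Finset.card_range] at hU
  exact ⟨hU.1.subset hsub, le_trans (Set.ncard_le_ncard hsub hU.1) hU.2⟩

end Vale.Agent.Lib.P184
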