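import Vale.Agent.Lib.P184.FineGraph

namespace Vale.Agent.Lib.P184

open SimpleGraph

theorem fine_torsion_centres {V : Type*} (K : SimpleGraph V) (hconn : K.Connected) (δ : ℝ)
    (hδ : ∀ x y z w : V, (K.dist x z : ℝ) + K.dist y w
      ≤ max ((K.dist x y : ℝ) + K.dist z w) ((K.dist x w : ℝ) + K.dist y z) + 2 * δ)
    (O : Set V) (hO : O.Finite) (hne : O.Nonempty) :
    ∃ r : ℕ, (∃ c : V, ∀ o ∈ O, K.dist c o ≤ r) ∧
      (∀ (c : V) (r' : ℕ), (∀ o ∈ O, K.dist c o ≤ r') → r ≤ r') ∧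
      ∀ c c' : V, (∀ o ∈ O, K.dist c o ≤ r) → (∀ o ∈ O, K.dist c' o ≤ r) →
        (K.dist c c' : ℝ) ≤ 4 * δ + 1 := by
  classical
  have hex : ∃ R : ℕ, ∃ c : V, ∀ o ∈ O, K.dist c o ≤ R := by
    obtain ⟨c, -⟩ := hne
    refine ⟨hO.toFinset.sup (fun o => K.dist c o), c, ?_⟩
    intro o ho
    exact Finset.le_sup (f := fun o => K.dist c o) (hO.mem_toFinset.mpr ho)
  refine ⟨Nat.find hex, Nat.find_spec hex, ?_, ?_⟩
  · intro c r' h
    exact Nat.find_min' hex ⟨c, h⟩
  · intro c c' hc hc'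
    obtain ⟨m, p, hplen, hmd, -⟩ :=
      exists_prefix_walk K hconn (K.dist c c' / 2) c c' (Nat.div_le_self _ 2)
    have hcm : K.dist c m = K.dist c c' / 2 := by
      have h1 : K.dist c m ≤ K.dist c c' / 2 := by
        have h := dist_le p
        omega
      have h2 : K.dist c c' ≤ K.dist c m + K.dist m c' := hconn.dist_triangle
      omega
    by_contra hcon
    have hcon' : 4 * δ + 1 < (K.dist c c' : ℝ) := lt_of_not_ge hcon
    have hd1 : K.dist c c' ≤ 2 * (K.dist c c' / 2) + 1 := by omega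
    have hd2 : (K.dist c c' : ℝ) ≤ 2 * ((K.dist c c' / 2 : ℕ) : ℝ) + 1 := by
      exact_mod_cast hd1
    have hk : 2 * δ < ((K.dist c c' / 2 : ℕ) : ℝ) := by linarith
    have h7 : (K.dist m c' : ℝ) + ((K.dist c c' / 2 : ℕ) : ℝ) = (K.dist c c' : ℝ) := by
      exact_mod_cast hmd
    have h8 : (K.dist c m : ℝ) = ((K.dist c c' / 2 : ℕ) : ℝ) := by
      exact_mod_cast hcm
    have hd3 : K.dist c c' / 2 + K.dist c c' / 2 ≤ K.dist c c' := by omega
    have h9 : ((K.dist c c' / 2 : ℕ) : ℝ) + ((K.dist c c' / 2 : ℕ) : ℝ) ≤ (K.dist c c' : ℝ) := by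
      exact_mod_cast hd3
    have hlt : ∀ o ∈ O, K.dist m o < Nat.find hex := by
      intro o ho
      have h4 := hδ o c m c'
      have h5 : (K.dist o c : ℝ) ≤ (Nat.find hex : ℝ) := by
        rw [SimpleGraph.dist_comm]
        exact_mod_cast hc o ho
      have h6 : (K.dist o c' : ℝ) ≤ (Nat.find hex : ℝ) := by
        rw [SimpleGraph.dist_comm]
        exact_mod_cast hc' o ho
      have h10 : max ((K.dist o c : ℝ) + K.dist m c') ((K.dist o c' : ℝ) + K.dist c m)
          ≤ (Nat.find hex : ℝ) + ((K.dist c c' : ℝ) - ((K.dist c c' / 2 : ℕ) : ℝ)) := by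
        apply max_le <;> linarith
      have h11 : (K.dist o m : ℝ) < (Nat.find hex : ℝ) := by linarith
      rw [SimpleGraph.dist_comm]
      exact_mod_cast h11
    obtain ⟨o0, ho0⟩ := hne
    have hr1 := hlt o0 ho0
    have hmin : Nat.find hex ≤ Nat.find hex - 1 :=
      Nat.find_min' hex ⟨m, fun o ho => by
        have h := hlt o ho
        omega⟩
    omega

end Vale.Agent.Lib.P184
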