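import Mathlib

/-!
# Group actions on graphs: basic facts about the graph distance

`K` is a simple graph on `V`, a group `Γ` acts on `V` and preserves adjacency.

* `smulHom` : the graph endomorphism given by a group element;
* `graph_dist_smul` : the action preserves the graph distance;
* `exists_adj_dist_succ` : from `u ≠ w` there is a neighbour of `u` one step closer to `w`;
* `exists_geodesic_support` : a shortest walk, all of whose vertices lie between the endpoints;
* `exists_prefix_walk` : an initial piece of prescribed length of a shortest walk.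
-/

namespace Vale.Agent.Lib.P184

open SimpleGraph

/-- The graph endomorphism given by a group element acting through adjacency-preserving maps. -/
def smulHom {Γ V : Type*} [Group Γ] [MulAction Γ V] (K : SimpleGraph V)
    (hact : ∀ (γ : Γ) (u w : V), K.Adj u w → K.Adj (γ • u) (γ • w)) (γ : Γ) : K →g K :=
  ⟨fun u => γ • u, fun h => hact γ _ _ h⟩

theorem smulHom_apply {Γ V : Type*} [Group Γ] [MulAction Γ V] (K : SimpleGraph V)
    (hact : ∀ (γ : Γ) (u w : V), K.Adj u w → K.Adj (γ • u) (γ • w)) (γ : Γ) (u : V) :
    smulHom K hact γ u = γ • u := rfl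

theorem graph_dist_smul_le {Γ V : Type*} [Group Γ] [MulAction Γ V] (K : SimpleGraph V)
    (hconn : K.Connected)
    (hact : ∀ (γ : Γ) (u w : V), K.Adj u w → K.Adj (γ • u) (γ • w)) (γ : Γ) (u w : V) :
    K.dist (γ • u) (γ • w) ≤ K.dist u w := by
  obtain ⟨p, hp⟩ := hconn.exists_walk_length_eq_dist u w
  have h1 := K.dist_le (p.map (smulHom K hact γ))
  rw [Walk.length_map, hp] at h1
  exact h1

/-- The action preserves the graph distance. -/
theorem graph_dist_smul {Γ V : Type*} [Group Γ] [MulAction Γ V] (K : SimpleGraph V)
    (hconn : K.Connected)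
    (hact : ∀ (γ : Γ) (u w : V), K.Adj u w → K.Adj (γ • u) (γ • w)) (γ : Γ) (u w : V) :
    K.dist (γ • u) (γ • w) = K.dist u w := by
  refine le_antisymm (graph_dist_smul_le K hconn hact γ u w) ?_
  have h1 := graph_dist_smul_le K hconn hact γ⁻¹ (γ • u) (γ • w)
  rw [inv_smul_smul, inv_smul_smul] at h1
  exact h1

/-- The action preserves adjacency in both directions. -/
theorem graph_adj_smul_iff {Γ V : Type*} [Group Γ] [MulAction Γ V] (K : SimpleGraph V)
    (hact : ∀ (γ : Γ) (u w : V), K.Adj u w → K.Adj (γ • u) (γ • w)) (γ : Γ) (u w : V) :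
    K.Adj (γ • u) (γ • w) ↔ K.Adj u w := by
  refine ⟨fun h => ?_, hact γ u w⟩
  have h1 := hact γ⁻¹ _ _ h
  rw [inv_smul_smul, inv_smul_smul] at h1
  exact h1

/-- From `u ≠ w` there is a neighbour of `u` which is one step closer to `w`. -/
theorem exists_adj_dist_succ {V : Type*} (K : SimpleGraph V) (hconn : K.Connected) (u w : V)
    (huw : u ≠ w) : ∃ u', K.Adj u u' ∧ K.dist u' w + 1 = K.dist u w := by
  obtain ⟨p, hp⟩ := hconn.exists_walk_length_eq_dist u w
  cases p with
  | nil => exact absurd rfl huw
  | cons h p' =>
    rename_i u'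
    refine ⟨u', h, ?_⟩
    rw [Walk.length_cons] at hp
    have h1 := K.dist_le p'
    have h2 := hconn.dist_triangle (u := u) (v := u') (w := w)
    have h3 : K.dist u u' = 1 := dist_eq_one_iff_adj.mpr h
    omega

/-- A shortest walk; every vertex of it lies between the endpoints. -/
theorem exists_geodesic_support {V : Type*} (K : SimpleGraph V) (hconn : K.Connected) :
    ∀ (n : ℕ) (u w : V), K.dist u w = n →
      ∃ p : K.Walk u w, p.length = n ∧ ∀ x ∈ p.support, K.dist u x + K.dist x w = n := by
  intro n
  induction n with
  | zero =>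
    intro u w h
    have huw : u = w := (hconn.dist_eq_zero_iff).mp h
    subst huw
    refine ⟨Walk.nil, rfl, ?_⟩
    intro x hx
    simp only [Walk.support_nil, List.mem_singleton] at hx
    subst hx
    simp
  | succ n ih =>
    intro u w h
    have huw : u ≠ w := by
      intro h0
      subst h0
      simp at h
    obtain ⟨u', hadj, hd⟩ := exists_adj_dist_succ K hconn u w huw
    obtain ⟨p, hp, hsupp⟩ := ih u' w (by omega)
    refine ⟨Walk.cons hadj p, by simp [hp], ?_⟩
    intro x hx
    rw [Walk.support_cons, List.mem_cons] at hx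
    rcases hx with hxu | hx
    · rw [hxu]
      simp [h]
    · have h1 := hsupp x hx
      have h3 : K.dist u u' = 1 := dist_eq_one_iff_adj.mpr hadj
      have h4 := hconn.dist_triangle (u := u) (v := u') (w := x)
      have h5 := hconn.dist_triangle (u := u) (v := x) (w := w)
      omega

/-- An initial piece of length `k` of a shortest walk from `u` to `w`: it ends at a vertex `x`
with `dist x w + k = dist u w`, and all of its vertices are at distance at most `dist u w`
from `w`. -/
theorem exists_prefix_walk {V : Type*} (K : SimpleGraph V) (hconn : K.Connected) :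
    ∀ (k : ℕ) (u w : V), k ≤ K.dist u w →
      ∃ (x : V) (p : K.Walk u x), p.length = k ∧ K.dist x w + k = K.dist u w ∧
        ∀ x' ∈ p.support, K.dist x' w ≤ K.dist u w := by
  intro k
  induction k with
  | zero =>
    intro u w _
    refine ⟨u, Walk.nil, rfl, by simp, ?_⟩
    intro x' hx'
    simp only [Walk.support_nil, List.mem_singleton] at hx'
    subst hx'
    exact le_rfl
  | succ k ih =>
    intro u w h
    have huw : u ≠ w := by
      intro h0
      subst h0
      simp at h
    obtain ⟨u', hadj, hd⟩ := exists_adj_dist_succ K hconn u w huw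
    obtain ⟨x, p, hp, hx, hsupp⟩ := ih u' w (by omega)
    refine ⟨x, Walk.cons hadj p, by simp [hp], by omega, ?_⟩
    intro x' hx'
    rw [Walk.support_cons, List.mem_cons] at hx'
    rcases hx' with hxu | hx'
    · rw [hxu]
    · have := hsupp x' hx'
      omega

end Vale.Agent.Lib.P184
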