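import Mathlib
import Vale.Agent.Lib.P184.FineGraph

/-!
A finite-order graph automorphism without fixed vertex either inverts an edge or moves some edge
along a short circuit.
-/

namespace Vale.Agent.Lib.P184

open SimpleGraph

/-- The walk along a sequence of consecutively adjacent vertices, with its length, support and
edges. -/
theorem fineTorsionCircuit_walk {V : Type*} (K : SimpleGraph V) (b : ℕ → V)
    (hadj : ∀ t, K.Adj (b t) (b (t + 1))) (s : ℕ) :
    ∀ d : ℕ, ∃ W : K.Walk (b s) (b (s + d)), W.length = d ∧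
      W.support = (List.range (d + 1)).map (fun i => b (s + i)) ∧
      W.edges = (List.range d).map (fun i => s(b (s + i), b (s + i + 1))) := by
  intro d
  induction d with
  | zero =>
    exact ⟨(Walk.nil : K.Walk (b s) (b s)), rfl, rfl, rfl⟩
  | succ d ih =>
    obtain ⟨W, hlen, hsupp, hedges⟩ := ih
    refine ⟨W.concat (hadj (s + d)), ?_, ?_, ?_⟩
    · rw [Walk.length_concat, hlen]
    · rw [Walk.support_concat, hsupp, List.range_succ (n := d + 1), List.map_append]
      rfl
    · rw [Walk.edges_concat, hedges, List.range_succ, List.map_append, List.concat_eq_append]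
      rfl

/-- A sequence of consecutively adjacent vertices that closes up after `d₀ ≥ 3` steps and has no
earlier repetition traces a cycle. -/
theorem fineTorsionCircuit_cycle {V : Type*} (K : SimpleGraph V) (b : ℕ → V)
    (hadj : ∀ t, K.Adj (b t) (b (t + 1))) (s d₀ : ℕ) (hd₀ : 3 ≤ d₀) (hs : b s = b (s + d₀))
    (hmin : ∀ i j, i < j → j < i + d₀ → b i ≠ b j) :
    ∃ p : K.Walk (b s) (b s), p.IsCycle ∧ p.length = d₀ ∧
      ∀ i < d₀, s(b (s + i), b (s + i + 1)) ∈ p.edges := by
  obtain ⟨W, hlen, hsupp, hedges⟩ := fineTorsionCircuit_walk K b hadj s d₀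
  refine ⟨W.copy rfl hs.symm, ?_, ?_, ?_⟩
  · rw [Walk.isCycle_def, Walk.isTrail_def]
    refine ⟨?_, ?_, ?_⟩
    · rw [Walk.edges_copy, hedges]
      have hclaim : ∀ i j, i < j → j < d₀ →
          s(b (s + i), b (s + i + 1)) ≠ s(b (s + j), b (s + j + 1)) := by
        intro i j hij hj heq
        rw [Sym2.eq_iff] at heq
        rcases heq with ⟨h1, _⟩ | ⟨h1, h2⟩
        · exact hmin (s + i) (s + j) (by omega) (by omega) h1
        · by_cases hji : j = i + 1
          · subst hji
            exact hmin (s + i) (s + (i + 1) + 1) (by omega) (by omega) h1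
          · exact hmin (s + i + 1) (s + j) (by omega) (by omega) h2
      apply List.Nodup.map_on _ List.nodup_range
      intro i hi j hj heq
      rw [List.mem_range] at hi hj
      by_contra hne
      rcases Nat.lt_or_gt_of_ne hne with h | h
      · exact hclaim i j h hj heq
      · exact hclaim j i h hi heq.symm
    · intro hnil
      have h1 := congrArg Walk.length hnil
      rw [Walk.length_copy, hlen, Walk.length_nil] at h1
      omega
    · rw [Walk.support_copy, hsupp, List.range_succ_eq_map, List.map_cons, List.tail_cons,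
        List.map_map]
      apply List.Nodup.map_on _ List.nodup_range
      intro i hi j hj heq
      rw [List.mem_range] at hi hj
      have heq' : b (s + (i + 1)) = b (s + (j + 1)) := heq
      by_contra hne
      rcases Nat.lt_or_gt_of_ne hne with h | h
      · exact hmin (s + (i + 1)) (s + (j + 1)) (by omega) (by omega) heq'
      · exact hmin (s + (j + 1)) (s + (i + 1)) (by omega) (by omega) heq'.symm
  · rw [Walk.length_copy, hlen]
  · intro i hi
    rw [Walk.edges_copy, hedges]
    exact List.mem_map.mpr ⟨i, List.mem_range.mpr hi, rfl⟩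

/-- The sequence form of the statement: a sequence of consecutively adjacent vertices which is
shifted by `m` under `γ`, has no repetition within `m` steps, and is periodic, yields an inverted
edge or a circuit through an edge and its translate. -/
theorem fineTorsionCircuit_seq {Γ V : Type*} [Group Γ] [MulAction Γ V] (K : SimpleGraph V)
    (γ : Γ) (b : ℕ → V) (m N : ℕ) (hm : 1 ≤ m)
    (hB1 : ∀ t, b (t + m) = γ • b t) (hB2 : ∀ t, K.Adj (b t) (b (t + 1)))
    (hB4 : ∀ t j, 1 ≤ j → j ≤ m → b t ≠ b (t + j)) (hN : 0 < N) (hB5 : b 0 = b (0 + N)) :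
    ∃ u w : V, K.Adj u w ∧ ((γ • u = w ∧ γ • w = u) ∨
      ∃ p : K.Walk u u, p.IsCycle ∧ s(u, w) ∈ p.edges ∧ s(γ • u, γ • w) ∈ p.edges ∧
        p.length ≤ N) := by
  classical
  have hex : ∃ d, 0 < d ∧ ∃ s, b s = b (s + d) := ⟨N, hN, 0, hB5⟩
  obtain ⟨hd₀pos, s, hs⟩ := Nat.find_spec hex
  have hd₀le : Nat.find hex ≤ N := Nat.find_min' hex ⟨hN, 0, hB5⟩
  have hmin0 : ∀ s' d, 0 < d → d < Nat.find hex → b s' ≠ b (s' + d) :=
    fun s' d hd hlt heq => Nat.find_min hex hlt ⟨hd, s', heq⟩
  generalize Nat.find hex = d₀ at hd₀pos hs hd₀le hmin0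
  have hd₀m : m + 1 ≤ d₀ := by
    by_contra hcon
    exact hB4 s d₀ hd₀pos (by omega) hs
  have hmin : ∀ i j, i < j → j < i + d₀ → b i ≠ b j := by
    intro i j hij hj
    have h := hmin0 i (j - i) (by omega) (by omega)
    rwa [show i + (j - i) = j by omega] at h
  refine ⟨b s, b (s + 1), hB2 s, ?_⟩
  by_cases hd2 : d₀ = 2
  · left
    obtain rfl : m = 1 := by omega
    subst hd2
    refine ⟨(hB1 s).symm, ?_⟩
    rw [← hB1 (s + 1)]
    exact hs.symm
  · right
    obtain ⟨p, hcyc, hlen, hedge⟩ := fineTorsionCircuit_cycle K b hB2 s d₀ (by omega) hs hmin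
    refine ⟨p, hcyc, hedge 0 (by omega), ?_, by omega⟩
    have h := hedge m (by omega)
    rw [hB1 s, show s + m + 1 = s + 1 + m by omega, hB1 (s + 1)] at h
    exact h

theorem fine_torsion_circuit {Γ V : Type*} [Group Γ] [MulAction Γ V] (K : SimpleGraph V)
    (hconn : K.Connected)
    (hact : ∀ (γ : Γ) (u w : V), K.Adj u w → K.Adj (γ • u) (γ • w))
    (γ : Γ) (n : ℕ) (hn : 0 < n) (hγ : γ ^ n = 1) (hfix : ∀ v : V, γ • v ≠ v)
    (x₁ : V) (D : ℕ) (hx₁ : K.dist x₁ (γ • x₁) ≤ D) :
    ∃ u w : V, K.Adj u w ∧ ((γ • u = w ∧ γ • w = u) ∨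
      ∃ p : K.Walk u u, p.IsCycle ∧ s(u, w) ∈ p.edges ∧ s(γ • u, γ • w) ∈ p.edges ∧
        p.length ≤ D * n) := by
  classical
  obtain ⟨x, hx⟩ : ∃ x, ∀ y, K.dist x (γ • x) ≤ K.dist y (γ • y) := by
    have hex : ∃ d, ∃ x, K.dist x (γ • x) = d := ⟨_, x₁, rfl⟩
    obtain ⟨x, hx⟩ := Nat.find_spec hex
    exact ⟨x, fun y => by rw [hx]; exact Nat.find_min' hex ⟨y, rfl⟩⟩
  obtain ⟨α, hα⟩ := hconn.exists_walk_length_eq_dist x (γ • x)
  have hmD : K.dist x (γ • x) ≤ D := (hx x₁).trans hx₁
  have hm1 : 1 ≤ K.dist x (γ • x) := by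
    by_contra hcon
    have h0 : K.dist x (γ • x) = 0 := by omega
    exact hfix x ((hconn.dist_eq_zero_iff.mp h0).symm)
  generalize K.dist x (γ • x) = m at hx hα hmD hm1
  let b : ℕ → V := fun t => γ ^ (t / m) • α.getVert (t % m)
  have hkey : ∀ q r, r < m → (m * q + r) / m = q ∧ (m * q + r) % m = r := fun q r hr =>
    ⟨by rw [Nat.mul_add_div (by omega), Nat.div_eq_of_lt hr, add_zero],
     by rw [Nat.mul_add_mod, Nat.mod_eq_of_lt hr]⟩
  have hB1 : ∀ t, b (t + m) = γ • b t := by
    intro t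
    show γ ^ ((t + m) / m) • α.getVert ((t + m) % m) = γ • (γ ^ (t / m) • α.getVert (t % m))
    rw [Nat.add_div_right t (by omega), Nat.add_mod_right, pow_succ', mul_smul]
  have hB2 : ∀ t, K.Adj (b t) (b (t + 1)) := by
    intro t
    have hr : t % m < m := Nat.mod_lt t (by omega)
    have ht : t = m * (t / m) + t % m := (Nat.div_add_mod t m).symm
    have hadj : K.Adj (α.getVert (t % m)) (α.getVert (t % m + 1)) :=
      α.adj_getVert_succ (by omega)
    by_cases h : t % m + 1 < m
    · have h1 : t + 1 = m * (t / m) + (t % m + 1) := by omega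
      obtain ⟨h2, h3⟩ := hkey (t / m) (t % m + 1) h
      rw [← h1] at h2 h3
      show K.Adj (γ ^ (t / m) • α.getVert (t % m)) (γ ^ ((t + 1) / m) • α.getVert ((t + 1) % m))
      rw [h2, h3]
      exact hact _ _ _ hadj
    · have h1 : t + 1 = m * (t / m + 1) + 0 := by
        have h5 : t % m + 1 = m := by omega
        rw [Nat.mul_add, mul_one]
        omega
      obtain ⟨h2, h3⟩ := hkey (t / m + 1) 0 (by omega)
      rw [← h1] at h2 h3
      show K.Adj (γ ^ (t / m) • α.getVert (t % m)) (γ ^ ((t + 1) / m) • α.getVert ((t + 1) % m))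
      rw [h2, h3, Walk.getVert_zero, pow_succ, mul_smul]
      have h4 : α.getVert (t % m + 1) = γ • x := by
        rw [show t % m + 1 = α.length by omega]
        exact α.getVert_length
      have h6 := hact (γ ^ (t / m)) _ _ hadj
      rw [h4] at h6
      exact h6
  have hB3 : ∀ t j, K.dist (b t) (b (t + j)) ≤ j := by
    intro t j
    induction j with
    | zero => simp
    | succ j ih =>
      have h1 := hconn.dist_triangle (u := b t) (v := b (t + j)) (w := b (t + j + 1))
      have h2 : K.dist (b (t + j)) (b (t + j + 1)) = 1 := dist_eq_one_iff_adj.mpr (hB2 (t + j))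
      show K.dist (b t) (b (t + j + 1)) ≤ j + 1
      omega
  have hB4 : ∀ t j, 1 ≤ j → j ≤ m → b t ≠ b (t + j) := by
    intro t j hj1 hjm heq
    have h1 : m ≤ K.dist (b t) (γ • b t) := hx (b t)
    rw [← hB1 t] at h1
    have h2 := hconn.dist_triangle (u := b t) (v := b (t + j)) (w := b (t + m))
    have h3 := hB3 (t + j) (m - j)
    rw [show t + j + (m - j) = t + m by omega] at h3
    have h4 : K.dist (b t) (b (t + j)) = 0 := by rw [← heq]; exact SimpleGraph.dist_self
    omega
  have hB5 : b 0 = b (0 + m * n) := by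
    show γ ^ (0 / m) • α.getVert (0 % m) = γ ^ ((0 + m * n) / m) • α.getVert ((0 + m * n) % m)
    rw [Nat.add_mul_div_left 0 n (by omega : 0 < m), Nat.add_mul_mod_self_left, pow_add, hγ,
      mul_one]
  obtain ⟨u, w, hadj, hres⟩ :=
    fineTorsionCircuit_seq K γ b m (m * n) hm1 hB1 hB2 hB4 (Nat.mul_pos (by omega) hn) hB5
  refine ⟨u, w, hadj, ?_⟩
  rcases hres with h | ⟨p, hc, h1, h2, h3⟩
  · exact Or.inl h
  · exact Or.inr ⟨p, hc, h1, h2, h3.trans (Nat.mul_le_mul_right n hmD)⟩

end Vale.Agent.Lib.P184
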