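import Vale.Agent.Lib.P184.FinePair

/-!
# Finitely many conjugacy classes of finite-order elements without fixed vertex

Assembly step: every finite-order element without fixed vertex has a conjugate which carries
one of finitely many representative edges either to itself or to an edge of a short cycle
through it; by fineness and finiteness of edge transporters there are only finitely many
such conjugates.
-/

namespace Vale.Agent.Lib.P184

open SimpleGraph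

/-- The group elements carrying an edge to itself or to an edge of a short cycle through it
form a finite set. -/
theorem fineTorsionFinite_good_finite {Γ V : Type*} [Group Γ] [MulAction Γ V]
    (K : SimpleGraph V)
    (hfine : ∀ (u w : V), K.Adj u w → ∀ n : ℕ,
      {p : K.Walk u u | p.IsCycle ∧ s(u, w) ∈ p.edges ∧ p.length ≤ n}.Finite)
    (hstab : ∀ u w : V, K.Adj u w → {γ : Γ | γ • u = u ∧ γ • w = w}.Finite)
    (u w : V) (huw : K.Adj u w) (L : ℕ) :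
    {γ : Γ | Sym2.map (fun v => γ • v) s(u, w) = s(u, w) ∨
      ∃ p : K.Walk u u, p.IsCycle ∧ s(u, w) ∈ p.edges ∧ p.length ≤ L ∧
        Sym2.map (fun v => γ • v) s(u, w) ∈ p.edges}.Finite := by
  have h1 := finePair_transporter_finite K hstab u w huw s(u, w)
  have h2 : (⋃ p ∈ {p : K.Walk u u | p.IsCycle ∧ s(u, w) ∈ p.edges ∧ p.length ≤ L},
      ⋃ b ∈ {b : Sym2 V | b ∈ p.edges},
        {γ : Γ | Sym2.map (fun v => γ • v) s(u, w) = b}).Finite := by
    refine Set.Finite.biUnion (hfine u w huw L) (fun p _ => ?_)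
    refine Set.Finite.biUnion (List.finite_toSet p.edges) (fun b _ => ?_)
    exact finePair_transporter_finite K hstab u w huw b
  refine (h1.union h2).subset ?_
  intro γ hγ
  rcases hγ with hγ | ⟨p, hp1, hp2, hp3, hp4⟩
  · exact Or.inl hγ
  · refine Or.inr ?_
    rw [Set.mem_iUnion₂]
    refine ⟨p, ⟨hp1, hp2, hp3⟩, ?_⟩
    rw [Set.mem_iUnion₂]
    exact ⟨_, hp4, rfl⟩

/-- Finitely many conjugacy classes of finite-order elements without fixed vertex. -/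
theorem fine_torsion_finite {Γ V : Type*} [Group Γ] [MulAction Γ V] (K : SimpleGraph V)
    (hact : ∀ (γ : Γ) (u w : V), K.Adj u w → K.Adj (γ • u) (γ • w))
    (hfine : ∀ (u w : V), K.Adj u w → ∀ n : ℕ,
      {p : K.Walk u u | p.IsCycle ∧ s(u, w) ∈ p.edges ∧ p.length ≤ n}.Finite)
    (hstab : ∀ u w : V, K.Adj u w → {γ : Γ | γ • u = u ∧ γ • w = w}.Finite)
    (hcocpt : ∃ F : Finset (V × V), ∀ u w : V, K.Adj u w → ∃ γ : Γ, (γ • u, γ • w) ∈ F)
    (D₀ : ℕ)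
    (horder : ∃ N₁ : ℕ, ∀ γ : Γ, (∃ k : ℕ, 0 < k ∧ γ ^ k = 1) → (∀ v : V, γ • v ≠ v) →
      (∃ n : ℕ, 0 < n ∧ n ≤ N₁ ∧ γ ^ n = 1) ∧ ∃ x : V, K.dist x (γ • x) ≤ D₀)
    (hcirc : ∀ (γ : Γ) (n : ℕ), 0 < n → γ ^ n = 1 → (∀ v : V, γ • v ≠ v) →
      ∀ (x₁ : V) (D : ℕ), K.dist x₁ (γ • x₁) ≤ D →
      ∃ u w : V, K.Adj u w ∧ ((γ • u = w ∧ γ • w = u) ∨
        ∃ p : K.Walk u u, p.IsCycle ∧ s(u, w) ∈ p.edges ∧ s(γ • u, γ • w) ∈ p.edges ∧
          p.length ≤ D * n)) :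
    ∃ Φ : Finset Γ, ∀ γ : Γ, (∃ k : ℕ, 0 < k ∧ γ ^ k = 1) → (∀ v : V, γ • v ≠ v) →
      ∃ σ : Γ, σ * γ * σ⁻¹ ∈ Φ := by
  classical
  obtain ⟨N₁, hN₁⟩ := horder
  obtain ⟨F, hF⟩ := hcocpt
  have hfin : (⋃ f ∈ (F : Set (V × V)), {γ : Γ | K.Adj f.1 f.2 ∧
      (Sym2.map (fun v => γ • v) s(f.1, f.2) = s(f.1, f.2) ∨
        ∃ p : K.Walk f.1 f.1, p.IsCycle ∧ s(f.1, f.2) ∈ p.edges ∧ p.length ≤ D₀ * N₁ ∧
          Sym2.map (fun v => γ • v) s(f.1, f.2) ∈ p.edges)}).Finite := by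
    refine Set.Finite.biUnion F.finite_toSet (fun f _ => ?_)
    by_cases hadj : K.Adj f.1 f.2
    · exact (fineTorsionFinite_good_finite K hfine hstab f.1 f.2 hadj (D₀ * N₁)).subset
        (fun γ hγ => hγ.2)
    · refine Set.finite_empty.subset ?_
      intro γ hγ
      exact (hadj hγ.1).elim
  refine ⟨hfin.toFinset, ?_⟩
  intro γ htor hfix
  obtain ⟨⟨n, hn0, hnN, hn1⟩, x, hx⟩ := hN₁ γ htor hfix
  obtain ⟨u, w, huw, halt⟩ := hcirc γ n hn0 hn1 hfix x D₀ hx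
  obtain ⟨σ, hσ⟩ := hF u w huw
  have hadj : K.Adj (σ • u) (σ • w) := hact σ u w huw
  have hconj : ∀ y : V, (σ * γ * σ⁻¹) • (σ • y) = σ • (γ • y) := by
    intro y
    rw [mul_smul, mul_smul, inv_smul_smul]
  have hmap : Sym2.map (fun v => (σ * γ * σ⁻¹) • v) s(σ • u, σ • w)
      = s(σ • γ • u, σ • γ • w) := by
    show s((σ * γ * σ⁻¹) • σ • u, (σ * γ * σ⁻¹) • σ • w) = _
    rw [hconj, hconj]
  refine ⟨σ, ?_⟩
  rw [Set.Finite.mem_toFinset, Set.mem_iUnion₂]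
  refine ⟨(σ • u, σ • w), hσ, hadj, ?_⟩
  show Sym2.map (fun v => (σ * γ * σ⁻¹) • v) s(σ • u, σ • w) = s(σ • u, σ • w) ∨
    ∃ p : K.Walk (σ • u) (σ • u), p.IsCycle ∧ s(σ • u, σ • w) ∈ p.edges ∧
      p.length ≤ D₀ * N₁ ∧
      Sym2.map (fun v => (σ * γ * σ⁻¹) • v) s(σ • u, σ • w) ∈ p.edges
  rw [hmap]
  rcases halt with ⟨h1, h2⟩ | ⟨p, hp1, hp2, hp3, hp4⟩
  · left
    rw [h1, h2]
    exact Sym2.eq_swap
  · right
    have hinj : Function.Injective (smulHom K hact σ) := MulAction.injective σ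
    have hcyc : (p.map (smulHom K hact σ)).IsCycle :=
      (Walk.isCycle_map_iff_of_injective hinj).mpr hp1
    have hedges : ∀ e ∈ p.edges,
        Sym2.map (fun v => σ • v) e ∈ (p.map (smulHom K hact σ)).edges := by
      intro e he
      rw [Walk.edges_map]
      exact List.mem_map.mpr ⟨e, he, rfl⟩
    have hlen : (p.map (smulHom K hact σ)).length ≤ D₀ * N₁ := by
      rw [Walk.length_map]
      exact le_trans hp4 (Nat.mul_le_mul_left _ hnN)
    exact ⟨p.map (smulHom K hact σ), hcyc, hedges _ hp2, hlen, hedges _ hp3⟩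

end Vale.Agent.Lib.P184
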