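import Vale.Agent.Lib.P184.FineGraph

/-!
# A uniform bound on the order of torsion elements without fixed vertex

From the existence of centres of finite sets with small diameter, a uniform bound on sets of
centres and a uniform bound on pointwise stabilisers of pairs of nearby vertices, two pigeonhole
arguments bound the order of every finite-order element which fixes no vertex, and produce a
vertex which such an element moves by a bounded amount.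
-/

namespace Vale.Agent.Lib.P184

open SimpleGraph

/-- Pigeonhole for a sequence with values in a finite set. -/
theorem fineTorsionOrder_pigeon {α : Type*} (f : ℕ → α) (S : Set α) (hS : S.Finite) (M : ℕ)
    (hM : S.ncard ≤ M) (hf : ∀ j, f j ∈ S) : ∃ i j, i < j ∧ j ≤ M ∧ f i = f j := by
  classical
  have hcard : hS.toFinset.card < (Finset.range (M + 1)).card := by
    rw [Finset.card_range, ← Set.ncard_eq_toFinset_card S hS]
    omega
  obtain ⟨a, ha, b, hb, hab, hfab⟩ := Finset.exists_ne_map_eq_of_card_lt_of_maps_to hcard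
    (f := f) (fun j _ => hS.mem_toFinset.mpr (hf j))
  rw [Finset.mem_range] at ha hb
  rcases Nat.lt_or_gt_of_ne hab with h | h
  · exact ⟨a, b, h, by omega, hfab⟩
  · exact ⟨b, a, h, by omega, hfab.symm⟩

/-- The orbit of a vertex under the powers of a finite-order element is finite. -/
theorem fineTorsionOrder_orb_finite {Γ V : Type*} [Group Γ] [MulAction Γ V] (γ : Γ) (k : ℕ)
    (hk0 : 0 < k) (hk : γ ^ k = 1) (y : V) :
    (Set.range (fun j : ℕ => γ ^ j • y)).Finite := by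
  apply Set.Finite.subset ((Finset.range k).finite_toSet.image (fun j : ℕ => γ ^ j • y))
  rintro z ⟨j, rfl⟩
  refine ⟨j % k, ?_, ?_⟩
  · exact Finset.mem_coe.mpr (Finset.mem_range.mpr (Nat.mod_lt j hk0))
  · show γ ^ (j % k) • y = γ ^ j • y
    rw [← pow_eq_pow_mod j hk]

/-- The orbit is stable under the element. -/
theorem fineTorsionOrder_orb_smul {Γ V : Type*} [Group Γ] [MulAction Γ V] (γ : Γ) (y z : V)
    (hz : z ∈ Set.range (fun j : ℕ => γ ^ j • y)) :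
    γ • z ∈ Set.range (fun j : ℕ => γ ^ j • y) := by
  obtain ⟨j, rfl⟩ := hz
  refine ⟨j + 1, ?_⟩
  show γ ^ (j + 1) • y = γ • γ ^ j • y
  rw [pow_succ', mul_smul]

/-- The orbit is stable under the inverse of the element. -/
theorem fineTorsionOrder_orb_inv {Γ V : Type*} [Group Γ] [MulAction Γ V] (γ : Γ) (k : ℕ)
    (hk0 : 0 < k) (hk : γ ^ k = 1) (y z : V)
    (hz : z ∈ Set.range (fun j : ℕ => γ ^ j • y)) :
    γ⁻¹ • z ∈ Set.range (fun j : ℕ => γ ^ j • y) := by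
  obtain ⟨j, rfl⟩ := hz
  have hinv : γ⁻¹ = γ ^ (k - 1) := by
    apply inv_eq_of_mul_eq_one_right
    rw [← pow_succ', Nat.sub_add_cancel hk0, hk]
  refine ⟨(k - 1) + j, ?_⟩
  show γ ^ ((k - 1) + j) • y = γ⁻¹ • γ ^ j • y
  rw [pow_add, mul_smul, hinv]

/-- The set of centres of the orbit is stable under the element. -/
theorem fineTorsionOrder_cen_smul {Γ V : Type*} [Group Γ] [MulAction Γ V] (K : SimpleGraph V)
    (hconn : K.Connected)
    (hact : ∀ (γ : Γ) (u w : V), K.Adj u w → K.Adj (γ • u) (γ • w))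
    (γ : Γ) (k : ℕ) (hk0 : 0 < k) (hk : γ ^ k = 1) (y : V) (R : ℕ) (c : V)
    (hc : ∀ o ∈ Set.range (fun j : ℕ => γ ^ j • y), K.dist c o ≤ R) :
    ∀ o ∈ Set.range (fun j : ℕ => γ ^ j • y), K.dist (γ • c) o ≤ R := by
  intro o ho
  have h1 := hc (γ⁻¹ • o) (fineTorsionOrder_orb_inv γ k hk0 hk y o ho)
  have h2 := graph_dist_smul K hconn hact γ c (γ⁻¹ • o)
  rw [smul_inv_smul] at h2
  rw [h2]
  exact h1

/-- The set of centres of the orbit is stable under the powers of the element. -/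
theorem fineTorsionOrder_cen_pow {Γ V : Type*} [Group Γ] [MulAction Γ V] (K : SimpleGraph V)
    (hconn : K.Connected)
    (hact : ∀ (γ : Γ) (u w : V), K.Adj u w → K.Adj (γ • u) (γ • w))
    (γ : Γ) (k : ℕ) (hk0 : 0 < k) (hk : γ ^ k = 1) (y : V) (R : ℕ) (c : V)
    (hc : ∀ o ∈ Set.range (fun j : ℕ => γ ^ j • y), K.dist c o ≤ R) (j : ℕ) :
    ∀ o ∈ Set.range (fun j : ℕ => γ ^ j • y), K.dist (γ ^ j • c) o ≤ R := by
  induction j with
  | zero =>
    rw [pow_zero, one_smul]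
    exact hc
  | succ j ih =>
    rw [pow_succ', mul_smul]
    exact fineTorsionOrder_cen_smul K hconn hact γ k hk0 hk y R (γ ^ j • c) ih

theorem fine_torsion_order {Γ V : Type*} [Group Γ] [MulAction Γ V] (K : SimpleGraph V)
    (hconn : K.Connected)
    (hact : ∀ (γ : Γ) (u w : V), K.Adj u w → K.Adj (γ • u) (γ • w))
    (δ : ℝ)
    (hcen : ∀ (O : Set V), O.Finite → O.Nonempty →
      ∃ r : ℕ, (∃ c : V, ∀ o ∈ O, K.dist c o ≤ r) ∧
        (∀ (c : V) (r' : ℕ), (∀ o ∈ O, K.dist c o ≤ r') → r ≤ r') ∧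
        ∀ c c' : V, (∀ o ∈ O, K.dist c o ≤ r) → (∀ o ∈ O, K.dist c' o ≤ r) →
          (K.dist c c' : ℝ) ≤ 4 * δ + 1)
    (hbound : ∀ R D : ℕ, ∃ M : ℕ, ∀ (O : Set V) (r : ℕ), 1 ≤ r → r ≤ R →
      (∀ (c : V) (r' : ℕ), (∀ o ∈ O, K.dist c o ≤ r') → r ≤ r') →
      ∀ C : Set V, (∀ c ∈ C, ∀ o ∈ O, K.dist c o ≤ r) →
        (∀ c ∈ C, ∀ c' ∈ C, K.dist c c' ≤ D) → C.Finite ∧ C.ncard ≤ M)
    (hpair : ∀ D : ℕ, ∃ B : ℕ, ∀ c c' : V, c ≠ c' → K.dist c c' ≤ D →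
      {h : Γ | h • c = c ∧ h • c' = c'}.Finite ∧
        {h : Γ | h • c = c ∧ h • c' = c'}.ncard ≤ B) :
    ∃ N₁ : ℕ, ∀ γ : Γ, (∃ k : ℕ, 0 < k ∧ γ ^ k = 1) → (∀ v : V, γ • v ≠ v) →
      (∃ n : ℕ, 0 < n ∧ n ≤ N₁ ∧ γ ^ n = 1) ∧ ∃ x : V, K.dist x (γ • x) ≤ ⌈4 * δ⌉₊ + 1 := by
  classical
  have hD : ∀ a : ℕ, (a : ℝ) ≤ 4 * δ + 1 → a ≤ ⌈4 * δ⌉₊ + 1 := by
    intro a ha
    have h1 : (a : ℝ) ≤ ((⌈4 * δ⌉₊ + 1 : ℕ) : ℝ) := by
      push_cast
      linarith [Nat.le_ceil (4 * δ)]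
    exact_mod_cast h1
  obtain ⟨M, hM⟩ := hbound (⌈4 * δ⌉₊ + 1) (⌈4 * δ⌉₊ + 1)
  obtain ⟨B, hB⟩ := hpair (⌈4 * δ⌉₊ + 1)
  refine ⟨M * B, ?_⟩
  intro γ hfin hfix
  obtain ⟨k, hk0, hk⟩ := hfin
  obtain ⟨x₁⟩ := hconn.nonempty
  obtain ⟨r₁, ⟨x, hx⟩, -, hdiam₁⟩ := hcen (Set.range (fun j : ℕ => γ ^ j • x₁))
    (fineTorsionOrder_orb_finite γ k hk0 hk x₁) ⟨x₁, 0, by simp⟩
  have hxo : ∀ o ∈ Set.range (fun j : ℕ => γ ^ j • x), K.dist x o ≤ ⌈4 * δ⌉₊ + 1 := by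
    rintro o ⟨j, rfl⟩
    apply hD
    exact hdiam₁ x (γ ^ j • x) hx
      (fineTorsionOrder_cen_pow K hconn hact γ k hk0 hk x₁ r₁ x hx j)
  obtain ⟨r, ⟨c, hc⟩, hmin, hdiam⟩ := hcen (Set.range (fun j : ℕ => γ ^ j • x))
    (fineTorsionOrder_orb_finite γ k hk0 hk x) ⟨x, 0, by simp⟩
  have hrD : r ≤ ⌈4 * δ⌉₊ + 1 := hmin x _ hxo
  have hr1 : 1 ≤ r := by
    by_contra hr
    have hr0 : r = 0 := by omega
    have h1 := hc x ⟨0, by simp⟩
    have h2 := hc (γ • x) ⟨1, by simp⟩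
    rw [hr0, Nat.le_zero, hconn.dist_eq_zero_iff] at h1 h2
    exact hfix x (h2.symm.trans h1)
  obtain ⟨hCfin, hCcard⟩ := hM (Set.range (fun j : ℕ => γ ^ j • x)) r hr1 hrD hmin
    {c' | ∀ o ∈ Set.range (fun j : ℕ => γ ^ j • x), K.dist c' o ≤ r}
    (fun c' hc' => hc')
    (fun c' hc' c'' hc'' => hD _ (hdiam c' c'' hc' hc''))
  obtain ⟨i, j, hij, hjM, hfij⟩ := fineTorsionOrder_pigeon (fun j : ℕ => γ ^ j • c) _ hCfin M
    hCcard (fun j => fineTorsionOrder_cen_pow K hconn hact γ k hk0 hk x r c hc j)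
  have hn1 : γ ^ (j - i) • c = c := by
    have e : γ ^ j = γ ^ i * γ ^ (j - i) := by
      rw [← pow_add]
      congr 1
      omega
    have h1 : γ ^ i • c = γ ^ i • (γ ^ (j - i) • c) := by
      rw [← mul_smul, ← e]
      exact hfij
    exact (smul_left_cancel _ h1).symm
  have hn1' : γ ^ (j - i) • (γ • c) = γ • c := by
    rw [← mul_smul, pow_mul_comm', mul_smul, hn1]
  have hne : c ≠ γ • c := fun h => hfix c h.symm
  have hdc : K.dist c (γ • c) ≤ ⌈4 * δ⌉₊ + 1 :=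
    hD _ (hdiam c (γ • c) hc (fineTorsionOrder_cen_smul K hconn hact γ k hk0 hk x r c hc))
  obtain ⟨hSfin, hScard⟩ := hB c (γ • c) hne hdc
  have hpow : ∀ t : ℕ, (γ ^ (j - i)) ^ t ∈ {h : Γ | h • c = c ∧ h • (γ • c) = γ • c} := by
    intro t
    induction t with
    | zero =>
      refine ⟨?_, ?_⟩
      · rw [pow_zero, one_smul]
      · rw [pow_zero, one_smul]
    | succ t ih =>
      obtain ⟨ih1, ih2⟩ := ih
      refine ⟨?_, ?_⟩
      · rw [pow_succ, mul_smul, hn1]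
        exact ih1
      · rw [pow_succ, mul_smul, hn1']
        exact ih2
  obtain ⟨t, t', htt, htB, hft⟩ := fineTorsionOrder_pigeon (fun t : ℕ => (γ ^ (j - i)) ^ t) _
    hSfin B hScard hpow
  have hone : (γ ^ (j - i)) ^ (t' - t) = 1 := by
    have e : (γ ^ (j - i)) ^ t' = (γ ^ (j - i)) ^ t * (γ ^ (j - i)) ^ (t' - t) := by
      rw [← pow_add]
      congr 1
      omega
    have h1 : (γ ^ (j - i)) ^ t * 1 = (γ ^ (j - i)) ^ t * (γ ^ (j - i)) ^ (t' - t) := by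
      rw [mul_one, ← e]
      exact hft
    exact (mul_left_cancel h1).symm
  refine ⟨⟨(j - i) * (t' - t), ?_, ?_, ?_⟩, c, hdc⟩
  · exact Nat.mul_pos (by omega) (by omega)
  · exact Nat.mul_le_mul (by omega) (by omega)
  · rw [pow_mul]
    exact hone

end Vale.Agent.Lib.P184
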