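import Vale.Agent.Lib.P184.FineGraph

/-!
# Uniform bound on the pointwise stabiliser of two distinct vertices at bounded distance
-/

namespace Vale.Agent.Lib.P184

open SimpleGraph

/-- The pointwise stabiliser of two distinct vertices at distance at most `D` is finite, with a
bound on its size depending only on `D`. -/
theorem fine_torsion_pairstab {Γ V : Type*} [Group Γ] [MulAction Γ V] (K : SimpleGraph V)
    (hconn : K.Connected)
    (hact : ∀ (γ : Γ) (u w : V), K.Adj u w → K.Adj (γ • u) (γ • w))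
    (hpaths : ∀ (u w : V) (n : ℕ), {p : K.Walk u w | p.IsPath ∧ p.length ≤ n}.Finite)
    (hstab : ∀ u w : V, K.Adj u w → {γ : Γ | γ • u = u ∧ γ • w = w}.Finite)
    (hpathsU : ∀ n : ℕ, ∃ A : ℕ, ∀ u w : V,
      {p : K.Walk u w | p.IsPath ∧ p.length ≤ n}.ncard ≤ A)
    (hstabU : ∃ s : ℕ, ∀ u w : V, K.Adj u w → {γ : Γ | γ • u = u ∧ γ • w = w}.ncard ≤ s)
    (D : ℕ) :
    ∃ B : ℕ, ∀ c c' : V, c ≠ c' → K.dist c c' ≤ D →
      {h : Γ | h • c = c ∧ h • c' = c'}.Finite ∧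
        {h : Γ | h • c = c ∧ h • c' = c'}.ncard ≤ B := by
  classical
  obtain ⟨A, hA⟩ := hpathsU D
  obtain ⟨s, hs⟩ := hstabU
  refine ⟨A * s, fun c c' hcc' hD => ?_⟩
  have hUsub : {u : V | K.Adj c u ∧ K.dist u c' + 1 = K.dist c c'} ⊆
      (fun p : K.Walk c c' => p.getVert 1) '' {p : K.Walk c c' | p.IsPath ∧ p.length ≤ D} := by
    rintro u ⟨hadj, hdist⟩
    obtain ⟨q, hq⟩ := hconn.exists_walk_length_eq_dist u c'
    refine ⟨Walk.cons hadj q, ⟨?_, ?_⟩, ?_⟩
    · apply Walk.isPath_of_length_eq_dist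
      rw [Walk.length_cons, hq, hdist]
    · rw [Walk.length_cons, hq, hdist]
      exact hD
    · simp
  have hUfin : {u : V | K.Adj c u ∧ K.dist u c' + 1 = K.dist c c'}.Finite :=
    ((hpaths c c' D).image _).subset hUsub
  have hUcard : {u : V | K.Adj c u ∧ K.dist u c' + 1 = K.dist c c'}.ncard ≤ A :=
    (Set.ncard_le_ncard hUsub ((hpaths c c' D).image _)).trans
      ((Set.ncard_image_le (hpaths c c' D)).trans (hA c c'))
  obtain ⟨u₀, hu₀adj, hu₀dist⟩ := exists_adj_dist_succ K hconn c c' hcc'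
  have hFib : ∀ u : V, {h : Γ | h • c = c ∧ h • u₀ = u}.Finite ∧
      {h : Γ | h • c = c ∧ h • u₀ = u}.ncard ≤ s := by
    intro u
    rcases Set.eq_empty_or_nonempty {h : Γ | h • c = c ∧ h • u₀ = u} with
      hemp | ⟨h₁, hh₁c, hh₁u⟩
    · rw [hemp]
      exact ⟨Set.finite_empty, by simp⟩
    · have hsub : {h : Γ | h • c = c ∧ h • u₀ = u} ⊆
          (fun γ => h₁ * γ) '' {γ : Γ | γ • c = c ∧ γ • u₀ = u₀} := by
        rintro h ⟨hc, hu⟩
        refine ⟨h₁⁻¹ * h, ⟨?_, ?_⟩, ?_⟩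
        · rw [mul_smul, hc, inv_smul_eq_iff, hh₁c]
        · rw [mul_smul, hu, inv_smul_eq_iff, hh₁u]
        · simp
      have hfin := hstab c u₀ hu₀adj
      exact ⟨(hfin.image _).subset hsub,
        (Set.ncard_le_ncard hsub (hfin.image _)).trans
          ((Set.ncard_image_le hfin).trans (hs c u₀ hu₀adj))⟩
  have hSsub : {h : Γ | h • c = c ∧ h • c' = c'} ⊆
      ⋃ u ∈ hUfin.toFinset, {h : Γ | h • c = c ∧ h • u₀ = u} := by
    rintro h ⟨hc, hc'⟩
    simp only [Set.mem_iUnion, Set.Finite.mem_toFinset]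
    refine ⟨h • u₀, ⟨?_, ?_⟩, hc, rfl⟩
    · have hadj := hact h c u₀ hu₀adj
      rwa [hc] at hadj
    · have hd := graph_dist_smul K hconn hact h u₀ c'
      rw [hc'] at hd
      rw [hd]
      exact hu₀dist
  have hUnfin : (⋃ u ∈ hUfin.toFinset, {h : Γ | h • c = c ∧ h • u₀ = u}).Finite :=
    Set.Finite.biUnion (Finset.finite_toSet _) (fun u _ => (hFib u).1)
  have hUncard : (⋃ u ∈ hUfin.toFinset, {h : Γ | h • c = c ∧ h • u₀ = u}).ncard ≤ A * s := by
    refine (Finset.set_ncard_biUnion_le _ _).trans ?_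
    refine (Finset.sum_le_card_nsmul _ _ s (fun u _ => (hFib u).2)).trans ?_
    rw [smul_eq_mul, ← Set.ncard_eq_toFinset_card _ hUfin]
    exact Nat.mul_le_mul_right s hUcard
  exact ⟨hUnfin.subset hSsub, (Set.ncard_le_ncard hSsub hUnfin).trans hUncard⟩

end Vale.Agent.Lib.P184
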