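import Vale.Agent.Lib.P184.FineClassify
import Vale.Agent.Lib.P184.FineTorsionCentre
import Vale.Agent.Lib.P184.FineTorsionBound
import Vale.Agent.Lib.P184.FineTorsionPairStab
import Vale.Agent.Lib.P184.FineTorsionOrder
import Vale.Agent.Lib.P184.FineTorsionCircuit
import Vale.Agent.Lib.P184.FineTorsionFinite

/-!
# Finite-order elements of a group acting on a fine hyperbolic graph

A group `Γ` acts on a connected fine hyperbolic graph `K` with finite edge stabilisers and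
finitely many orbits of edges.

* `fine_torsion_classes`: the elements of finite order which fix no vertex fall into finitely
  many conjugacy classes.
* `fine_vertex_reps`: there are finitely many orbits of vertices.
* `fine_torsion_all`: if the finite-order elements of every vertex stabiliser fall into finitely
  many conjugacy classes, then so do all finite-order elements of `Γ`.
* `bass_of_finite_torsion`: vanishing at all classes of infinite order together with finitely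
  many classes of finite order gives the full statement on the support of the trace.
-/

namespace Vale.Agent.Lib.P184

open SimpleGraph

open scoped BigOperators

theorem fine_torsion_classes {Γ V : Type*} [Group Γ] [MulAction Γ V] (K : SimpleGraph V)
    (hconn : K.Connected)
    (hact : ∀ (γ : Γ) (u w : V), K.Adj u w → K.Adj (γ • u) (γ • w))
    (δ : ℝ) (hδ : ∀ x y z w : V, (K.dist x z : ℝ) + K.dist y w
      ≤ max ((K.dist x y : ℝ) + K.dist z w) ((K.dist x w : ℝ) + K.dist y z) + 2 * δ)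
    (hfine : ∀ (u w : V), K.Adj u w → ∀ n : ℕ,
      {p : K.Walk u u | p.IsCycle ∧ s(u, w) ∈ p.edges ∧ p.length ≤ n}.Finite)
    (hstab : ∀ u w : V, K.Adj u w → {γ : Γ | γ • u = u ∧ γ • w = w}.Finite)
    (hcocpt : ∃ F : Finset (V × V), ∀ u w : V, K.Adj u w → ∃ γ : Γ, (γ • u, γ • w) ∈ F) :
    ∃ Φ : Finset Γ, ∀ γ : Γ, (∃ k : ℕ, 0 < k ∧ γ ^ k = 1) → (∀ v : V, γ • v ≠ v) →
      ∃ σ : Γ, σ * γ * σ⁻¹ ∈ Φ := by
  have hpaths := fine_paths K hfine
  have hpathsU : ∀ n : ℕ, ∃ A : ℕ, ∀ u w : V,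
      {p : K.Walk u w | p.IsPath ∧ p.length ≤ n}.ncard ≤ A :=
    fun n => fine_uniform_paths K hfine (fun n => fine_uniform_cycles K hact hfine hcocpt n) n
  have hstabU := fine_uniform_stab K hstab hcocpt
  exact fine_torsion_finite K hact hfine hstab hcocpt (⌈4 * δ⌉₊ + 1)
    (fine_torsion_order K hconn hact δ
      (fun O hO hne => fine_torsion_centres K hconn δ hδ O hO hne)
      (fun R D => fine_torsion_centre_bound K hconn hpaths hpathsU R D)
      (fun D => fine_torsion_pairstab K hconn hact hpaths hstab hpathsU hstabU D))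
    (fun γ n hn hγ hfix x₁ D hx₁ => fine_torsion_circuit K hconn hact γ n hn hγ hfix x₁ D hx₁)

theorem fine_vertex_reps {Γ V : Type*} [Group Γ] [MulAction Γ V] (K : SimpleGraph V)
    (hconn : K.Connected)
    (hcocpt : ∃ F : Finset (V × V), ∀ u w : V, K.Adj u w → ∃ γ : Γ, (γ • u, γ • w) ∈ F) :
    ∃ R₀ : Finset V, ∀ v : V, ∃ σ : Γ, σ • v ∈ R₀ := by
  classical
  obtain ⟨F, hF⟩ := hcocpt
  obtain ⟨v₀⟩ : Nonempty V := hconn.nonempty
  refine ⟨insert v₀ (F.image Prod.fst), fun v => ?_⟩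
  by_cases h : ∃ u, K.Adj v u
  · obtain ⟨u, hu⟩ := h
    obtain ⟨σ, hσ⟩ := hF v u hu
    exact ⟨σ, Finset.mem_insert_of_mem (Finset.mem_image.mpr ⟨_, hσ, rfl⟩)⟩
  · refine ⟨1, ?_⟩
    rw [one_smul]
    have hv : v = v₀ := by
      by_contra hne
      obtain ⟨u, hu, -⟩ := exists_adj_dist_succ K hconn v v₀ hne
      exact h ⟨u, hu⟩
    rw [hv]
    exact Finset.mem_insert_self _ _

theorem fine_torsion_all {Γ V : Type*} [Group Γ] [MulAction Γ V] (K : SimpleGraph V)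
    (hconn : K.Connected)
    (hact : ∀ (γ : Γ) (u w : V), K.Adj u w → K.Adj (γ • u) (γ • w))
    (δ : ℝ) (hδ : ∀ x y z w : V, (K.dist x z : ℝ) + K.dist y w
      ≤ max ((K.dist x y : ℝ) + K.dist z w) ((K.dist x w : ℝ) + K.dist y z) + 2 * δ)
    (hfine : ∀ (u w : V), K.Adj u w → ∀ n : ℕ,
      {p : K.Walk u u | p.IsCycle ∧ s(u, w) ∈ p.edges ∧ p.length ≤ n}.Finite)
    (hstab : ∀ u w : V, K.Adj u w → {γ : Γ | γ • u = u ∧ γ • w = w}.Finite)
    (hcocpt : ∃ F : Finset (V × V), ∀ u w : V, K.Adj u w → ∃ γ : Γ, (γ • u, γ • w) ∈ F)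
    (hT : ∀ v : V, ∃ T : Finset Γ, ∀ h : Γ, h • v = v → IsOfFinOrder h →
      ∃ t ∈ T, IsConj t h) :
    ∃ T : Finset Γ, ∀ g : Γ, IsOfFinOrder g → ∃ t ∈ T, IsConj t g := by
  classical
  obtain ⟨Φ, hΦ⟩ := fine_torsion_classes K hconn hact δ hδ hfine hstab hcocpt
  obtain ⟨R₀, hR₀⟩ := fine_vertex_reps (Γ := Γ) K hconn hcocpt
  choose Tv hTv using hT
  refine ⟨Φ ∪ R₀.biUnion Tv, fun g hg => ?_⟩
  obtain ⟨k, hk, hgk⟩ := isOfFinOrder_iff_pow_eq_one.mp hg
  by_cases hfix : ∃ v : V, g • v = v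
  · obtain ⟨v, hv⟩ := hfix
    obtain ⟨σ, hσ⟩ := hR₀ v
    have h1 : (σ * g * σ⁻¹) • (σ • v) = σ • v := by
      rw [mul_smul, mul_smul, inv_smul_smul, hv]
    have h2 : IsOfFinOrder (σ * g * σ⁻¹) := by
      rw [isOfFinOrder_iff_pow_eq_one]
      exact ⟨k, hk, by rw [conj_pow, hgk, mul_one, mul_inv_cancel]⟩
    obtain ⟨t, ht, htc⟩ := hTv (σ • v) (σ * g * σ⁻¹) h1 h2
    refine ⟨t, Finset.mem_union_right _ (Finset.mem_biUnion.mpr ⟨_, hσ, ht⟩), ?_⟩
    exact htc.trans (isConj_iff.mpr ⟨σ⁻¹, by group⟩)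
  · push Not at hfix
    obtain ⟨σ, hσ⟩ := hΦ g ⟨k, hk, hgk⟩ hfix
    exact ⟨σ * g * σ⁻¹, Finset.mem_union_left _ hσ, isConj_iff.mpr ⟨σ⁻¹, by group⟩⟩

theorem bass_of_finite_torsion {G : Type*} [Group G] (q : ℕ) (e : Fin q → Fin q → G → ℂ)
    (hinf : ∀ g : G, ¬ IsOfFinOrder g →
      HasSum (fun c : {c : G // IsConj g c} => ∑ i, e i i c.1) 0)
    (T : Finset G) (hT : ∀ g : G, IsOfFinOrder g → ∃ t ∈ T, IsConj t g) :
    ∃ F : Finset (ConjClasses G), (∀ g : G, ConjClasses.mk g ∈ F → IsOfFinOrder g) ∧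
      ∀ g : G, ConjClasses.mk g ∉ F →
        HasSum (fun c : {c : G // IsConj g c} => ∑ i, e i i c.1) 0 := by
  classical
  refine ⟨(T.filter (fun t => IsOfFinOrder t)).image ConjClasses.mk, ?_, ?_⟩
  · intro g hg
    obtain ⟨t, ht, htg⟩ := Finset.mem_image.mp hg
    have ht2 : IsOfFinOrder t := (Finset.mem_filter.mp ht).2
    obtain ⟨n, hn, htn⟩ := isOfFinOrder_iff_pow_eq_one.mp ht2
    obtain ⟨c, hc⟩ := isConj_iff.mp (ConjClasses.mk_eq_mk_iff_isConj.mp htg)
    rw [isOfFinOrder_iff_pow_eq_one]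
    refine ⟨n, hn, ?_⟩
    rw [← hc, conj_pow, htn, mul_one, mul_inv_cancel]
  · intro g hg
    refine hinf g (fun hfin => hg ?_)
    obtain ⟨t, ht, htc⟩ := hT g hfin
    obtain ⟨n, hn, hgn⟩ := isOfFinOrder_iff_pow_eq_one.mp hfin
    obtain ⟨c, hc⟩ := isConj_iff.mp htc.symm
    have ht2 : IsOfFinOrder t := by
      rw [isOfFinOrder_iff_pow_eq_one]
      refine ⟨n, hn, ?_⟩
      rw [← hc, conj_pow, hgn, mul_one, mul_inv_cancel]
    exact Finset.mem_image.mpr ⟨t, Finset.mem_filter.mpr ⟨ht, ht2⟩,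
      ConjClasses.mk_eq_mk_iff_isConj.mpr htc⟩

end Vale.Agent.Lib.P184
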