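import Mathlib

/-!
Four facts on finitely generated commutative groups: subgroups are finitely generated, and
there are finitely many elements of finite order.
-/

namespace Vale.Agent.Lib.P184

/-- Every subgroup of a finitely generated commutative group is finitely generated. -/
theorem virtAbelian_subgroup_fg {M : Type*} [CommGroup M] [Group.FG M] (S : Subgroup M) :
    S.FG := by
  rw [Subgroup.fg_iff_add_fg]
  have h1 : AddGroup.FG (Additive M) := GroupFG.iff_add_fg.mp inferInstance
  have h2 : Module.Finite ℤ (Additive M) := Module.Finite.iff_addGroup_fg.mpr h1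
  have h3 : IsNoetherian ℤ (Additive M) := isNoetherian_of_isNoetherianRing_of_finite ℤ _
  have h := IsNoetherian.noetherian (AddSubgroup.toIntSubmodule S.toAddSubgroup)
  rw [Submodule.fg_iff_addSubgroup_fg, AddSubgroup.toIntSubmodule_toAddSubgroup] at h
  exact h

/-- A finitely generated subgroup of a commutative group all of whose elements have finite
order is finite. -/
theorem virtAbelian_finite_of_torsion {M : Type*} [CommGroup M] [Group.FG M] (S : Subgroup M)
    (hS : ∀ s ∈ S, IsOfFinOrder s) : (S : Set M).Finite := by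
  have hfg : Group.FG S := (Group.fg_iff_subgroup_fg S).mpr (virtAbelian_subgroup_fg S)
  have htor : IsMulTorsion S := by
    intro s
    have h := hS s.1 s.2
    rw [isOfFinOrder_iff_pow_eq_one] at h ⊢
    obtain ⟨k, hk, hk1⟩ := h
    exact ⟨k, hk, Subtype.ext (by simpa using hk1)⟩
  have hfin : Finite S := CommGroup.finite_of_fg_isMulTorsion S htor
  exact Set.toFinite (S : Set M)

theorem virtAbelian_fg_pow_finite {M : Type*} [CommGroup M] [Group.FG M] (E : ℕ) (hE : 0 < E) :
    {m : M | m ^ E = 1}.Finite := by
  have h := virtAbelian_finite_of_torsion (powMonoidHom E : M →* M).ker (by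
    intro s hs
    rw [MonoidHom.mem_ker, powMonoidHom_apply] at hs
    exact isOfFinOrder_iff_pow_eq_one.mpr ⟨E, hE, hs⟩)
  refine h.subset ?_
  intro m hm
  have hm' : m ^ E = 1 := hm
  change m ∈ (powMonoidHom E : M →* M).ker
  rw [MonoidHom.mem_ker, powMonoidHom_apply]
  exact hm'

theorem virtAbelian_fg_torsion_finite {M : Type*} [CommGroup M] [Group.FG M] :
    {m : M | IsOfFinOrder m}.Finite := by
  have h := virtAbelian_finite_of_torsion (CommGroup.torsion M) (by
    intro s hs
    exact (CommGroup.mem_torsion s).mp hs)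
  refine h.subset ?_
  intro m hm
  have hm' : IsOfFinOrder m := hm
  change m ∈ CommGroup.torsion M
  exact (CommGroup.mem_torsion m).mpr hm'

theorem virtAbelian_sub_fg {Γ : Type*} [Group Γ] (A S : Subgroup Γ)
    (hA : ∀ a ∈ A, ∀ b ∈ A, a * b = b * a) (hfg : A.FG) (hS : S ≤ A) : S.FG := by
  let instA : CommGroup A :=
    { (inferInstance : Group A) with mul_comm := fun a b => Subtype.ext (hA a a.2 b b.2) }
  have hAfg : Group.FG A := (Group.fg_iff_subgroup_fg A).mpr hfg
  have h1 : (S.subgroupOf A).FG := virtAbelian_subgroup_fg (S.subgroupOf A)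
  have h2 : (S.subgroupOf A).map A.subtype = S := Subgroup.map_subgroupOf_eq_of_le hS
  rw [← h2]
  obtain ⟨T, hT⟩ := h1
  classical
  refine ⟨T.image A.subtype, ?_⟩
  rw [Finset.coe_image, ← MonoidHom.map_closure, hT]

end Vale.Agent.Lib.P184
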