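import Mathlib

/-!
A finitely generated virtually abelian group has only finitely many conjugacy classes of
finite-order elements.  The two facts on finitely generated commutative groups that are used
(finiteness of the elements killed by a fixed exponent, finiteness of the torsion) are explicit
hypotheses.
-/

universe u

namespace Vale.Agent.Lib.P184

/-- A uniform exponent for the finite-order elements of a group with a commutative subgroup of
finite index whose torsion is finite. -/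
theorem virtAbelian_exponent {P : Type u} [Group P] {A : Type u} [CommGroup A] (ι : A →* P)
    (hι : Function.Injective ι) (k : ℕ) (hk : 0 < k) (hkmem : ∀ y : P, ∃ a : A, ι a = y ^ k)
    (htorA : {m : A | IsOfFinOrder m}.Finite) :
    ∃ E : ℕ, 0 < E ∧ ∀ y : P, IsOfFinOrder y → y ^ E = 1 := by
  classical
  refine ⟨k * ∏ a ∈ htorA.toFinset, orderOf a, Nat.mul_pos hk (Finset.prod_pos ?_), ?_⟩
  · intro a ha
    exact (htorA.mem_toFinset.mp ha).orderOf_pos
  · intro y hy
    obtain ⟨a, ha⟩ := hkmem y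
    have hyk : IsOfFinOrder (y ^ k) := hy.pow
    obtain ⟨r, hr, hr1⟩ := isOfFinOrder_iff_pow_eq_one.mp hyk
    have hafin : IsOfFinOrder a := by
      refine isOfFinOrder_iff_pow_eq_one.mpr ⟨r, hr, hι ?_⟩
      rw [map_pow, ha, hr1, map_one]
    have hdvd : orderOf a ∣ ∏ a ∈ htorA.toFinset, orderOf a :=
      Finset.dvd_prod_of_mem _ (htorA.mem_toFinset.mpr hafin)
    have hae : a ^ (∏ a ∈ htorA.toFinset, orderOf a) = 1 := orderOf_dvd_iff_pow_eq_one.mp hdvd
    rw [pow_mul, ← ha, ← map_pow, hae, map_one]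

/-- In one coset of a commutative normal subgroup (given as the image of an injective
homomorphism from a finitely generated commutative group), the elements killed by the exponent
`E` fall into finitely many conjugacy classes. -/
theorem virtAbelian_coset {P : Type u} [Group P] {A : Type u} [CommGroup A] [Group.FG A]
    (ι : A →* P) (hι : Function.Injective ι)
    (hnorm : ∀ (x : P) (a : A), ∃ a' : A, ι a' = x⁻¹ * ι a * x)
    (hpow : ∀ (M : Type u) [CommGroup M] [Group.FG M] (E : ℕ), 0 < E →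
      {m : M | m ^ E = 1}.Finite)
    (E : ℕ) (hE : 0 < E) (x : P) (hx : x ^ E = 1) :
    ∃ R : Finset A, ∀ b : A, (x * ι b) ^ E = 1 → ∃ ρ ∈ R, IsConj (x * ι ρ) (x * ι b) := by
  classical
  choose κ hκ using hnorm x
  have hκmul : ∀ a b, κ (a * b) = κ a * κ b := by
    intro a b
    apply hι
    rw [hκ, map_mul, map_mul, hκ, hκ]
    group
  let η : A →* A := MonoidHom.mk' (fun a => κ a * a⁻¹) (by
    intro a b
    show κ (a * b) * (a * b)⁻¹ = κ a * a⁻¹ * (κ b * b⁻¹)
    rw [hκmul, mul_inv]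
    exact mul_mul_mul_comm _ _ _ _)
  have hη : ∀ a, η a = κ a * a⁻¹ := fun a => rfl
  have hcomm : ∀ a, ι a * x = x * ι (κ a) := by
    intro a
    rw [hκ]
    group
  let I : Subgroup A := η.range
  have hpowf : ∀ (b : A) (j : ℕ), ∃ c ∈ I, (x * ι b) ^ j = x ^ j * ι (b ^ j * c) := by
    intro b j
    induction j with
    | zero => exact ⟨1, I.one_mem, by simp⟩
    | succ j ih =>
      obtain ⟨c, hc, hj⟩ := ih
      refine ⟨c * η (b ^ j * c), I.mul_mem hc ⟨_, rfl⟩, ?_⟩
      have h1 : ι (b ^ j * c) * x = x * ι (κ (b ^ j * c)) := hcomm _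
      have h2 : b ^ (j + 1) * (c * η (b ^ j * c)) = κ (b ^ j * c) * b := by
        rw [hη, pow_succ]
        have h3 : b ^ j * b * (c * (κ (b ^ j * c) * (b ^ j * c)⁻¹)) =
            κ (b ^ j * c) * b * ((b ^ j * c) * (b ^ j * c)⁻¹) := by
          generalize κ (b ^ j * c) = k'
          generalize (b ^ j * c)⁻¹ = d'
          ac_rfl
        rw [h3, mul_inv_cancel, mul_one]
      calc (x * ι b) ^ (j + 1) = (x * ι b) ^ j * (x * ι b) := pow_succ _ _
        _ = x ^ j * ι (b ^ j * c) * (x * ι b) := by rw [hj]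
        _ = x ^ j * (ι (b ^ j * c) * x) * ι b := by simp only [mul_assoc]
        _ = x ^ j * (x * ι (κ (b ^ j * c))) * ι b := by rw [h1]
        _ = x ^ (j + 1) * ι (κ (b ^ j * c) * b) := by
          rw [map_mul, pow_succ]
          simp only [mul_assoc]
        _ = x ^ (j + 1) * ι (b ^ (j + 1) * (c * η (b ^ j * c))) := by rw [h2]
  have hfin := hpow (A ⧸ I) E hE
  refine ⟨hfin.toFinset.image Quotient.out, fun b hb => ?_⟩
  have hbE : b ^ E ∈ I := by
    obtain ⟨c, hc, hEq⟩ := hpowf b E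
    rw [hb, hx, one_mul] at hEq
    have h1 : b ^ E * c = 1 := hι (by rw [map_one]; exact hEq.symm)
    rw [eq_inv_of_mul_eq_one_left h1]
    exact I.inv_mem hc
  have hm : ((b : A) : A ⧸ I) ^ E = 1 := by
    rw [← QuotientGroup.mk_pow]
    exact (QuotientGroup.eq_one_iff _).mpr hbE
  have hρb : (Quotient.out ((b : A) : A ⧸ I))⁻¹ * b ∈ I :=
    QuotientGroup.eq.mp (QuotientGroup.out_eq' _)
  obtain ⟨a, ha⟩ := hρb
  refine ⟨Quotient.out ((b : A) : A ⧸ I),
    Finset.mem_image.mpr ⟨_, hfin.mem_toFinset.mpr hm, rfl⟩, isConj_iff.mpr ⟨ι a, ?_⟩⟩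
  generalize Quotient.out ((b : A) : A ⧸ I) = ρ at ha
  have h1 := hcomm a
  have h3 : κ a * ρ * a⁻¹ = b := by
    have h4 : κ a * a⁻¹ = ρ⁻¹ * b := ha
    calc κ a * ρ * a⁻¹ = ρ * (κ a * a⁻¹) := by ac_rfl
      _ = ρ * (ρ⁻¹ * b) := by rw [h4]
      _ = b := mul_inv_cancel_left ρ b
  calc ι a * (x * ι ρ) * (ι a)⁻¹ = (ι a * x) * ι ρ * (ι a)⁻¹ := by simp only [mul_assoc]
    _ = x * ι (κ a) * ι ρ * (ι a)⁻¹ := by rw [h1]
    _ = x * ι (κ a * ρ * a⁻¹) := by
      rw [map_mul, map_mul, map_inv]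
      simp only [mul_assoc]
    _ = x * ι b := by rw [h3]

theorem virtAbelian_torsion_classes {P : Type u} [Group P] (N : Subgroup P) [N.Normal]
    [N.FiniteIndex] (hN : ∀ a ∈ N, ∀ b ∈ N, a * b = b * a) (hfg : N.FG)
    (hpow : ∀ (M : Type u) [CommGroup M] [Group.FG M] (E : ℕ), 0 < E →
      {m : M | m ^ E = 1}.Finite)
    (htor : ∀ (M : Type u) [CommGroup M] [Group.FG M], {m : M | IsOfFinOrder m}.Finite) :
    ∃ T : Finset P, ∀ h : P, IsOfFinOrder h → ∃ t ∈ T, IsConj t h := by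
  classical
  let instC : CommGroup N :=
    { (inferInstance : Group N) with mul_comm := fun a b => Subtype.ext (hN a a.2 b b.2) }
  have instFG : Group.FG N := (Group.fg_iff_subgroup_fg N).mpr hfg
  have hι : Function.Injective (N.subtype : N →* P) := Subtype.coe_injective
  have hnorm : ∀ (x : P) (a : N), ∃ a' : N, N.subtype a' = x⁻¹ * N.subtype a * x := fun x a =>
    ⟨⟨x⁻¹ * a * x, by
      have h := (inferInstance : N.Normal).conj_mem a a.2 x⁻¹
      rwa [inv_inv] at h⟩, rfl⟩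
  obtain ⟨E, hE, hexp⟩ := virtAbelian_exponent (N.subtype) hι N.index
    (Nat.pos_of_ne_zero Subgroup.FiniteIndex.index_ne_zero)
    (fun y => ⟨⟨y ^ N.index, N.pow_index_mem y⟩, rfl⟩) (htor N)
  have hclaim : ∀ q : P ⧸ N, ∃ Tq : Finset P, ∀ y : P, IsOfFinOrder y → (y : P ⧸ N) = q →
      ∃ t ∈ Tq, IsConj t y := by
    intro q
    by_cases hq : ∃ x : P, IsOfFinOrder x ∧ (x : P ⧸ N) = q
    · obtain ⟨x, hxfin, hxq⟩ := hq
      obtain ⟨R, hR⟩ := virtAbelian_coset N.subtype hι hnorm hpow E hE x (hexp x hxfin)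
      refine ⟨R.image (fun ρ => x * N.subtype ρ), fun y hy hyq => ?_⟩
      have hmem : x⁻¹ * y ∈ N := QuotientGroup.eq.mp (hxq.trans hyq.symm)
      have hy' : x * N.subtype ⟨x⁻¹ * y, hmem⟩ = y := by
        show x * (x⁻¹ * y) = y
        rw [mul_inv_cancel_left]
      obtain ⟨ρ, hρ, hconj⟩ := hR ⟨x⁻¹ * y, hmem⟩ (by rw [hy']; exact hexp y hy)
      rw [hy'] at hconj
      exact ⟨x * N.subtype ρ, Finset.mem_image.mpr ⟨ρ, hρ, rfl⟩, hconj⟩
    · exact ⟨∅, fun y hy hyq => absurd ⟨y, hy, hyq⟩ hq⟩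
  choose Tq hTq using hclaim
  let _ := Fintype.ofFinite (P ⧸ N)
  refine ⟨Finset.univ.biUnion Tq, fun y hy => ?_⟩
  obtain ⟨t, ht, hc⟩ := hTq (y : P ⧸ N) y hy rfl
  exact ⟨t, Finset.mem_biUnion.mpr ⟨_, Finset.mem_univ _, ht⟩, hc⟩

end Vale.Agent.Lib.P184
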