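import Vale.Agent.Lib.P184.VirtAbelianStab
import Vale.Agent.Lib.P184.VirtAbelianFG
import Vale.Agent.Lib.P184.VirtAbelianTorsion

/-!
# Finitely many classes of finite-order elements in a vertex stabiliser covered by finitely
many cosets of a finitely generated commutative subgroup
-/

namespace Vale.Agent.Lib.P184

theorem virtAbelian_torsion_stab {Γ V : Type*} [Group Γ] [MulAction Γ V] (v : V)
    (A : Subgroup Γ) (hA : ∀ a ∈ A, ∀ b ∈ A, a * b = b * a) (hfg : A.FG) (T : Finset Γ)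
    (hT : ∀ h : Γ, h • v = v → ∃ t ∈ T, t⁻¹ * h ∈ A) :
    ∃ T' : Finset Γ, ∀ h : Γ, h • v = v → IsOfFinOrder h → ∃ t ∈ T', IsConj t h := by
  classical
  let P := MulAction.stabilizer Γ v
  -- representatives in the stabiliser of the cosets met by it
  let rep : {t : Γ // t ∈ T} → P := fun t =>
    if h : ∃ p : P, t.1⁻¹ * (p : Γ) ∈ A then Classical.choose h else 1
  have hrep : ∀ h : P, ∃ t : {t : Γ // t ∈ T}, (rep t)⁻¹ * h ∈ A.subgroupOf P := by
    intro h
    obtain ⟨t, htT, hth⟩ := hT (h : Γ) h.2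
    have hex : ∃ p : P, t⁻¹ * (p : Γ) ∈ A := ⟨h, hth⟩
    refine ⟨⟨t, htT⟩, ?_⟩
    have hrt : rep ⟨t, htT⟩ = Classical.choose hex := dif_pos hex
    have hspec : t⁻¹ * ((Classical.choose hex : P) : Γ) ∈ A := Classical.choose_spec hex
    rw [Subgroup.mem_subgroupOf, hrt]
    have heq : (((Classical.choose hex)⁻¹ * h : P) : Γ)
        = (t⁻¹ * ((Classical.choose hex : P) : Γ))⁻¹ * (t⁻¹ * (h : Γ)) := by
      push_cast
      group
    rw [heq]
    exact A.mul_mem (A.inv_mem hspec) hth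
  have hfi : (A.subgroupOf P).FiniteIndex :=
    virtAbelian_finiteIndex_of_cover (A.subgroupOf P) rep hrep
  have hN : ∀ a ∈ (A.subgroupOf P).normalCore, ∀ b ∈ (A.subgroupOf P).normalCore,
      a * b = b * a := by
    intro a ha b hb
    have ha' : (a : Γ) ∈ A := Subgroup.mem_subgroupOf.mp (Subgroup.normalCore_le _ ha)
    have hb' : (b : Γ) ∈ A := Subgroup.mem_subgroupOf.mp (Subgroup.normalCore_le _ hb)
    exact Subtype.ext (hA _ ha' _ hb')
  -- the normal core is finitely generated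
  have hle : ((A.subgroupOf P).normalCore).map P.subtype ≤ A := by
    intro x hx
    obtain ⟨a, ha, rfl⟩ := Subgroup.mem_map.mp hx
    exact Subgroup.mem_subgroupOf.mp (Subgroup.normalCore_le _ ha)
  have hmapfg : (((A.subgroupOf P).normalCore).map P.subtype).FG :=
    virtAbelian_sub_fg A _ hA hfg hle
  have hNfg : ((A.subgroupOf P).normalCore).FG := by
    have h1 : Group.FG ↥(((A.subgroupOf P).normalCore).map P.subtype) :=
      (Group.fg_iff_subgroup_fg _).mpr hmapfg
    have h2 : Group.FG ↥((A.subgroupOf P).normalCore) :=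
      Group.fg_of_surjective (f := ((Subgroup.equivMapOfInjective
        ((A.subgroupOf P).normalCore) P.subtype P.subtype_injective).symm).toMonoidHom)
        (MulEquiv.surjective _)
    exact (Group.fg_iff_subgroup_fg _).mp h2
  obtain ⟨TP, hTP⟩ := virtAbelian_torsion_classes (P := ↥P) (A.subgroupOf P).normalCore hN hNfg
    (fun M _ _ E hE => virtAbelian_fg_pow_finite E hE)
    (fun M _ _ => virtAbelian_fg_torsion_finite)
  refine ⟨TP.image Subtype.val, ?_⟩
  intro h hh hfin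
  have hfinP : IsOfFinOrder (⟨h, hh⟩ : P) := by
    rw [isOfFinOrder_iff_pow_eq_one] at hfin ⊢
    obtain ⟨k, hk, hk1⟩ := hfin
    exact ⟨k, hk, Subtype.ext (by rw [Subgroup.coe_pow]; exact hk1)⟩
  obtain ⟨t, htTP, hconj⟩ := hTP ⟨h, hh⟩ hfinP
  refine ⟨(t : Γ), Finset.mem_image.mpr ⟨t, htTP, rfl⟩, ?_⟩
  obtain ⟨c, hc⟩ := isConj_iff.mp hconj
  refine isConj_iff.mpr ⟨(c : Γ), ?_⟩
  have h1 := congrArg (fun x : P => (x : Γ)) hc
  simpa using h1

end Vale.Agent.Lib.P184
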