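import Vale.Agent.Lib.P184.FineVirtAbelian
import Vale.Agent.Lib.P184.FineTorsion
import Vale.Agent.Lib.P184.VirtAbelianTorsionStab

/-!
# The statement of the Bass conjecture for relatively hyperbolic groups

A group `Γ` acts on a connected fine hyperbolic graph `K` with finite edge stabilisers and
finitely many orbits of edges.

* `fine_twist_bass`: if every vertex stabiliser `P` has finitely many conjugacy classes of
  finite-order elements and every infinite-order element of `P` has a twist function on `P`,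
  then the trace of every idempotent matrix over the Banach group algebra of `Γ` is supported on
  finitely many classes of finite-order elements.
* `fine_virtAbelian_bass`: the same conclusion when every vertex stabiliser is covered by
  finitely many cosets of a finitely generated commutative subgroup.
-/

namespace Vale.Agent.Lib.P184

open scoped BigOperators

theorem fine_twist_bass {Γ V : Type*} [Group Γ] [MulAction Γ V] (K : SimpleGraph V)
    (hconn : K.Connected)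
    (hact : ∀ (γ : Γ) (u w : V), K.Adj u w → K.Adj (γ • u) (γ • w))
    (δ : ℝ) (hδ : ∀ x y z w : V, (K.dist x z : ℝ) + K.dist y w
      ≤ max ((K.dist x y : ℝ) + K.dist z w) ((K.dist x w : ℝ) + K.dist y z) + 2 * δ)
    (hfine : ∀ (u w : V), K.Adj u w → ∀ n : ℕ,
      {p : K.Walk u u | p.IsCycle ∧ s(u, w) ∈ p.edges ∧ p.length ≤ n}.Finite)
    (hstab : ∀ u w : V, K.Adj u w → {γ : Γ | γ • u = u ∧ γ • w = w}.Finite)
    (hcocpt : ∃ F : Finset (V × V), ∀ u w : V, K.Adj u w → ∃ γ : Γ, (γ • u, γ • w) ∈ F)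
    (hper : ∀ v : V,
      (∀ g : MulAction.stabilizer Γ v, ¬ IsOfFinOrder g →
        ∃ ψ : MulAction.stabilizer Γ v → ℝ,
          (∀ m, ∃ C : ℝ, ∀ h, |ψ (m * h) - ψ h| ≤ C) ∧
          (∀ z, z * g = g * z → ∀ h, ψ (h * z) - ψ h = ψ z - ψ 1) ∧ ψ g ≠ ψ 1) ∧
      ∃ T : Finset (MulAction.stabilizer Γ v),
        ∀ h : MulAction.stabilizer Γ v, IsOfFinOrder h → ∃ t ∈ T, IsConj t h)
    (q : ℕ) (e : Fin q → Fin q → Γ → ℂ)
    (he_sum : ∀ i j, Summable (fun x => ‖e i j x‖))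
    (he_idem : ∀ i j x, ∑ l, ∑' y, e i l y * e l j (y⁻¹ * x) = e i j x) :
    ∃ F : Finset (ConjClasses Γ), (∀ g : Γ, ConjClasses.mk g ∈ F → IsOfFinOrder g) ∧
      ∀ g : Γ, ConjClasses.mk g ∉ F →
        HasSum (fun c : {c : Γ // IsConj g c} => ∑ i, e i i c.1) 0 := by
  classical
  have hpaths := fine_paths K hfine
  -- finitely many classes of finite-order elements
  have hT : ∀ v : V, ∃ T : Finset Γ, ∀ h : Γ, h • v = v → IsOfFinOrder h →
      ∃ t ∈ T, IsConj t h := by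
    intro v
    obtain ⟨T, hT⟩ := (hper v).2
    refine ⟨T.image Subtype.val, fun h hh hfin => ?_⟩
    have hfin' : IsOfFinOrder (⟨h, hh⟩ : MulAction.stabilizer Γ v) := by
      obtain ⟨n, hn, hhn⟩ := isOfFinOrder_iff_pow_eq_one.mp hfin
      rw [isOfFinOrder_iff_pow_eq_one]
      exact ⟨n, hn, Subtype.ext (by simpa using hhn)⟩
    obtain ⟨t, ht, htc⟩ := hT ⟨h, hh⟩ hfin'
    refine ⟨t.1, Finset.mem_image.mpr ⟨t, ht, rfl⟩, ?_⟩
    obtain ⟨c, hc⟩ := isConj_iff.mp htc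
    refine isConj_iff.mpr ⟨c.1, ?_⟩
    have := congrArg Subtype.val hc
    simpa using this
  obtain ⟨T, hTall⟩ := fine_torsion_all K hconn hact δ hδ hfine hstab hcocpt hT
  refine bass_of_finite_torsion q e (fun g hg => ?_) T hTall
  -- vanishing at the classes of infinite order
  have hg' : ∀ k : ℕ, 0 < k → (MonoidHom.id Γ) g ^ k ≠ 1 := by
    intro k hk h1
    exact hg (isOfFinOrder_iff_pow_eq_one.mpr ⟨k, hk, h1⟩)
  rcases fine_classification K hconn hact δ hδ hfine hstab hcocpt g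
    (fun k hk h1 => hg (isOfFinOrder_iff_pow_eq_one.mpr ⟨k, hk, h1⟩))
    with ⟨v, hgv⟩ | ⟨x₀, ε, hε, hlox⟩
  · have hginf : ¬ IsOfFinOrder (⟨g, hgv⟩ : MulAction.stabilizer Γ v) := by
      intro hfin
      obtain ⟨n, hn, hgn⟩ := isOfFinOrder_iff_pow_eq_one.mp hfin
      refine hg (isOfFinOrder_iff_pow_eq_one.mpr ⟨n, hn, ?_⟩)
      have := congrArg Subtype.val hgn
      simpa using this
    obtain ⟨ψ, hψ1, hψ2, hψ3⟩ := (hper v).1 ⟨g, hgv⟩ hginf
    refine fine_parabolic_class_trace (MonoidHom.id Γ) K hconn hact δ hδ hpaths hstab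
      hcocpt g v hgv (fun h => if hh : h • v = v then ψ ⟨h, hh⟩ else 0) ?_ ?_ ?_
      q e he_sum he_idem
    · intro m hm
      obtain ⟨C, hC⟩ := hψ1 ⟨m, hm⟩
      refine ⟨C, fun h hh => ?_⟩
      have hmh : (m * h) • v = v := by rw [mul_smul, hh, hm]
      rw [dif_pos hmh, dif_pos hh]
      exact hC ⟨h, hh⟩
    · intro z hz hzg h hh
      have hhz : (h * z) • v = v := by rw [mul_smul, hz, hh]
      have h1v : (1 : Γ) • v = v := one_smul _ _
      rw [dif_pos hhz, dif_pos hh, dif_pos hz, dif_pos h1v]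
      exact hψ2 ⟨z, hz⟩ (Subtype.ext hzg) ⟨h, hh⟩
    · have h1v : (1 : Γ) • v = v := one_smul _ _
      have hgv' : (MonoidHom.id Γ) g • v = v := hgv
      rw [dif_pos hgv', dif_pos h1v]
      exact hψ3
  · exact fine_lox_class_trace (MonoidHom.id Γ) K hconn hact δ hδ hpaths hstab g x₀ ε hε hlox
      q e he_sum he_idem

theorem fine_virtAbelian_bass {Γ V : Type*} [Group Γ] [MulAction Γ V] (K : SimpleGraph V)
    (hconn : K.Connected)
    (hact : ∀ (γ : Γ) (u w : V), K.Adj u w → K.Adj (γ • u) (γ • w))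
    (δ : ℝ) (hδ : ∀ x y z w : V, (K.dist x z : ℝ) + K.dist y w
      ≤ max ((K.dist x y : ℝ) + K.dist z w) ((K.dist x w : ℝ) + K.dist y z) + 2 * δ)
    (hfine : ∀ (u w : V), K.Adj u w → ∀ n : ℕ,
      {p : K.Walk u u | p.IsCycle ∧ s(u, w) ∈ p.edges ∧ p.length ≤ n}.Finite)
    (hstab : ∀ u w : V, K.Adj u w → {γ : Γ | γ • u = u ∧ γ • w = w}.Finite)
    (hcocpt : ∃ F : Finset (V × V), ∀ u w : V, K.Adj u w → ∃ γ : Γ, (γ • u, γ • w) ∈ F)
    (hva : ∀ v : V, ∃ A : Subgroup Γ, (∀ a ∈ A, ∀ b ∈ A, a * b = b * a) ∧ A.FG ∧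
      ∃ T : Finset Γ, ∀ h : Γ, h • v = v → ∃ t ∈ T, t⁻¹ * h ∈ A)
    (q : ℕ) (e : Fin q → Fin q → Γ → ℂ)
    (he_sum : ∀ i j, Summable (fun x => ‖e i j x‖))
    (he_idem : ∀ i j x, ∑ l, ∑' y, e i l y * e l j (y⁻¹ * x) = e i j x) :
    ∃ F : Finset (ConjClasses Γ), (∀ g : Γ, ConjClasses.mk g ∈ F → IsOfFinOrder g) ∧
      ∀ g : Γ, ConjClasses.mk g ∉ F →
        HasSum (fun c : {c : Γ // IsConj g c} => ∑ i, e i i c.1) 0 := by
  classical
  have hT : ∀ v : V, ∃ T : Finset Γ, ∀ h : Γ, h • v = v → IsOfFinOrder h →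
      ∃ t ∈ T, IsConj t h := by
    intro v
    obtain ⟨A, hA, hfg, T, hT⟩ := hva v
    exact virtAbelian_torsion_stab v A hA hfg T hT
  obtain ⟨T, hTall⟩ := fine_torsion_all K hconn hact δ hδ hfine hstab hcocpt hT
  refine bass_of_finite_torsion q e (fun g hg => ?_) T hTall
  refine fine_virtAbelian_class_trace (MonoidHom.id Γ) K hconn hact δ hδ hfine hstab hcocpt
    (fun v => ?_) q e he_sum he_idem g
    (fun k hk h1 => hg (isOfFinOrder_iff_pow_eq_one.mpr ⟨k, hk, h1⟩))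
  obtain ⟨A, hA, -, T, hT⟩ := hva v
  exact ⟨A, hA, T, hT⟩

end Vale.Agent.Lib.P184
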