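import Vale.Agent.Lib.P184.FineHub

/-!
# An element with a bounded orbit fixes a vertex

Strong induction on the diameter of a nonempty stable set: a finite stable set contains a
periodic point, and the hubs of an infinite bounded stable set form a stable set of smaller
diameter.
-/

namespace Vale.Agent.Lib.P184

open SimpleGraph

/-- The hubs of a `g`-stable set form a `g`-stable set. -/
theorem fineBounded_hub_smul {Γ V : Type*} [Group Γ] [MulAction Γ V] (K : SimpleGraph V)
    (hconn : K.Connected)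
    (hact : ∀ (γ : Γ) (u w : V), K.Adj u w → K.Adj (γ • u) (γ • w))
    (g : Γ) (S : Set V) (hS : ∀ s ∈ S, g • s ∈ S) (v : V) (hv : IsHub K S v) :
    IsHub K S (g • v) := by
  obtain ⟨ℓ, hℓ, hinf⟩ := hv
  refine ⟨ℓ, hℓ, ?_⟩
  have h1 := hinf.image (f := fun u => g • u) (fun a _ b _ hab => smul_left_cancel g hab)
  refine h1.mono ?_
  rintro _ ⟨u, ⟨hadj, c, hc, hd1, hd2⟩, rfl⟩
  refine ⟨hact g v u hadj, g • c, hS c hc, ?_, ?_⟩
  · rw [graph_dist_smul K hconn hact]
    exact hd1
  · show K.dist (g • u) (g • c) + 1 = ℓ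
    rw [graph_dist_smul K hconn hact]
    exact hd2

/-- A finite nonempty `g`-stable set contains a point fixed by a positive power of `g`. -/
theorem fineBounded_finite {Γ V : Type*} [Group Γ] [MulAction Γ V]
    (g : Γ) (hpow : ∀ (k : ℕ) (v : V), 0 < k → g ^ k • v = v → g • v = v)
    (S : Set V) (hfin : S.Finite) (s : V) (hs : s ∈ S) (hS : ∀ s ∈ S, g • s ∈ S) :
    ∃ v : V, g • v = v := by
  have hmem : ∀ n : ℕ, g ^ n • s ∈ S := by
    intro n
    induction n with
    | zero => simpa using hs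
    | succ n ih =>
      rw [pow_succ', mul_smul]
      exact hS _ ih
  have hninj : ¬ Function.Injective (fun n : ℕ => g ^ n • s) := by
    intro hinj
    exact (Set.infinite_of_injective_forall_mem hinj hmem) hfin
  have key : ∀ i j : ℕ, i < j → g ^ i • s = g ^ j • s → ∃ v : V, g • v = v := by
    intro i j hlt h
    refine ⟨s, hpow (j - i) s (Nat.sub_pos_of_lt hlt) ?_⟩
    have h2 : g ^ j = g ^ i * g ^ (j - i) := by
      rw [← pow_add]
      congr 1
      omega
    rw [h2, mul_smul] at h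
    exact (smul_left_cancel _ h).symm
  rw [Function.Injective] at hninj
  push Not at hninj
  obtain ⟨i, j, hij, hne⟩ := hninj
  rcases lt_or_gt_of_ne hne with h | h
  · exact key i j h hij
  · exact key j i h hij.symm

/-- The main claim: a nonempty `g`-stable set of diameter at most `D` forces a fixed vertex. -/
theorem fineBounded_claim {Γ V : Type*} [Group Γ] [MulAction Γ V] (K : SimpleGraph V)
    (hconn : K.Connected)
    (hact : ∀ (γ : Γ) (u w : V), K.Adj u w → K.Adj (γ • u) (γ • w))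
    (hfar : ∀ (C : Set V) (v v' : V), IsHub K C v → IsHub K C v' → v ≠ v' →
      ∃ c₁ ∈ C, ∃ c₂ ∈ C, K.dist v v' + 2 ≤ K.dist c₁ c₂)
    (hex : ∀ (C : Set V), C.Infinite → ∀ (c₀ : V) (D : ℕ), (∀ c ∈ C, K.dist c₀ c ≤ D) →
      ∃ v, IsHub K C v)
    (g : Γ) (hpow : ∀ (k : ℕ) (v : V), 0 < k → g ^ k • v = v → g • v = v)
    (D : ℕ) : ∀ (S : Set V), S.Nonempty → (∀ s ∈ S, g • s ∈ S) →
      (∀ s ∈ S, ∀ s' ∈ S, K.dist s s' ≤ D) → ∃ v : V, g • v = v := by
  induction D using Nat.strong_induction_on with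
  | _ D ih =>
    intro S hne hS hdiam
    obtain ⟨s₀, hs₀⟩ := hne
    by_cases hfin : S.Finite
    · exact fineBounded_finite g hpow S hfin s₀ hs₀ hS
    · have hinf : S.Infinite := hfin
      obtain ⟨v, hv⟩ := hex S hinf s₀ D (fun c hc => hdiam s₀ hs₀ c hc)
      by_cases hall : ∀ v' : V, IsHub K S v' → v' = v
      · exact ⟨v, hall _ (fineBounded_hub_smul K hconn hact g S hS v hv)⟩
      · push Not at hall
        obtain ⟨v', hv', hne'⟩ := hall
        obtain ⟨c₁, hc₁, c₂, hc₂, hle⟩ := hfar S v' v hv' hv hne'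
        have hD := hdiam c₁ hc₁ c₂ hc₂
        have hpos : 0 < K.dist v' v := hconn.pos_dist_of_ne hne'
        refine ih (D - 2) (by omega) {w | IsHub K S w} ⟨v, hv⟩
          (fun w hw => fineBounded_hub_smul K hconn hact g S hS w hw) ?_
        intro a ha b hb
        by_cases hab : a = b
        · subst hab
          simp
        · obtain ⟨d₁, hd₁, d₂, hd₂, hle2⟩ := hfar S a b ha hb hab
          have hD2 := hdiam d₁ hd₁ d₂ hd₂
          omega

/-- An element with a bounded orbit fixes a vertex. -/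
theorem fine_fixed_of_bounded {Γ V : Type*} [Group Γ] [MulAction Γ V] (K : SimpleGraph V)
    (hconn : K.Connected)
    (hact : ∀ (γ : Γ) (u w : V), K.Adj u w → K.Adj (γ • u) (γ • w))
    (hfar : ∀ (C : Set V) (v v' : V), IsHub K C v → IsHub K C v' → v ≠ v' →
      ∃ c₁ ∈ C, ∃ c₂ ∈ C, K.dist v v' + 2 ≤ K.dist c₁ c₂)
    (hex : ∀ (C : Set V), C.Infinite → ∀ (c₀ : V) (D : ℕ), (∀ c ∈ C, K.dist c₀ c ≤ D) →
      ∃ v, IsHub K C v)
    (g : Γ) (hpow : ∀ (k : ℕ) (v : V), 0 < k → g ^ k • v = v → g • v = v)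
    (x : V) (D : ℕ) (hbdd : ∀ n : ℕ, K.dist x (g ^ n • x) ≤ D) : ∃ v : V, g • v = v := by
  refine fineBounded_claim K hconn hact hfar hex g hpow D
    (Set.range (fun n : ℕ => g ^ n • x)) ⟨_, ⟨0, rfl⟩⟩ ?_ ?_
  · rintro _ ⟨n, rfl⟩
    refine ⟨n + 1, ?_⟩
    show g ^ (n + 1) • x = g • g ^ n • x
    rw [pow_succ', mul_smul]
  · have key : ∀ m n : ℕ, m ≤ n → K.dist (g ^ m • x) (g ^ n • x) ≤ D := by
      intro m n hmn
      have h2 : g ^ n = g ^ m * g ^ (n - m) := by
        rw [← pow_add]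
        congr 1
        omega
      rw [h2, mul_smul, graph_dist_smul K hconn hact]
      exact hbdd _
    rintro _ ⟨m, rfl⟩ _ ⟨n, rfl⟩
    show K.dist (g ^ m • x) (g ^ n • x) ≤ D
    rcases le_total m n with h | h
    · exact key m n h
    · rw [SimpleGraph.dist_comm]
      exact key n m h

end Vale.Agent.Lib.P184
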