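import Vale.Agent.Lib.P184.VirtAbelian

/-!
# A twist function on a vertex stabiliser covered by finitely many cosets of a commutative
subgroup

If the stabiliser of `v` is covered by finitely many left cosets of a commutative subgroup `A`
of the ambient group, then it is virtually abelian, and `virtAbelian_twist` supplies a twist
function on it; here the function is extended by zero to the ambient group.
-/

namespace Vale.Agent.Lib.P184

/-- A subgroup of `P` whose left cosets are all represented by finitely many elements has finite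
index. -/
theorem virtAbelian_finiteIndex_of_cover {P : Type*} [Group P] (B : Subgroup P)
    {ι : Type*} [Finite ι] (rep : ι → P) (hrep : ∀ h : P, ∃ i : ι, (rep i)⁻¹ * h ∈ B) :
    B.FiniteIndex := by
  have hsurj : Function.Surjective (fun i : ι => (rep i : P ⧸ B)) := by
    intro x
    induction x using QuotientGroup.induction_on with
    | H h =>
      obtain ⟨i, hi⟩ := hrep h
      exact ⟨i, QuotientGroup.eq.mpr hi⟩
  have hfin : Finite (P ⧸ B) := Finite.of_surjective _ hsurj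
  exact Subgroup.finiteIndex_of_finite_quotient

theorem virtAbelian_twist_stab {Γ V : Type*} [Group Γ] [MulAction Γ V] (v : V) (A : Subgroup Γ)
    (hA : ∀ a ∈ A, ∀ b ∈ A, a * b = b * a) (T : Finset Γ)
    (hT : ∀ h : Γ, h • v = v → ∃ t ∈ T, t⁻¹ * h ∈ A) (g : Γ) (hgv : g • v = v)
    (hg : ∀ k : ℕ, 0 < k → g ^ k ≠ 1) :
    ∃ ψ : Γ → ℝ, (∀ m : Γ, m • v = v → ∃ C : ℝ, ∀ h : Γ, h • v = v → |ψ (m * h) - ψ h| ≤ C) ∧
      (∀ z : Γ, z • v = v → z * g = g * z →
        ∀ h : Γ, h • v = v → ψ (h * z) - ψ h = ψ z - ψ 1) ∧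
      ψ g ≠ ψ 1 := by
  classical
  let P := MulAction.stabilizer Γ v
  -- representatives in the stabiliser of the cosets met by it
  let rep : {t : Γ // t ∈ T} → P := fun t =>
    if h : ∃ p : P, t.1⁻¹ * (p : Γ) ∈ A then Classical.choose h else 1
  have hrep : ∀ h : P, ∃ t : {t : Γ // t ∈ T}, (rep t)⁻¹ * h ∈ A.subgroupOf P := by
    intro h
    obtain ⟨t, htT, hth⟩ := hT (h : Γ) h.2
    have hex : ∃ p : P, t⁻¹ * (p : Γ) ∈ A := ⟨h, hth⟩
    refine ⟨⟨t, htT⟩, ?_⟩
    have hrt : rep ⟨t, htT⟩ = Classical.choose hex := dif_pos hex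
    have hspec : t⁻¹ * ((Classical.choose hex : P) : Γ) ∈ A := Classical.choose_spec hex
    rw [Subgroup.mem_subgroupOf, hrt]
    have heq : (((Classical.choose hex)⁻¹ * h : P) : Γ)
        = (t⁻¹ * ((Classical.choose hex : P) : Γ))⁻¹ * (t⁻¹ * (h : Γ)) := by
      push_cast
      group
    rw [heq]
    exact A.mul_mem (A.inv_mem hspec) hth
  have hfi : (A.subgroupOf P).FiniteIndex :=
    virtAbelian_finiteIndex_of_cover (A.subgroupOf P) rep hrep
  have hN : ∀ a ∈ (A.subgroupOf P).normalCore, ∀ b ∈ (A.subgroupOf P).normalCore,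
      a * b = b * a := by
    intro a ha b hb
    have ha' : (a : Γ) ∈ A := Subgroup.mem_subgroupOf.mp (Subgroup.normalCore_le _ ha)
    have hb' : (b : Γ) ∈ A := Subgroup.mem_subgroupOf.mp (Subgroup.normalCore_le _ hb)
    exact Subtype.ext (hA _ ha' _ hb')
  have hgP : ∀ k : ℕ, 0 < k → (⟨g, hgv⟩ : P) ^ k ≠ 1 := by
    intro k hk h1
    have h2 := congrArg (fun x : P => (x : Γ)) h1
    exact hg k hk (by simpa using h2)
  obtain ⟨χ, hχ1, hχ2, hχ3⟩ := virtAbelian_twist (A.subgroupOf P).normalCore hN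
    (⟨g, hgv⟩ : P) hgP
  refine ⟨fun h => if hh : h • v = v then χ ⟨h, hh⟩ else 0, ?_, ?_, ?_⟩
  · intro m hm
    obtain ⟨C, hC⟩ := hχ1 ⟨m, hm⟩
    refine ⟨C, fun h hh => ?_⟩
    have hmh : (m * h) • v = v := by rw [mul_smul, hh, hm]
    beta_reduce
    rw [dif_pos hmh, dif_pos hh]
    exact hC ⟨h, hh⟩
  · intro z hz hzg h hh
    have hhz : (h * z) • v = v := by rw [mul_smul, hz, hh]
    have h1v : (1 : Γ) • v = v := one_smul _ _
    beta_reduce
    rw [dif_pos hhz, dif_pos hh, dif_pos hz, dif_pos h1v]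
    have hcomm : (⟨z, hz⟩ : P) * ⟨g, hgv⟩ = ⟨g, hgv⟩ * ⟨z, hz⟩ := Subtype.ext hzg
    exact hχ2 ⟨z, hz⟩ hcomm ⟨h, hh⟩
  · have h1v : (1 : Γ) • v = v := one_smul _ _
    beta_reduce
    rw [dif_pos hgv, dif_pos h1v]
    exact hχ3

end Vale.Agent.Lib.P184
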