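import Vale.Agent.Lib.P184.FineBass
import Vale.Agent.Lib.P184.CatZeroGroup
import Vale.Agent.Lib.P184.VirtAbelianStab

/-!
# Relatively hyperbolic groups with `CAT(0)` or virtually abelian peripheral subgroups

* `axis_twist`: an isometry with an axis in a space satisfying the quadrilateral inequality has a
  twisting function (the Busemann function of the axis).
* `cn_twist`, `cn_torsion_classes`: for a group acting metrically properly and cocompactly on a
  space satisfying the `CN` inequality, every element of infinite order has a twisting function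
  and the elements of finite order fall into finitely many conjugacy classes.
* `fine_twist_bass_stab`: the transfer theorem for a group acting on a fine hyperbolic graph, with
  the hypotheses on vertex stabilisers stated inside the ambient group.
* `fine_catzero_bass`: the statement of the Bass conjecture for a group acting on a fine
  hyperbolic graph all of whose vertex stabilisers are finitely generated virtually abelian or
  act properly and cocompactly on a space satisfying the `CN` inequality.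
-/

namespace Vale.Agent.Lib.P184

open scoped BigOperators

theorem axis_twist {G : Type*} [Group G] {X : Type*} [PseudoMetricSpace X] [MulAction G X]
    [IsIsometricSMul G X]
    (hquad : ∀ x y z w : X, dist x z ^ 2 + dist y w ^ 2
      ≤ dist x y ^ 2 + dist y z ^ 2 + dist z w ^ 2 + dist w x ^ 2)
    (g : G) (x₀ : X) (τ : ℝ) (hτ : 0 < τ) (haxis : ∀ k : ℕ, dist x₀ (g ^ k • x₀) = k * τ) :
    ∃ ψ : G → ℝ, (∀ m, ∃ C : ℝ, ∀ h, |ψ (m * h) - ψ h| ≤ C) ∧
      (∀ z, z * g = g * z → ∀ h, ψ (h * z) - ψ h = ψ z - ψ 1) ∧ ψ g ≠ ψ 1 := by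
  classical
  obtain ⟨ψ, hψ⟩ : ∃ ψ : G → ℝ, ψ = fun h => axisBus g τ x₀ (h⁻¹ • x₀) := ⟨_, rfl⟩
  refine ⟨ψ, ?_, ?_, ?_⟩
  · intro m
    refine ⟨dist (m⁻¹ • x₀) x₀, fun h => ?_⟩
    rw [hψ]
    have h1 := axisBus_lipschitz g τ x₀ haxis ((m * h)⁻¹ • x₀) (h⁻¹ • x₀)
    have h2 : dist ((m * h)⁻¹ • x₀) (h⁻¹ • x₀) = dist (m⁻¹ • x₀) x₀ := by
      rw [mul_inv_rev, mul_smul, dist_smul]
    rw [h2] at h1
    exact h1
  · intro z hz h
    have hcomm : ∀ k : ℕ, g ^ k * z = z * g ^ k := by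
      intro k
      have : Commute z g := hz
      exact (this.pow_right k).eq.symm
    have hzaxis : ∀ k : ℕ, dist (z • x₀) (g ^ k • z • x₀) = k * τ := by
      intro k
      rw [← mul_smul, hcomm k, mul_smul, dist_smul]
      exact haxis k
    have hequiv : ∀ u : X, axisBus g τ x₀ (z⁻¹ • u) = axisBus g τ (z • x₀) u := by
      intro u
      unfold axisBus
      congr 1
      funext k
      unfold axisSeq
      congr 1
      rw [← mul_smul, hcomm k, mul_smul]
      conv_rhs => rw [← dist_smul z⁻¹]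
      rw [inv_smul_smul]
    have hconst : ∀ u : X, axisBus g τ x₀ (z⁻¹ • u)
        = axisBus g τ x₀ u + axisBus g τ (z • x₀) x₀ := by
      intro u
      rw [hequiv u]
      exact axisBus_eq_add hquad g τ hτ x₀ (z • x₀) haxis hzaxis u
    rw [hψ]
    simp only [mul_inv_rev, mul_smul, inv_one, one_smul]
    rw [hconst (h⁻¹ • x₀), hconst x₀]
    ring
  · rw [hψ]
    simp only [inv_one, one_smul]
    have h1 : axisBus g τ x₀ x₀ = 0 := by
      unfold axisBus
      have : axisSeq g τ x₀ x₀ = fun _ => 0 := by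
        funext k
        unfold axisSeq
        rw [haxis k]
        ring
      rw [this]
      exact ciInf_const
    have h2 : axisBus g τ x₀ (g⁻¹ • x₀) = τ := by
      unfold axisBus
      have : axisSeq g τ x₀ (g⁻¹ • x₀) = fun _ => τ := by
        funext k
        unfold axisSeq
        have h3 : dist (g⁻¹ • x₀) (g ^ k • x₀) = dist x₀ (g ^ (k + 1) • x₀) := by
          rw [← dist_smul g, smul_inv_smul, ← mul_smul, ← pow_succ']
        rw [h3, haxis (k + 1)]
        push_cast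
        ring
      rw [this]
      exact ciInf_const
    rw [h1, h2]
    exact hτ.ne'

section CN

variable {G : Type*} [Group G] {X : Type*} [MetricSpace X] [Nonempty X]
  [MulAction G X] [IsIsometricSMul G X]

theorem cn_twist
    (hCN : ∀ x y : X, ∃ m : X, ∀ z : X,
      dist z m ^ 2 ≤ (dist z x ^ 2 + dist z y ^ 2) / 2 - dist x y ^ 2 / 4)
    (hproper : ∀ (x : X) (R : ℝ), {γ : G | dist (γ • x) x ≤ R}.Finite)
    (K : Set X) (hK : IsCompact K) (hcocompact : ∀ x : X, ∃ γ : G, γ • x ∈ K)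
    (g : G) (hg : ¬ IsOfFinOrder g) :
    ∃ ψ : G → ℝ, (∀ m, ∃ C : ℝ, ∀ h, |ψ (m * h) - ψ h| ≤ C) ∧
      (∀ z, z * g = g * z → ∀ h, ψ (h * z) - ψ h = ψ z - ψ 1) ∧ ψ g ≠ ψ 1 := by
  classical
  obtain ⟨x₀, hx₀⟩ := exists_min_displacement hproper K hK hcocompact g
  have hpos : 0 < dist x₀ (g • x₀) := by
    rcases (dist_nonneg (x := x₀) (y := g • x₀)).lt_or_eq with h | h
    · exact h
    · exfalso
      apply hg
      have hfix : g • x₀ = x₀ := (dist_eq_zero.mp h.symm).symm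
      have hpow : ∀ n : ℕ, g ^ n • x₀ = x₀ := by
        intro n
        induction n with
        | zero => simp
        | succ n ih => rw [pow_succ, mul_smul, hfix, ih]
      rw [← finite_powers, Submonoid.coe_powers]
      refine (hproper x₀ 0).subset ?_
      rintro _ ⟨n, rfl⟩
      change dist (g ^ n • x₀) x₀ ≤ 0
      rw [hpow n, dist_self]
  exact axis_twist (quadrilateral_of_cn hCN) g x₀ (dist x₀ (g • x₀)) hpos
    (cn_axis hCN g x₀ hx₀)

theorem cn_torsion_classes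
    (hCN : ∀ x y : X, ∃ m : X, ∀ z : X,
      dist z m ^ 2 ≤ (dist z x ^ 2 + dist z y ^ 2) / 2 - dist x y ^ 2 / 4)
    (hproper : ∀ (x : X) (R : ℝ), {γ : G | dist (γ • x) x ≤ R}.Finite)
    (K : Set X) (hK : IsCompact K) (hcocompact : ∀ x : X, ∃ γ : G, γ • x ∈ K) :
    ∃ T : Finset G, ∀ h : G, IsOfFinOrder h → ∃ t ∈ T, IsConj t h := by
  classical
  have hSfin : {s : G | ∃ y ∈ K, s • y = y}.Finite := by
    refine (finite_moving_set hproper K hK 0).subset ?_
    rintro s ⟨y, hy, hsy⟩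
    exact ⟨y, hy, by rw [hsy, dist_self]⟩
  refine ⟨hSfin.toFinset, fun h hh => ?_⟩
  obtain ⟨x₀, hx₀⟩ := exists_min_displacement hproper K hK hcocompact h
  have hfix : h • x₀ = x₀ := by
    by_contra hne
    have hpos : 0 < dist x₀ (h • x₀) := dist_pos.mpr (fun heq => hne heq.symm)
    obtain ⟨n, hn, hhn⟩ := isOfFinOrder_iff_pow_eq_one.mp hh
    have h1 := cn_axis hCN h x₀ hx₀ n
    rw [hhn, one_smul, dist_self] at h1
    have hn' : (0 : ℝ) < n := by exact_mod_cast hn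
    have h2 : (0 : ℝ) < n * dist x₀ (h • x₀) := mul_pos hn' hpos
    linarith
  obtain ⟨γ, hγ⟩ := hcocompact x₀
  refine ⟨γ * h * γ⁻¹, ?_, isConj_iff.mpr ⟨γ⁻¹, by group⟩⟩
  rw [Set.Finite.mem_toFinset]
  exact ⟨γ • x₀, hγ, by rw [conj_smul, hfix]⟩

end CN

theorem fine_twist_bass_stab {Γ V : Type*} [Group Γ] [MulAction Γ V] (K : SimpleGraph V)
    (hconn : K.Connected)
    (hact : ∀ (γ : Γ) (u w : V), K.Adj u w → K.Adj (γ • u) (γ • w))
    (δ : ℝ) (hδ : ∀ x y z w : V, (K.dist x z : ℝ) + K.dist y w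
      ≤ max ((K.dist x y : ℝ) + K.dist z w) ((K.dist x w : ℝ) + K.dist y z) + 2 * δ)
    (hfine : ∀ (u w : V), K.Adj u w → ∀ n : ℕ,
      {p : K.Walk u u | p.IsCycle ∧ s(u, w) ∈ p.edges ∧ p.length ≤ n}.Finite)
    (hstab : ∀ u w : V, K.Adj u w → {γ : Γ | γ • u = u ∧ γ • w = w}.Finite)
    (hcocpt : ∃ F : Finset (V × V), ∀ u w : V, K.Adj u w → ∃ γ : Γ, (γ • u, γ • w) ∈ F)
    (hper : ∀ v : V,
      (∀ g : Γ, g • v = v → ¬ IsOfFinOrder g →
        ∃ ψ : Γ → ℝ,
          (∀ m : Γ, m • v = v → ∃ C : ℝ, ∀ h : Γ, h • v = v → |ψ (m * h) - ψ h| ≤ C) ∧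
          (∀ z : Γ, z • v = v → z * g = g * z →
            ∀ h : Γ, h • v = v → ψ (h * z) - ψ h = ψ z - ψ 1) ∧
          ψ g ≠ ψ 1) ∧
      ∃ T : Finset Γ, ∀ h : Γ, h • v = v → IsOfFinOrder h → ∃ t ∈ T, IsConj t h)
    (q : ℕ) (e : Fin q → Fin q → Γ → ℂ)
    (he_sum : ∀ i j, Summable (fun x => ‖e i j x‖))
    (he_idem : ∀ i j x, ∑ l, ∑' y, e i l y * e l j (y⁻¹ * x) = e i j x) :
    ∃ F : Finset (ConjClasses Γ), (∀ g : Γ, ConjClasses.mk g ∈ F → IsOfFinOrder g) ∧
      ∀ g : Γ, ConjClasses.mk g ∉ F →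
        HasSum (fun c : {c : Γ // IsConj g c} => ∑ i, e i i c.1) 0 := by
  classical
  have hpaths := fine_paths K hfine
  obtain ⟨T, hTall⟩ := fine_torsion_all K hconn hact δ hδ hfine hstab hcocpt
    (fun v => (hper v).2)
  refine bass_of_finite_torsion q e (fun g hg => ?_) T hTall
  rcases fine_classification K hconn hact δ hδ hfine hstab hcocpt g
    (fun k hk h1 => hg (isOfFinOrder_iff_pow_eq_one.mpr ⟨k, hk, h1⟩))
    with ⟨v, hgv⟩ | ⟨x₀, ε, hε, hlox⟩
  · obtain ⟨ψ, hψ1, hψ2, hψ3⟩ := (hper v).1 g hgv hg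
    exact fine_parabolic_class_trace (MonoidHom.id Γ) K hconn hact δ hδ hpaths hstab
      hcocpt g v hgv ψ hψ1 hψ2 hψ3 q e he_sum he_idem
  · exact fine_lox_class_trace (MonoidHom.id Γ) K hconn hact δ hδ hpaths hstab g x₀ ε hε hlox
      q e he_sum he_idem

/-- Passage from a twisting function on the stabiliser subgroup to one on the ambient group. -/
theorem twist_of_stabilizer {Γ V : Type*} [Group Γ] [MulAction Γ V] (v : V) (g : Γ)
    (hgv : g • v = v)
    (h : ∃ ψ : MulAction.stabilizer Γ v → ℝ,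
      (∀ m, ∃ C : ℝ, ∀ h, |ψ (m * h) - ψ h| ≤ C) ∧
      (∀ z, z * (⟨g, hgv⟩ : MulAction.stabilizer Γ v) = ⟨g, hgv⟩ * z →
        ∀ h, ψ (h * z) - ψ h = ψ z - ψ 1) ∧
      ψ ⟨g, hgv⟩ ≠ ψ 1) :
    ∃ ψ : Γ → ℝ,
      (∀ m : Γ, m • v = v → ∃ C : ℝ, ∀ h : Γ, h • v = v → |ψ (m * h) - ψ h| ≤ C) ∧
      (∀ z : Γ, z • v = v → z * g = g * z →
        ∀ h : Γ, h • v = v → ψ (h * z) - ψ h = ψ z - ψ 1) ∧
      ψ g ≠ ψ 1 := by
  classical
  obtain ⟨ψ, hψ1, hψ2, hψ3⟩ := h
  refine ⟨fun h => if hh : h • v = v then ψ ⟨h, hh⟩ else 0, ?_, ?_, ?_⟩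
  · intro m hm
    obtain ⟨C, hC⟩ := hψ1 ⟨m, hm⟩
    refine ⟨C, fun h hh => ?_⟩
    have hmh : (m * h) • v = v := by rw [mul_smul, hh, hm]
    beta_reduce
    rw [dif_pos hmh, dif_pos hh]
    exact hC ⟨h, hh⟩
  · intro z hz hzg h hh
    have hhz : (h * z) • v = v := by rw [mul_smul, hz, hh]
    have h1v : (1 : Γ) • v = v := one_smul _ _
    beta_reduce
    rw [dif_pos hhz, dif_pos hh, dif_pos hz, dif_pos h1v]
    exact hψ2 ⟨z, hz⟩ (Subtype.ext hzg) ⟨h, hh⟩
  · have h1v : (1 : Γ) • v = v := one_smul _ _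
    beta_reduce
    rw [dif_pos hgv, dif_pos h1v]
    exact hψ3

/-- Passage from conjugacy classes of finite-order elements of the stabiliser subgroup to the
ambient group. -/
theorem torsion_of_stabilizer {Γ V : Type*} [Group Γ] [MulAction Γ V] (v : V)
    (h : ∃ T : Finset (MulAction.stabilizer Γ v),
      ∀ h : MulAction.stabilizer Γ v, IsOfFinOrder h → ∃ t ∈ T, IsConj t h) :
    ∃ T : Finset Γ, ∀ h : Γ, h • v = v → IsOfFinOrder h → ∃ t ∈ T, IsConj t h := by
  classical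
  obtain ⟨T, hT⟩ := h
  refine ⟨T.image Subtype.val, fun h hh hfin => ?_⟩
  have hfin' : IsOfFinOrder (⟨h, hh⟩ : MulAction.stabilizer Γ v) := by
    obtain ⟨n, hn, hhn⟩ := isOfFinOrder_iff_pow_eq_one.mp hfin
    rw [isOfFinOrder_iff_pow_eq_one]
    exact ⟨n, hn, Subtype.ext (by simpa using hhn)⟩
  obtain ⟨t, ht, htc⟩ := hT ⟨h, hh⟩ hfin'
  refine ⟨t.1, Finset.mem_image.mpr ⟨t, ht, rfl⟩, ?_⟩
  obtain ⟨c, hc⟩ := isConj_iff.mp htc
  refine isConj_iff.mpr ⟨c.1, ?_⟩
  have := congrArg Subtype.val hc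
  simpa using this

universe u v w

theorem fine_catzero_bass {Γ : Type u} {V : Type v} [Group Γ] [MulAction Γ V]
    (K : SimpleGraph V) (hconn : K.Connected)
    (hact : ∀ (γ : Γ) (u w : V), K.Adj u w → K.Adj (γ • u) (γ • w))
    (δ : ℝ) (hδ : ∀ x y z w : V, (K.dist x z : ℝ) + K.dist y w
      ≤ max ((K.dist x y : ℝ) + K.dist z w) ((K.dist x w : ℝ) + K.dist y z) + 2 * δ)
    (hfine : ∀ (u w : V), K.Adj u w → ∀ n : ℕ,
      {p : K.Walk u u | p.IsCycle ∧ s(u, w) ∈ p.edges ∧ p.length ≤ n}.Finite)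
    (hstab : ∀ u w : V, K.Adj u w → {γ : Γ | γ • u = u ∧ γ • w = w}.Finite)
    (hcocpt : ∃ F : Finset (V × V), ∀ u w : V, K.Adj u w → ∃ γ : Γ, (γ • u, γ • w) ∈ F)
    (hper : ∀ v : V,
      (∃ A : Subgroup Γ, (∀ a ∈ A, ∀ b ∈ A, a * b = b * a) ∧ A.FG ∧
        ∃ T : Finset Γ, ∀ h : Γ, h • v = v → ∃ t ∈ T, t⁻¹ * h ∈ A) ∨
      (∃ (X : Type w) (_ : MetricSpace X) (_ : MulAction (MulAction.stabilizer Γ v) X),
        Nonempty X ∧
        (∀ (p : MulAction.stabilizer Γ v) (x y : X), dist (p • x) (p • y) = dist x y) ∧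
        (∀ x y : X, ∃ m : X, ∀ z : X,
          dist z m ^ 2 ≤ (dist z x ^ 2 + dist z y ^ 2) / 2 - dist x y ^ 2 / 4) ∧
        (∀ (x : X) (R : ℝ), {p : MulAction.stabilizer Γ v | dist (p • x) x ≤ R}.Finite) ∧
        ∃ C : Set X, IsCompact C ∧ ∀ x : X, ∃ p : MulAction.stabilizer Γ v, p • x ∈ C))
    (q : ℕ) (e : Fin q → Fin q → Γ → ℂ)
    (he_sum : ∀ i j, Summable (fun x => ‖e i j x‖))
    (he_idem : ∀ i j x, ∑ l, ∑' y, e i l y * e l j (y⁻¹ * x) = e i j x) :
    ∃ F : Finset (ConjClasses Γ), (∀ g : Γ, ConjClasses.mk g ∈ F → IsOfFinOrder g) ∧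
      ∀ g : Γ, ConjClasses.mk g ∉ F →
        HasSum (fun c : {c : Γ // IsConj g c} => ∑ i, e i i c.1) 0 := by
  classical
  refine fine_twist_bass_stab K hconn hact δ hδ hfine hstab hcocpt (fun v => ?_) q e
    he_sum he_idem
  rcases hper v with ⟨A, hA, hfg, T, hT⟩ | ⟨X, instM, instA, hne, hiso, hCN, hproper, C, hC, hcoc⟩
  · refine ⟨fun g hgv hg => ?_, virtAbelian_torsion_stab v A hA hfg T hT⟩
    exact virtAbelian_twist_stab v A hA T hT g hgv
      (fun k hk h1 => hg (isOfFinOrder_iff_pow_eq_one.mpr ⟨k, hk, h1⟩))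
  · have : IsIsometricSMul (MulAction.stabilizer Γ v) X :=
      ⟨fun p => Isometry.of_dist_eq (hiso p)⟩
    refine ⟨fun g hgv hg => ?_, ?_⟩
    · refine twist_of_stabilizer v g hgv ?_
      have hginf : ¬ IsOfFinOrder (⟨g, hgv⟩ : MulAction.stabilizer Γ v) := by
        intro hfin
        obtain ⟨n, hn, hgn⟩ := isOfFinOrder_iff_pow_eq_one.mp hfin
        refine hg (isOfFinOrder_iff_pow_eq_one.mpr ⟨n, hn, ?_⟩)
        have := congrArg Subtype.val hgn
        simpa using this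
      exact cn_twist hCN hproper C hC hcoc ⟨g, hgv⟩ hginf
    · exact torsion_of_stabilizer v (cn_torsion_classes hCN hproper C hC hcoc)

end Vale.Agent.Lib.P184
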