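import Vale.Agent.Lib.P184.FineGraph

/-!
# Fine graphs: vertices between two points, and centralizers of elements fixing a vertex

* `fine_between_finite` : in a graph with finitely many paths of bounded length between any two
  vertices, only finitely many vertices lie on shortest walks between two given vertices;
* `fine_fixes_of_commute` : if `g` has infinite order and fixes `v`, every element commuting
  with `g` fixes `v` (finite edge stabilisers).
-/

namespace Vale.Agent.Lib.P184

open SimpleGraph

/-- A sequence with values in a finite set takes some value twice. -/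
theorem fineCentralizer_pigeon {α : Type*} (f : ℕ → α) (s : Set α) (hs : s.Finite)
    (hf : ∀ i, f i ∈ s) : ∃ i j : ℕ, i < j ∧ f i = f j := by
  by_contra hcon
  push Not at hcon
  have hinj : Function.Injective f := by
    intro i j h
    by_contra hne'
    rcases lt_or_gt_of_ne hne' with h' | h'
    · exact hcon i j h' h
    · exact hcon j i h' h.symm
  exact Set.infinite_of_injective_forall_mem hinj hf hs

theorem fine_between_finite {V : Type*} (K : SimpleGraph V) (hconn : K.Connected)
    (hpaths : ∀ (u w : V) (n : ℕ), {p : K.Walk u w | p.IsPath ∧ p.length ≤ n}.Finite)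
    (a b : V) : {y : V | K.dist a y + K.dist y b = K.dist a b}.Finite := by
  refine Set.Finite.subset
    ((hpaths a b (K.dist a b)).biUnion (fun p _ => p.support.finite_toSet)) ?_
  intro y hy
  obtain ⟨p₁, hp₁⟩ := hconn.exists_walk_length_eq_dist a y
  obtain ⟨p₂, hp₂⟩ := hconn.exists_walk_length_eq_dist y b
  have hlen : (p₁.append p₂).length = K.dist a b := by
    rw [Walk.length_append, hp₁, hp₂]; exact hy
  simp only [Set.mem_iUnion]
  refine ⟨p₁.append p₂, ⟨Walk.isPath_of_length_eq_dist _ hlen, hlen.le⟩, ?_⟩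
  show y ∈ (p₁.append p₂).support
  rw [Walk.mem_support_append_iff]
  exact Or.inl (Walk.end_mem_support p₁)

theorem fineCentralizer_pow_smul {Γ V : Type*} [Group Γ] [MulAction Γ V] (g : Γ) (v : V)
    (hgv : g • v = v) (k : ℕ) : g ^ k • v = v := by
  induction k with
  | zero => simp
  | succ k ih => rw [pow_succ', mul_smul, ih, hgv]

theorem fine_fixes_of_commute {Γ V : Type*} [Group Γ] [MulAction Γ V] (K : SimpleGraph V)
    (hconn : K.Connected)
    (hact : ∀ (γ : Γ) (u w : V), K.Adj u w → K.Adj (γ • u) (γ • w))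
    (hpaths : ∀ (u w : V) (n : ℕ), {p : K.Walk u w | p.IsPath ∧ p.length ≤ n}.Finite)
    (hstab : ∀ u w : V, K.Adj u w → {γ : Γ | γ • u = u ∧ γ • w = w}.Finite)
    (g : Γ) (v : V) (hgv : g • v = v) (hg : ∀ k : ℕ, 0 < k → g ^ k ≠ 1)
    (z : Γ) (hz : z * g = g * z) : z • v = v := by
  by_contra hne
  have hgw : g • (z • v) = z • v := by
    rw [← mul_smul, ← hz, mul_smul, hgv]
  obtain ⟨u, huadj, hudist⟩ := exists_adj_dist_succ K hconn v (z • v) (Ne.symm hne)
  have hNfin : {x : V | K.Adj v x ∧ K.dist x (z • v) + 1 = K.dist v (z • v)}.Finite := by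
    refine (fine_between_finite K hconn hpaths v (z • v)).subset ?_
    intro x hx
    obtain ⟨hx1, hx2⟩ := hx
    have h1 : K.dist v x = 1 := dist_eq_one_iff_adj.mpr hx1
    show K.dist v x + K.dist x (z • v) = K.dist v (z • v)
    omega
  have hNstab : ∀ x : V, (K.Adj v x ∧ K.dist x (z • v) + 1 = K.dist v (z • v)) →
      (K.Adj v (g • x) ∧ K.dist (g • x) (z • v) + 1 = K.dist v (z • v)) := by
    intro x hx
    obtain ⟨hx1, hx2⟩ := hx
    refine ⟨?_, ?_⟩
    · have h1 := hact g v x hx1
      rwa [hgv] at h1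
    · have h1 := graph_dist_smul K hconn hact g x (z • v)
      rw [hgw] at h1
      rw [h1]
      exact hx2
  have hpowN : ∀ i : ℕ, (K.Adj v (g ^ i • u) ∧
      K.dist (g ^ i • u) (z • v) + 1 = K.dist v (z • v)) := by
    intro i
    induction i with
    | zero => simpa using (⟨huadj, hudist⟩ : K.Adj v u ∧ _)
    | succ i ih =>
      rw [pow_succ', mul_smul]
      exact hNstab _ ih
  obtain ⟨i, j, hij, heq⟩ := fineCentralizer_pigeon (fun i : ℕ => g ^ i • u) _ hNfin hpowN
  have hk : 0 < j - i := by omega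
  have hku : g ^ (j - i) • u = u := by
    have h1 : g ^ j = g ^ i * g ^ (j - i) := by
      rw [← pow_add]; congr 1; omega
    have h2 : g ^ i • u = g ^ i • (g ^ (j - i) • u) := by
      rw [← mul_smul, ← h1]; exact heq
    exact (smul_left_cancel (g ^ i) h2).symm
  have hkv : g ^ (j - i) • v = v := fineCentralizer_pow_smul g v hgv (j - i)
  have hSfin := hstab v u huadj
  have hpowS : ∀ m : ℕ, (g ^ (j - i)) ^ m ∈ {γ : Γ | γ • v = v ∧ γ • u = u} := by
    intro m
    exact ⟨fineCentralizer_pow_smul _ v hkv m, fineCentralizer_pow_smul _ u hku m⟩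
  obtain ⟨a, b, hab, heq2⟩ :=
    fineCentralizer_pigeon (fun m : ℕ => (g ^ (j - i)) ^ m) _ hSfin hpowS
  have h3 : (g ^ (j - i)) ^ (b - a) = 1 := by
    have h4 : (g ^ (j - i)) ^ b = (g ^ (j - i)) ^ a * (g ^ (j - i)) ^ (b - a) := by
      rw [← pow_add]; congr 1; omega
    have h5 : (g ^ (j - i)) ^ a * 1 = (g ^ (j - i)) ^ a * (g ^ (j - i)) ^ (b - a) := by
      rw [mul_one, ← h4]; exact heq2
    exact (mul_left_cancel h5).symm
  rw [← pow_mul] at h3
  exact hg ((j - i) * (b - a)) (Nat.mul_pos hk (by omega)) h3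

end Vale.Agent.Lib.P184
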