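import Vale.Agent.Lib.P184.FineHub

/-!
# An infinite bounded set of vertices has a hub
-/

namespace Vale.Agent.Lib.P184

open SimpleGraph

/-- Pigeonhole: if every element of an infinite set is related to some element of a finite set,
then infinitely many elements are related to one common element. -/
theorem fineHubExists_pigeon {α β : Type*} (s : Set α) (hs : s.Infinite) (t : Set β)
    (ht : t.Finite) (r : α → β → Prop) (h : ∀ a ∈ s, ∃ b ∈ t, r a b) :
    ∃ b ∈ t, {a | a ∈ s ∧ r a b}.Infinite := by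
  by_contra hcon
  have hfin : ∀ b ∈ t, {a | a ∈ s ∧ r a b}.Finite := by
    intro b hb
    by_contra hb'
    exact hcon ⟨b, hb, hb'⟩
  have hsub : s ⊆ ⋃ b ∈ t, {a | a ∈ s ∧ r a b} := by
    intro a ha
    obtain ⟨b, hb, hab⟩ := h a ha
    exact Set.mem_biUnion hb ⟨ha, hab⟩
  exact hs ((ht.biUnion hfin).subset hsub)

theorem fine_hub_exists {V : Type*} (K : SimpleGraph V) (hconn : K.Connected)
    (C : Set V) (hC : C.Infinite) (c₀ : V) (D : ℕ) (hD : ∀ c ∈ C, K.dist c₀ c ≤ D) :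
    ∃ v, IsHub K C v := by
  classical
  have hP0 : {c | c ∈ C ∧ K.dist c₀ c₀ + K.dist c₀ c = K.dist c₀ c}.Infinite := by
    refine hC.mono ?_
    intro c hc
    exact ⟨hc, by rw [SimpleGraph.dist_self, zero_add]⟩
  have hPD : ∀ w, {c | c ∈ C ∧ K.dist c₀ w + K.dist w c = K.dist c₀ c}.Infinite →
      K.dist c₀ w ≤ D := by
    intro w hw
    obtain ⟨c, hc⟩ := hw.nonempty
    have h1 := hD c hc.1
    have h2 := hc.2
    omega
  let Q : ℕ → Prop := fun k => ∃ w,
    {c | c ∈ C ∧ K.dist c₀ w + K.dist w c = K.dist c₀ c}.Infinite ∧ K.dist c₀ w = k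
  have hQ0 : Q 0 := ⟨c₀, hP0, SimpleGraph.dist_self⟩
  have hQ := Nat.findGreatest_spec (Nat.zero_le D) hQ0
  obtain ⟨w, hw, hwk⟩ := hQ
  have hmax : ∀ w', {c | c ∈ C ∧ K.dist c₀ w' + K.dist w' c = K.dist c₀ c}.Infinite →
      K.dist c₀ w' ≤ K.dist c₀ w := by
    intro w' hw'
    rw [hwk]
    exact Nat.le_findGreatest (hPD w' hw') ⟨w', hw', rfl⟩
  obtain ⟨ℓ, -, hJ⟩ := fineHubExists_pigeon _ hw (Finset.range (D + 1) : Set ℕ)
    (Finset.finite_toSet _) (fun c ℓ => K.dist w c = ℓ) (by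
      intro c hc
      refine ⟨K.dist w c, ?_, rfl⟩
      have h1 := hD c hc.1
      have h2 := hc.2
      exact Finset.mem_coe.2 (Finset.mem_range.2 (by omega)))
  have hℓ : 1 ≤ ℓ := by
    by_contra h0
    have h0' : ℓ = 0 := by omega
    apply hJ
    refine (Set.finite_singleton w).subset ?_
    intro c hc
    have h1 : K.dist w c = 0 := by rw [hc.2, h0']
    exact ((hconn.dist_eq_zero_iff).1 h1).symm
  refine ⟨w, ?_⟩
  unfold IsHub
  refine ⟨ℓ, hℓ, ?_⟩
  by_contra hN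
  have hNfin : {u : V | K.Adj w u ∧ ∃ c ∈ C, K.dist w c = ℓ ∧ K.dist u c + 1 = ℓ}.Finite :=
    Set.not_infinite.1 hN
  obtain ⟨u, hu, hJu⟩ := fineHubExists_pigeon _ hJ _ hNfin (fun c u => K.dist u c + 1 = ℓ) (by
      intro c hc
      have hwc : w ≠ c := by
        intro h
        have h1 : K.dist w c = 0 := by rw [h]; exact SimpleGraph.dist_self
        have h2 := hc.2
        omega
      obtain ⟨u, hu1, hu2⟩ := exists_adj_dist_succ K hconn w c hwc
      exact ⟨u, ⟨hu1, c, hc.1.1, hc.2, by rw [hu2, hc.2]⟩, by rw [hu2, hc.2]⟩)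
  have hwu : K.dist w u = 1 := SimpleGraph.dist_eq_one_iff_adj.2 hu.1
  have key : ∀ c, (c ∈ {a | a ∈ {c | c ∈ C ∧ K.dist c₀ w + K.dist w c = K.dist c₀ c} ∧
      K.dist w a = ℓ} ∧ K.dist u c + 1 = ℓ) →
      K.dist c₀ u = K.dist c₀ w + 1 ∧ K.dist c₀ u + K.dist u c = K.dist c₀ c := by
    rintro c ⟨⟨⟨hcC, hcI⟩, hcl⟩, hcu⟩
    have t1 : K.dist c₀ u ≤ K.dist c₀ w + K.dist w u := hconn.dist_triangle
    have t2 : K.dist c₀ c ≤ K.dist c₀ u + K.dist u c := hconn.dist_triangle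
    constructor <;> omega
  obtain ⟨c, hc⟩ := hJu.nonempty
  have h1 := (key c hc).1
  have hPu : {c | c ∈ C ∧ K.dist c₀ u + K.dist u c = K.dist c₀ c}.Infinite := by
    refine hJu.mono ?_
    intro c hc
    exact ⟨hc.1.1.1, (key c hc).2⟩
  have h2 := hmax u hPu
  omega

end Vale.Agent.Lib.P184
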