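import Vale.Agent.Lib.P184.FineMain

/-!
# Midpoint displacement and a loxodromic criterion

Two consequences of the four-point condition for the graph distance of a connected graph:
points at the same height on two geodesics with nearby endpoints are `4 δ`-close, and an
element with a power of strictly growing displacement is loxodromic.
-/

namespace Vale.Agent.Lib.P184

open SimpleGraph

theorem fine_mid_displacement {V : Type*} (K : SimpleGraph V) (δ : ℝ)
    (hδ : ∀ x y z w : V, (K.dist x z : ℝ) + K.dist y w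
      ≤ max ((K.dist x y : ℝ) + K.dist z w) ((K.dist x w : ℝ) + K.dist y z) + 2 * δ)
    (A B A' B' w w' : V) (L s a : ℕ)
    (hAB : K.dist A B = L) (hA'B' : K.dist A' B' = L)
    (hAA' : K.dist A A' ≤ a) (hBB' : K.dist B B' ≤ a)
    (hAB' : K.dist A B' ≤ L) (hA'B : K.dist A' B ≤ L)
    (has : a ≤ 2 * s) (hasL : a + 2 * s ≤ 2 * L)
    (hw : K.dist A w = s) (hwB : K.dist w B + s = L)
    (hw' : K.dist A' w' = s) (hw'B' : K.dist w' B' + s = L) :
    (K.dist w w' : ℝ) ≤ 4 * δ := by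
  have rAB : (K.dist A B : ℝ) = L := by exact_mod_cast hAB
  have rA'B' : (K.dist A' B' : ℝ) = L := by exact_mod_cast hA'B'
  have rAA' : (K.dist A A' : ℝ) ≤ a := by exact_mod_cast hAA'
  have rB'B : (K.dist B' B : ℝ) ≤ a := by
    rw [SimpleGraph.dist_comm]; exact_mod_cast hBB'
  have rAB' : (K.dist A B' : ℝ) ≤ L := by exact_mod_cast hAB'
  have rA'B : (K.dist A' B : ℝ) ≤ L := by exact_mod_cast hA'B
  have ras : (a : ℝ) ≤ 2 * s := by exact_mod_cast has
  have rasL : (a : ℝ) + 2 * s ≤ 2 * L := by exact_mod_cast hasL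
  have rwA : (K.dist w A : ℝ) = s := by
    rw [SimpleGraph.dist_comm]; exact_mod_cast hw
  have rwB : (K.dist w B : ℝ) + s = L := by exact_mod_cast hwB
  have rA'w' : (K.dist A' w' : ℝ) = s := by exact_mod_cast hw'
  have rw'B' : (K.dist w' B' : ℝ) + s = L := by exact_mod_cast hw'B'
  have h1 := hδ w A B' B
  have m1 : max ((K.dist w A : ℝ) + K.dist B' B) ((K.dist w B : ℝ) + K.dist A B')
      ≤ 2 * L - s := max_le (by linarith) (by linarith)
  have c1 : (K.dist w B' : ℝ) ≤ L - s + 2 * δ := by linarith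
  have h2 := hδ w A A' B
  have m2 : max ((K.dist w A : ℝ) + K.dist A' B) ((K.dist w B : ℝ) + K.dist A A')
      ≤ L + s := max_le (by linarith) (by linarith)
  have c2 : (K.dist w A' : ℝ) ≤ s + 2 * δ := by linarith
  have h3 := hδ w A' w' B'
  have m3 : max ((K.dist w A' : ℝ) + K.dist w' B') ((K.dist w B' : ℝ) + K.dist A' w')
      ≤ L + 2 * δ := max_le (by linarith) (by linarith)
  linarith

theorem fine_lox_of_pow {Γ V : Type*} [Group Γ] [MulAction Γ V] (K : SimpleGraph V)
    (hconn : K.Connected)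
    (hact : ∀ (γ : Γ) (u w : V), K.Adj u w → K.Adj (γ • u) (γ • w))
    (δ : ℝ) (hδ : ∀ x y z w : V, (K.dist x z : ℝ) + K.dist y w
      ≤ max ((K.dist x y : ℝ) + K.dist z w) ((K.dist x w : ℝ) + K.dist y z) + 2 * δ)
    (g : Γ) (x : V) (k : ℕ) (hk : 1 ≤ k)
    (hstrong : (K.dist x (g ^ k • x) : ℝ) + 3 * δ < K.dist x (g ^ (2 * k) • x))
    (hfree : ∀ n : ℕ, 0 < n → g ^ n • x ≠ x) :
    ∃ ε : ℝ, 0 < ε ∧ ∀ n : ℕ, ε * n ≤ K.dist x (g ^ n • x) := by
  let _ : PseudoMetricSpace V := graphPseudoMetric K hconn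
  have _ : IsIsometricSMul Γ V := ⟨fun γ => Isometry.of_dist_eq (fun u w => by
    change ((K.dist (γ • u) (γ • w) : ℕ) : ℝ) = K.dist u w
    rw [graph_dist_smul K hconn hact])⟩
  have hdist : ∀ u w : V, dist u w = K.dist u w := fun _ _ => rfl
  let M : RHyp Γ := RHyp.ofAction δ (fun x y z w => by simpa only [hdist] using hδ x y z w) x
  have hM : ∀ h : Γ, M.d 1 h = K.dist x (h • x) := by
    intro h
    change dist ((1 : Γ) • x) (h • x) = K.dist x (h • x)
    rw [one_smul]
    rfl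
  have hMδ : M.δ = δ := rfl
  have hδ0 : 0 ≤ δ := by
    have h := hδ x x x x
    rw [max_self] at h
    simp only [SimpleGraph.dist_self, Nat.cast_zero, add_zero] at h
    linarith
  have hpow2 : (g ^ k) ^ 2 = g ^ (2 * k) := by rw [← pow_mul, mul_comm]
  have hSL : M.d 1 (g ^ k) + 3 * M.δ < M.d 1 ((g ^ k) ^ 2) := by
    rw [hM, hM, hMδ, hpow2]; exact hstrong
  obtain ⟨η, hη⟩ : ∃ η : ℝ, η = (K.dist x (g ^ (2 * k) • x) : ℝ) - K.dist x (g ^ k • x) - 2 * δ :=
    ⟨_, rfl⟩
  have hηpos : 0 < η := by rw [hη]; linarith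
  have hgrow : ∀ q : ℕ, η * q ≤ K.dist x (g ^ (k * q) • x) := by
    intro q
    have h := M.rhypCentralizer_mul_le_len_pow (g ^ k) hSL q
    rw [hM, hM, hM, hMδ, hpow2, ← pow_mul] at h
    rw [hη]; exact h
  obtain ⟨Cmax, hCmax⟩ : ∃ Cmax : ℝ,
      Cmax = ∑ r ∈ Finset.range k, (K.dist x (g ^ r • x) : ℝ) := ⟨_, rfl⟩
  have hCle : ∀ r : ℕ, r < k → (K.dist x (g ^ r • x) : ℝ) ≤ Cmax := by
    intro r hr
    rw [hCmax]
    exact Finset.single_le_sum (f := fun r => (K.dist x (g ^ r • x) : ℝ))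
      (fun i _ => Nat.cast_nonneg _) (Finset.mem_range.mpr hr)
  have hC0 : 0 ≤ Cmax := by
    rw [hCmax]
    exact Finset.sum_nonneg (fun i _ => Nat.cast_nonneg _)
  have hkpos : (0 : ℝ) < k := by exact_mod_cast hk
  have hlow : ∀ n : ℕ, η / k * n - (η + Cmax) ≤ K.dist x (g ^ n • x) := by
    intro n
    have hn : k * (n / k) + n % k = n := Nat.div_add_mod n k
    have hr : n % k < k := Nat.mod_lt n hk
    have hg : g ^ n • x = g ^ (k * (n / k)) • (g ^ (n % k) • x) := by
      rw [← mul_smul, ← pow_add, hn]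
    have htri : K.dist x (g ^ (k * (n / k)) • x)
        ≤ K.dist x (g ^ n • x) + K.dist (g ^ n • x) (g ^ (k * (n / k)) • x) :=
      hconn.dist_triangle
    have hshift : K.dist (g ^ n • x) (g ^ (k * (n / k)) • x) = K.dist x (g ^ (n % k) • x) := by
      rw [hg, graph_dist_smul K hconn hact, SimpleGraph.dist_comm]
    rw [hshift] at htri
    have htri' : (K.dist x (g ^ (k * (n / k)) • x) : ℝ)
        ≤ K.dist x (g ^ n • x) + K.dist x (g ^ (n % k) • x) := by exact_mod_cast htri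
    have h1 := hgrow (n / k)
    have h2 := hCle (n % k) hr
    have h3 : (n : ℝ) < k * ((n / k : ℕ) : ℝ) + k := by
      have : n < k * (n / k) + k := by omega
      exact_mod_cast this
    have h4 : (n : ℝ) / k - 1 ≤ ((n / k : ℕ) : ℝ) := by
      rw [sub_le_iff_le_add, div_le_iff₀ hkpos]
      nlinarith
    have h5 : η * ((n : ℝ) / k - 1) ≤ η * ((n / k : ℕ) : ℝ) :=
      mul_le_mul_of_nonneg_left h4 hηpos.le
    have h6 : η / k * n - (η + Cmax) = η * ((n : ℝ) / k - 1) - Cmax := by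
      field_simp
      ring
    linarith
  have hone : ∀ n : ℕ, 0 < n → (1 : ℝ) ≤ K.dist x (g ^ n • x) := by
    intro n hn
    have h := hconn.pos_dist_of_ne (hfree n hn).symm
    exact_mod_cast h
  have ha : 0 < η / k := div_pos hηpos hkpos
  have hb : 0 ≤ η + Cmax := by linarith
  have hb1 : 0 < 1 + (η + Cmax) := by linarith
  refine ⟨η / k / (1 + (η + Cmax)), div_pos ha hb1, ?_⟩
  intro n
  rcases Nat.eq_zero_or_pos n with hn0 | hnpos
  · rw [hn0]
    simp
  · have hnr : (0 : ℝ) < n := by exact_mod_cast hnpos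
    rcases le_or_gt (η / k * n) (1 + (η + Cmax)) with hsmall | hbig
    · have : η / k / (1 + (η + Cmax)) * n ≤ 1 := by
        rw [div_mul_eq_mul_div, div_le_one hb1]
        exact hsmall
      exact le_trans this (hone n hnpos)
    · have h7 : η / k / (1 + (η + Cmax)) * n ≤ η / k * n - (η + Cmax) := by
        rw [div_mul_eq_mul_div, div_le_iff₀ hb1]
        nlinarith
      exact le_trans h7 (hlow n)

end Vale.Agent.Lib.P184
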