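import Mathlib

/-!
A pure statement about sequences of natural numbers: an unbounded sequence with logarithmic
growth along doublings has a late running maximum that is not exceeded during the next `N`
steps.
-/

namespace Vale.Agent.Lib.P184

/-- Powers of two outgrow every linear function. -/
theorem fineRecord_growth (P Q : ℕ) : ∃ a : ℕ, P + a * Q ≤ 2 ^ a := by
  refine ⟨2 * (P + 2 * Q + 1), ?_⟩
  have h1 : P + 2 * Q + 1 < 2 ^ (P + 2 * Q + 1) := Nat.lt_two_pow_self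
  have h2 : (2 : ℕ) ^ (2 * (P + 2 * Q + 1)) =
      2 ^ (P + 2 * Q + 1) * 2 ^ (P + 2 * Q + 1) := by
    rw [two_mul, pow_add]
  rw [h2]
  have h3 : (P + 2 * Q + 1) * (P + 2 * Q + 1) ≤
      2 ^ (P + 2 * Q + 1) * 2 ^ (P + 2 * Q + 1) := Nat.mul_le_mul h1.le h1.le
  have h4 : P + 2 * (P + 2 * Q + 1) * Q ≤ (P + 2 * Q + 1) * (P + 2 * Q + 1) := by
    nlinarith [Nat.zero_le (P * P), Nat.zero_le (P * Q)]
  exact le_trans h4 h3

/-- The running maximum of a sequence. -/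
theorem fineRecord_exists_rmax (ℓ : ℕ → ℕ) :
    ∃ r : ℕ → ℕ, (∀ n i, i ≤ n → ℓ i ≤ r n) ∧ (∀ n, ∃ i, i ≤ n ∧ ℓ i = r n) := by
  refine ⟨fun n => (Finset.range (n + 1)).sup ℓ, ?_, ?_⟩
  · intro n i hi
    exact Finset.le_sup (f := ℓ) (Finset.mem_range.mpr (Nat.lt_succ_of_le hi))
  · intro n
    obtain ⟨i, hi, h⟩ := Finset.exists_mem_eq_sup (Finset.range (n + 1))
      ⟨0, Finset.mem_range.mpr (Nat.succ_pos n)⟩ ℓ
    exact ⟨i, Nat.lt_succ_iff.mp (Finset.mem_range.mp hi), h.symm⟩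

theorem fineRecord_core (ℓ : ℕ → ℕ) (c : ℕ) (h1 : ∀ n, ℓ (n + 1) ≤ ℓ n + ℓ 1)
    (h2 : ∀ k, 1 ≤ k → ℓ (2 * k) ≤ ℓ k + c) (h3 : ∀ B : ℕ, ∃ n, B < ℓ n) (N Λ : ℕ) :
    ∃ M : ℕ, N ≤ M ∧ Λ ≤ ℓ M ∧ ∀ i, i ≤ M + N → ℓ i ≤ ℓ M := by
  obtain ⟨r, hr1, hr2⟩ := fineRecord_exists_rmax ℓ
  have hmono : ∀ m n, m ≤ n → r m ≤ r n := by
    intro m n hmn
    obtain ⟨i, hi, hi2⟩ := hr2 m
    rw [← hi2]
    exact hr1 n i (le_trans hi hmn)
  have hle : ∀ n b, (∀ i, i ≤ n → ℓ i ≤ b) → r n ≤ b := by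
    intro n b hb
    obtain ⟨i, hi, hi2⟩ := hr2 n
    rw [← hi2]
    exact hb i hi
  have ha : ∀ n, ℓ n ≤ ℓ 0 + n * ℓ 1 := by
    intro n
    induction n with
    | zero => simp
    | succ n ih =>
      have := h1 n
      rw [add_mul, one_mul]
      omega
  have hb : ∀ n, 1 ≤ n → r (2 * n) ≤ r n + c + ℓ 1 := by
    intro n hn
    apply hle
    intro i hi
    have hev : ∀ k, 1 ≤ k → k ≤ n → ℓ (2 * k) ≤ r n + c := by
      intro k hk1 hkn
      have := h2 k hk1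
      have := hr1 n k hkn
      omega
    have h0 := hr1 n 0 (Nat.zero_le n)
    rcases Nat.even_or_odd' i with ⟨k, rfl | rfl⟩
    · rcases Nat.eq_zero_or_pos k with rfl | hk
      · show ℓ 0 ≤ r n + c + ℓ 1
        omega
      · have := hev k hk (by omega)
        omega
    · have h11 := h1 (2 * k)
      rcases Nat.eq_zero_or_pos k with rfl | hk
      · show ℓ 1 ≤ r n + c + ℓ 1
        omega
      · have := hev k hk (by omega)
        omega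
  have hc : ∀ a, r (2 ^ a) ≤ r 1 + a * (c + ℓ 1) := by
    intro a
    induction a with
    | zero => simp
    | succ a ih =>
      have h := hb (2 ^ a) Nat.one_le_two_pow
      rw [pow_succ, Nat.mul_comm (2 ^ a) 2, add_mul, one_mul]
      omega
  by_contra hcon
  push Not at hcon
  obtain ⟨Λ', hΛ'⟩ : ∃ Λ' : ℕ, Λ' = max Λ (N * ℓ 1 + ℓ 0 + 1) := ⟨_, rfl⟩
  have hΛ1 : Λ ≤ Λ' := by
    rw [hΛ']
    exact le_max_left _ _
  have hΛ2 : N * ℓ 1 + ℓ 0 + 1 ≤ Λ' := by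
    rw [hΛ']
    exact le_max_right _ _
  have hclaim : ∀ n, Λ' ≤ r n → r n + 1 ≤ r (n + N) := by
    intro n hn
    obtain ⟨M, hM, hM2⟩ := hr2 n
    have hNM : N ≤ M := by
      have h5 := ha M
      by_contra hlt
      push Not at hlt
      have h6 : M * ℓ 1 ≤ N * ℓ 1 := Nat.mul_le_mul_right _ hlt.le
      omega
    obtain ⟨i, hi, hi2⟩ := hcon M hNM (by omega)
    have := hr1 (n + N) i (by omega)
    omega
  obtain ⟨n₀, hn₀⟩ := h3 Λ'
  have hstart : Λ' ≤ r n₀ := le_trans hn₀.le (hr1 n₀ n₀ le_rfl)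
  have hiter : ∀ j, Λ' + j ≤ r (n₀ + j * N) := by
    intro j
    induction j with
    | zero => simpa using hstart
    | succ j ih =>
      have h7 := hclaim (n₀ + j * N) (by omega)
      have h8 : n₀ + (j + 1) * N = n₀ + j * N + N := by ring
      rw [h8]
      omega
  obtain ⟨a, ha2⟩ := fineRecord_growth (n₀ + (r 1 + 1) * N) ((c + ℓ 1) * N)
  have h9 := hiter (r 1 + a * (c + ℓ 1) + 1)
  have h10 : n₀ + (r 1 + a * (c + ℓ 1) + 1) * N ≤ 2 ^ a := by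
    have h13 : (r 1 + a * (c + ℓ 1) + 1) * N = (r 1 + 1) * N + a * ((c + ℓ 1) * N) := by
      ring
    rw [h13]
    omega
  have h11 := hmono _ _ h10
  have h12 := hc a
  omega

/-- An unbounded sequence with logarithmic growth has a late maximum that is not exceeded
during the next `N` steps. -/
theorem fine_record (ℓ : ℕ → ℕ) (c : ℕ) (h1 : ∀ n, ℓ (n + 1) ≤ ℓ n + ℓ 1)
    (h2 : ∀ k, 1 ≤ k → ℓ (2 * k) ≤ ℓ k + c) (h3 : ∀ B : ℕ, ∃ n, B < ℓ n) (N Λ : ℕ) :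
    ∃ M : ℕ, N ≤ M ∧ Λ ≤ ℓ M ∧ ∀ i, i ≤ M + N → ℓ i ≤ ℓ M :=
  fineRecord_core ℓ c h1 h2 h3 N Λ

end Vale.Agent.Lib.P184
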