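import Vale.Agent.Lib.P184.FineGraph

/-!
# Finitely many edge orbits: uniform bounds

With finitely many orbits of edges, the finiteness of edge stabilisers and of the sets of
short circuits through an edge become uniform bounds.
-/

namespace Vale.Agent.Lib.P184

open SimpleGraph

theorem fine_uniform_stab {Γ V : Type*} [Group Γ] [MulAction Γ V] (K : SimpleGraph V)
    (hstab : ∀ u w : V, K.Adj u w → {γ : Γ | γ • u = u ∧ γ • w = w}.Finite)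
    (hcocpt : ∃ F : Finset (V × V), ∀ u w : V, K.Adj u w → ∃ γ : Γ, (γ • u, γ • w) ∈ F) :
    ∃ s : ℕ, ∀ u w : V, K.Adj u w → {γ : Γ | γ • u = u ∧ γ • w = w}.ncard ≤ s := by
  obtain ⟨F, hF⟩ := hcocpt
  refine ⟨∑ ab ∈ F, {γ : Γ | γ • ab.1 = ab.1 ∧ γ • ab.2 = ab.2}.ncard, ?_⟩
  intro u w huw
  obtain ⟨γ₀, hγ₀⟩ := hF u w huw
  have hTfin : {γ : Γ | γ • (γ₀ • u) = γ₀ • u ∧ γ • (γ₀ • w) = γ₀ • w}.Finite := by
    refine Set.Finite.of_injOn (f := fun τ : Γ => γ₀⁻¹ * τ * γ₀) ?_ ?_ (hstab u w huw)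
    · intro τ hτ
      obtain ⟨h1, h2⟩ := hτ
      show (γ₀⁻¹ * τ * γ₀) • u = u ∧ (γ₀⁻¹ * τ * γ₀) • w = w
      constructor
      · rw [mul_smul, mul_smul, h1, inv_smul_smul]
      · rw [mul_smul, mul_smul, h2, inv_smul_smul]
    · intro τ _ τ' _ h
      have h' : γ₀⁻¹ * τ * γ₀ = γ₀⁻¹ * τ' * γ₀ := h
      exact mul_left_cancel (mul_right_cancel h')
  have h1 : {γ : Γ | γ • u = u ∧ γ • w = w}.ncard
      ≤ {γ : Γ | γ • (γ₀ • u) = γ₀ • u ∧ γ • (γ₀ • w) = γ₀ • w}.ncard := by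
    refine Set.ncard_le_ncard_of_injOn (fun σ : Γ => γ₀ * σ * γ₀⁻¹) ?_ ?_ hTfin
    · intro σ hσ
      obtain ⟨h1, h2⟩ := hσ
      show (γ₀ * σ * γ₀⁻¹) • (γ₀ • u) = γ₀ • u ∧ (γ₀ * σ * γ₀⁻¹) • (γ₀ • w) = γ₀ • w
      constructor
      · rw [mul_smul, mul_smul, inv_smul_smul, h1]
      · rw [mul_smul, mul_smul, inv_smul_smul, h2]
    · intro σ _ σ' _ h
      have h' : γ₀ * σ * γ₀⁻¹ = γ₀ * σ' * γ₀⁻¹ := h
      exact mul_left_cancel (mul_right_cancel h')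
  refine h1.trans ?_
  exact Finset.single_le_sum
    (f := fun ab : V × V => {γ : Γ | γ • ab.1 = ab.1 ∧ γ • ab.2 = ab.2}.ncard)
    (fun _ _ => Nat.zero_le _) hγ₀

theorem fine_uniform_cycles {Γ V : Type*} [Group Γ] [MulAction Γ V] (K : SimpleGraph V)
    (hact : ∀ (γ : Γ) (u w : V), K.Adj u w → K.Adj (γ • u) (γ • w))
    (hfine : ∀ (u w : V), K.Adj u w → ∀ n : ℕ,
      {p : K.Walk u u | p.IsCycle ∧ s(u, w) ∈ p.edges ∧ p.length ≤ n}.Finite)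
    (hcocpt : ∃ F : Finset (V × V), ∀ u w : V, K.Adj u w → ∃ γ : Γ, (γ • u, γ • w) ∈ F)
    (n : ℕ) :
    ∃ c : ℕ, ∀ u w : V, K.Adj u w →
      {p : K.Walk u u | p.IsCycle ∧ s(u, w) ∈ p.edges ∧ p.length ≤ n}.ncard ≤ c := by
  obtain ⟨F, hF⟩ := hcocpt
  refine ⟨∑ ab ∈ F,
    {p : K.Walk ab.1 ab.1 | p.IsCycle ∧ s(ab.1, ab.2) ∈ p.edges ∧ p.length ≤ n}.ncard, ?_⟩
  intro u w huw
  obtain ⟨γ₀, hγ₀⟩ := hF u w huw
  have hinj : Function.Injective (smulHom K hact γ₀) := by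
    intro a b h
    have h' : γ₀ • a = γ₀ • b := h
    exact smul_left_cancel γ₀ h'
  have h1 : {p : K.Walk u u | p.IsCycle ∧ s(u, w) ∈ p.edges ∧ p.length ≤ n}.ncard
      ≤ {p : K.Walk (γ₀ • u) (γ₀ • u) |
          p.IsCycle ∧ s(γ₀ • u, γ₀ • w) ∈ p.edges ∧ p.length ≤ n}.ncard := by
    refine Set.ncard_le_ncard_of_injOn
      (fun p : K.Walk u u => (p.map (smulHom K hact γ₀) : K.Walk (γ₀ • u) (γ₀ • u))) ?_ ?_
      (hfine (γ₀ • u) (γ₀ • w) (hact γ₀ u w huw) n)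
    · intro p hp
      obtain ⟨hc, he, hl⟩ := hp
      have e1 : (p.map (smulHom K hact γ₀)).IsCycle :=
        (Walk.isCycle_map_iff_of_injective hinj).mpr hc
      have e2 : s(γ₀ • u, γ₀ • w) ∈ (p.map (smulHom K hact γ₀)).edges := by
        rw [Walk.edges_map]
        exact List.mem_map.mpr ⟨s(u, w), he, rfl⟩
      have e3 : (p.map (smulHom K hact γ₀)).length ≤ n := by
        rw [Walk.length_map]
        exact hl
      exact ⟨e1, e2, e3⟩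
    · intro p _ p' _ h
      exact Walk.map_injective_of_injective hinj u u h
  refine h1.trans ?_
  exact Finset.single_le_sum
    (f := fun ab : V × V =>
      {p : K.Walk ab.1 ab.1 | p.IsCycle ∧ s(ab.1, ab.2) ∈ p.edges ∧ p.length ≤ n}.ncard)
    (fun _ _ => Nat.zero_le _) hγ₀

end Vale.Agent.Lib.P184
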