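import Vale.Agent.Lib.P184.FinePair

/-!
# Fine graphs with uniformly bounded edge stabilisers: uniform bounds on the number of group
elements moving two far-apart vertices by a bounded amount

* `fine_uniform_pair` : a uniform version of `fine_pair_finite` at distance `2 * D + 1`;
* `fine_acylindrical` : uniform acylindricity at all larger distances in a hyperbolic graph.
-/

namespace Vale.Agent.Lib.P184

open SimpleGraph

/-- A union over a finset of sets of size at most `M` has size at most `card * M`. -/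
theorem fineUniformPair_biUnion_le {ι α : Type*} (t : Finset ι) (S : ι → Set α) (M : ℕ)
    (h : ∀ i ∈ t, (S i).ncard ≤ M) : (⋃ i ∈ t, S i).ncard ≤ t.card * M := by
  refine le_trans (Finset.set_ncard_biUnion_le t S) ?_
  have h1 := Finset.sum_le_card_nsmul t (fun i => (S i).ncard) M h
  rw [smul_eq_mul] at h1
  exact h1

/-- A union over a finset of finite sets is finite. -/
theorem fineUniformPair_biUnion_finite {ι α : Type*} (t : Finset ι) (S : ι → Set α)
    (h : ∀ i ∈ t, (S i).Finite) : (⋃ i ∈ t, S i).Finite := by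
  classical
  induction t using Finset.induction_on with
  | empty => simp
  | insert i t _ ih =>
    rw [Finset.set_biUnion_insert]
    exact (h i (Finset.mem_insert_self i t)).union
      (ih (fun j hj => h j (Finset.mem_insert_of_mem hj)))

/-- Edge transporters have at most twice the size of the largest edge stabiliser. -/
theorem fineUniformPair_transporter_le {Γ V : Type*} [Group Γ] [MulAction Γ V]
    (K : SimpleGraph V)
    (hstab : ∀ u w : V, K.Adj u w → {γ : Γ | γ • u = u ∧ γ • w = w}.Finite)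
    (s : ℕ) (hs : ∀ u w : V, K.Adj u w → {γ : Γ | γ • u = u ∧ γ • w = w}.ncard ≤ s)
    (u w : V) (huw : K.Adj u w) (b : Sym2 V) :
    {γ : Γ | Sym2.map (fun v => γ • v) s(u, w) = b}.ncard ≤ 2 * s := by
  classical
  have hstabfin := hstab u w huw
  have hstabcard := hs u w huw
  have hswap : {σ : Γ | σ • u = w ∧ σ • w = u}.Finite ∧
      {σ : Γ | σ • u = w ∧ σ • w = u}.ncard ≤ s := by
    by_cases hem : ∃ σ₀ : Γ, σ₀ • u = w ∧ σ₀ • w = u
    · obtain ⟨σ₀, h1, h2⟩ := hem
      have hsub : {σ : Γ | σ • u = w ∧ σ • w = u}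
          ⊆ (fun σ => σ₀ * σ) '' {γ : Γ | γ • u = u ∧ γ • w = w} := by
        intro σ hσ
        obtain ⟨h3, h4⟩ := hσ
        refine ⟨σ₀⁻¹ * σ, ⟨?_, ?_⟩, ?_⟩
        · show (σ₀⁻¹ * σ) • u = u
          rw [mul_smul, h3, ← h1, inv_smul_smul]
        · show (σ₀⁻¹ * σ) • w = w
          rw [mul_smul, h4, ← h2, inv_smul_smul]
        · show σ₀ * (σ₀⁻¹ * σ) = σ
          rw [mul_inv_cancel_left]
      have himfin := hstabfin.image (fun σ => σ₀ * σ)
      refine ⟨himfin.subset hsub, ?_⟩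
      exact le_trans (Set.ncard_le_ncard hsub himfin)
        (le_trans (Set.ncard_image_le hstabfin) hstabcard)
    · have hempty : {σ : Γ | σ • u = w ∧ σ • w = u} = ∅ := by
        apply Set.eq_empty_of_forall_notMem
        intro σ hσ
        exact hem ⟨σ, hσ⟩
      rw [hempty]
      exact ⟨Set.finite_empty, by rw [Set.ncard_empty]; exact Nat.zero_le s⟩
  by_cases hem : ∃ γ₀ : Γ, Sym2.map (fun v => γ₀ • v) s(u, w) = b
  · obtain ⟨γ₀, hγ₀⟩ := hem
    have hunfin := hstabfin.union hswap.1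
    have hsub : {γ : Γ | Sym2.map (fun v => γ • v) s(u, w) = b}
        ⊆ (fun σ => γ₀ * σ) '' ({γ : Γ | γ • u = u ∧ γ • w = w}
          ∪ {σ : Γ | σ • u = w ∧ σ • w = u}) := by
      intro γ hγ
      have h1 : Sym2.map (fun v => γ • v) s(u, w) = Sym2.map (fun v => γ₀ • v) s(u, w) := by
        rw [hγ₀]
        exact hγ
      rw [Sym2.map_mk, Sym2.map_mk, Sym2.eq_iff] at h1
      refine ⟨γ₀⁻¹ * γ, ?_, ?_⟩
      · rcases h1 with ⟨h2, h3⟩ | ⟨h2, h3⟩
        · left
          refine ⟨?_, ?_⟩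
          · show (γ₀⁻¹ * γ) • u = u
            rw [mul_smul, h2, inv_smul_smul]
          · show (γ₀⁻¹ * γ) • w = w
            rw [mul_smul, h3, inv_smul_smul]
        · right
          refine ⟨?_, ?_⟩
          · show (γ₀⁻¹ * γ) • u = w
            rw [mul_smul, h2, inv_smul_smul]
          · show (γ₀⁻¹ * γ) • w = u
            rw [mul_smul, h3, inv_smul_smul]
      · show γ₀ * (γ₀⁻¹ * γ) = γ
        rw [mul_inv_cancel_left]
    have himfin := hunfin.image (fun σ => γ₀ * σ)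
    have h1 := Set.ncard_le_ncard hsub himfin
    have h2 := Set.ncard_image_le (f := fun σ => γ₀ * σ) hunfin
    have h3 := Set.ncard_union_le {γ : Γ | γ • u = u ∧ γ • w = w}
      {σ : Γ | σ • u = w ∧ σ • w = u}
    have h4 := hswap.2
    omega
  · have hempty : {γ : Γ | Sym2.map (fun v => γ • v) s(u, w) = b} = ∅ := by
      apply Set.eq_empty_of_forall_notMem
      intro γ hγ
      exact hem ⟨γ, hγ⟩
    rw [hempty, Set.ncard_empty]
    exact Nat.zero_le _

/-- The covering step of `fine_pair_finite`: an element moving `x` and `y` by at most `D` carries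
some edge of a fixed geodesic to an edge of a short path from `x` to `y`. -/
theorem fineUniformPair_cover {Γ V : Type*} [Group Γ] [MulAction Γ V] (K : SimpleGraph V)
    (hconn : K.Connected)
    (hact : ∀ (γ : Γ) (u w : V), K.Adj u w → K.Adj (γ • u) (γ • w))
    (x y : V) (D : ℕ) (hxy : 2 * D < K.dist x y) (p₀ : K.Walk x y)
    (hp₀ : p₀.length = K.dist x y) (γ : Γ)
    (hγx : K.dist x (γ • x) ≤ D) (hγy : K.dist y (γ • y) ≤ D) :
    ∃ a ∈ p₀.edges, ∃ B : K.Walk x y, (B.IsPath ∧ B.length ≤ K.dist x y + 2 * D) ∧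
      ∃ b ∈ B.edges, Sym2.map (fun v => γ • v) a = b := by
  classical
  obtain ⟨σ₁, hσ₁⟩ := hconn.exists_walk_length_eq_dist x (γ • x)
  obtain ⟨σ₂, hσ₂⟩ := hconn.exists_walk_length_eq_dist (γ • y) y
  have hσ₂' : σ₂.length ≤ D := by
    rw [hσ₂, SimpleGraph.dist_comm]
    exact hγy
  have hσ₁' : σ₁.length ≤ D := by
    rw [hσ₁]
    exact hγx
  obtain ⟨q, hqlen, hqedges⟩ : ∃ q : K.Walk (γ • x) (γ • y), q.length = p₀.length ∧
      q.edges = p₀.edges.map (Sym2.map (fun v => γ • v)) :=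
    ⟨p₀.map (smulHom K hact γ), Walk.length_map _ _, Walk.edges_map _ _⟩
  have hWlen : (σ₁.append (q.append σ₂)).length ≤ K.dist x y + 2 * D := by
    rw [Walk.length_append, Walk.length_append, hqlen, hp₀]
    omega
  have hBpath : (σ₁.append (q.append σ₂)).bypass.IsPath := Walk.bypass_isPath _
  have hBlen : (σ₁.append (q.append σ₂)).bypass.length ≤ K.dist x y + 2 * D :=
    le_trans (Walk.length_bypass_le_length _) hWlen
  have hBge : K.dist x y ≤ (σ₁.append (q.append σ₂)).bypass.length := dist_le _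
  have hex : ∃ b ∈ (σ₁.append (q.append σ₂)).bypass.edges, b ∈ q.edges := by
    by_contra hcon
    push Not at hcon
    have hsub : (σ₁.append (q.append σ₂)).bypass.edges ⊆ σ₁.edges ++ σ₂.edges := by
      intro b hb
      have h1 := Walk.edges_bypass_subset_edges _ hb
      rw [Walk.edges_append, Walk.edges_append, List.mem_append, List.mem_append] at h1
      rcases h1 with h1 | h1 | h1
      · exact List.mem_append_left _ h1
      · exact absurd h1 (hcon b hb)
      · exact List.mem_append_right _ h1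
    have hnd : (σ₁.append (q.append σ₂)).bypass.edges.Nodup :=
      Walk.edges_nodup_of_support_nodup hBpath.support_nodup
    have h2 := (hnd.subperm hsub).length_le
    rw [Walk.length_edges, List.length_append, Walk.length_edges, Walk.length_edges] at h2
    omega
  obtain ⟨b, hbB, hbq⟩ := hex
  rw [hqedges] at hbq
  obtain ⟨a, ha, hab⟩ := List.mem_map.mp hbq
  exact ⟨a, ha, (σ₁.append (q.append σ₂)).bypass, ⟨hBpath, hBlen⟩, b, hbB, hab⟩

theorem fine_uniform_pair {Γ V : Type*} [Group Γ] [MulAction Γ V] (K : SimpleGraph V)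
    (hconn : K.Connected)
    (hact : ∀ (γ : Γ) (u w : V), K.Adj u w → K.Adj (γ • u) (γ • w))
    (hpaths : ∀ (u w : V) (n : ℕ), {p : K.Walk u w | p.IsPath ∧ p.length ≤ n}.Finite)
    (hstab : ∀ u w : V, K.Adj u w → {γ : Γ | γ • u = u ∧ γ • w = w}.Finite)
    (hpathsU : ∀ n : ℕ, ∃ A : ℕ, ∀ u w : V,
      {p : K.Walk u w | p.IsPath ∧ p.length ≤ n}.ncard ≤ A)
    (hstabU : ∃ s : ℕ, ∀ u w : V, K.Adj u w → {γ : Γ | γ • u = u ∧ γ • w = w}.ncard ≤ s)
    (D : ℕ) :
    ∃ N₀ : ℕ, ∀ x y : V, K.dist x y = 2 * D + 1 →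
      {γ : Γ | K.dist x (γ • x) ≤ D ∧ K.dist y (γ • y) ≤ D}.ncard ≤ N₀ := by
  classical
  obtain ⟨A, hA⟩ := hpathsU (4 * D + 1)
  obtain ⟨s, hs⟩ := hstabU
  refine ⟨(2 * D + 1) * (A * ((4 * D + 1) * (2 * s))), ?_⟩
  intro x y hxy
  obtain ⟨p₀, hp₀⟩ := hconn.exists_walk_length_eq_dist x y
  have hlt : 2 * D < K.dist x y := by omega
  have hn : K.dist x y + 2 * D = 4 * D + 1 := by omega
  have hPfin := hpaths x y (4 * D + 1)
  -- the three index finsets
  have hE : p₀.edges.toFinset.card ≤ 2 * D + 1 := by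
    have h1 := List.toFinset_card_le p₀.edges
    rw [Walk.length_edges, hp₀, hxy] at h1
    exact h1
  have hP : hPfin.toFinset.card ≤ A := by
    rw [← Set.ncard_eq_toFinset_card _ hPfin]
    exact hA x y
  have hT : ∀ a ∈ p₀.edges.toFinset, ∀ b : Sym2 V,
      {γ : Γ | Sym2.map (fun v => γ • v) a = b}.Finite ∧
      {γ : Γ | Sym2.map (fun v => γ • v) a = b}.ncard ≤ 2 * s := by
    intro a ha b
    have ha' : a ∈ p₀.edges := List.mem_toFinset.mp ha
    induction a using Sym2.ind with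
    | _ u w =>
      exact ⟨finePair_transporter_finite K hstab u w (Walk.adj_of_mem_edges p₀ ha') b,
        fineUniformPair_transporter_le K hstab s hs u w (Walk.adj_of_mem_edges p₀ ha') b⟩
  have hsub : {γ : Γ | K.dist x (γ • x) ≤ D ∧ K.dist y (γ • y) ≤ D}
      ⊆ ⋃ a ∈ p₀.edges.toFinset, ⋃ B ∈ hPfin.toFinset, ⋃ b ∈ B.edges.toFinset,
        {γ : Γ | Sym2.map (fun v => γ • v) a = b} := by
    intro γ hγ
    obtain ⟨hγx, hγy⟩ := hγ
    obtain ⟨a, ha, B, hB, b, hb, hab⟩ :=
      fineUniformPair_cover K hconn hact x y D hlt p₀ hp₀ γ hγx hγy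
    rw [hn] at hB
    simp only [Set.mem_iUnion]
    exact ⟨a, List.mem_toFinset.mpr ha, B, (Set.Finite.mem_toFinset hPfin).mpr hB, b,
      List.mem_toFinset.mpr hb, hab⟩
  have hfin : (⋃ a ∈ p₀.edges.toFinset, ⋃ B ∈ hPfin.toFinset, ⋃ b ∈ B.edges.toFinset,
      {γ : Γ | Sym2.map (fun v => γ • v) a = b}).Finite := by
    refine fineUniformPair_biUnion_finite _ _ (fun a ha => ?_)
    refine fineUniformPair_biUnion_finite _ _ (fun B _ => ?_)
    exact fineUniformPair_biUnion_finite _ _ (fun b _ => (hT a ha b).1)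
  refine le_trans (Set.ncard_le_ncard hsub hfin) ?_
  refine le_trans (fineUniformPair_biUnion_le _ _ (A * ((4 * D + 1) * (2 * s))) ?_)
    (Nat.mul_le_mul_right _ hE)
  intro a ha
  refine le_trans (fineUniformPair_biUnion_le _ _ ((4 * D + 1) * (2 * s)) ?_)
    (Nat.mul_le_mul_right _ hP)
  intro B hB
  have hB' : B.IsPath ∧ B.length ≤ 4 * D + 1 := (Set.Finite.mem_toFinset hPfin).mp hB
  have hBE : B.edges.toFinset.card ≤ 4 * D + 1 := by
    have h1 := List.toFinset_card_le B.edges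
    rw [Walk.length_edges] at h1
    exact le_trans h1 hB'.2
  refine le_trans (fineUniformPair_biUnion_le _ _ (2 * s) ?_) (Nat.mul_le_mul_right _ hBE)
  intro b _
  exact (hT a ha b).2

theorem fine_acylindrical {Γ V : Type*} [Group Γ] [MulAction Γ V] (K : SimpleGraph V)
    (hconn : K.Connected)
    (hact : ∀ (γ : Γ) (u w : V), K.Adj u w → K.Adj (γ • u) (γ • w))
    (δ : ℝ) (hδ : ∀ x y z w : V, (K.dist x z : ℝ) + K.dist y w
      ≤ max ((K.dist x y : ℝ) + K.dist z w) ((K.dist x w : ℝ) + K.dist y z) + 2 * δ)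
    (hpaths : ∀ (u w : V) (n : ℕ), {p : K.Walk u w | p.IsPath ∧ p.length ≤ n}.Finite)
    (hstab : ∀ u w : V, K.Adj u w → {γ : Γ | γ • u = u ∧ γ • w = w}.Finite)
    (hpair : ∀ D : ℕ, ∃ N₀ : ℕ, ∀ x y : V, K.dist x y = 2 * D + 1 →
      {γ : Γ | K.dist x (γ • x) ≤ D ∧ K.dist y (γ • y) ≤ D}.ncard ≤ N₀)
    (D : ℕ) :
    ∃ N₀ : ℕ, ∀ x y : V, 2 * (D + ⌈2 * δ⌉₊) + 1 ≤ K.dist x y →
      ∀ T : Finset Γ, (∀ γ ∈ T, K.dist x (γ • x) ≤ D ∧ K.dist y (γ • y) ≤ D) →
        T.card ≤ N₀ := by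
  classical
  obtain ⟨N₀, hN₀⟩ := hpair (D + ⌈2 * δ⌉₊)
  refine ⟨N₀, ?_⟩
  intro x y hxy T hT
  obtain ⟨q, p, hplen, hqy, _⟩ := exists_prefix_walk K hconn (2 * (D + ⌈2 * δ⌉₊) + 1) x y hxy
  have hxq : K.dist x q = 2 * (D + ⌈2 * δ⌉₊) + 1 := by
    have h1 : K.dist x q ≤ p.length := dist_le p
    have h2 : K.dist x y ≤ K.dist x q + K.dist q y := hconn.dist_triangle
    omega
  have hfin := fine_pair_finite K hconn hact hpaths hstab x q (D + ⌈2 * δ⌉₊)
    (by rw [hxq]; omega)
  have hcard := hN₀ x q hxq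
  have hsub : (↑T : Set Γ) ⊆ {γ : Γ | K.dist x (γ • x) ≤ D + ⌈2 * δ⌉₊ ∧
      K.dist q (γ • q) ≤ D + ⌈2 * δ⌉₊} := by
    intro γ hγ
    obtain ⟨hγx, hγy⟩ := hT γ (Finset.mem_coe.mp hγ)
    refine ⟨le_trans hγx (Nat.le_add_right _ _), ?_⟩
    have h4 := hδ q x (γ • q) y
    -- the two bounds on the terms of the maximum
    have h5 : K.dist (γ • q) y ≤ K.dist q y + D := by
      have h6 : K.dist (γ • q) y ≤ K.dist (γ • q) (γ • y) + K.dist (γ • y) y :=
        hconn.dist_triangle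
      rw [graph_dist_smul K hconn hact γ q y, SimpleGraph.dist_comm (u := γ • y) (v := y)] at h6
      omega
    have h7 : K.dist x (γ • q) ≤ D + K.dist x q := by
      have h8 : K.dist x (γ • q) ≤ K.dist x (γ • x) + K.dist (γ • x) (γ • q) :=
        hconn.dist_triangle
      rw [graph_dist_smul K hconn hact γ x q] at h8
      omega
    have h9 : K.dist q x = K.dist x q := SimpleGraph.dist_comm
    have hmax : max ((K.dist q x : ℝ) + K.dist (γ • q) y) ((K.dist q y : ℝ) + K.dist x (γ • q))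
        ≤ (K.dist x y : ℝ) + D := by
      have e1 : ((K.dist q x : ℝ) + K.dist (γ • q) y) ≤ (K.dist x y : ℝ) + D := by
        have : K.dist q x + K.dist (γ • q) y ≤ K.dist x y + D := by omega
        exact_mod_cast this
      have e2 : ((K.dist q y : ℝ) + K.dist x (γ • q)) ≤ (K.dist x y : ℝ) + D := by
        have : K.dist q y + K.dist x (γ • q) ≤ K.dist x y + D := by omega
        exact_mod_cast this
      exact max_le e1 e2
    have h10 : (K.dist q (γ • q) : ℝ) ≤ (D : ℝ) + 2 * δ := by linarith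
    have h11 : (2 * δ : ℝ) ≤ (⌈2 * δ⌉₊ : ℝ) := Nat.le_ceil _
    have h12 : (K.dist q (γ • q) : ℝ) ≤ ((D + ⌈2 * δ⌉₊ : ℕ) : ℝ) := by
      push_cast
      linarith
    exact_mod_cast h12
  have h13 := Set.ncard_le_ncard hsub hfin
  rw [Set.ncard_coe_finset] at h13
  exact le_trans h13 hcard

end Vale.Agent.Lib.P184
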