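import Vale.Agent.Lib.P184.FinePaths

/-!
# Uniform bounds on the number of arcs of bounded length in a uniformly fine graph
-/

namespace Vale.Agent.Lib.P184

open SimpleGraph

/-- The possible second vertices of short arcs from `u` to `w` all come from short circuits
through one fixed edge at `u`. -/
theorem fineUniformPaths_second_subset {V : Type*} (K : SimpleGraph V)
    (u w : V) (n : ℕ) (a₀ : V) (h₀ : K.Adj u a₀) (α₀ : K.Walk a₀ w)
    (hα₀l : α₀.length ≤ n) (hα₀u : u ∉ α₀.support) :
    {u₁ : V | ∃ (_ : K.Adj u u₁) (p' : K.Walk u₁ w),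
      p'.IsPath ∧ p'.length ≤ n ∧ u ∉ p'.support} ⊆
    insert a₀ ((fun c : K.Walk u u => c.getVert 1) ''
      {p : K.Walk u u | p.IsCycle ∧ s(u, a₀) ∈ p.edges ∧ p.length ≤ 2 * n + 2}) := by
  classical
  rintro u₁ ⟨h, β, hβp, hβl, hβu⟩
  by_cases hne : u₁ = a₀
  · exact Set.mem_insert_iff.mpr (Or.inl hne)
  · refine Set.mem_insert_iff.mpr (Or.inr ?_)
    have hq_supp : u ∉ ((β.append α₀.reverse).bypass).support := by
      intro hmem
      have hmem2 := Walk.support_bypass_subset_support _ hmem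
      rw [Walk.mem_support_append_iff, Walk.support_reverse, List.mem_reverse] at hmem2
      exact hmem2.elim hβu hα₀u
    have hq_path : ((β.append α₀.reverse).bypass).IsPath := Walk.bypass_isPath _
    have hq_len : ((β.append α₀.reverse).bypass).length ≤ 2 * n := by
      have hle := Walk.length_bypass_le_length (β.append α₀.reverse)
      rw [Walk.length_append, Walk.length_reverse] at hle
      omega
    generalize (β.append α₀.reverse).bypass = q at hq_supp hq_path hq_len
    have hq'path : (q.concat h₀.symm).IsPath := hq_path.concat hq_supp h₀.symm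
    have hedge : s(u, u₁) ∉ (q.concat h₀.symm).edges := by
      rw [Walk.edges_concat, List.concat_eq_append, List.mem_append, List.mem_singleton]
      rintro (h1 | h1)
      · exact hq_supp (Walk.fst_mem_support_of_mem_edges q h1)
      · rw [Sym2.eq_iff] at h1
        rcases h1 with ⟨_, h3⟩ | ⟨_, h3⟩
        · exact h.ne h3.symm
        · exact hne h3
    have hcyc : (Walk.cons h (q.concat h₀.symm)).IsCycle :=
      (Walk.cons_isCycle_iff _ _).mpr ⟨hq'path, hedge⟩
    refine ⟨Walk.cons h (q.concat h₀.symm), ⟨hcyc, ?_, ?_⟩, ?_⟩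
    · rw [Walk.edges_cons, Walk.edges_concat]
      simp [Sym2.eq_swap]
    · rw [Walk.length_cons, Walk.length_concat]
      omega
    · simp

/-- Uniform bound on the number of possible second vertices of short arcs. -/
theorem fineUniformPaths_second_ncard {V : Type*} (K : SimpleGraph V)
    (hfine : ∀ (u w : V), K.Adj u w → ∀ n : ℕ,
      {p : K.Walk u u | p.IsCycle ∧ s(u, w) ∈ p.edges ∧ p.length ≤ n}.Finite)
    (u w : V) (n c : ℕ)
    (hc : ∀ u w : V, K.Adj u w →
      {p : K.Walk u u | p.IsCycle ∧ s(u, w) ∈ p.edges ∧ p.length ≤ 2 * n + 2}.ncard ≤ c) :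
    {u₁ : V | ∃ (_ : K.Adj u u₁) (p' : K.Walk u₁ w),
      p'.IsPath ∧ p'.length ≤ n ∧ u ∉ p'.support}.ncard ≤ 1 + c := by
  classical
  rcases Set.eq_empty_or_nonempty {u₁ : V | ∃ (_ : K.Adj u u₁) (p' : K.Walk u₁ w),
      p'.IsPath ∧ p'.length ≤ n ∧ u ∉ p'.support} with hN | ⟨a₀, h₀, α₀, _, hα₀l, hα₀u⟩
  · rw [hN]
    simp
  · have hsub := fineUniformPaths_second_subset K u w n a₀ h₀ α₀ hα₀l hα₀u
    have hfinC := hfine u a₀ h₀ (2 * n + 2)
    have hfin : (insert a₀ ((fun c : K.Walk u u => c.getVert 1) ''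
        {p : K.Walk u u | p.IsCycle ∧ s(u, a₀) ∈ p.edges ∧ p.length ≤ 2 * n + 2})).Finite :=
      (hfinC.image _).insert a₀
    have h1 := Set.ncard_le_ncard hsub hfin
    have h2 := Set.ncard_insert_le a₀ ((fun c : K.Walk u u => c.getVert 1) ''
        {p : K.Walk u u | p.IsCycle ∧ s(u, a₀) ∈ p.edges ∧ p.length ≤ 2 * n + 2})
    have h3 := Set.ncard_image_le (f := fun c : K.Walk u u => c.getVert 1) hfinC
    have h4 := hc u a₀ h₀
    omega

/-- Uniform version of `fine_paths`: if the number of circuits of bounded length through an edge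
is bounded uniformly over all edges, then so is the number of arcs of bounded length between
two vertices. -/
theorem fine_uniform_paths {V : Type*} (K : SimpleGraph V)
    (hfine : ∀ (u w : V), K.Adj u w → ∀ n : ℕ,
      {p : K.Walk u u | p.IsCycle ∧ s(u, w) ∈ p.edges ∧ p.length ≤ n}.Finite)
    (hcyc : ∀ n : ℕ, ∃ c : ℕ, ∀ u w : V, K.Adj u w →
      {p : K.Walk u u | p.IsCycle ∧ s(u, w) ∈ p.edges ∧ p.length ≤ n}.ncard ≤ c)
    (n : ℕ) :
    ∃ A : ℕ, ∀ u w : V, {p : K.Walk u w | p.IsPath ∧ p.length ≤ n}.ncard ≤ A := by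
  classical
  have hzero : ∀ u w : V, {p : K.Walk u w | p.length = 0}.ncard ≤ 1 := by
    intro u w
    rw [Set.ncard_le_one (finePaths_len_zero K u w)]
    intro p hp q hq
    have hp' : p.length = 0 := hp
    have hq' : q.length = 0 := hq
    have huw : u = w := Walk.eq_of_length_eq_zero hp'
    subst huw
    rw [Walk.length_eq_zero_iff, ← Walk.eq_nil_iff_nil] at hp' hq'
    rw [hp', hq']
  induction n with
  | zero =>
    refine ⟨1, fun u w => ?_⟩
    have hsub : {p : K.Walk u w | p.IsPath ∧ p.length ≤ 0} ⊆ {p : K.Walk u w | p.length = 0} := by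
      rintro p ⟨_, hp⟩
      exact Nat.le_zero.mp hp
    exact (Set.ncard_le_ncard hsub (finePaths_len_zero K u w)).trans (hzero u w)
  | succ n ih =>
    obtain ⟨A, hA⟩ := ih
    obtain ⟨c, hc⟩ := hcyc (2 * n + 2)
    refine ⟨1 + (1 + c) * A, fun u w => ?_⟩
    have hNfin := finePaths_second_finite K hfine u w n
    have hNcard := fineUniformPaths_second_ncard K hfine u w n c hc
    have hSfin : ∀ u₁ : V, {p : K.Walk u w | ∃ (h : K.Adj u u₁) (p' : K.Walk u₁ w),
        (p'.IsPath ∧ p'.length ≤ n) ∧ p = Walk.cons h p'}.Finite := by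
      intro u₁
      by_cases h : K.Adj u u₁
      · refine Set.Finite.subset ((fine_paths K hfine u₁ w n).image (fun p' => Walk.cons h p')) ?_
        rintro p ⟨h', p', hp', rfl⟩
        exact ⟨p', hp', rfl⟩
      · refine Set.Finite.subset Set.finite_empty ?_
        rintro p ⟨h', _⟩
        exact absurd h' h
    have hScard : ∀ u₁ : V, {p : K.Walk u w | ∃ (h : K.Adj u u₁) (p' : K.Walk u₁ w),
        (p'.IsPath ∧ p'.length ≤ n) ∧ p = Walk.cons h p'}.ncard ≤ A := by
      intro u₁
      by_cases h : K.Adj u u₁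
      · have hsub : {p : K.Walk u w | ∃ (h : K.Adj u u₁) (p' : K.Walk u₁ w),
            (p'.IsPath ∧ p'.length ≤ n) ∧ p = Walk.cons h p'} ⊆
            (fun p' => Walk.cons h p') '' {p' : K.Walk u₁ w | p'.IsPath ∧ p'.length ≤ n} := by
          rintro p ⟨h', p', hp', rfl⟩
          exact ⟨p', hp', rfl⟩
        have h1 := Set.ncard_le_ncard hsub ((fine_paths K hfine u₁ w n).image _)
        have h2 := Set.ncard_image_le (f := fun p' : K.Walk u₁ w => Walk.cons h p')
          (fine_paths K hfine u₁ w n)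
        have h3 := hA u₁ w
        omega
      · have hemp : {p : K.Walk u w | ∃ (h : K.Adj u u₁) (p' : K.Walk u₁ w),
            (p'.IsPath ∧ p'.length ≤ n) ∧ p = Walk.cons h p'} = ∅ := by
          apply Set.eq_empty_of_forall_notMem
          rintro p ⟨h', _⟩
          exact h h'
        rw [hemp]
        simp
    have hcover : {p : K.Walk u w | p.IsPath ∧ p.length ≤ n + 1} ⊆
        {p : K.Walk u w | p.length = 0} ∪ ⋃ u₁ ∈ hNfin.toFinset,
          {p : K.Walk u w | ∃ (h : K.Adj u u₁) (p' : K.Walk u₁ w),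
            (p'.IsPath ∧ p'.length ≤ n) ∧ p = Walk.cons h p'} := by
      rintro p ⟨hp, hl⟩
      cases p with
      | nil =>
        left
        rfl
      | cons h p' =>
        right
        rw [Walk.cons_isPath_iff] at hp
        rw [Walk.length_cons] at hl
        simp only [Set.mem_iUnion, Set.Finite.mem_toFinset]
        exact ⟨_, ⟨h, p', hp.1, by omega, hp.2⟩, h, p', ⟨hp.1, by omega⟩, rfl⟩
    have hUfin : (⋃ u₁ ∈ hNfin.toFinset,
          {p : K.Walk u w | ∃ (h : K.Adj u u₁) (p' : K.Walk u₁ w),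
            (p'.IsPath ∧ p'.length ≤ n) ∧ p = Walk.cons h p'}).Finite :=
      Set.Finite.biUnion (Finset.finite_toSet _) (fun u₁ _ => hSfin u₁)
    have hUcard : (⋃ u₁ ∈ hNfin.toFinset,
          {p : K.Walk u w | ∃ (h : K.Adj u u₁) (p' : K.Walk u₁ w),
            (p'.IsPath ∧ p'.length ≤ n) ∧ p = Walk.cons h p'}).ncard ≤ (1 + c) * A := by
      refine (Finset.set_ncard_biUnion_le _ _).trans ?_
      refine (Finset.sum_le_card_nsmul _ _ A (fun u₁ _ => hScard u₁)).trans ?_
      rw [smul_eq_mul, ← Set.ncard_eq_toFinset_card _ hNfin]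
      exact Nat.mul_le_mul_right A hNcard
    have h1 := Set.ncard_le_ncard hcover ((finePaths_len_zero K u w).union hUfin)
    have h2 := Set.ncard_union_le {p : K.Walk u w | p.length = 0} (⋃ u₁ ∈ hNfin.toFinset,
          {p : K.Walk u w | ∃ (h : K.Adj u u₁) (p' : K.Walk u₁ w),
            (p'.IsPath ∧ p'.length ≤ n) ∧ p = Walk.cons h p'})
    have h3 := hzero u w
    omega

end Vale.Agent.Lib.P184
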