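import Vale.Agent.Lib.P184.FineHubFar
import Vale.Agent.Lib.P184.FineHubExists
import Vale.Agent.Lib.P184.FineBounded
import Vale.Agent.Lib.P184.FineUniformOrbit
import Vale.Agent.Lib.P184.FineUniformPaths
import Vale.Agent.Lib.P184.FineUniformPair
import Vale.Agent.Lib.P184.FineRecord
import Vale.Agent.Lib.P184.FineMid
import Vale.Agent.Lib.P184.FineCentralizer

/-!
# Classification of the elements of a group acting on a fine hyperbolic graph

A group `Γ` acts on a connected fine hyperbolic graph `K` with finite edge stabilisers and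
finitely many orbits of edges.  Then every element of infinite order either fixes a vertex or is
loxodromic (`fine_classification`).

The proof: an element of infinite order with a bounded orbit fixes a vertex (hubs of bounded
infinite sets); the action is acylindrical at every scale; an element with unbounded orbits which
is not loxodromic has, by the record lemma and the midpoint estimate, a vertex moved by at most
`4 δ` by arbitrarily many of its powers, which contradicts acylindricity.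
-/

namespace Vale.Agent.Lib.P184

open SimpleGraph

theorem fine_classification {Γ V : Type*} [Group Γ] [MulAction Γ V] (K : SimpleGraph V)
    (hconn : K.Connected)
    (hact : ∀ (γ : Γ) (u w : V), K.Adj u w → K.Adj (γ • u) (γ • w))
    (δ : ℝ) (hδ : ∀ x y z w : V, (K.dist x z : ℝ) + K.dist y w
      ≤ max ((K.dist x y : ℝ) + K.dist z w) ((K.dist x w : ℝ) + K.dist y z) + 2 * δ)
    (hfine : ∀ (u w : V), K.Adj u w → ∀ n : ℕ,
      {p : K.Walk u u | p.IsCycle ∧ s(u, w) ∈ p.edges ∧ p.length ≤ n}.Finite)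
    (hstab : ∀ u w : V, K.Adj u w → {γ : Γ | γ • u = u ∧ γ • w = w}.Finite)
    (hcocpt : ∃ F : Finset (V × V), ∀ u w : V, K.Adj u w → ∃ γ : Γ, (γ • u, γ • w) ∈ F)
    (g : Γ) (hg : ∀ k : ℕ, 0 < k → g ^ k ≠ 1) :
    (∃ v : V, g • v = v) ∨
      ∃ x₀ : V, ∃ ε : ℝ, 0 < ε ∧ ∀ n : ℕ, ε * n ≤ K.dist x₀ (g ^ n • x₀) := by
  classical
  have hpaths := fine_paths K hfine
  by_contra hcon
  rw [not_or] at hcon
  obtain ⟨hnf, hnl⟩ := hcon
  have hnf' : ∀ v : V, g • v ≠ v := fun v hv => hnf ⟨v, hv⟩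
  have hδ0 : 0 ≤ δ := by
    obtain ⟨x⟩ : Nonempty V := hconn.nonempty
    have := hδ x x x x
    simp only [SimpleGraph.dist_self, Nat.cast_zero, add_zero, max_self, zero_add] at this
    linarith
  -- a vertex fixed by a positive power is fixed
  have hpow : ∀ (k : ℕ) (v : V), 0 < k → g ^ k • v = v → g • v = v := by
    intro k v hk hkv
    refine fine_fixes_of_commute K hconn hact hpaths hstab (g ^ k) v hkv ?_ g ?_
    · intro m hm
      rw [← pow_mul]
      exact hg (k * m) (Nat.mul_pos hk hm)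
    · rw [← pow_succ, ← pow_succ']
  have hfree : ∀ (x : V) (n : ℕ), 0 < n → g ^ n • x ≠ x :=
    fun x n hn h => hnf' x (hpow n x hn h)
  -- all orbits are unbounded
  have hunb : ∀ (x : V) (D : ℕ), ∃ n : ℕ, D < K.dist x (g ^ n • x) := by
    intro x D
    by_contra h
    push Not at h
    obtain ⟨v, hv⟩ := fine_fixed_of_bounded K hconn hact
      (fun C v v' => fine_hub_far K hconn hpaths C v v')
      (fun C hC c₀ D hD => fine_hub_exists K hconn C hC c₀ D hD) g hpow x D h
    exact hnf' v hv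
  -- no power is strongly loxodromic
  have hdbl : ∀ (k : ℕ), 1 ≤ k → ∀ x : V,
      (K.dist x (g ^ (2 * k) • x) : ℝ) ≤ K.dist x (g ^ k • x) + 3 * δ := by
    intro k hk x
    by_contra h
    push Not at h
    exact hnl ⟨x, fine_lox_of_pow K hconn hact δ hδ g x k hk h (hfree x)⟩
  -- acylindricity at scale `4 δ`
  obtain ⟨N₀, hN₀⟩ := fine_acylindrical K hconn hact δ hδ hpaths hstab
    (fun D => fine_uniform_pair K hconn hact hpaths hstab
      (fun n => fine_uniform_paths K hfine (fun n => fine_uniform_cycles K hact hfine hcocpt n) n)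
      (fine_uniform_stab K hstab hcocpt) D) ⌈4 * δ⌉₊
  -- the displacement sequence of a base vertex
  obtain ⟨x⟩ : Nonempty V := hconn.nonempty
  obtain ⟨ℓ, hℓ⟩ : ∃ ℓ : ℕ → ℕ, ℓ = fun n => K.dist x (g ^ n • x) := ⟨_, rfl⟩
  have hℓapp : ∀ n, ℓ n = K.dist x (g ^ n • x) := by
    intro n
    rw [hℓ]
  have hℓ0 : ℓ 0 = 0 := by rw [hℓ]; simp
  have h1 : ∀ n, ℓ (n + 1) ≤ ℓ n + ℓ 1 := by
    intro n
    rw [hℓ]
    simp only
    have h := hconn.dist_triangle (u := x) (v := g ^ n • x) (w := g ^ (n + 1) • x)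
    have h' : K.dist (g ^ n • x) (g ^ (n + 1) • x) = K.dist x (g ^ 1 • x) := by
      rw [pow_succ, mul_smul, graph_dist_smul K hconn hact, pow_one]
    omega
  have hlin : ∀ n, ℓ n ≤ n * ℓ 1 := by
    intro n
    induction n with
    | zero => simp [hℓ0]
    | succ n ih =>
      have := h1 n
      nlinarith
  have h2 : ∀ k, 1 ≤ k → ℓ (2 * k) ≤ ℓ k + ⌈3 * δ⌉₊ := by
    intro k hk
    have h := hdbl k hk x
    have h' : (3 * δ : ℝ) ≤ (⌈3 * δ⌉₊ : ℝ) := Nat.le_ceil _
    rw [hℓ]
    simp only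
    have h'' : (K.dist x (g ^ (2 * k) • x) : ℝ) ≤ ((K.dist x (g ^ k • x) + ⌈3 * δ⌉₊ : ℕ) : ℝ) := by
      push_cast
      linarith
    exact_mod_cast h''
  have h3 : ∀ B : ℕ, ∃ n, B < ℓ n := by
    intro B
    rw [hℓ]
    exact hunb x B
  obtain ⟨M, hNM, hΛ, hrec⟩ := fine_record ℓ ⌈3 * δ⌉₊ h1 h2 h3 (N₀ + 1) ((N₀ + 1) * ℓ 1 + 1)
  -- the midpoint
  have hsL : ℓ M / 2 ≤ K.dist x (g ^ M • x) := by
    have : ℓ M = K.dist x (g ^ M • x) := by rw [hℓ]
    omega
  obtain ⟨w, p, hp, hwB, -⟩ := exists_prefix_walk K hconn (ℓ M / 2) x (g ^ M • x) hsL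
  have hLM : K.dist x (g ^ M • x) = ℓ M := by rw [hℓ]
  have hxw : K.dist x w = ℓ M / 2 := by
    have h := K.dist_le p
    have h' := hconn.dist_triangle (u := x) (v := w) (w := g ^ M • x)
    omega
  have hmid : ∀ j, 1 ≤ j → j ≤ N₀ + 1 → (K.dist w (g ^ j • w) : ℝ) ≤ 4 * δ := by
    intro j hj1 hjN
    have hjM : j ≤ M := hjN.trans hNM
    have hℓj : ℓ j + 1 ≤ ℓ M := by
      have := hlin j
      have h' : j * ℓ 1 ≤ (N₀ + 1) * ℓ 1 := Nat.mul_le_mul_right _ hjN
      omega
    have e1 : g ^ j • g ^ M • x = g ^ (M + j) • x := by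
      rw [← mul_smul, ← pow_add, add_comm]
    have e2 : g ^ j • g ^ M • x = g ^ M • g ^ j • x := by
      rw [← mul_smul, ← mul_smul, ← pow_add, ← pow_add, add_comm]
    have e3 : g ^ M • x = g ^ j • g ^ (M - j) • x := by
      rw [← mul_smul, ← pow_add, Nat.add_sub_cancel' hjM]
    refine fine_mid_displacement K δ hδ x (g ^ M • x) (g ^ j • x) (g ^ j • g ^ M • x) w
      (g ^ j • w) (ℓ M) (ℓ M / 2) (ℓ j) hLM ?_ ?_ ?_ ?_ ?_ ?_ ?_ hxw ?_ ?_ ?_
    · rw [graph_dist_smul K hconn hact, hLM]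
    · rw [hℓ]
    · rw [e2, graph_dist_smul K hconn hact, hℓ]
    · rw [e1]
      have := hrec (M + j) (by omega)
      rw [hℓapp (M + j)] at this
      exact this
    · rw [e3, graph_dist_smul K hconn hact]
      have := hrec (M - j) (by omega)
      rw [hℓapp (M - j)] at this
      exact this
    · omega
    · omega
    · omega
    · rw [graph_dist_smul K hconn hact, hxw]
    · rw [graph_dist_smul K hconn hact]
      omega
  -- a far translate of the midpoint
  obtain ⟨i, hi⟩ := hunb w (2 * (⌈4 * δ⌉₊ + ⌈2 * δ⌉₊) + 1)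
  have hinj : Function.Injective (fun j : ℕ => g ^ j) := by
    intro a b hab
    by_contra hne
    rcases Nat.lt_or_gt_of_ne hne with hlt | hlt
    · refine hg (b - a) (by omega) ?_
      have h : g ^ a * g ^ (b - a) = g ^ a * 1 := by
        rw [← pow_add, Nat.add_sub_cancel' hlt.le, mul_one]
        exact hab.symm
      exact mul_left_cancel h
    · refine hg (a - b) (by omega) ?_
      have h : g ^ b * g ^ (a - b) = g ^ b * 1 := by
        rw [← pow_add, Nat.add_sub_cancel' hlt.le, mul_one]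
        exact hab
      exact mul_left_cancel h
  have hT := hN₀ w (g ^ i • w) (by omega) ((Finset.Icc 1 (N₀ + 1)).image (fun j : ℕ => g ^ j))
    (by
      intro γ hγ
      obtain ⟨j, hj, rfl⟩ := Finset.mem_image.mp hγ
      rw [Finset.mem_Icc] at hj
      have h := hmid j hj.1 hj.2
      have h' : (4 * δ : ℝ) ≤ (⌈4 * δ⌉₊ : ℝ) := Nat.le_ceil _
      have h'' : K.dist w (g ^ j • w) ≤ ⌈4 * δ⌉₊ := by
        have : (K.dist w (g ^ j • w) : ℝ) ≤ (⌈4 * δ⌉₊ : ℝ) := h.trans h'
        exact_mod_cast this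
      refine ⟨h'', ?_⟩
      have e : g ^ j • g ^ i • w = g ^ i • g ^ j • w := by
        rw [← mul_smul, ← mul_smul, ← pow_add, ← pow_add, add_comm]
      rw [e, graph_dist_smul K hconn hact]
      exact h'')
  rw [Finset.card_image_of_injective _ hinj, Nat.card_Icc] at hT
  omega

end Vale.Agent.Lib.P184
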