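import Vale.Agent.Lib.P184.FineTransfer

/-!
# Projection onto a vertex stabiliser

A group `Γ` acts on a connected hyperbolic graph `K` with finitely many paths of each length
between any two vertices, finite edge stabilisers and finitely many orbits of edges.  For every
vertex `v` there is a map `π` from `Γ` to the stabiliser of `v` which is the identity on the
stabiliser, is equivariant on the right under the stabiliser, and such that for every `m` the
left differences `π (m * h) * (π h)⁻¹` take finitely many values.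
-/

namespace Vale.Agent.Lib.P184

open SimpleGraph

theorem fine_projection {Γ V : Type*} [Group Γ] [MulAction Γ V] (K : SimpleGraph V)
    (hconn : K.Connected)
    (hact : ∀ (γ : Γ) (u w : V), K.Adj u w → K.Adj (γ • u) (γ • w))
    (δ : ℝ) (hδ : ∀ x y z w : V, (K.dist x z : ℝ) + K.dist y w
      ≤ max ((K.dist x y : ℝ) + K.dist z w) ((K.dist x w : ℝ) + K.dist y z) + 2 * δ)
    (hpaths : ∀ (u w : V) (n : ℕ), {p : K.Walk u w | p.IsPath ∧ p.length ≤ n}.Finite)
    (hstab : ∀ u w : V, K.Adj u w → {γ : Γ | γ • u = u ∧ γ • w = w}.Finite)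
    (hcocpt : ∃ F : Finset (V × V), ∀ u w : V, K.Adj u w → ∃ γ : Γ, (γ • u, γ • w) ∈ F)
    (v : V) :
    ∃ π : Γ → Γ, (∀ h : Γ, π h • v = v) ∧
      (∀ h z : Γ, z • v = v → π (h * z) = π h * z) ∧
      (∀ h : Γ, h • v = v → π h = h) ∧
      ∀ m : Γ, {c : Γ | ∃ h : Γ, c = π (m * h) * (π h)⁻¹}.Finite := by
  classical
  -- orbit representatives of the neighbours of `v`
  obtain ⟨R, hRfin, hRadj, hR⟩ := fineTransfer_exists_reps K hact hcocpt v
  -- the section
  have hex : ∀ w : V, ∃ τ : Γ, (w = v → τ = 1) ∧ (w ≠ v → (∃ h : Γ, h • v = w) →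
      τ • v = w ∧ ∃ s, K.Adj w s ∧ K.dist v s + 1 = K.dist v w ∧ τ⁻¹ • s ∈ R) := by
    intro w
    by_cases hw : w = v
    · exact ⟨1, fun _ => rfl, fun h => absurd hw h⟩
    · by_cases horb : ∃ h : Γ, h • v = w
      · obtain ⟨h₀, hh₀⟩ := horb
        obtain ⟨s, hs, hsd⟩ := exists_adj_dist_succ K hconn w v hw
        have hu : K.Adj v (h₀⁻¹ • s) := by
          have h1 := hact h₀⁻¹ w s hs
          rw [← hh₀, inv_smul_smul] at h1
          exact h1
        obtain ⟨p, hpv, hpR⟩ := hR _ hu
        refine ⟨h₀ * p, fun h => absurd h hw, fun _ _ => ⟨?_, s, hs, ?_, ?_⟩⟩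
        · rw [mul_smul, hpv, hh₀]
        · rw [SimpleGraph.dist_comm, hsd, SimpleGraph.dist_comm]
        · rw [mul_inv_rev, mul_smul]
          exact hpR
      · exact ⟨1, fun h => absurd h hw, fun _ h => absurd h horb⟩
  choose t ht1 ht2 using hex
  have htv : t v = 1 := ht1 v rfl
  have htfix : ∀ h : Γ, t (h • v) • v = h • v := by
    intro h
    by_cases hh : h • v = v
    · rw [hh, htv, one_smul]
    · exact (ht2 (h • v) hh ⟨h, rfl⟩).1
  have hPfix : ∀ h : Γ, ((t (h • v))⁻¹ * h) • v = v := by
    intro h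
    rw [mul_smul, inv_smul_eq_iff, htfix]
  refine ⟨fun h => (t (h • v))⁻¹ * h, hPfix, ?_, ?_, ?_⟩
  · -- equivariance on the right under the stabiliser
    intro h z hz
    show (t ((h * z) • v))⁻¹ * (h * z) = (t (h • v))⁻¹ * h * z
    rw [mul_smul, hz, mul_assoc]
  · -- identity on the stabiliser
    intro h hh
    show (t (h • v))⁻¹ * h = h
    rw [hh, htv, inv_one, one_mul]
  · -- finitely many left differences
    intro m
    obtain ⟨Cset, hCset⟩ : ∃ Cset : Set Γ,
        Cset = {c : Γ | ∃ w : V, (∃ h : Γ, h • v = w) ∧ c = (t (m • w))⁻¹ * m * t w} := ⟨_, rfl⟩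
    have hCfin : Cset.Finite := by
      obtain ⟨N, hN⟩ : ∃ N : ℕ, N = ⌊2 * (K.dist (m • v) v : ℝ) + 12 * δ + 2⌋₊ := ⟨_, rfl⟩
      obtain ⟨Ex, hEx⟩ : ∃ Ex : Set V, Ex = {w : V | w = v ∨ m • w = v ∨
          K.dist (m • v) (m • w) + K.dist (m • w) v = K.dist (m • v) v} := ⟨_, rfl⟩
      have hExfin : Ex.Finite := by
        have h1 : Ex ⊆ {v} ∪ (fun w => m • w) ⁻¹' ({v} ∪
            {y : V | K.dist (m • v) y + K.dist y v = K.dist (m • v) v}) := by
          rw [hEx]
          intro w hw
          rcases hw with hw | hw | hw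
          · exact Or.inl hw
          · exact Or.inr (Or.inl hw)
          · exact Or.inr (Or.inr hw)
        refine Set.Finite.subset ((Set.finite_singleton v).union ?_) h1
        refine Set.Finite.preimage ?_ ((Set.finite_singleton v).union
          (fine_between_finite K hconn hpaths (m • v) v))
        intro w₁ _ w₂ _ h12
        exact smul_left_cancel m h12
      obtain ⟨Big, hBig⟩ : ∃ Big : Set Γ, Big = ⋃ r ∈ R, ⋃ r' ∈ R,
          ⋃ u ∈ {u : V | K.Adj v u ∧ ∃ p : K.Walk u r', v ∉ p.support ∧ p.length ≤ N},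
            {c : Γ | c • v = v ∧ c • r = u} := ⟨_, rfl⟩
      have hBigfin : Big.Finite := by
        rw [hBig]
        refine hRfin.biUnion (fun r hr => hRfin.biUnion (fun r' _ =>
          (fine_angle_finite K hpaths v r' N).biUnion (fun u _ =>
            fineTransfer_transporter_finite K hstab v r u (hRadj r hr))))
      refine Set.Finite.subset ((hExfin.image (fun w => (t (m • w))⁻¹ * m * t w)).union hBigfin) ?_
      rw [hCset]
      rintro c ⟨w, horb, rfl⟩
      by_cases hwEx : w ∈ Ex
      · exact Or.inl ⟨w, hwEx, rfl⟩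
      · right
        rw [hEx] at hwEx
        simp only [Set.mem_ofPred_eq, not_or] at hwEx
        obtain ⟨hwv, hmwv, hbetween⟩ := hwEx
        have horb' : ∃ h : Γ, h • v = m • w := by
          obtain ⟨h, hh⟩ := horb
          exact ⟨m * h, by rw [mul_smul, hh]⟩
        obtain ⟨htw, s, hs, hsd, hsR⟩ := ht2 w hwv horb
        obtain ⟨hty, s', hs', hsd', hsR'⟩ := ht2 (m • w) hmwv horb'
        have hcv : ((t (m • w))⁻¹ * m * t w) • v = v := by
          rw [mul_smul, mul_smul, htw, inv_smul_eq_iff, hty]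
        have hcr : ((t (m • w))⁻¹ * m * t w) • ((t w)⁻¹ • s) = (t (m • w))⁻¹ • m • s := by
          rw [mul_smul, mul_smul, smul_inv_smul]
        have hnb : K.dist (m • v) v < K.dist (m • v) (m • w) + K.dist (m • w) v := by
          have h1 := hconn.dist_triangle (u := m • v) (v := m • w) (w := v)
          omega
        have hα' : K.dist (m • v) (m • s) + 1 = K.dist (m • v) (m • w) := by
          rw [graph_dist_smul K hconn hact, graph_dist_smul K hconn hact]
          exact hsd
        obtain ⟨p, hpy, hplen⟩ := fine_angle_bound K hconn δ hδ (m • v) v (m • w) (m • s) s'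
          (fun h => hwv (smul_left_cancel m h).symm) (fun h => hmwv h.symm) hnb
          (hact m w s hs) hα' hs' hsd'
        have hplen' : p.length ≤ N := by
          rw [hN]
          exact Nat.le_floor hplen
        have hu : K.Adj v ((t (m • w))⁻¹ • m • s) := by
          have h1 := hact (t (m • w))⁻¹ (m • w) (m • s) (hact m w s hs)
          rw [inv_smul_eq_iff.mpr hty.symm] at h1
          exact h1
        have hsupp : v ∉ (p.map (smulHom K hact (t (m • w))⁻¹)).support := by
          rw [Walk.support_map]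
          intro hmem
          obtain ⟨x, hx, hxv⟩ := List.mem_map.mp hmem
          have hxy : x = m • w := by
            have h2 : (t (m • w))⁻¹ • x = v := hxv
            rw [inv_smul_eq_iff, hty] at h2
            exact h2
          exact hpy (hxy ▸ hx)
        have hlen : (p.map (smulHom K hact (t (m • w))⁻¹)).length ≤ N := by
          rw [Walk.length_map]
          exact hplen'
        rw [hBig]
        simp only [Set.mem_iUnion, Set.mem_ofPred_eq, exists_prop]
        exact ⟨(t w)⁻¹ • s, hsR, (t (m • w))⁻¹ • s', hsR', (t (m • w))⁻¹ • m • s,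
          ⟨hu, p.map (smulHom K hact (t (m • w))⁻¹), hsupp, hlen⟩, hcv, hcr⟩
    refine hCfin.subset ?_
    rintro c ⟨h, rfl⟩
    rw [hCset]
    refine ⟨h • v, ⟨h, rfl⟩, ?_⟩
    show (t ((m * h) • v))⁻¹ * (m * h) * ((t (h • v))⁻¹ * h)⁻¹
      = (t (m • h • v))⁻¹ * m * t (h • v)
    rw [mul_smul]
    group

end Vale.Agent.Lib.P184
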