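import Mathlib

/-!
# A degree-two trace identity for idempotents

Pure noncommutative algebra: for a ring with a trace that kills two commuting
derivations `d1`, `d2`, and a second-order operator `D` twisted by `d1`, `d2`
and commuting with both, the trace of `D (D E)` vanishes on every idempotent `E`.
-/

namespace Vale.Agent.Lib.P184

section HeisAlg

variable {S : Type*} [Ring S]

/-- If `Z = Z E + E Z + Y` then `J Z + Z J = Y + Y` for `J = 1 - E - E`. -/
theorem heis_algebra_anti (E Z Y : S) (h : Z = Z * E + E * Z + Y) :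
    (1 - E - E) * Z + Z * (1 - E - E) = Y + Y := by
  have h' : Z - Z * E - E * Z = Y := by
    rw [sub_sub, sub_eq_iff_eq_add']; exact h
  calc (1 - E - E) * Z + Z * (1 - E - E)
      = (Z - Z * E - E * Z) + (Z - Z * E - E * Z) := by noncomm_ring
    _ = Y + Y := by rw [h']

/-- Two elements anticommuting with `J` have a product commuting with `J`. -/
theorem heis_algebra_comm (J A B : S) (hA : A * J = -(J * A)) (hB : B * J = -(J * B)) :
    A * B * J = J * (A * B) := by
  calc A * B * J = A * (B * J) := mul_assoc _ _ _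
    _ = -(A * J) * B := by rw [hB]; noncomm_ring
    _ = J * (A * B) := by rw [hA]; noncomm_ring

/-- The trace lemma: if `W` commutes with the involution `J` and
`J Z + Z J = Y + Y` then `τ (W Z) = τ (J W Y)`. -/
theorem heis_algebra_tr (τ : S →+ ℂ) (hτ : ∀ x y, τ (x * y) = τ (y * x))
    (J W Z Y : S) (hJ : J * J = 1) (hW : W * J = J * W) (hZ : J * Z + Z * J = Y + Y) :
    τ (W * Z) = τ (J * W * Y) := by
  have hWJ : J * W * J = W := by rw [← hW, mul_assoc, hJ, mul_one]
  have e1 : J * W * (J * Z + Z * J) = J * W * J * Z + J * (W * Z) * J := by noncomm_ring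
  have e2 : τ (J * (W * Z) * J) = τ (W * Z) := by
    rw [hτ]
    have : J * (J * (W * Z)) = W * Z := by rw [← mul_assoc, hJ, one_mul]
    rw [this]
  have e3 := congrArg τ e1
  rw [hWJ, hZ, mul_add, map_add, map_add, e2] at e3
  linear_combination (-(1 : ℂ) / 2) * e3

/-- Cyclic trace identity: `τ (J Z Z') + τ (J Z' Z) = τ (Y Z') + τ (Y Z')` whenever
`J Z + Z J = Y + Y`. -/
theorem heis_algebra_sym (τ : S →+ ℂ) (hτ : ∀ x y, τ (x * y) = τ (y * x))
    (J Z Z' Y : S) (hZ : J * Z + Z * J = Y + Y) :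
    τ (J * Z * Z') + τ (J * Z' * Z) = 2 * τ (Y * Z') := by
  have e1 : (J * Z + Z * J) * Z' = J * Z * Z' + Z * (J * Z') := by noncomm_ring
  have e2 : τ (Z * (J * Z')) = τ (J * Z' * Z) := hτ _ _
  have e3 := congrArg τ e1
  rw [hZ, add_mul, map_add, map_add, e2] at e3
  linear_combination -e3

/-- The abstract core of the identity, with all derived elements named. -/
theorem heis_algebra_core (τ : S →+ ℂ) (hτ : ∀ x y, τ (x * y) = τ (y * x))
    (d1 d2 : S →+ S)
    (h1 : ∀ x y, d1 (x * y) = d1 x * y + x * d1 y)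
    (h2 : ∀ x y, d2 (x * y) = d2 x * y + x * d2 y)
    (ht1 : ∀ x, τ (d1 x) = 0) (ht2 : ∀ x, τ (d2 x) = 0)
    (J P Q R P1 Q2 Dd D1 D2 X R2 : S)
    (hJJ : J * J = 1)
    (d1J : d1 J = -(P + P)) (d2J : d2 J = -(Q + Q))
    (f4 : d1 Q = R) (f5 : d2 P = R) (f6 : d1 P = P1)
    (f8 : d1 Dd = D1) (f9 : d2 Dd = D2)
    (f13 : d1 Q2 = R2) (f14 : d2 R = R2)
    (a1 : J * P + P * J = 0) (a2 : J * Q + Q * J = 0)
    (a3 : J * Dd + Dd * J = P * Q + P * Q)
    (a4 : J * R + R * J = (P * Q + Q * P) + (P * Q + Q * P))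
    (a6 : J * Q2 + Q2 * J = (Q * Q + Q * Q) + (Q * Q + Q * Q))
    (a7 : J * X + X * J =
      ((Dd * Dd + D1 * Q + P * D2) + (Dd * Dd + D1 * Q + P * D2) + P1 * Q2) +
      ((Dd * Dd + D1 * Q + P * D2) + (Dd * Dd + D1 * Q + P * D2) + P1 * Q2)) :
    τ X = 0 := by
  have hPJ : P * J = -(J * P) := eq_neg_of_add_eq_zero_right a1
  have hQJ : Q * J = -(J * Q) := eq_neg_of_add_eq_zero_right a2
  have cPQ : P * Q * J = J * (P * Q) := heis_algebra_comm J P Q hPJ hQJ
  have cQP : Q * P * J = J * (Q * P) := heis_algebra_comm J Q P hQJ hPJ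
  have cPP : P * P * J = J * (P * P) := heis_algebra_comm J P P hPJ hPJ
  -- the trace of X through the involution
  have E3 : τ X = 2 * τ (J * Dd * Dd) + 2 * τ (J * D1 * Q) + 2 * τ (J * P * D2)
      + τ (J * P1 * Q2) := by
    have := heis_algebra_tr τ hτ J 1 X _ hJJ (by rw [one_mul, mul_one]) a7
    rw [one_mul, mul_one] at this
    rw [this]
    simp only [mul_add, map_add, ← mul_assoc]
    ring
  -- integrations by parts
  have Sa : τ (J * D1 * Q) = 2 * τ (P * Dd * Q) - τ (J * Dd * R) := by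
    have := ht1 (J * Dd * Q)
    rw [h1, h1, d1J, f8, f4] at this
    simp only [add_mul, neg_mul, map_add, map_neg] at this
    linear_combination this
  have Sb : τ (J * P * D2) = 2 * τ (Q * P * Dd) - τ (J * R * Dd) := by
    have := ht2 (J * P * Dd)
    rw [h2, h2, d2J, f5, f9] at this
    simp only [add_mul, neg_mul, map_add, map_neg] at this
    linear_combination this
  have Sc1 : τ (J * P1 * Q2) = 2 * τ (P * P * Q2) - τ (J * P * R2) := by
    have := ht1 (J * P * Q2)
    rw [h1, h1, d1J, f6, f13] at this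
    simp only [add_mul, neg_mul, map_add, map_neg] at this
    linear_combination this
  have Sc2 : τ (J * P * R2) = 2 * τ (Q * P * R) - τ (J * R * R) := by
    have := ht2 (J * P * R)
    rw [h2, h2, d2J, f5, f14] at this
    simp only [add_mul, neg_mul, map_add, map_neg] at this
    linear_combination this
  -- evaluations
  have Si : τ (J * Dd * Dd) = τ (P * Q * Dd) := by
    have := heis_algebra_sym τ hτ J Dd Dd (P * Q) a3
    linear_combination (1 / 2 : ℂ) * this
  have Sii : τ (P * Q * Dd) = τ (J * P * Q * P * Q) := by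
    have := heis_algebra_tr τ hτ J (P * Q) Dd (P * Q) hJJ cPQ a3
    rw [this]; simp only [mul_assoc]
  have G1 : τ (J * Q * P * P * Q) = -τ (J * P * P * Q * Q) := by
    calc τ (J * Q * P * P * Q) = τ (Q * (J * Q * P * P)) := hτ _ _
      _ = τ (-(J * (Q * Q) * (P * P))) := by
          congr 1
          calc Q * (J * Q * P * P) = (Q * J) * Q * P * P := by noncomm_ring
            _ = -(J * (Q * Q) * (P * P)) := by rw [hQJ]; noncomm_ring
      _ = -τ (J * (Q * Q) * (P * P)) := map_neg _ _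
      _ = -τ (P * P * (J * (Q * Q))) := by rw [hτ (J * (Q * Q)) (P * P)]
      _ = -τ (J * P * P * Q * Q) := by
          congr 2
          calc P * P * (J * (Q * Q)) = (P * P * J) * (Q * Q) := by noncomm_ring
            _ = J * P * P * Q * Q := by rw [cPP]; noncomm_ring
  have Siii : τ (Q * P * Dd) = τ (J * Q * P * P * Q) := by
    have := heis_algebra_tr τ hτ J (Q * P) Dd (P * Q) hJJ cQP a3
    rw [this]; simp only [mul_assoc]
  have Siii' : τ (P * Dd * Q) = τ (Q * P * Dd) := by
    rw [hτ (P * Dd) Q]; simp only [mul_assoc]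
  have Siv : τ (J * Dd * R) + τ (J * R * Dd) = 2 * τ (P * Q * R) :=
    heis_algebra_sym τ hτ J Dd R (P * Q) a3
  have G2 : τ (J * P * Q * Q * P) = -τ (J * P * P * Q * Q) := by
    calc τ (J * P * Q * Q * P) = τ (P * (J * P * Q * Q)) := hτ _ _
      _ = τ (-(J * P * P * Q * Q)) := by
          congr 1
          calc P * (J * P * Q * Q) = (P * J) * P * Q * Q := by noncomm_ring
            _ = -(J * P * P * Q * Q) := by rw [hPJ]; noncomm_ring
      _ = -τ (J * P * P * Q * Q) := map_neg _ _
  have Sv : τ (P * Q * R) = τ (J * P * Q * P * Q) + τ (J * P * Q * Q * P) := by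
    have := heis_algebra_tr τ hτ J (P * Q) R (P * Q + Q * P) hJJ cPQ a4
    rw [this, mul_add, map_add]; simp only [mul_assoc]
  have Svi : τ (P * P * Q2) = 2 * τ (J * P * P * Q * Q) := by
    have := heis_algebra_tr τ hτ J (P * P) Q2 (Q * Q + Q * Q) hJJ cPP a6
    rw [this, mul_add, map_add]; simp only [mul_assoc]; ring
  have G3 : τ (J * Q * P * Q * P) = -τ (J * P * Q * P * Q) := by
    calc τ (J * Q * P * Q * P) = τ (P * (J * Q * P * Q)) := hτ _ _
      _ = τ (-(J * P * Q * P * Q)) := by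
          congr 1
          calc P * (J * Q * P * Q) = (P * J) * Q * P * Q := by noncomm_ring
            _ = -(J * P * Q * P * Q) := by rw [hPJ]; noncomm_ring
      _ = -τ (J * P * Q * P * Q) := map_neg _ _
  have Svii : τ (Q * P * R) = τ (J * Q * P * P * Q) + τ (J * Q * P * Q * P) := by
    have := heis_algebra_tr τ hτ J (Q * P) R (P * Q + Q * P) hJJ cQP a4
    rw [this, mul_add, map_add]; simp only [mul_assoc]
  have Sviii : τ (J * R * R) = τ (P * Q * R) + τ (Q * P * R) := by
    have := heis_algebra_sym τ hτ J R R (P * Q + Q * P) a4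
    rw [add_mul, map_add] at this
    linear_combination (1 / 2 : ℂ) * this
  linear_combination E3 + 2 * Si + 2 * Sii + 2 * Sa + 2 * Sb + Sc1 + 4 * Siii' + 8 * Siii
    + 7 * G1 - 2 * Siv - 3 * Sv - 3 * G2 + 2 * Svi - Sc2 + Sviii - Svii - G3

/-- The degree-two trace identity: `τ (D (D E)) = 0` for an idempotent `E`. -/
theorem heis_algebra {S : Type*} [Ring S] (τ : S →+ ℂ) (hτ : ∀ x y, τ (x * y) = τ (y * x))
    (d1 d2 D : S →+ S)
    (h1 : ∀ x y, d1 (x * y) = d1 x * y + x * d1 y)
    (h2 : ∀ x y, d2 (x * y) = d2 x * y + x * d2 y)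
    (hD : ∀ x y, D (x * y) = D x * y + x * D y + d1 x * d2 y)
    (h12 : ∀ x, d1 (d2 x) = d2 (d1 x))
    (h1D : ∀ x, d1 (D x) = D (d1 x))
    (h2D : ∀ x, d2 (D x) = D (d2 x))
    (ht1 : ∀ x, τ (d1 x) = 0) (ht2 : ∀ x, τ (d2 x) = 0)
    (E : S) (hE : E * E = E) : τ (D (D E)) = 0 := by
  have d1one : d1 1 = 0 := by
    have := h1 1 1
    rw [mul_one, mul_one, one_mul] at this
    exact add_eq_left.mp this.symm
  have d2one : d2 1 = 0 := by
    have := h2 1 1
    rw [mul_one, mul_one, one_mul] at this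
    exact add_eq_left.mp this.symm
  have hJJ : (1 - E - E) * (1 - E - E) = 1 := by
    have : (1 - E - E) * (1 - E - E)
        = 1 - (E + E + E + E) + (E * E + E * E + E * E + E * E) := by noncomm_ring
    rw [this, hE]; abel
  have d1J : d1 (1 - E - E) = -(d1 E + d1 E) := by
    rw [map_sub, map_sub, d1one]; abel
  have d2J : d2 (1 - E - E) = -(d2 E + d2 E) := by
    rw [map_sub, map_sub, d2one]; abel
  have s1 : d1 E = d1 E * E + E * d1 E := by
    have := h1 E E; rwa [hE] at this
  have s2 : d2 E = d2 E * E + E * d2 E := by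
    have := h2 E E; rwa [hE] at this
  have s3 : D E = D E * E + E * D E + d1 E * d2 E := by
    have := hD E E; rwa [hE] at this
  have s4 : d1 (d2 E) = d1 (d2 E) * E + E * d1 (d2 E) + (d1 E * d2 E + d2 E * d1 E) := by
    have := congrArg d1 s2
    rw [map_add, h1, h1] at this
    exact this.trans (by abel)
  have s6 : d2 (d2 E) = d2 (d2 E) * E + E * d2 (d2 E) + (d2 E * d2 E + d2 E * d2 E) := by
    have := congrArg d2 s2
    rw [map_add, h2, h2] at this
    exact this.trans (by abel)
  have s7 : D (D E) = D (D E) * E + E * D (D E) +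
      ((D E * D E + d1 (D E) * d2 E + d1 E * d2 (D E)) +
       (D E * D E + d1 (D E) * d2 E + d1 E * d2 (D E)) + d1 (d1 E) * d2 (d2 E)) := by
    have := congrArg D s3
    rw [map_add, map_add, hD, hD, hD, ← h1D E, ← h2D E] at this
    exact this.trans (by abel)
  have a1 : (1 - E - E) * d1 E + d1 E * (1 - E - E) = 0 := by
    rw [heis_algebra_anti E (d1 E) 0 (by rw [add_zero]; exact s1), add_zero]
  have a2 : (1 - E - E) * d2 E + d2 E * (1 - E - E) = 0 := by
    rw [heis_algebra_anti E (d2 E) 0 (by rw [add_zero]; exact s2), add_zero]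
  exact heis_algebra_core τ hτ d1 d2 h1 h2 ht1 ht2 (1 - E - E) (d1 E) (d2 E) (d1 (d2 E))
    (d1 (d1 E)) (d2 (d2 E)) (D E) (d1 (D E)) (d2 (D E)) (D (D E)) (d2 (d1 (d2 E)))
    hJJ d1J d2J rfl (h12 E).symm rfl rfl rfl (h12 (d2 E)) rfl a1 a2
    (heis_algebra_anti E _ _ s3) (heis_algebra_anti E _ _ s4) (heis_algebra_anti E _ _ s6)
    (heis_algebra_anti E _ _ s7)

end HeisAlg

end Vale.Agent.Lib.P184
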