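import Vale.Agent.Lib.P184.HeisCore

/-!
# Multiplier operators on the subring of kernels with finite moments

A multiplier is a real function of two group variables, invariant under simultaneous right
translation by the centralizer of `g`, of polynomial growth with respect to the weight.  Entrywise
multiplication by a multiplier preserves the subring `SKer g W`; additive multipliers act as
derivations, and the class trace of a multiplied kernel is computed on the diagonal.
-/

namespace Vale.Agent.Lib.P184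

open scoped BigOperators Topology

variable {G : Type*} [Group G] {R : Type*} [NormedRing R] [NormedAlgebra ℂ R] [CompleteSpace R]
  {g : G} {W : PWeight G}

/-- A multiplier: a real function of two group variables, invariant under simultaneous right
translation by the elements commuting with `g`, of polynomial growth with respect to `W`. -/
structure Mult (g : G) (W : PWeight G) where
  Φ : G → G → ℝ
  inv' : ∀ z : G, z * g = g * z → ∀ k h, Φ (k * z) (h * z) = Φ k h
  bd' : ∃ n : ℕ, ∀ k h, |Φ k h| ≤ W.w (k * h⁻¹) ^ n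

/-- Domination of the multiplied kernel. -/
theorem mulOp_sdom_aux (M : Mult g W) (A : SKer (R := R) g W) :
    ∃ u, SDom W u (fun k h => ((M.Φ k h : ℝ) : ℂ) • (A : DKer G R g).K k h) := by
  obtain ⟨u, hu, hus⟩ := A.2
  obtain ⟨n, hn⟩ := M.bd'
  refine ⟨fun x => u x * W.w x ^ n,
    ⟨fun x => mul_nonneg (hu.1 x) (pow_nonneg (W.pos x).le n), hus n, fun k h => ?_⟩,
    fun s => ?_⟩
  · rw [norm_smul, Complex.norm_real, Real.norm_eq_abs]
    calc |M.Φ k h| * ‖(A : DKer G R g).K k h‖
        ≤ W.w (k * h⁻¹) ^ n * u (k * h⁻¹) :=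
          mul_le_mul (hn k h) (hu.2.2 k h) (norm_nonneg _) (pow_nonneg (W.pos _).le n)
      _ = u (k * h⁻¹) * W.w (k * h⁻¹) ^ n := mul_comm _ _
  · refine (hus (n + s)).congr (fun x => ?_)
    rw [pow_add, mul_assoc]

/-- The multiplied kernel as a dominated invariant kernel. -/
noncomputable def mulOpKer (M : Mult g W) (A : SKer (R := R) g W) : DKer G R g where
  K := fun k h => ((M.Φ k h : ℝ) : ℂ) • (A : DKer G R g).K k h
  inv' := fun z hz k h => by rw [M.inv' z hz, (A : DKer G R g).inv' z hz]
  dom' := by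
    obtain ⟨u, hu⟩ := mulOp_sdom_aux M A
    exact ⟨u, hu.1⟩

/-- Entrywise multiplication of a kernel by a multiplier. -/
noncomputable def mulOp (M : Mult g W) : SKer (R := R) g W →+ SKer (R := R) g W where
  toFun A := ⟨mulOpKer M A, mulOp_sdom_aux M A⟩
  map_zero' := Subtype.ext (DKer.ext' (fun k h => by
    show ((M.Φ k h : ℝ) : ℂ) • ((0 : SKer (R := R) g W) : DKer G R g).K k h
      = ((0 : SKer (R := R) g W) : DKer G R g).K k h
    rw [Subring.coe_zero, DKer.zero_K, smul_zero]))
  map_add' A B := Subtype.ext (DKer.ext' (fun k h => by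
    show ((M.Φ k h : ℝ) : ℂ) • ((A + B : SKer (R := R) g W) : DKer G R g).K k h
      = ((M.Φ k h : ℝ) : ℂ) • (A : DKer G R g).K k h
        + ((M.Φ k h : ℝ) : ℂ) • (B : DKer G R g).K k h
    rw [Subring.coe_add, DKer.add_K, smul_add]))

theorem mulOp_K (M : Mult g W) (A : SKer (R := R) g W) (k h : G) :
    (mulOp M A : DKer G R g).K k h = ((M.Φ k h : ℝ) : ℂ) • (A : DKer G R g).K k h := rfl

theorem mulOp_comm (M N : Mult g W) (A : SKer (R := R) g W) :
    mulOp M (mulOp N A) = mulOp N (mulOp M A) := by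
  refine Subtype.ext (DKer.ext' (fun k h => ?_))
  rw [mulOp_K, mulOp_K, mulOp_K, mulOp_K, smul_comm]

theorem mulOp_leibniz (M : Mult g W) (hM : ∀ k m h, M.Φ k h = M.Φ k m + M.Φ m h)
    (A B : SKer (R := R) g W) : mulOp M (A * B) = mulOp M A * B + A * mulOp M B := by
  refine Subtype.ext (DKer.ext' (fun k h => ?_))
  rw [mulOp_K, Subring.coe_add, DKer.add_K, Subring.coe_mul, Subring.coe_mul, Subring.coe_mul,
    DKer.mul_K, DKer.mul_K, DKer.mul_K]
  have h1 := DKer.summable_mul (mulOp M A : DKer G R g) (B : DKer G R g) k h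
  have h2 := DKer.summable_mul (A : DKer G R g) (mulOp M B : DKer G R g) k h
  rw [← h1.tsum_add h2, ← tsum_const_smul'']
  refine tsum_congr (fun m => ?_)
  rw [mulOp_K, mulOp_K, hM k m h]
  push_cast
  rw [add_smul, smul_mul_assoc, mul_smul_comm]

theorem mulOp_twisted (M MA MB : Mult g W)
    (hM : ∀ k m h, M.Φ k h = M.Φ k m + M.Φ m h + MA.Φ k m * MB.Φ m h)
    (A B : SKer (R := R) g W) :
    mulOp M (A * B) = mulOp M A * B + A * mulOp M B + mulOp MA A * mulOp MB B := by
  refine Subtype.ext (DKer.ext' (fun k h => ?_))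
  rw [mulOp_K, Subring.coe_add, Subring.coe_add, DKer.add_K, DKer.add_K, Subring.coe_mul,
    Subring.coe_mul, Subring.coe_mul, Subring.coe_mul, DKer.mul_K, DKer.mul_K, DKer.mul_K,
    DKer.mul_K]
  have h1 := DKer.summable_mul (mulOp M A : DKer G R g) (B : DKer G R g) k h
  have h2 := DKer.summable_mul (A : DKer G R g) (mulOp M B : DKer G R g) k h
  have h3 := DKer.summable_mul (mulOp MA A : DKer G R g) (mulOp MB B : DKer G R g) k h
  rw [← h1.tsum_add h2, ← (h1.add h2).tsum_add h3, ← tsum_const_smul'']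
  refine tsum_congr (fun m => ?_)
  rw [mulOp_K, mulOp_K, mulOp_K, mulOp_K, hM k m h]
  push_cast
  rw [add_smul, add_smul, smul_mul_assoc, mul_smul_comm, mul_smul, smul_mul_assoc,
    mul_smul_comm]

theorem tr_mulOp (τ : R →L[ℂ] ℂ) (M : Mult g W) (φ₀ : ℝ) (hφ : ∀ r : G, M.Φ (r * g) r = φ₀)
    (A : SKer (R := R) g W) :
    DKer.tr τ (mulOp M A : DKer G R g) = (φ₀ : ℂ) * DKer.tr τ (A : DKer G R g) := by
  unfold DKer.tr
  rw [← tsum_mul_left]
  refine tsum_congr (fun c => ?_)
  rw [mulOp_K, rep_mul, hφ, map_smul, smul_eq_mul]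

end Vale.Agent.Lib.P184
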