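import Vale.Agent.Lib.P184.HeisCore

/-!
# A weight of polynomial type from a Heisenberg-type triple of functions

Three real functions `a`, `b`, `c` on a group such that the increments of `a`, of `b` and the
twisted increments `c (m h) - c h - (a (m h) - a h) b h` are bounded in `h` for every `m`
give a weight `w` of polynomial type which dominates the increments of `a`, `b` and whose
square dominates the twisted increments of `c`.
-/

namespace Vale.Agent.Lib.P184

/-- The square root of `u + v + p q` is at most `sqrt u + sqrt v + (p + q) / 2`. -/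
theorem heis_weight_sqrt_le {u v p q : ℝ} (hu : 0 ≤ u) (hv : 0 ≤ v) (hp : 0 ≤ p)
    (hq : 0 ≤ q) :
    Real.sqrt (u + v + p * q) ≤ Real.sqrt u + Real.sqrt v + (p + q) / 2 := by
  have h1 := Real.sqrt_nonneg u
  have h2 := Real.sqrt_nonneg v
  have h3 := Real.sq_sqrt hu
  have h4 := Real.sq_sqrt hv
  rw [Real.sqrt_le_iff]
  refine ⟨by positivity, ?_⟩
  nlinarith [sq_nonneg (p - q), mul_nonneg h1 h2, mul_nonneg h1 (add_nonneg hp hq),
    mul_nonneg h2 (add_nonneg hp hq)]

/-- A pointwise bounded nonnegative family of defects has a least uniform bound. -/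
theorem heis_weight_sup {G : Type*} [Group G] (F : G → G → ℝ) (h0 : ∀ m x, 0 ≤ F m x)
    (h : ∀ m : G, ∃ C : ℝ, ∀ x : G, F m x ≤ C) :
    ∃ L : G → ℝ, (∀ m, 0 ≤ L m) ∧ (∀ m x, F m x ≤ L m) ∧
      ∀ m K, (∀ x, F m x ≤ K) → L m ≤ K := by
  have hne : Nonempty G := ⟨1⟩
  have hb : ∀ m, BddAbove (Set.range fun x => F m x) := by
    intro m
    obtain ⟨C, hC⟩ := h m
    refine ⟨C, ?_⟩
    rintro _ ⟨x, rfl⟩
    exact hC x
  refine ⟨fun m => ⨆ x, F m x, fun m => ?_, fun m x => ?_, fun m K hK => ?_⟩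
  · exact le_trans (h0 m 1) (le_ciSup (hb m) 1)
  · exact le_ciSup (hb m) x
  · exact ciSup_le hK

theorem heis_weight {G : Type*} [Group G] (a b c : G → ℝ)
    (h : ∀ m : G, ∃ C : ℝ, ∀ h : G, |a (m * h) - a h| ≤ C ∧ |b (m * h) - b h| ≤ C ∧
      |c (m * h) - c h - (a (m * h) - a h) * b h| ≤ C) :
    ∃ W : PWeight G, (∀ k h : G, |a k - a h| ≤ W.w (k * h⁻¹)) ∧
      (∀ k h : G, |b k - b h| ≤ W.w (k * h⁻¹)) ∧
      (∀ k h : G, |c k - c h - (a k - a h) * b h| ≤ W.w (k * h⁻¹) ^ 2) := by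
  obtain ⟨La, hLa0, hLa, hLa'⟩ := heis_weight_sup (fun m x => |a (m * x) - a x|)
    (fun m x => abs_nonneg _) (fun m => (h m).imp fun C hC x => (hC x).1)
  obtain ⟨Lb, hLb0, hLb, hLb'⟩ := heis_weight_sup (fun m x => |b (m * x) - b x|)
    (fun m x => abs_nonneg _) (fun m => (h m).imp fun C hC x => (hC x).2.1)
  obtain ⟨Lc, hLc0, hLc, hLc'⟩ := heis_weight_sup
    (fun m x => |c (m * x) - c x - (a (m * x) - a x) * b x|)
    (fun m x => abs_nonneg _) (fun m => (h m).imp fun C hC x => (hC x).2.2)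
  have hLaS : ∀ m m', La (m * m') ≤ La m + La m' := by
    intro m m'
    refine hLa' _ _ fun x => ?_
    have h1 := hLa m (m' * x)
    have h2 := hLa m' x
    have e : a (m * m' * x) - a x = (a (m * (m' * x)) - a (m' * x)) + (a (m' * x) - a x) := by
      rw [mul_assoc]
      ring
    show |a (m * m' * x) - a x| ≤ La m + La m'
    rw [e]
    exact (abs_add_le _ _).trans (add_le_add h1 h2)
  have hLbS : ∀ m m', Lb (m * m') ≤ Lb m + Lb m' := by
    intro m m'
    refine hLb' _ _ fun x => ?_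
    have h1 := hLb m (m' * x)
    have h2 := hLb m' x
    have e : b (m * m' * x) - b x = (b (m * (m' * x)) - b (m' * x)) + (b (m' * x) - b x) := by
      rw [mul_assoc]
      ring
    show |b (m * m' * x) - b x| ≤ Lb m + Lb m'
    rw [e]
    exact (abs_add_le _ _).trans (add_le_add h1 h2)
  have hLcS : ∀ m m', Lc (m * m') ≤ Lc m + Lc m' + La m * Lb m' := by
    intro m m'
    refine hLc' _ _ fun x => ?_
    have h1 := hLc m (m' * x)
    have h2 := hLc m' x
    have h3 := hLa m (m' * x)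
    have h4 := hLb m' x
    have e : c (m * m' * x) - c x - (a (m * m' * x) - a x) * b x =
        (c (m * (m' * x)) - c (m' * x) - (a (m * (m' * x)) - a (m' * x)) * b (m' * x)) +
          (c (m' * x) - c x - (a (m' * x) - a x) * b x) +
          (a (m * (m' * x)) - a (m' * x)) * (b (m' * x) - b x) := by
      rw [mul_assoc]
      ring
    show |c (m * m' * x) - c x - (a (m * m' * x) - a x) * b x| ≤ Lc m + Lc m' + La m * Lb m'
    rw [e]
    have h5 : |(a (m * (m' * x)) - a (m' * x)) * (b (m' * x) - b x)| ≤ La m * Lb m' := by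
      rw [abs_mul]
      exact mul_le_mul h3 h4 (abs_nonneg _) (hLa0 m)
    exact (abs_add_le _ _).trans (add_le_add ((abs_add_le _ _).trans (add_le_add h1 h2)) h5)
  have hs0 : ∀ x, 0 ≤ Real.sqrt (Lc x) := fun x => Real.sqrt_nonneg _
  refine ⟨⟨fun x => 1 + La x + Lb x + Real.sqrt (Lc x), fun x => ?_, fun x y => ?_⟩,
    fun k x => ?_, fun k x => ?_, fun k x => ?_⟩
  · have h1 := hLa0 x
    have h2 := hLb0 x
    have h3 := hs0 x
    linarith
  · have h1 := hLaS x y
    have h2 := hLbS x y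
    have h3 : Real.sqrt (Lc (x * y)) ≤ Real.sqrt (Lc x) + Real.sqrt (Lc y) +
        (La x + Lb y) / 2 :=
      (Real.sqrt_le_sqrt (hLcS x y)).trans
        (heis_weight_sqrt_le (hLc0 x) (hLc0 y) (hLa0 x) (hLb0 y))
    have h4 := hLa0 x
    have h5 := hLb0 y
    have h6 := hLa0 y
    have h7 := hLb0 x
    have h8 := hs0 x
    have h9 := hs0 y
    show 1 + La (x * y) + Lb (x * y) + Real.sqrt (Lc (x * y)) ≤
      2 * ((1 + La x + Lb x + Real.sqrt (Lc x)) + (1 + La y + Lb y + Real.sqrt (Lc y)))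
    linarith
  · have h1 := hLa (k * x⁻¹) x
    simp only [inv_mul_cancel_right] at h1
    have h2 := hLb0 (k * x⁻¹)
    have h3 := hs0 (k * x⁻¹)
    show |a k - a x| ≤ 1 + La (k * x⁻¹) + Lb (k * x⁻¹) + Real.sqrt (Lc (k * x⁻¹))
    linarith
  · have h1 := hLb (k * x⁻¹) x
    simp only [inv_mul_cancel_right] at h1
    have h2 := hLa0 (k * x⁻¹)
    have h3 := hs0 (k * x⁻¹)
    show |b k - b x| ≤ 1 + La (k * x⁻¹) + Lb (k * x⁻¹) + Real.sqrt (Lc (k * x⁻¹))
    linarith
  · have h1 := hLc (k * x⁻¹) x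
    simp only [inv_mul_cancel_right] at h1
    have h2 := hLa0 (k * x⁻¹)
    have h3 := hLb0 (k * x⁻¹)
    have h4 := hs0 (k * x⁻¹)
    have h5 := Real.sq_sqrt (hLc0 (k * x⁻¹))
    have h6 : Real.sqrt (Lc (k * x⁻¹)) ^ 2 ≤
        (1 + La (k * x⁻¹) + Lb (k * x⁻¹) + Real.sqrt (Lc (k * x⁻¹))) ^ 2 :=
      pow_le_pow_left₀ h4 (by linarith) 2
    show |c k - c x - (a k - a x) * b x| ≤
      (1 + La (k * x⁻¹) + Lb (k * x⁻¹) + Real.sqrt (Lc (k * x⁻¹))) ^ 2
    linarith

end Vale.Agent.Lib.P184
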