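import Vale.Agent.Lib.P184.HeisSmooth
import Vale.Agent.Lib.P184.HeisOps
import Vale.Agent.Lib.P184.HeisAlgebra
import Vale.Agent.Lib.P184.HeisWeight
import Vale.Agent.Lib.P184.MatrixForm

/-!
# Vanishing of class traces of idempotents under a twisting triple of Heisenberg type

Let `a, b, c : G → ℝ` be functions such that the kernels `a k - a h`, `b k - b h` and
`c k - c h - (a k - a h) * b h` are bounded on every set `k * h⁻¹ = m` and are invariant under
simultaneous right translation by the elements commuting with `g` (this is how the coordinates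
of a homomorphism to the real Heisenberg group behave), and suppose that `a g = a 1`,
`b g = b 1` and `c g ≠ c 1`.  Then for every absolutely summable idempotent `e` for convolution,
with values in a complete normed algebra with a continuous trace `τ`, the sum of `τ (e x)` over
the conjugacy class of `g` vanishes.
-/

namespace Vale.Agent.Lib.P184

open scoped BigOperators Topology

section Main

variable {G : Type*} [Group G] {R : Type*} [NormedRing R] [NormedAlgebra ℂ R] [CompleteSpace R]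

theorem heis_class_trace_eq_zero (τ : R →L[ℂ] ℂ) (hτ : ∀ a b, τ (a * b) = τ (b * a))
    (e : G → R) (he : Summable (fun x => ‖e x‖))
    (he_idem : ∀ x, ∑' y, e y * e (y⁻¹ * x) = e x)
    (g : G) (a b c : G → ℝ)
    (h1 : ∀ m : G, ∃ C : ℝ, ∀ h : G, |a (m * h) - a h| ≤ C ∧ |b (m * h) - b h| ≤ C ∧
      |c (m * h) - c h - (a (m * h) - a h) * b h| ≤ C)
    (h2 : ∀ z : G, z * g = g * z → ∀ h : G, a (h * z) - a h = a z - a 1 ∧
      b (h * z) - b h = b z - b 1 ∧
      c (h * z) - c h - a h * (b z - b 1) = c z - c 1 - a 1 * (b z - b 1))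
    (h3 : a g = a 1 ∧ b g = b 1 ∧ c g ≠ c 1) :
    ∑' x : {x : G // IsConj g x}, τ (e x.1) = 0 := by
  classical
  obtain ⟨W, hWa, hWb, hWc⟩ := heis_weight a b c h1
  -- the three multipliers
  obtain ⟨MA, hMA⟩ : ∃ MA : Mult g W, MA.Φ = fun k h => a k - a h :=
    ⟨⟨fun k h => a k - a h, fun z hz k h => by
        have e1 := (h2 z hz k).1
        have e2 := (h2 z hz h).1
        linarith,
      ⟨1, fun k h => by simpa using hWa k h⟩⟩, rfl⟩
  obtain ⟨MB, hMB⟩ : ∃ MB : Mult g W, MB.Φ = fun k h => b k - b h :=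
    ⟨⟨fun k h => b k - b h, fun z hz k h => by
        have e1 := (h2 z hz k).2.1
        have e2 := (h2 z hz h).2.1
        linarith,
      ⟨1, fun k h => by simpa using hWb k h⟩⟩, rfl⟩
  obtain ⟨MC, hMC⟩ : ∃ MC : Mult g W, MC.Φ = fun k h => c k - c h - (a k - a h) * b h :=
    ⟨⟨fun k h => c k - c h - (a k - a h) * b h, fun z hz k h => by
        obtain ⟨e1, -, e3⟩ := h2 z hz k
        obtain ⟨e4, e5, e6⟩ := h2 z hz h
        have e7 : a (k * z) - a (h * z) = a k - a h := by linarith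
        have e8 : b (h * z) = b h + (b z - b 1) := by linarith
        rw [e7, e8]
        linarith,
      ⟨2, fun k h => hWc k h⟩⟩, rfl⟩
  obtain ⟨c₀, hc₀⟩ : ∃ c₀ : ℝ, c₀ = c g - c 1 := ⟨_, rfl⟩
  have hc₀ne : c₀ ≠ 0 := by rw [hc₀]; exact sub_ne_zero.mpr h3.2.2
  have hdiagA : ∀ r : G, MA.Φ (r * g) r = 0 := by
    intro r
    rw [hMA]
    have e1 := (h2 g rfl r).1
    have e2 := h3.1
    change a (r * g) - a r = 0
    linarith
  have hdiagB : ∀ r : G, MB.Φ (r * g) r = 0 := by
    intro r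
    rw [hMB]
    have e1 := (h2 g rfl r).2.1
    have e2 := h3.2.1
    change b (r * g) - b r = 0
    linarith
  have hdiagC : ∀ r : G, MC.Φ (r * g) r = c₀ := by
    intro r
    rw [hMC, hc₀]
    obtain ⟨e1, e2, e3⟩ := h2 g rfl r
    have e4 := h3.1
    have e5 := h3.2.1
    change c (r * g) - c r - (a (r * g) - a r) * b r = c g - c 1
    have e6 : a (r * g) - a r = 0 := by linarith
    have e7 : b g - b 1 = 0 := by linarith
    rw [e6]
    rw [e7] at e3
    linarith
  -- the smooth idempotent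
  obtain ⟨E', hidem, hmem, htr⟩ := smooth_idempotent W τ hτ e he he_idem g
  obtain ⟨T, hT⟩ : ∃ T : SKer (R := R) g W →+ ℂ,
      ∀ A : SKer (R := R) g W, T A = DKer.tr τ (A : DKer G R g) :=
    ⟨(DKer.trHom (g := g) τ).comp (SKer (R := R) g W).subtype.toAddMonoidHom, fun A => rfl⟩
  have hTcomm : ∀ A B : SKer (R := R) g W, T (A * B) = T (B * A) := by
    intro A B
    rw [hT, hT]
    exact DKer.tr_mul_comm τ hτ (A : DKer G R g) (B : DKer G R g)
  have key := heis_algebra T hTcomm (mulOp MA) (mulOp MB) (mulOp MC)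
    (mulOp_leibniz MA (fun k m h => by rw [hMA]; ring))
    (mulOp_leibniz MB (fun k m h => by rw [hMB]; ring))
    (mulOp_twisted MC MA MB (fun k m h => by rw [hMA, hMB, hMC]; ring))
    (fun A => mulOp_comm MA MB A) (fun A => mulOp_comm MA MC A) (fun A => mulOp_comm MB MC A)
    (fun A => by rw [hT, tr_mulOp τ MA 0 hdiagA]; simp)
    (fun A => by rw [hT, tr_mulOp τ MB 0 hdiagB]; simp)
    (⟨E', hmem⟩ : SKer (R := R) g W) (Subtype.ext hidem)
  rw [hT, tr_mulOp τ MC c₀ hdiagC, tr_mulOp τ MC c₀ hdiagC] at key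
  have hE' : ((⟨E', hmem⟩ : SKer (R := R) g W) : DKer G R g) = E' := rfl
  rw [hE', htr] at key
  have hc₀' : (c₀ : ℂ) ≠ 0 := by exact_mod_cast hc₀ne
  rcases mul_eq_zero.mp key with h | h
  · exact absurd h hc₀'
  · rcases mul_eq_zero.mp h with h | h
    · exact absurd h hc₀'
    · exact h

end Main

theorem heis_matrix_class_trace {G : Type*} [Group G] (q : ℕ) (e : Fin q → Fin q → G → ℂ)
    (he_sum : ∀ i j, Summable (fun x => ‖e i j x‖))
    (he_idem : ∀ i j x, ∑ l, ∑' y, e i l y * e l j (y⁻¹ * x) = e i j x)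
    (g : G) (a b c : G → ℝ)
    (h1 : ∀ m : G, ∃ C : ℝ, ∀ h : G, |a (m * h) - a h| ≤ C ∧ |b (m * h) - b h| ≤ C ∧
      |c (m * h) - c h - (a (m * h) - a h) * b h| ≤ C)
    (h2 : ∀ z : G, z * g = g * z → ∀ h : G, a (h * z) - a h = a z - a 1 ∧
      b (h * z) - b h = b z - b 1 ∧
      c (h * z) - c h - a h * (b z - b 1) = c z - c 1 - a 1 * (b z - b 1))
    (h3 : a g = a 1 ∧ b g = b 1 ∧ c g ≠ c 1) :
    HasSum (fun x : {x : G // IsConj g x} => ∑ i, e i i x.1) 0 := by
  classical
  let _i1 : NormedRing (Matrix (Fin q) (Fin q) ℂ) := Matrix.linftyOpNormedRing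
  let _i2 : NormedAlgebra ℂ (Matrix (Fin q) (Fin q) ℂ) := Matrix.linftyOpNormedAlgebra
  have _i3 : CompleteSpace (Matrix (Fin q) (Fin q) ℂ) := FiniteDimensional.complete ℂ _
  let τ : Matrix (Fin q) (Fin q) ℂ →L[ℂ] ℂ :=
    LinearMap.toContinuousLinearMap (Matrix.traceLinearMap (Fin q) ℂ ℂ)
  have hτ : ∀ a b, τ (a * b) = τ (b * a) := fun a b => Matrix.trace_mul_comm a b
  let E : G → Matrix (Fin q) (Fin q) ℂ := fun x => Matrix.of (fun i j => e i j x)
  have hnorm : ∀ A : Matrix (Fin q) (Fin q) ℂ, ‖A‖ ≤ ∑ i, ∑ j, ‖A i j‖ := by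
    intro A
    have h1 : ‖A‖₊ ≤ ∑ i, ∑ j, ‖A i j‖₊ := by
      rw [Matrix.linfty_opNNNorm_def]
      exact Finset.sup_le (fun i _ =>
        Finset.single_le_sum (f := fun i => ∑ j, ‖A i j‖₊) (fun _ _ => by positivity)
          (Finset.mem_univ i))
    have h2 : ((‖A‖₊ : NNReal) : ℝ) ≤ ((∑ i, ∑ j, ‖A i j‖₊ : NNReal) : ℝ) := by
      exact_mod_cast h1
    simpa using h2
  have hE : Summable (fun x => ‖E x‖) :=
    Summable.of_nonneg_of_le (fun _ => norm_nonneg _) (fun x => hnorm (E x))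
      (summable_sum fun i _ => summable_sum fun j _ => he_sum i j)
  have hsm : ∀ x, Summable (fun y => E y * E (y⁻¹ * x)) := by
    intro x
    refine Summable.of_norm_bounded (hE.mul_right (∑' z, ‖E z‖)) (fun y => ?_)
    exact (norm_mul_le _ _).trans
      (mul_le_mul_of_nonneg_left (hE.le_tsum _ (fun _ _ => norm_nonneg _)) (norm_nonneg _))
  have hEidem : ∀ x, ∑' y, E y * E (y⁻¹ * x) = E x := by
    intro x
    ext i j
    let φ : Matrix (Fin q) (Fin q) ℂ →L[ℂ] ℂ :=
      LinearMap.toContinuousLinearMap (Matrix.entryLinearMap ℂ ℂ i j)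
    have h1 : (∑' y, E y * E (y⁻¹ * x)) i j = ∑' y, (E y * E (y⁻¹ * x)) i j :=
      φ.map_tsum (hsm x)
    rw [h1]
    simp only [Matrix.mul_apply, E, Matrix.of_apply]
    rw [Summable.tsum_finsetSum (fun l _ => ?_)]
    · exact he_idem i j x
    · refine Summable.of_norm_bounded ((he_sum i l).mul_right (∑' z, ‖e l j z‖)) (fun y => ?_)
      rw [norm_mul]
      exact mul_le_mul_of_nonneg_left ((he_sum l j).le_tsum _ (fun _ _ => norm_nonneg _))
        (norm_nonneg _)
  have key := heis_class_trace_eq_zero τ hτ E hE hEidem g a b c h1 h2 h3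
  have hsum : Summable (fun x : {x : G // IsConj g x} => ∑ i, e i i x.1) :=
    summable_sum fun i _ => ((he_sum i i).of_norm).subtype _
  have hτE : ∀ x : G, τ (E x) = ∑ i, e i i x := fun x => by
    simp only [τ, E, LinearMap.coe_toContinuousLinearMap', Matrix.traceLinearMap_apply,
      Matrix.trace, Matrix.diag_apply, Matrix.of_apply]
  have h0 : ∑' x : {x : G // IsConj g x}, ∑ i, e i i x.1 = 0 := by
    rw [← key]
    exact tsum_congr (fun x => (hτE x.1).symm)
  rw [← h0]
  exact hsum.hasSum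

end Vale.Agent.Lib.P184
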