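import Vale.Agent.Lib.P184.FineCatZero
import Vale.Agent.Lib.P184.FineProjection
import Vale.Agent.Lib.P184.HeisCriterion

/-!
# Relatively hyperbolic groups with peripheral subgroups of Heisenberg type

* `fine_heis_transfer`: a twisting triple of Heisenberg type on a vertex stabiliser of a group
  acting on a fine hyperbolic graph extends to the whole group.
* `fine_heis_bass_stab`: the transfer theorem with twisting functions or twisting triples on the
  vertex stabilisers.
* `heis_of_stabilizer`: a vertex stabiliser with a homomorphism with finite kernel to the real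
  Heisenberg group has a twisting function or a twisting triple for every element of infinite
  order, and finitely many elements of finite order.
* `fine_heis_bass`: the statement of the Bass conjecture for a group acting on a fine hyperbolic
  graph all of whose vertex stabilisers are finitely generated virtually abelian, or act properly
  and cocompactly on a space satisfying the `CN` inequality, or map with finite kernel to the
  real Heisenberg group.
-/

namespace Vale.Agent.Lib.P184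

open SimpleGraph

open scoped BigOperators

theorem fine_heis_transfer {Γ V : Type*} [Group Γ] [MulAction Γ V] (K : SimpleGraph V)
    (hconn : K.Connected)
    (hact : ∀ (γ : Γ) (u w : V), K.Adj u w → K.Adj (γ • u) (γ • w))
    (δ : ℝ) (hδ : ∀ x y z w : V, (K.dist x z : ℝ) + K.dist y w
      ≤ max ((K.dist x y : ℝ) + K.dist z w) ((K.dist x w : ℝ) + K.dist y z) + 2 * δ)
    (hpaths : ∀ (u w : V) (n : ℕ), {p : K.Walk u w | p.IsPath ∧ p.length ≤ n}.Finite)
    (hstab : ∀ u w : V, K.Adj u w → {γ : Γ | γ • u = u ∧ γ • w = w}.Finite)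
    (hcocpt : ∃ F : Finset (V × V), ∀ u w : V, K.Adj u w → ∃ γ : Γ, (γ • u, γ • w) ∈ F)
    (g : Γ) (v : V) (hgv : g • v = v) (hg : ∀ k : ℕ, 0 < k → g ^ k ≠ 1) (a b c : Γ → ℝ)
    (h1 : ∀ m : Γ, m • v = v → ∃ C : ℝ, ∀ h : Γ, h • v = v →
      |a (m * h) - a h| ≤ C ∧ |b (m * h) - b h| ≤ C ∧
        |c (m * h) - c h - (a (m * h) - a h) * b h| ≤ C)
    (h2 : ∀ z : Γ, z • v = v → z * g = g * z → ∀ h : Γ, h • v = v →
      a (h * z) - a h = a z - a 1 ∧ b (h * z) - b h = b z - b 1 ∧
        c (h * z) - c h - a h * (b z - b 1) = c z - c 1 - a 1 * (b z - b 1))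
    (h3 : a g = a 1 ∧ b g = b 1 ∧ c g ≠ c 1) :
    ∃ A B C : Γ → ℝ,
      (∀ m : Γ, ∃ D : ℝ, ∀ h : Γ, |A (m * h) - A h| ≤ D ∧ |B (m * h) - B h| ≤ D ∧
        |C (m * h) - C h - (A (m * h) - A h) * B h| ≤ D) ∧
      (∀ z : Γ, z * g = g * z → ∀ h : Γ, A (h * z) - A h = A z - A 1 ∧
        B (h * z) - B h = B z - B 1 ∧
        C (h * z) - C h - A h * (B z - B 1) = C z - C 1 - A 1 * (B z - B 1)) ∧
      (A g = A 1 ∧ B g = B 1 ∧ C g ≠ C 1) := by
  classical
  have hcent : ∀ z : Γ, z * g = g * z → z • v = v := fun z hz =>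
    fine_fixes_of_commute K hconn hact hpaths hstab g v hgv hg z hz
  obtain ⟨π, hπv, hπz, hπid, hπfin⟩ := fine_projection K hconn hact δ hδ hpaths hstab hcocpt v
  have hπ1 : π 1 = 1 := hπid 1 (one_smul _ _)
  refine ⟨fun h => a (π h), fun h => b (π h), fun h => c (π h), ?_, ?_, ?_⟩
  · intro m
    have hB : ∀ x : Γ, ∃ D : ℝ, x • v = v → ∀ h : Γ, h • v = v →
        |a (x * h) - a h| ≤ D ∧ |b (x * h) - b h| ≤ D ∧
          |c (x * h) - c h - (a (x * h) - a h) * b h| ≤ D := by
      intro x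
      by_cases hx : x • v = v
      · obtain ⟨D, hD⟩ := h1 x hx
        exact ⟨D, fun _ => hD⟩
      · exact ⟨0, fun h => absurd h hx⟩
    choose D hD using hB
    refine ⟨∑ x ∈ (hπfin m).toFinset, |D x|, fun h => ?_⟩
    have hmem : π (m * h) * (π h)⁻¹ ∈ (hπfin m).toFinset :=
      (hπfin m).mem_toFinset.mpr ⟨h, rfl⟩
    have hxv : (π (m * h) * (π h)⁻¹) • v = v := by
      rw [mul_smul, inv_smul_eq_iff.mpr (hπv h).symm, hπv]
    have key := hD _ hxv (π h) (hπv h)
    rw [inv_mul_cancel_right] at key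
    have hle : D (π (m * h) * (π h)⁻¹) ≤ ∑ x ∈ (hπfin m).toFinset, |D x| :=
      (le_abs_self _).trans
        (Finset.single_le_sum (f := fun x => |D x|) (fun _ _ => abs_nonneg _) hmem)
    exact ⟨key.1.trans hle, key.2.1.trans hle, key.2.2.trans hle⟩
  · intro z hz h
    have hzv := hcent z hz
    beta_reduce
    rw [hπz h z hzv, hπid z hzv, hπ1]
    exact h2 z hzv hz (π h) (hπv h)
  · beta_reduce
    rw [hπid g hgv, hπ1]
    exact h3

theorem fine_heis_bass_stab {Γ V : Type*} [Group Γ] [MulAction Γ V] (K : SimpleGraph V)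
    (hconn : K.Connected)
    (hact : ∀ (γ : Γ) (u w : V), K.Adj u w → K.Adj (γ • u) (γ • w))
    (δ : ℝ) (hδ : ∀ x y z w : V, (K.dist x z : ℝ) + K.dist y w
      ≤ max ((K.dist x y : ℝ) + K.dist z w) ((K.dist x w : ℝ) + K.dist y z) + 2 * δ)
    (hfine : ∀ (u w : V), K.Adj u w → ∀ n : ℕ,
      {p : K.Walk u u | p.IsCycle ∧ s(u, w) ∈ p.edges ∧ p.length ≤ n}.Finite)
    (hstab : ∀ u w : V, K.Adj u w → {γ : Γ | γ • u = u ∧ γ • w = w}.Finite)
    (hcocpt : ∃ F : Finset (V × V), ∀ u w : V, K.Adj u w → ∃ γ : Γ, (γ • u, γ • w) ∈ F)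
    (hper : ∀ v : V,
      (∀ g : Γ, g • v = v → ¬ IsOfFinOrder g →
        (∃ ψ : Γ → ℝ,
          (∀ m : Γ, m • v = v → ∃ C : ℝ, ∀ h : Γ, h • v = v → |ψ (m * h) - ψ h| ≤ C) ∧
          (∀ z : Γ, z • v = v → z * g = g * z →
            ∀ h : Γ, h • v = v → ψ (h * z) - ψ h = ψ z - ψ 1) ∧
          ψ g ≠ ψ 1) ∨
        (∃ a b c : Γ → ℝ,
          (∀ m : Γ, m • v = v → ∃ C : ℝ, ∀ h : Γ, h • v = v →
            |a (m * h) - a h| ≤ C ∧ |b (m * h) - b h| ≤ C ∧
              |c (m * h) - c h - (a (m * h) - a h) * b h| ≤ C) ∧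
          (∀ z : Γ, z • v = v → z * g = g * z → ∀ h : Γ, h • v = v →
            a (h * z) - a h = a z - a 1 ∧ b (h * z) - b h = b z - b 1 ∧
              c (h * z) - c h - a h * (b z - b 1) = c z - c 1 - a 1 * (b z - b 1)) ∧
          (a g = a 1 ∧ b g = b 1 ∧ c g ≠ c 1))) ∧
      ∃ T : Finset Γ, ∀ h : Γ, h • v = v → IsOfFinOrder h → ∃ t ∈ T, IsConj t h)
    (q : ℕ) (e : Fin q → Fin q → Γ → ℂ)
    (he_sum : ∀ i j, Summable (fun x => ‖e i j x‖))
    (he_idem : ∀ i j x, ∑ l, ∑' y, e i l y * e l j (y⁻¹ * x) = e i j x) :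
    ∃ F : Finset (ConjClasses Γ), (∀ g : Γ, ConjClasses.mk g ∈ F → IsOfFinOrder g) ∧
      ∀ g : Γ, ConjClasses.mk g ∉ F →
        HasSum (fun c : {c : Γ // IsConj g c} => ∑ i, e i i c.1) 0 := by
  classical
  have hpaths := fine_paths K hfine
  obtain ⟨T, hTall⟩ := fine_torsion_all K hconn hact δ hδ hfine hstab hcocpt
    (fun v => (hper v).2)
  refine bass_of_finite_torsion q e (fun g hg => ?_) T hTall
  have hg' : ∀ k : ℕ, 0 < k → g ^ k ≠ 1 :=
    fun k hk h1 => hg (isOfFinOrder_iff_pow_eq_one.mpr ⟨k, hk, h1⟩)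
  rcases fine_classification K hconn hact δ hδ hfine hstab hcocpt g hg'
    with ⟨v, hgv⟩ | ⟨x₀, ε, hε, hlox⟩
  · rcases (hper v).1 g hgv hg with ⟨ψ, hψ1, hψ2, hψ3⟩ | ⟨a, b, c, h1, h2, h3⟩
    · exact fine_parabolic_class_trace (MonoidHom.id Γ) K hconn hact δ hδ hpaths hstab
        hcocpt g v hgv ψ hψ1 hψ2 hψ3 q e he_sum he_idem
    · obtain ⟨A, B, C, hA1, hA2, hA3⟩ := fine_heis_transfer K hconn hact δ hδ hpaths hstab
        hcocpt g v hgv hg' a b c h1 h2 h3
      exact heis_matrix_class_trace q e he_sum he_idem g A B C hA1 hA2 hA3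
  · exact fine_lox_class_trace (MonoidHom.id Γ) K hconn hact δ hδ hpaths hstab g x₀ ε hε hlox
      q e he_sum he_idem

/-- A vertex stabiliser with a homomorphism with finite kernel to the real Heisenberg group
(given by its three coordinates `a`, `b`, `c`) has a twisting function or a twisting triple for
every element of infinite order, and only finitely many elements of finite order. -/
theorem heis_of_stabilizer {Γ V : Type*} [Group Γ] [MulAction Γ V] (v : V)
    (a b c : MulAction.stabilizer Γ v → ℝ)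
    (ha : ∀ x y, a (x * y) = a x + a y) (hb : ∀ x y, b (x * y) = b x + b y)
    (hc : ∀ x y, c (x * y) = c x + c y + a x * b y)
    (hfin : {x : MulAction.stabilizer Γ v | a x = 0 ∧ b x = 0 ∧ c x = 0}.Finite) :
    (∀ g : Γ, g • v = v → ¬ IsOfFinOrder g →
        (∃ ψ : Γ → ℝ,
          (∀ m : Γ, m • v = v → ∃ C : ℝ, ∀ h : Γ, h • v = v → |ψ (m * h) - ψ h| ≤ C) ∧
          (∀ z : Γ, z • v = v → z * g = g * z →
            ∀ h : Γ, h • v = v → ψ (h * z) - ψ h = ψ z - ψ 1) ∧
          ψ g ≠ ψ 1) ∨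
        (∃ a b c : Γ → ℝ,
          (∀ m : Γ, m • v = v → ∃ C : ℝ, ∀ h : Γ, h • v = v →
            |a (m * h) - a h| ≤ C ∧ |b (m * h) - b h| ≤ C ∧
              |c (m * h) - c h - (a (m * h) - a h) * b h| ≤ C) ∧
          (∀ z : Γ, z • v = v → z * g = g * z → ∀ h : Γ, h • v = v →
            a (h * z) - a h = a z - a 1 ∧ b (h * z) - b h = b z - b 1 ∧
              c (h * z) - c h - a h * (b z - b 1) = c z - c 1 - a 1 * (b z - b 1)) ∧
          (a g = a 1 ∧ b g = b 1 ∧ c g ≠ c 1))) ∧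
      ∃ T : Finset Γ, ∀ h : Γ, h • v = v → IsOfFinOrder h → ∃ t ∈ T, IsConj t h := by
  classical
  have ha1 : a 1 = 0 := by
    have := ha 1 1
    rw [one_mul] at this
    linarith
  have hb1 : b 1 = 0 := by
    have := hb 1 1
    rw [one_mul] at this
    linarith
  have hc1 : c 1 = 0 := by
    have := hc 1 1
    rw [one_mul, ha1, zero_mul] at this
    linarith
  have hapow : ∀ (x : MulAction.stabilizer Γ v) (n : ℕ), a (x ^ n) = n * a x := by
    intro x n
    induction n with
    | zero => simp [ha1]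
    | succ n ih => rw [pow_succ, ha, ih]; push_cast; ring
  have hbpow : ∀ (x : MulAction.stabilizer Γ v) (n : ℕ), b (x ^ n) = n * b x := by
    intro x n
    induction n with
    | zero => simp [hb1]
    | succ n ih => rw [pow_succ, hb, ih]; push_cast; ring
  have hcpow : ∀ (x : MulAction.stabilizer Γ v), b x = 0 → ∀ n : ℕ, c (x ^ n) = n * c x := by
    intro x hx n
    induction n with
    | zero => simp [hc1]
    | succ n ih => rw [pow_succ, hc, ih, hx]; push_cast; ring
  -- the coordinates extended by zero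
  obtain ⟨A, hA⟩ : ∃ A : Γ → ℝ, A = fun h => if hh : h • v = v then a ⟨h, hh⟩ else 0 :=
    ⟨_, rfl⟩
  obtain ⟨B, hB⟩ : ∃ B : Γ → ℝ, B = fun h => if hh : h • v = v then b ⟨h, hh⟩ else 0 :=
    ⟨_, rfl⟩
  obtain ⟨C, hC⟩ : ∃ C : Γ → ℝ, C = fun h => if hh : h • v = v then c ⟨h, hh⟩ else 0 :=
    ⟨_, rfl⟩
  have hAv : ∀ (h : Γ) (hh : h • v = v), A h = a ⟨h, hh⟩ := fun h hh => by
    rw [hA]; exact dif_pos hh
  have hBv : ∀ (h : Γ) (hh : h • v = v), B h = b ⟨h, hh⟩ := fun h hh => by
    rw [hB]; exact dif_pos hh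
  have hCv : ∀ (h : Γ) (hh : h • v = v), C h = c ⟨h, hh⟩ := fun h hh => by
    rw [hC]; exact dif_pos hh
  have h1v : (1 : Γ) • v = v := one_smul _ _
  have hA1 : A 1 = 0 := by rw [hAv 1 h1v]; exact ha1
  have hB1 : B 1 = 0 := by rw [hBv 1 h1v]; exact hb1
  have hC1 : C 1 = 0 := by rw [hCv 1 h1v]; exact hc1
  have hmulv : ∀ m h : Γ, m • v = v → h • v = v → (m * h) • v = v := fun m h hm hh => by
    rw [mul_smul, hh, hm]
  have hAmul : ∀ (m h : Γ), m • v = v → h • v = v → A (m * h) = A m + A h :=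
    fun m h hm hh => by
      rw [hAv _ (hmulv m h hm hh), hAv m hm, hAv h hh]
      exact ha ⟨m, hm⟩ ⟨h, hh⟩
  have hBmul : ∀ (m h : Γ), m • v = v → h • v = v → B (m * h) = B m + B h :=
    fun m h hm hh => by
      rw [hBv _ (hmulv m h hm hh), hBv m hm, hBv h hh]
      exact hb ⟨m, hm⟩ ⟨h, hh⟩
  have hCmul : ∀ (m h : Γ), m • v = v → h • v = v → C (m * h) = C m + C h + A m * B h :=
    fun m h hm hh => by
      rw [hCv _ (hmulv m h hm hh), hCv m hm, hCv h hh, hAv m hm, hBv h hh]
      exact hc ⟨m, hm⟩ ⟨h, hh⟩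
  refine ⟨fun g hgv hg => ?_, ?_⟩
  · by_cases hag : A g = 0
    · by_cases hbg : B g = 0
      · -- the central direction
        right
        have hcg : C g ≠ 0 := by
          intro hcg
          have hginf : ¬ IsOfFinOrder (⟨g, hgv⟩ : MulAction.stabilizer Γ v) := by
            intro hfin'
            obtain ⟨n, hn, hgn⟩ := isOfFinOrder_iff_pow_eq_one.mp hfin'
            refine hg (isOfFinOrder_iff_pow_eq_one.mpr ⟨n, hn, ?_⟩)
            have := congrArg Subtype.val hgn
            simpa using this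
          have hinj := injective_pow_iff_not_isOfFinOrder.mpr hginf
          have hsub : Set.range (fun n : ℕ => (⟨g, hgv⟩ : MulAction.stabilizer Γ v) ^ n)
              ⊆ {x : MulAction.stabilizer Γ v | a x = 0 ∧ b x = 0 ∧ c x = 0} := by
            rintro _ ⟨n, rfl⟩
            have e1 : a ⟨g, hgv⟩ = 0 := by rw [← hAv g hgv]; exact hag
            have e2 : b ⟨g, hgv⟩ = 0 := by rw [← hBv g hgv]; exact hbg
            have e3 : c ⟨g, hgv⟩ = 0 := by rw [← hCv g hgv]; exact hcg
            refine ⟨?_, ?_, ?_⟩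
            · rw [hapow, e1, mul_zero]
            · rw [hbpow, e2, mul_zero]
            · rw [hcpow _ e2, e3, mul_zero]
          exact (Set.infinite_range_of_injective hinj) (hfin.subset hsub)
        refine ⟨A, B, C, fun m hm => ?_, fun z hz _ h hh => ?_, ?_⟩
        · refine ⟨|A m| + |B m| + |C m|, fun h hh => ?_⟩
          rw [hAmul m h hm hh, hBmul m h hm hh, hCmul m h hm hh]
          have e1 : A m + A h - A h = A m := by ring
          have e2 : B m + B h - B h = B m := by ring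
          have e3 : C m + C h + A m * B h - C h - A m * B h = C m := by ring
          rw [e1, e2, e3]
          have p1 := abs_nonneg (A m)
          have p2 := abs_nonneg (B m)
          have p3 := abs_nonneg (C m)
          exact ⟨by linarith, by linarith, by linarith⟩
        · rw [hAmul h z hh hz, hBmul h z hh hz, hCmul h z hh hz, hA1, hB1, hC1]
          exact ⟨by ring, by ring, by ring⟩
        · rw [hA1, hB1, hC1]
          exact ⟨hag, hbg, hcg⟩
      · left
        refine ⟨B, fun m hm => ⟨|B m|, fun h hh => ?_⟩, fun z hz _ h hh => ?_, ?_⟩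
        · rw [hBmul m h hm hh]
          have e2 : B m + B h - B h = B m := by ring
          rw [e2]
        · rw [hBmul h z hh hz, hB1]
          ring
        · rw [hB1]
          exact hbg
    · left
      refine ⟨A, fun m hm => ⟨|A m|, fun h hh => ?_⟩, fun z hz _ h hh => ?_, ?_⟩
      · rw [hAmul m h hm hh]
        have e2 : A m + A h - A h = A m := by ring
        rw [e2]
      · rw [hAmul h z hh hz, hA1]
        ring
      · rw [hA1]
        exact hag
  · refine torsion_of_stabilizer v ⟨hfin.toFinset, fun h hh => ⟨h, ?_, IsConj.refl h⟩⟩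
    rw [Set.Finite.mem_toFinset]
    obtain ⟨n, hn, hhn⟩ := isOfFinOrder_iff_pow_eq_one.mp hh
    have hn' : (n : ℝ) ≠ 0 := by exact_mod_cast hn.ne'
    have e1 : a h = 0 := by
      have := hapow h n
      rw [hhn, ha1] at this
      rcases mul_eq_zero.mp this.symm with h' | h'
      · exact absurd h' hn'
      · exact h'
    have e2 : b h = 0 := by
      have := hbpow h n
      rw [hhn, hb1] at this
      rcases mul_eq_zero.mp this.symm with h' | h'
      · exact absurd h' hn'
      · exact h'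
    have e3 : c h = 0 := by
      have := hcpow h e2 n
      rw [hhn, hc1] at this
      rcases mul_eq_zero.mp this.symm with h' | h'
      · exact absurd h' hn'
      · exact h'
    exact ⟨e1, e2, e3⟩

universe u v w

theorem fine_heis_bass {Γ : Type u} {V : Type v} [Group Γ] [MulAction Γ V]
    (K : SimpleGraph V) (hconn : K.Connected)
    (hact : ∀ (γ : Γ) (u w : V), K.Adj u w → K.Adj (γ • u) (γ • w))
    (δ : ℝ) (hδ : ∀ x y z w : V, (K.dist x z : ℝ) + K.dist y w
      ≤ max ((K.dist x y : ℝ) + K.dist z w) ((K.dist x w : ℝ) + K.dist y z) + 2 * δ)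
    (hfine : ∀ (u w : V), K.Adj u w → ∀ n : ℕ,
      {p : K.Walk u u | p.IsCycle ∧ s(u, w) ∈ p.edges ∧ p.length ≤ n}.Finite)
    (hstab : ∀ u w : V, K.Adj u w → {γ : Γ | γ • u = u ∧ γ • w = w}.Finite)
    (hcocpt : ∃ F : Finset (V × V), ∀ u w : V, K.Adj u w → ∃ γ : Γ, (γ • u, γ • w) ∈ F)
    (hper : ∀ v : V,
      (∃ A : Subgroup Γ, (∀ a ∈ A, ∀ b ∈ A, a * b = b * a) ∧ A.FG ∧
        ∃ T : Finset Γ, ∀ h : Γ, h • v = v → ∃ t ∈ T, t⁻¹ * h ∈ A) ∨
      (∃ (X : Type w) (_ : MetricSpace X) (_ : MulAction (MulAction.stabilizer Γ v) X),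
        Nonempty X ∧
        (∀ (p : MulAction.stabilizer Γ v) (x y : X), dist (p • x) (p • y) = dist x y) ∧
        (∀ x y : X, ∃ m : X, ∀ z : X,
          dist z m ^ 2 ≤ (dist z x ^ 2 + dist z y ^ 2) / 2 - dist x y ^ 2 / 4) ∧
        (∀ (x : X) (R : ℝ), {p : MulAction.stabilizer Γ v | dist (p • x) x ≤ R}.Finite) ∧
        ∃ C : Set X, IsCompact C ∧ ∀ x : X, ∃ p : MulAction.stabilizer Γ v, p • x ∈ C) ∨
      (∃ a b c : MulAction.stabilizer Γ v → ℝ,
        (∀ x y, a (x * y) = a x + a y) ∧ (∀ x y, b (x * y) = b x + b y) ∧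
        (∀ x y, c (x * y) = c x + c y + a x * b y) ∧
        {x : MulAction.stabilizer Γ v | a x = 0 ∧ b x = 0 ∧ c x = 0}.Finite))
    (q : ℕ) (e : Fin q → Fin q → Γ → ℂ)
    (he_sum : ∀ i j, Summable (fun x => ‖e i j x‖))
    (he_idem : ∀ i j x, ∑ l, ∑' y, e i l y * e l j (y⁻¹ * x) = e i j x) :
    ∃ F : Finset (ConjClasses Γ), (∀ g : Γ, ConjClasses.mk g ∈ F → IsOfFinOrder g) ∧
      ∀ g : Γ, ConjClasses.mk g ∉ F →
        HasSum (fun c : {c : Γ // IsConj g c} => ∑ i, e i i c.1) 0 := by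
  classical
  refine fine_heis_bass_stab K hconn hact δ hδ hfine hstab hcocpt (fun v => ?_) q e
    he_sum he_idem
  rcases hper v with ⟨A, hA, hfg, T, hT⟩ |
    ⟨X, instM, instA, hne, hiso, hCN, hproper, C, hC, hcoc⟩ | ⟨a, b, c, ha, hb, hc, hfin⟩
  · refine ⟨fun g hgv hg => Or.inl ?_, virtAbelian_torsion_stab v A hA hfg T hT⟩
    exact virtAbelian_twist_stab v A hA T hT g hgv
      (fun k hk h1 => hg (isOfFinOrder_iff_pow_eq_one.mpr ⟨k, hk, h1⟩))
  · have : IsIsometricSMul (MulAction.stabilizer Γ v) X :=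
      ⟨fun p => Isometry.of_dist_eq (hiso p)⟩
    refine ⟨fun g hgv hg => Or.inl ?_, ?_⟩
    · refine twist_of_stabilizer v g hgv ?_
      have hginf : ¬ IsOfFinOrder (⟨g, hgv⟩ : MulAction.stabilizer Γ v) := by
        intro hfin
        obtain ⟨n, hn, hgn⟩ := isOfFinOrder_iff_pow_eq_one.mp hfin
        refine hg (isOfFinOrder_iff_pow_eq_one.mpr ⟨n, hn, ?_⟩)
        have := congrArg Subtype.val hgn
        simpa using this
      exact cn_twist hCN hproper C hC hcoc ⟨g, hgv⟩ hginf
    · exact torsion_of_stabilizer v (cn_torsion_classes hCN hproper C hC hcoc)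
  · exact heis_of_stabilizer v a b c ha hb hc hfin

end Vale.Agent.Lib.P184
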