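import Vale.Agent.Lib.P184.FineGraph

/-!
# Hubs of a set of vertices

`IsHub K C v`: infinitely many neighbours of `v` start shortest walks of one common length
`ℓ ≥ 1` from `v` to points of the set `C`.
-/

namespace Vale.Agent.Lib.P184

open SimpleGraph

/-- `v` is a hub of the set `C`: there is `ℓ ≥ 1` such that infinitely many neighbours `u` of
`v` are one step closer than `v` to some point `c` of `C` at distance `ℓ` from `v`. -/
def IsHub {V : Type*} (K : SimpleGraph V) (C : Set V) (v : V) : Prop :=
  ∃ ℓ : ℕ, 1 ≤ ℓ ∧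
    {u : V | K.Adj v u ∧ ∃ c ∈ C, K.dist v c = ℓ ∧ K.dist u c + 1 = ℓ}.Infinite

end Vale.Agent.Lib.P184
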