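import Vale.Agent.Lib.P184.FineHub
import Vale.Agent.Lib.P184.FineAngleFinite

namespace Vale.Agent.Lib.P184

open SimpleGraph

theorem fine_hub_generic {V : Type*} (K : SimpleGraph V) (hconn : K.Connected)
    (hpaths : ∀ (u w : V) (n : ℕ), {p : K.Walk u w | p.IsPath ∧ p.length ≤ n}.Finite)
    (C : Set V) (v : V) (hv : IsHub K C v) (y : V) (hy : y ≠ v) :
    ∃ c ∈ C, 1 ≤ K.dist v c ∧ K.dist c y = K.dist v c + K.dist v y := by
  have _hy := hy
  obtain ⟨ℓ, hℓ, hinf⟩ := hv
  have hbad := fine_angle_finite K hpaths v y (2 * ℓ + K.dist v y)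
  obtain ⟨u, hu, hub⟩ := (hinf.sdiff hbad).nonempty
  obtain ⟨hadj, c, hcC, hvc, huc⟩ := hu
  refine ⟨c, hcC, by omega, ?_⟩
  have hle : K.dist c y ≤ K.dist v c + K.dist v y := by
    have h := hconn.dist_triangle (u := c) (v := v) (w := y)
    rw [(SimpleGraph.dist_comm : K.dist c v = K.dist v c)] at h
    exact h
  by_contra hne
  have hlt : K.dist c y < ℓ + K.dist v y := by omega
  apply hub
  obtain ⟨m, hmlen, hmsupp⟩ := exists_geodesic_support K hconn (K.dist c y) c y rfl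
  obtain ⟨q, hqlen, hqsupp⟩ := exists_geodesic_support K hconn (K.dist u c) u c rfl
  refine ⟨hadj, q.append m, ?_, ?_⟩
  · intro hmem
    rw [Walk.mem_support_append_iff] at hmem
    rcases hmem with h | h
    · have h1 := hqsupp v h
      rw [(SimpleGraph.dist_comm : K.dist u v = K.dist v u)] at h1
      omega
    · have h1 := hmsupp v h
      rw [(SimpleGraph.dist_comm : K.dist c v = K.dist v c)] at h1
      omega
  · rw [Walk.length_append]
    omega

theorem fine_hub_far {V : Type*} (K : SimpleGraph V) (hconn : K.Connected)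
    (hpaths : ∀ (u w : V) (n : ℕ), {p : K.Walk u w | p.IsPath ∧ p.length ≤ n}.Finite)
    (C : Set V) (v v' : V) (hv : IsHub K C v) (hv' : IsHub K C v') (hne : v ≠ v') :
    ∃ c₁ ∈ C, ∃ c₂ ∈ C, K.dist v v' + 2 ≤ K.dist c₁ c₂ := by
  obtain ⟨c₂, hc₂, h1, h2⟩ := fine_hub_generic K hconn hpaths C v' hv' v hne
  have hc₂v : c₂ ≠ v := by
    intro h
    subst h
    rw [SimpleGraph.dist_self] at h2
    omega
  obtain ⟨c₁, hc₁, h3, h4⟩ := fine_hub_generic K hconn hpaths C v hv c₂ hc₂v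
  refine ⟨c₁, hc₁, c₂, hc₂, ?_⟩
  rw [(SimpleGraph.dist_comm : K.dist c₂ v = K.dist v c₂),
    (SimpleGraph.dist_comm : K.dist v' v = K.dist v v')] at h2
  omega

end Vale.Agent.Lib.P184
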