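import Vale.Agent.Lib.P184.FineGraph

/-!
# Fine graphs with finite edge stabilisers: finitely many elements move two far-apart vertices
by a bounded amount

* `finePair_transporter_finite` : the set of group elements carrying a given edge to a given
  unordered pair is finite;
* `fine_pair_finite` : if `2 * D < dist x y`, only finitely many group elements move both `x`
  and `y` by at most `D`.
-/

namespace Vale.Agent.Lib.P184

open SimpleGraph

/-- Edge transporters are finite when edge stabilisers are finite. -/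
theorem finePair_transporter_finite {Γ V : Type*} [Group Γ] [MulAction Γ V] (K : SimpleGraph V)
    (hstab : ∀ u w : V, K.Adj u w → {γ : Γ | γ • u = u ∧ γ • w = w}.Finite)
    (u w : V) (huw : K.Adj u w) (b : Sym2 V) :
    {γ : Γ | Sym2.map (fun v => γ • v) s(u, w) = b}.Finite := by
  classical
  have hswap : {σ : Γ | σ • u = w ∧ σ • w = u}.Finite := by
    by_cases hem : ∃ σ₀ : Γ, σ₀ • u = w ∧ σ₀ • w = u
    · obtain ⟨σ₀, h1, h2⟩ := hem
      refine ((hstab u w huw).image (fun σ => σ₀ * σ)).subset ?_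
      intro σ hσ
      obtain ⟨h3, h4⟩ := hσ
      refine ⟨σ₀⁻¹ * σ, ⟨?_, ?_⟩, ?_⟩
      · show (σ₀⁻¹ * σ) • u = u
        rw [mul_smul, h3, ← h1, inv_smul_smul]
      · show (σ₀⁻¹ * σ) • w = w
        rw [mul_smul, h4, ← h2, inv_smul_smul]
      · show σ₀ * (σ₀⁻¹ * σ) = σ
        rw [mul_inv_cancel_left]
    · have hempty : {σ : Γ | σ • u = w ∧ σ • w = u} = ∅ := by
        apply Set.eq_empty_of_forall_notMem
        intro σ hσ
        exact hem ⟨σ, hσ⟩
      rw [hempty]
      exact Set.finite_empty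
  by_cases hem : ∃ γ₀ : Γ, Sym2.map (fun v => γ₀ • v) s(u, w) = b
  · obtain ⟨γ₀, hγ₀⟩ := hem
    refine (((hstab u w huw).union hswap).image (fun σ => γ₀ * σ)).subset ?_
    intro γ hγ
    have h1 : Sym2.map (fun v => γ • v) s(u, w) = Sym2.map (fun v => γ₀ • v) s(u, w) := by
      rw [hγ₀]
      exact hγ
    rw [Sym2.map_mk, Sym2.map_mk, Sym2.eq_iff] at h1
    refine ⟨γ₀⁻¹ * γ, ?_, ?_⟩
    · rcases h1 with ⟨h2, h3⟩ | ⟨h2, h3⟩
      · left
        refine ⟨?_, ?_⟩
        · show (γ₀⁻¹ * γ) • u = u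
          rw [mul_smul, h2, inv_smul_smul]
        · show (γ₀⁻¹ * γ) • w = w
          rw [mul_smul, h3, inv_smul_smul]
      · right
        refine ⟨?_, ?_⟩
        · show (γ₀⁻¹ * γ) • u = w
          rw [mul_smul, h2, inv_smul_smul]
        · show (γ₀⁻¹ * γ) • w = u
          rw [mul_smul, h3, inv_smul_smul]
    · show γ₀ * (γ₀⁻¹ * γ) = γ
      rw [mul_inv_cancel_left]
  · have hempty : {γ : Γ | Sym2.map (fun v => γ • v) s(u, w) = b} = ∅ := by
      apply Set.eq_empty_of_forall_notMem
      intro γ hγ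
      exact hem ⟨γ, hγ⟩
    rw [hempty]
    exact Set.finite_empty

theorem fine_pair_finite {Γ V : Type*} [Group Γ] [MulAction Γ V] (K : SimpleGraph V)
    (hconn : K.Connected)
    (hact : ∀ (γ : Γ) (u w : V), K.Adj u w → K.Adj (γ • u) (γ • w))
    (hpaths : ∀ (u w : V) (n : ℕ), {p : K.Walk u w | p.IsPath ∧ p.length ≤ n}.Finite)
    (hstab : ∀ u w : V, K.Adj u w → {γ : Γ | γ • u = u ∧ γ • w = w}.Finite)
    (x y : V) (D : ℕ) (hxy : 2 * D < K.dist x y) :
    {γ : Γ | K.dist x (γ • x) ≤ D ∧ K.dist y (γ • y) ≤ D}.Finite := by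
  classical
  obtain ⟨p₀, hp₀⟩ := hconn.exists_walk_length_eq_dist x y
  have hfin : (⋃ a ∈ {a : Sym2 V | a ∈ p₀.edges},
      ⋃ B ∈ {B : K.Walk x y | B.IsPath ∧ B.length ≤ K.dist x y + 2 * D},
      ⋃ b ∈ {b : Sym2 V | b ∈ B.edges},
        {γ : Γ | Sym2.map (fun v => γ • v) a = b}).Finite := by
    refine Set.Finite.biUnion p₀.edges.finite_toSet ?_
    intro a ha
    refine Set.Finite.biUnion (hpaths x y _) ?_
    intro B _
    refine Set.Finite.biUnion B.edges.finite_toSet ?_
    intro b _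
    have ha' : a ∈ p₀.edges := ha
    induction a using Sym2.ind with
    | _ u w => exact finePair_transporter_finite K hstab u w (Walk.adj_of_mem_edges p₀ ha') b
  refine hfin.subset ?_
  intro γ hγ
  obtain ⟨hγx, hγy⟩ := hγ
  obtain ⟨σ₁, hσ₁⟩ := hconn.exists_walk_length_eq_dist x (γ • x)
  obtain ⟨σ₂, hσ₂⟩ := hconn.exists_walk_length_eq_dist (γ • y) y
  have hσ₂' : σ₂.length ≤ D := by
    rw [hσ₂, SimpleGraph.dist_comm]
    exact hγy
  have hσ₁' : σ₁.length ≤ D := by
    rw [hσ₁]
    exact hγx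
  obtain ⟨q, hqlen, hqedges⟩ : ∃ q : K.Walk (γ • x) (γ • y), q.length = p₀.length ∧
      q.edges = p₀.edges.map (Sym2.map (fun v => γ • v)) :=
    ⟨p₀.map (smulHom K hact γ), Walk.length_map _ _, Walk.edges_map _ _⟩
  have hWlen : (σ₁.append (q.append σ₂)).length ≤ K.dist x y + 2 * D := by
    rw [Walk.length_append, Walk.length_append, hqlen, hp₀]
    omega
  have hBpath : (σ₁.append (q.append σ₂)).bypass.IsPath := Walk.bypass_isPath _
  have hBlen : (σ₁.append (q.append σ₂)).bypass.length ≤ K.dist x y + 2 * D :=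
    le_trans (Walk.length_bypass_le_length _) hWlen
  have hBge : K.dist x y ≤ (σ₁.append (q.append σ₂)).bypass.length := dist_le _
  have hex : ∃ b ∈ (σ₁.append (q.append σ₂)).bypass.edges, b ∈ q.edges := by
    by_contra hcon
    push Not at hcon
    have hsub : (σ₁.append (q.append σ₂)).bypass.edges ⊆ σ₁.edges ++ σ₂.edges := by
      intro b hb
      have h1 := Walk.edges_bypass_subset_edges _ hb
      rw [Walk.edges_append, Walk.edges_append, List.mem_append, List.mem_append] at h1
      rcases h1 with h1 | h1 | h1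
      · exact List.mem_append_left _ h1
      · exact absurd h1 (hcon b hb)
      · exact List.mem_append_right _ h1
    have hnd : (σ₁.append (q.append σ₂)).bypass.edges.Nodup :=
      Walk.edges_nodup_of_support_nodup hBpath.support_nodup
    have h2 := (hnd.subperm hsub).length_le
    rw [Walk.length_edges, List.length_append, Walk.length_edges, Walk.length_edges] at h2
    omega
  obtain ⟨b, hbB, hbq⟩ := hex
  rw [hqedges] at hbq
  obtain ⟨a, ha, hab⟩ := List.mem_map.mp hbq
  simp only [Set.mem_iUnion]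
  exact ⟨a, ha, (σ₁.append (q.append σ₂)).bypass, ⟨hBpath, hBlen⟩, b, hbB, hab⟩

end Vale.Agent.Lib.P184
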