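import Vale.Agent.Lib.P184.FineCentralizer
import Vale.Agent.Lib.P184.FineAngle
import Vale.Agent.Lib.P184.FineAngleFinite

/-!
# Transfer of a twist function from a vertex stabiliser to the whole group

A group `Γ` acts on a connected hyperbolic graph `K` with finitely many paths of each length
between any two vertices, finite edge stabilisers and finitely many orbits of edges.  Let `g`
fix the vertex `v`, and let `ψ` be a real function which, on the stabiliser of `v`, has bounded
left differences, is equivariant on the right under the elements commuting with `g`, and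
satisfies `ψ g ≠ ψ 1`.  Then there is a function on all of `Γ` with the same three properties.
-/

namespace Vale.Agent.Lib.P184

open SimpleGraph

/-- The elements of the stabiliser of `v` which move a given neighbour `r` of `v` to `u` are
finitely many. -/
theorem fineTransfer_transporter_finite {Γ V : Type*} [Group Γ] [MulAction Γ V]
    (K : SimpleGraph V)
    (hstab : ∀ u w : V, K.Adj u w → {γ : Γ | γ • u = u ∧ γ • w = w}.Finite)
    (v r u : V) (hr : K.Adj v r) : {c : Γ | c • v = v ∧ c • r = u}.Finite := by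
  by_cases hne : ∃ c₀ : Γ, c₀ • v = v ∧ c₀ • r = u
  · obtain ⟨c₀, hc₀v, hc₀r⟩ := hne
    refine ((hstab v r hr).image (fun γ => c₀ * γ)).subset ?_
    intro c hc
    refine ⟨c₀⁻¹ * c, ⟨?_, ?_⟩, by simp⟩
    · rw [mul_smul, hc.1, inv_smul_eq_iff, hc₀v]
    · rw [mul_smul, hc.2, inv_smul_eq_iff, hc₀r]
  · have : {c : Γ | c • v = v ∧ c • r = u} = ∅ := by
      ext c
      simp only [Set.mem_ofPred_eq, Set.mem_empty_iff_false, iff_false]
      exact fun hc => hne ⟨c, hc⟩
    rw [this]
    exact Set.finite_empty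

/-- A finite set of neighbours of `v` meeting every orbit of the stabiliser of `v` on the
neighbours of `v`. -/
theorem fineTransfer_exists_reps {Γ V : Type*} [Group Γ] [MulAction Γ V] (K : SimpleGraph V)
    (hact : ∀ (γ : Γ) (u w : V), K.Adj u w → K.Adj (γ • u) (γ • w))
    (hcocpt : ∃ F : Finset (V × V), ∀ u w : V, K.Adj u w → ∃ γ : Γ, (γ • u, γ • w) ∈ F)
    (v : V) :
    ∃ R : Set V, R.Finite ∧ (∀ r ∈ R, K.Adj v r) ∧
      ∀ u, K.Adj v u → ∃ p : Γ, p • v = v ∧ p⁻¹ • u ∈ R := by
  classical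
  obtain ⟨F, hF⟩ := hcocpt
  let c : V × V → V := fun ab =>
    if h : ∃ γ : Γ, γ • ab.2 = v then (Classical.choose h) • ab.1 else v
  refine ⟨(c '' (F : Set (V × V))) ∩ {r | K.Adj v r}, ?_, fun r hr => hr.2, ?_⟩
  · exact ((F.finite_toSet).image c).subset Set.inter_subset_left
  · intro u hu
    obtain ⟨γ, hγ⟩ := hF u v hu.symm
    have hex : ∃ γ' : Γ, γ' • (γ • u, γ • v).2 = v := ⟨γ⁻¹, by simp⟩
    have hc : c (γ • u, γ • v) = (Classical.choose hex) • (γ • u) := by
      simp only [c]
      rw [dif_pos hex]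
    have hγ₀ : (Classical.choose hex) • (γ • v) = v := Classical.choose_spec hex
    refine ⟨(Classical.choose hex * γ)⁻¹, ?_, ?_⟩
    · rw [inv_smul_eq_iff, mul_smul, hγ₀]
    · rw [inv_inv, mul_smul]
      refine ⟨⟨(γ • u, γ • v), hγ, hc⟩, ?_⟩
      change K.Adj v (Classical.choose hex • γ • u)
      have h1 := hact (Classical.choose hex * γ) v u hu
      rw [mul_smul, mul_smul, hγ₀] at h1
      exact h1

theorem fine_twist_transfer {Γ V : Type*} [Group Γ] [MulAction Γ V] (K : SimpleGraph V)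
    (hconn : K.Connected)
    (hact : ∀ (γ : Γ) (u w : V), K.Adj u w → K.Adj (γ • u) (γ • w))
    (δ : ℝ) (hδ : ∀ x y z w : V, (K.dist x z : ℝ) + K.dist y w
      ≤ max ((K.dist x y : ℝ) + K.dist z w) ((K.dist x w : ℝ) + K.dist y z) + 2 * δ)
    (hpaths : ∀ (u w : V) (n : ℕ), {p : K.Walk u w | p.IsPath ∧ p.length ≤ n}.Finite)
    (hstab : ∀ u w : V, K.Adj u w → {γ : Γ | γ • u = u ∧ γ • w = w}.Finite)
    (hcocpt : ∃ F : Finset (V × V), ∀ u w : V, K.Adj u w → ∃ γ : Γ, (γ • u, γ • w) ∈ F)
    (g : Γ) (v : V) (hgv : g • v = v) (ψ : Γ → ℝ)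
    (hψ1 : ∀ m : Γ, m • v = v → ∃ C : ℝ, ∀ h : Γ, h • v = v → |ψ (m * h) - ψ h| ≤ C)
    (hψ2 : ∀ z : Γ, z • v = v → z * g = g * z →
      ∀ h : Γ, h • v = v → ψ (h * z) - ψ h = ψ z - ψ 1)
    (hψ3 : ψ g ≠ ψ 1) :
    ∃ Ψ : Γ → ℝ, (∀ m : Γ, ∃ C : ℝ, ∀ h : Γ, |Ψ (m * h) - Ψ h| ≤ C) ∧
      (∀ z : Γ, z * g = g * z → ∀ h : Γ, Ψ (h * z) - Ψ h = Ψ z - Ψ 1) ∧ Ψ g ≠ Ψ 1 := by
  classical
  -- `g` has infinite order
  have hpowfix : ∀ k : ℕ, g ^ k • v = v := by
    intro k
    induction k with
    | zero => simp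
    | succ k ih => rw [pow_succ, mul_smul, hgv, ih]
  have hpowψ : ∀ k : ℕ, ψ (g ^ k) = ψ 1 + k * (ψ g - ψ 1) := by
    intro k
    induction k with
    | zero => simp
    | succ k ih =>
      have h1 := hψ2 g hgv rfl (g ^ k) (hpowfix k)
      rw [pow_succ]
      push_cast
      linarith
  have hg : ∀ k : ℕ, 0 < k → g ^ k ≠ 1 := by
    intro k hk h1
    have h2 := hpowψ k
    rw [h1] at h2
    have h3 : (k : ℝ) * (ψ g - ψ 1) = 0 := by linarith
    rcases mul_eq_zero.mp h3 with h4 | h4
    · have : (k : ℝ) ≠ 0 := by exact_mod_cast hk.ne'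
      exact this h4
    · exact hψ3 (by linarith)
  have hcent : ∀ z : Γ, z * g = g * z → z • v = v := fun z hz =>
    fine_fixes_of_commute K hconn hact hpaths hstab g v hgv hg z hz
  -- orbit representatives of the neighbours of `v`
  obtain ⟨R, hRfin, hRadj, hR⟩ := fineTransfer_exists_reps K hact hcocpt v
  -- the section
  have hex : ∀ w : V, ∃ τ : Γ, (w = v → τ = 1) ∧ (w ≠ v → (∃ h : Γ, h • v = w) →
      τ • v = w ∧ ∃ s, K.Adj w s ∧ K.dist v s + 1 = K.dist v w ∧ τ⁻¹ • s ∈ R) := by
    intro w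
    by_cases hw : w = v
    · exact ⟨1, fun _ => rfl, fun h => absurd hw h⟩
    · by_cases horb : ∃ h : Γ, h • v = w
      · obtain ⟨h₀, hh₀⟩ := horb
        obtain ⟨s, hs, hsd⟩ := exists_adj_dist_succ K hconn w v hw
        have hu : K.Adj v (h₀⁻¹ • s) := by
          have h1 := hact h₀⁻¹ w s hs
          rw [← hh₀, inv_smul_smul] at h1
          exact h1
        obtain ⟨p, hpv, hpR⟩ := hR _ hu
        refine ⟨h₀ * p, fun h => absurd h hw, fun _ _ => ⟨?_, s, hs, ?_, ?_⟩⟩
        · rw [mul_smul, hpv, hh₀]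
        · rw [SimpleGraph.dist_comm, hsd, SimpleGraph.dist_comm]
        · rw [mul_inv_rev, mul_smul]
          exact hpR
      · exact ⟨1, fun h => absurd h hw, fun _ h => absurd h horb⟩
  choose t ht1 ht2 using hex
  have htv : t v = 1 := ht1 v rfl
  have htfix : ∀ h : Γ, t (h • v) • v = h • v := by
    intro h
    by_cases hh : h • v = v
    · rw [hh, htv, one_smul]
    · exact (ht2 (h • v) hh ⟨h, rfl⟩).1
  have hPfix : ∀ h : Γ, ((t (h • v))⁻¹ * h) • v = v := by
    intro h
    rw [mul_smul, inv_smul_eq_iff, htfix]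
  refine ⟨fun h => ψ ((t (h • v))⁻¹ * h), ?_, ?_, ?_⟩
  · -- bounded left differences
    intro m
    obtain ⟨Cset, hCset⟩ : ∃ Cset : Set Γ,
        Cset = {c : Γ | ∃ w : V, (∃ h : Γ, h • v = w) ∧ c = (t (m • w))⁻¹ * m * t w} := ⟨_, rfl⟩
    have hCfin : Cset.Finite := by
      obtain ⟨N, hN⟩ : ∃ N : ℕ, N = ⌊2 * (K.dist (m • v) v : ℝ) + 12 * δ + 2⌋₊ := ⟨_, rfl⟩
      obtain ⟨Ex, hEx⟩ : ∃ Ex : Set V, Ex = {w : V | w = v ∨ m • w = v ∨
          K.dist (m • v) (m • w) + K.dist (m • w) v = K.dist (m • v) v} := ⟨_, rfl⟩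
      have hExfin : Ex.Finite := by
        have h1 : Ex ⊆ {v} ∪ (fun w => m • w) ⁻¹' ({v} ∪
            {y : V | K.dist (m • v) y + K.dist y v = K.dist (m • v) v}) := by
          rw [hEx]
          intro w hw
          rcases hw with hw | hw | hw
          · exact Or.inl hw
          · exact Or.inr (Or.inl hw)
          · exact Or.inr (Or.inr hw)
        refine Set.Finite.subset ((Set.finite_singleton v).union ?_) h1
        refine Set.Finite.preimage ?_ ((Set.finite_singleton v).union
          (fine_between_finite K hconn hpaths (m • v) v))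
        intro w₁ _ w₂ _ h12
        exact smul_left_cancel m h12
      obtain ⟨Big, hBig⟩ : ∃ Big : Set Γ, Big = ⋃ r ∈ R, ⋃ r' ∈ R,
          ⋃ u ∈ {u : V | K.Adj v u ∧ ∃ p : K.Walk u r', v ∉ p.support ∧ p.length ≤ N},
            {c : Γ | c • v = v ∧ c • r = u} := ⟨_, rfl⟩
      have hBigfin : Big.Finite := by
        rw [hBig]
        refine hRfin.biUnion (fun r hr => hRfin.biUnion (fun r' _ =>
          (fine_angle_finite K hpaths v r' N).biUnion (fun u _ =>
            fineTransfer_transporter_finite K hstab v r u (hRadj r hr))))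
      refine Set.Finite.subset ((hExfin.image (fun w => (t (m • w))⁻¹ * m * t w)).union hBigfin) ?_
      rw [hCset]
      rintro c ⟨w, horb, rfl⟩
      by_cases hwEx : w ∈ Ex
      · exact Or.inl ⟨w, hwEx, rfl⟩
      · right
        rw [hEx] at hwEx
        simp only [Set.mem_ofPred_eq, not_or] at hwEx
        obtain ⟨hwv, hmwv, hbetween⟩ := hwEx
        have horb' : ∃ h : Γ, h • v = m • w := by
          obtain ⟨h, hh⟩ := horb
          exact ⟨m * h, by rw [mul_smul, hh]⟩
        obtain ⟨htw, s, hs, hsd, hsR⟩ := ht2 w hwv horb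
        obtain ⟨hty, s', hs', hsd', hsR'⟩ := ht2 (m • w) hmwv horb'
        have hcv : ((t (m • w))⁻¹ * m * t w) • v = v := by
          rw [mul_smul, mul_smul, htw, inv_smul_eq_iff, hty]
        have hcr : ((t (m • w))⁻¹ * m * t w) • ((t w)⁻¹ • s) = (t (m • w))⁻¹ • m • s := by
          rw [mul_smul, mul_smul, smul_inv_smul]
        have hnb : K.dist (m • v) v < K.dist (m • v) (m • w) + K.dist (m • w) v := by
          have h1 := hconn.dist_triangle (u := m • v) (v := m • w) (w := v)
          omega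
        have hα' : K.dist (m • v) (m • s) + 1 = K.dist (m • v) (m • w) := by
          rw [graph_dist_smul K hconn hact, graph_dist_smul K hconn hact]
          exact hsd
        obtain ⟨p, hpy, hplen⟩ := fine_angle_bound K hconn δ hδ (m • v) v (m • w) (m • s) s'
          (fun h => hwv (smul_left_cancel m h).symm) (fun h => hmwv h.symm) hnb
          (hact m w s hs) hα' hs' hsd'
        have hplen' : p.length ≤ N := by
          rw [hN]
          exact Nat.le_floor hplen
        have hu : K.Adj v ((t (m • w))⁻¹ • m • s) := by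
          have h1 := hact (t (m • w))⁻¹ (m • w) (m • s) (hact m w s hs)
          rw [inv_smul_eq_iff.mpr hty.symm] at h1
          exact h1
        have hsupp : v ∉ (p.map (smulHom K hact (t (m • w))⁻¹)).support := by
          rw [Walk.support_map]
          intro hmem
          obtain ⟨x, hx, hxv⟩ := List.mem_map.mp hmem
          have hxy : x = m • w := by
            have h2 : (t (m • w))⁻¹ • x = v := hxv
            rw [inv_smul_eq_iff, hty] at h2
            exact h2
          exact hpy (hxy ▸ hx)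
        have hlen : (p.map (smulHom K hact (t (m • w))⁻¹)).length ≤ N := by
          rw [Walk.length_map]
          exact hplen'
        rw [hBig]
        simp only [Set.mem_iUnion, Set.mem_ofPred_eq, exists_prop]
        exact ⟨(t w)⁻¹ • s, hsR, (t (m • w))⁻¹ • s', hsR', (t (m • w))⁻¹ • m • s,
          ⟨hu, p.map (smulHom K hact (t (m • w))⁻¹), hsupp, hlen⟩, hcv, hcr⟩
    -- the bound
    have hB : ∀ c : Γ, ∃ B : ℝ, c • v = v → ∀ h : Γ, h • v = v → |ψ (c * h) - ψ h| ≤ B := by
      intro c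
      by_cases hc : c • v = v
      · obtain ⟨B, hB⟩ := hψ1 c hc
        exact ⟨B, fun _ => hB⟩
      · exact ⟨0, fun h => absurd h hc⟩
    choose B hB using hB
    refine ⟨∑ c ∈ hCfin.toFinset, |B c|, fun h => ?_⟩
    have hcmem : (t (m • (h • v)))⁻¹ * m * t (h • v) ∈ Cset := by
      rw [hCset]
      exact ⟨h • v, ⟨h, rfl⟩, rfl⟩
    have hcv : ((t (m • (h • v)))⁻¹ * m * t (h • v)) • v = v := by
      rw [mul_smul, mul_smul, htfix, inv_smul_eq_iff, ← mul_smul, htfix]
    have h1 := hB _ hcv ((t (h • v))⁻¹ * h) (hPfix h)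
    have h2 : (t (m • (h • v)))⁻¹ * m * t (h • v) * ((t (h • v))⁻¹ * h)
        = (t ((m * h) • v))⁻¹ * (m * h) := by
      rw [mul_smul]
      group
    rw [h2] at h1
    have h3 : |B ((t (m • (h • v)))⁻¹ * m * t (h • v))| ≤ ∑ c ∈ hCfin.toFinset, |B c| :=
      Finset.single_le_sum (f := fun c => |B c|) (fun _ _ => abs_nonneg _)
        (hCfin.mem_toFinset.mpr hcmem)
    exact h1.trans ((le_abs_self _).trans h3)
  · -- equivariance under the centraliser
    intro z hz h
    have hzv : z • v = v := hcent z hz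
    have h1 : (h * z) • v = h • v := by rw [mul_smul, hzv]
    have h2 := hψ2 z hzv hz ((t (h • v))⁻¹ * h) (hPfix h)
    simp only [h1, hzv, htv, one_smul, inv_one, one_mul, mul_assoc] at h2 ⊢
    exact h2
  · simp only [hgv, htv, one_smul, inv_one, one_mul]
    exact hψ3

end Vale.Agent.Lib.P184
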