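import Vale.Agent.Lib.P184.RHyp

namespace Vale.Agent.Lib.P184

theorem RHyp.rhypCentralizer_len_succ_le {G : Type*} [Group G] (M : RHyp G) (g : G)
    (k : ℕ) : M.d 1 (g ^ (k + 1)) ≤ M.d 1 (g ^ k) + M.d 1 g := by
  have h := M.len_mul_le (g ^ k) g
  rwa [← pow_succ] at h

theorem RHyp.len_pow_succ_ge {G : Type*} [Group G] (M : RHyp G) (g : G)
    (hSL : M.d 1 g + 3 * M.δ < M.d 1 (g ^ 2)) (n : ℕ) :
    M.d 1 (g ^ n) + M.d 1 (g ^ 2) ≤ M.d 1 (g ^ (n + 1)) + M.d 1 g + 2 * M.δ := by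
  have hδ := M.δ_nonneg
  induction n with
  | zero =>
    have h2 := M.len_pow_le g 2
    rw [pow_zero, M.len_one, zero_add, pow_one]
    push_cast at h2
    linarith
  | succ n ih =>
    have h := M.hyp 1 (g ^ n) (g ^ (n + 1)) (g ^ (n + 2))
    have e1 : M.d (g ^ n) (g ^ (n + 2)) = M.d 1 (g ^ 2) := M.d_pow g n 2
    have e2 : M.d (g ^ (n + 1)) (g ^ (n + 2)) = M.d 1 (g ^ 1) := M.d_pow g (n + 1) 1
    have e3 : M.d (g ^ n) (g ^ (n + 1)) = M.d 1 (g ^ 1) := M.d_pow g n 1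
    rw [pow_one] at e2 e3
    rw [e1, e2, e3] at h
    show M.d 1 (g ^ (n + 1)) + M.d 1 (g ^ 2) ≤ M.d 1 (g ^ (n + 2)) + M.d 1 g + 2 * M.δ
    rcases le_max_iff.mp (sub_le_iff_le_add.mpr h) with h' | h' <;> linarith

theorem RHyp.len_pow_add_ge {G : Type*} [Group G] (M : RHyp G) (g : G)
    (hSL : M.d 1 g + 3 * M.δ < M.d 1 (g ^ 2)) (m n : ℕ) (hm : 1 ≤ m) (hn : 1 ≤ n) :
    M.d 1 (g ^ m) + M.d 1 (g ^ n) + M.d 1 (g ^ 2) ≤ M.d 1 (g ^ (m + n)) + 2 * M.d 1 g + 4 * M.δ := by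
  have hδ := M.δ_nonneg
  have _ := hm
  obtain ⟨k, rfl⟩ : ∃ k, n = k + 1 := ⟨n - 1, by omega⟩
  have h := M.hyp 1 (g ^ (m + (k + 1))) (g ^ (m + 1)) (g ^ m)
  have e1 : M.d (g ^ (m + (k + 1))) (g ^ m) = M.d 1 (g ^ (k + 1)) := by
    rw [M.d_comm, M.d_pow]
  have e2 : M.d (g ^ (m + 1)) (g ^ m) = M.d 1 g := by
    rw [M.d_comm, M.d_pow, pow_one]
  have e3 : M.d (g ^ (m + (k + 1))) (g ^ (m + 1)) = M.d 1 (g ^ k) := by
    rw [M.d_comm, show m + (k + 1) = (m + 1) + k by ring, M.d_pow]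
  rw [e1, e2, e3] at h
  have h1 := M.len_pow_succ_ge g hSL m
  have h2 := M.len_pow_succ_ge g hSL k
  rcases le_max_iff.mp (sub_le_iff_le_add.mpr h) with h' | h' <;> linarith

theorem RHyp.rhypCentralizer_mul_le_len_pow {G : Type*} [Group G] (M : RHyp G) (g : G)
    (hSL : M.d 1 g + 3 * M.δ < M.d 1 (g ^ 2)) (n : ℕ) :
    (M.d 1 (g ^ 2) - M.d 1 g - 2 * M.δ) * n ≤ M.d 1 (g ^ n) := by
  induction n with
  | zero =>
    rw [pow_zero, M.len_one]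
    simp
  | succ n ih =>
    have h := M.len_pow_succ_ge g hSL n
    push_cast
    linarith

theorem RHyp.rhypCentralizer_caseI {G : Type*} [Group G] (M : RHyp G) (g : G)
    (hSL : M.d 1 g + 3 * M.δ < M.d 1 (g ^ 2)) (h : G) (hcomm : h * g = g * h)
    (hminN : ∀ k : ℕ, M.d 1 h ≤ M.d 1 (g ^ k * h)) (n : ℕ) (hn : M.d 1 h ≤ M.d 1 (g ^ n))
    (hI : M.d 1 (g ^ n) + M.d 1 h + M.d 1 (g ^ 2) ≤ M.d h (g ^ n) + 2 * M.d 1 g + 6 * M.δ) :
    M.d 1 h ≤ 5 * M.d 1 g + 14 * M.δ := by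
  classical
  have hδ := M.δ_nonneg
  have hc : h * g ^ n = g ^ n * h := (Commute.pow_right (show Commute h g from hcomm) n).eq
  have s2 := M.hyp h 1 (g ^ n) (g ^ n * h)
  have e1 : M.d h 1 = M.d 1 h := M.d_comm h 1
  have e2 : M.d (g ^ n) (g ^ n * h) = M.d 1 h := by
    have h1 := M.d_inv (g ^ n) 1 h
    rwa [mul_one] at h1
  have e3 : M.d h (g ^ n * h) = M.d 1 (g ^ n) := by
    rw [← hc]
    have h1 := M.d_inv h 1 (g ^ n)
    rwa [mul_one] at h1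
  rw [e1, e2, e3] at s2
  have hP0 : M.d 1 (g ^ 0) + M.d 1 h ≤ M.d 1 (g ^ n) := by
    rw [pow_zero, M.len_one]
    linarith
  obtain ⟨j, hjdef⟩ : ∃ j, j = Nat.findGreatest
      (fun j => M.d 1 (g ^ j) + M.d 1 h ≤ M.d 1 (g ^ n)) n := ⟨_, rfl⟩
  have hjle : j ≤ n := hjdef ▸ Nat.findGreatest_le n
  have hPj : M.d 1 (g ^ j) + M.d 1 h ≤ M.d 1 (g ^ n) := by
    rw [hjdef]
    exact Nat.findGreatest_spec (P := fun j => M.d 1 (g ^ j) + M.d 1 h ≤ M.d 1 (g ^ n))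
      (Nat.zero_le n) hP0
  rcases Nat.lt_or_ge j n with hlt | hge
  · have hnP : ¬ (M.d 1 (g ^ (j + 1)) + M.d 1 h ≤ M.d 1 (g ^ n)) := by
      have h1 := Nat.findGreatest_is_greatest
        (P := fun j => M.d 1 (g ^ j) + M.d 1 h ≤ M.d 1 (g ^ n)) (n := n) (k := j + 1)
        (by rw [← hjdef]; exact Nat.lt_succ_self j) hlt
      exact h1
    have hnP' : M.d 1 (g ^ n) < M.d 1 (g ^ (j + 1)) + M.d 1 h := not_le.mp hnP
    have hstep := M.rhypCentralizer_len_succ_le g j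
    obtain ⟨i, hi⟩ : ∃ i, n = j + i := ⟨n - j, by omega⟩
    have s3 := M.hyp (g ^ n * h) (g ^ n) (g ^ j) 1
    have f1 : M.d (g ^ n) 1 = M.d 1 (g ^ n) := M.d_comm _ _
    have f2 : M.d (g ^ n * h) (g ^ n) = M.d 1 h := by
      rw [M.d_comm]
      exact e2
    have f3 : M.d (g ^ j) 1 = M.d 1 (g ^ j) := M.d_comm _ _
    have f4 : M.d (g ^ n * h) 1 = M.d 1 (g ^ n * h) := M.d_comm _ _
    have f5 : M.d (g ^ n) (g ^ j) = M.d 1 (g ^ i) := by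
      rw [M.d_comm, hi, M.d_pow]
    rw [f1, f2, f3, f4, f5] at s3
    have h2 : M.d 1 (g ^ j) + M.d 1 (g ^ i) + M.d 1 (g ^ 2)
        ≤ M.d 1 (g ^ n) + 2 * M.d 1 g + 4 * M.δ := by
      rcases Nat.eq_zero_or_pos j with hj0 | hjpos
      · have hin : i = n := by omega
        rw [hj0, hin, pow_zero, M.len_one]
        have h3 := M.len_pow_le g 2
        push_cast at h3
        linarith
      · have h3 := M.len_pow_add_ge g hSL j i hjpos (by omega)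
        rw [← hi] at h3
        exact h3
    have hD : M.d 1 h ≤ M.d (g ^ n * h) (g ^ j) := by
      have h3 := hminN i
      have e : M.d (g ^ n * h) (g ^ j) = M.d 1 (g ^ i * h) := by
        rw [M.d_comm, M.d_eq_len, hi, pow_add, ← mul_assoc, ← mul_assoc, inv_mul_cancel,
          one_mul]
      rw [e]
      exact h3
    have hmn := hminN n
    rcases le_max_iff.mp (sub_le_iff_le_add.mpr s2) with s2' | s2' <;>
      rcases le_max_iff.mp (sub_le_iff_le_add.mpr s3) with s3' | s3' <;> linarith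
  · have hjn : j = n := le_antisymm hjle hge
    rw [hjn] at hPj
    have hh := M.d_nonneg 1 h
    have hg := M.d_nonneg 1 g
    linarith

theorem RHyp.centralizer_bound {G : Type*} [Group G] (M : RHyp G) (g : G)
    (hSL : M.d 1 g + 3 * M.δ < M.d 1 (g ^ 2)) (h : G) (hcomm : h * g = g * h)
    (hmin : ∀ j : ℤ, M.d 1 h ≤ M.d 1 (h * g ^ j)) : M.d 1 h ≤ 5 * M.d 1 g + 14 * M.δ := by
  have hδ := M.δ_nonneg
  have hη : 0 < M.d 1 (g ^ 2) - M.d 1 g - 2 * M.δ := by linarith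
  obtain ⟨n, hn⟩ := exists_nat_ge (M.d 1 h / (M.d 1 (g ^ 2) - M.d 1 g - 2 * M.δ) + 1)
  have hh0 := M.d_nonneg 1 h
  have hq0 : 0 ≤ M.d 1 h / (M.d 1 (g ^ 2) - M.d 1 g - 2 * M.δ) := div_nonneg hh0 hη.le
  have hn1 : (1 : ℝ) ≤ n := by linarith
  have hpos : 1 ≤ n := by exact_mod_cast hn1
  have hbn := M.rhypCentralizer_mul_le_len_pow g hSL n
  have hLn : M.d 1 h ≤ M.d 1 (g ^ n) := by
    have h1 : M.d 1 h / (M.d 1 (g ^ 2) - M.d 1 g - 2 * M.δ) ≤ n := by linarith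
    have h2 : M.d 1 h ≤ n * (M.d 1 (g ^ 2) - M.d 1 g - 2 * M.δ) := (div_le_iff₀ hη).mp h1
    linarith
  have s1 := M.hyp (g ^ n)⁻¹ h (g ^ n) 1
  have e1 : M.d (g ^ n)⁻¹ (g ^ n) = M.d 1 (g ^ (n + n)) := by
    rw [M.d_eq_len, inv_inv, ← pow_add]
  have e2 : M.d h 1 = M.d 1 h := M.d_comm _ _
  have e3 : M.d (g ^ n) 1 = M.d 1 (g ^ n) := M.d_comm _ _
  have e4 : M.d (g ^ n)⁻¹ 1 = M.d 1 (g ^ n) := by
    rw [M.d_comm, M.len_inv]
  rw [e1, e2, e3, e4] at s1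
  have h2 := M.len_pow_add_ge g hSL n n hpos hpos
  have hcm : Commute h g := hcomm
  by_cases hI : M.d 1 (g ^ n) + M.d 1 h + M.d 1 (g ^ 2)
      ≤ M.d h (g ^ n) + 2 * M.d 1 g + 6 * M.δ
  · have hminN : ∀ k : ℕ, M.d 1 h ≤ M.d 1 (g ^ k * h) := by
      intro k
      have h3 := hmin (k : ℤ)
      rw [zpow_natCast, (Commute.pow_right hcm k).eq] at h3
      exact h3
    exact M.rhypCentralizer_caseI g hSL h hcomm hminN n hLn hI
  · have hI' : M.d h (g ^ n) + 2 * M.d 1 g + 6 * M.δ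
        < M.d 1 (g ^ n) + M.d 1 h + M.d 1 (g ^ 2) := not_le.mp hI
    have hII : M.d 1 (g ^ n) + M.d 1 h + M.d 1 (g ^ 2)
        ≤ M.d (g ^ n)⁻¹ h + 2 * M.d 1 g + 6 * M.δ := by
      rcases le_max_iff.mp (sub_le_iff_le_add.mpr s1) with s1' | s1' <;> linarith
    have hSL' : M.d 1 g⁻¹ + 3 * M.δ < M.d 1 (g⁻¹ ^ 2) := by
      rw [M.len_inv, M.len_inv_pow]
      exact hSL
    have hcm' : Commute h g⁻¹ := Commute.inv_right hcm
    have hminN' : ∀ k : ℕ, M.d 1 h ≤ M.d 1 (g⁻¹ ^ k * h) := by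
      intro k
      have h3 := hmin (-(k : ℤ))
      rw [zpow_neg, zpow_natCast, ← inv_pow, (Commute.pow_right hcm' k).eq] at h3
      exact h3
    have hLn' : M.d 1 h ≤ M.d 1 (g⁻¹ ^ n) := by
      rw [M.len_inv_pow]
      exact hLn
    have hI'' : M.d 1 (g⁻¹ ^ n) + M.d 1 h + M.d 1 (g⁻¹ ^ 2)
        ≤ M.d h (g⁻¹ ^ n) + 2 * M.d 1 g⁻¹ + 6 * M.δ := by
      rw [M.len_inv_pow, M.len_inv_pow, M.len_inv, inv_pow, M.d_comm h]
      exact hII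
    have hres := M.rhypCentralizer_caseI g⁻¹ hSL' h hcm'.eq hminN' n hLn' hI''
    rw [M.len_inv] at hres
    exact hres

end Vale.Agent.Lib.P184
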