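import Vale.Agent.Lib.P184.Undistorted

/-!
# Pulling back the undistorted-element criterion along a homomorphism

`undistorted_class_trace_hom`: let `φ : G →* Γ` be a group homomorphism, let `Γ` act by
isometries on a pseudo-metric space, and let `g : G` be such that the orbit of `x₀` under the
powers of `φ g` grows linearly and the cyclic group generated by `φ g` has finite index in the
centralizer of `φ g` in `Γ`.  Then the coefficient at the class of `g` of every summable
idempotent matrix over `G` vanishes.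
-/

namespace Vale.Agent.Lib.P184

open scoped BigOperators Topology

theorem undistorted_class_trace_hom {G : Type*} [Group G] {Γ : Type*} [Group Γ] (φ : G →* Γ)
    (q : ℕ) (e : Fin q → Fin q → G → ℂ)
    (he_sum : ∀ i j, Summable (fun x => ‖e i j x‖))
    (he_idem : ∀ i j x, ∑ l, ∑' y, e i l y * e l j (y⁻¹ * x) = e i j x)
    {X : Type*} [PseudoMetricSpace X] [MulAction Γ X] [IsIsometricSMul Γ X]
    (g : G) (x₀ : X) (ε : ℝ) (hε : 0 < ε)
    (hgrow : ∀ n : ℕ, ε * n ≤ dist x₀ (φ g ^ n • x₀))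
    (hfin : (Subgroup.zpowers (φ g)).relIndex (Subgroup.centralizer ({φ g} : Set Γ)) ≠ 0) :
    HasSum (fun c : {c : G // IsConj g c} => ∑ i, e i i c.1) 0 := by
  classical
  obtain ⟨ℓ, hℓ⟩ : ∃ ℓ : G → ℝ, ℓ = fun h => dist x₀ (φ h • x₀) := ⟨_, rfl⟩
  have hℓ_mul : ∀ x y, ℓ (x * y) ≤ ℓ x + ℓ y := by
    intro x y
    rw [hℓ]
    simp only
    have h1 := dist_triangle x₀ (φ x • x₀) (φ (x * y) • x₀)
    rw [map_mul, mul_smul, dist_smul] at h1
    rw [map_mul, mul_smul]
    exact h1
  have hℓ_inv : ∀ x, ℓ x⁻¹ = ℓ x := by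
    intro x
    rw [hℓ]
    simp only
    have h1 := dist_smul (φ x) x₀ ((φ x)⁻¹ • x₀)
    rw [smul_inv_smul] at h1
    rw [map_inv, ← h1, dist_comm]
  have hgrowZ : ∀ k : ℤ, ε * |(k : ℝ)| ≤ ℓ (g ^ k) := by
    intro k
    rcases le_total 0 k with hk | hk
    · obtain ⟨n, rfl⟩ := Int.eq_ofNat_of_zero_le hk
      have h1 := hgrow n
      rw [hℓ]
      simp only [zpow_natCast, map_pow]
      rw [abs_of_nonneg (by positivity)]
      exact_mod_cast h1
    · obtain ⟨n, hn⟩ := Int.eq_ofNat_of_zero_le (neg_nonneg.mpr hk)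
      have hk' : k = -(n : ℤ) := by omega
      have h1 := hgrow n
      rw [hk', zpow_neg, hℓ_inv, hℓ]
      simp only [zpow_natCast, map_pow]
      have h2 : |((-(n : ℤ) : ℤ) : ℝ)| = (n : ℝ) := by
        push_cast
        rw [abs_neg, abs_of_nonneg (by positivity)]
      rw [h2]
      exact h1
  have hlow : ∀ (h : G) (k : ℤ), - ℓ h ≤ ℓ (h * g ^ k) + ε * k := by
    intro h k
    have h1 := hℓ_mul h⁻¹ (h * g ^ k)
    rw [inv_mul_cancel_left, hℓ_inv] at h1
    have h2 := hgrowZ k
    have h3 : 0 ≤ ε * |(k : ℝ)| + ε * k := by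
      have := neg_abs_le (k : ℝ)
      nlinarith
    linarith
  have hbdd : ∀ h : G, BddBelow (Set.range fun k : ℤ => ℓ (h * g ^ k) + ε * k) := by
    intro h
    refine ⟨- ℓ h, ?_⟩
    rintro _ ⟨k, rfl⟩
    exact hlow h k
  obtain ⟨ψ, hψ⟩ : ∃ ψ : G → ℝ, ψ = fun h => ⨅ k : ℤ, (ℓ (h * g ^ k) + ε * k) := ⟨_, rfl⟩
  have hψle : ∀ (m h : G), ψ (m * h) ≤ ψ h + ℓ m := by
    intro m h
    rw [hψ]
    simp only
    rw [← sub_le_iff_le_add]
    refine le_ciInf fun k => ?_
    rw [sub_le_iff_le_add]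
    refine (ciInf_le (hbdd (m * h)) k).trans ?_
    have := hℓ_mul m (h * g ^ k)
    rw [← mul_assoc] at this
    linarith
  have hineq : ∀ (h : G) (j : ℤ), ψ (h * g ^ j) ≤ ψ h - ε * j := by
    intro h j
    rw [le_sub_iff_add_le]
    conv_rhs => rw [hψ]
    simp only
    refine le_ciInf fun k => ?_
    have h1 : ψ (h * g ^ j) ≤ ℓ (h * g ^ j * g ^ (k - j)) + ε * ((k - j : ℤ) : ℝ) := by
      rw [hψ]
      exact ciInf_le (hbdd _) (k - j)
    have h2 : h * g ^ j * g ^ (k - j) = h * g ^ k := by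
      rw [mul_assoc, ← zpow_add]
      congr 2
      ring
    rw [h2] at h1
    push_cast at h1
    linarith
  have heq : ∀ (h : G) (j : ℤ), ψ (h * g ^ j) = ψ h - ε * j := by
    intro h j
    refine le_antisymm (hineq h j) ?_
    have h1 := hineq (h * g ^ j) (-j)
    have h2 : h * g ^ j * g ^ (-j) = h := by
      rw [mul_assoc, ← zpow_add, add_neg_cancel, zpow_zero, mul_one]
    rw [h2] at h1
    push_cast at h1
    linarith
  -- elements with the same image have the same value
  have hψφ : ∀ (h z : G) (j : ℤ), φ z = φ g ^ j → ψ (h * z) = ψ (h * g ^ j) := by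
    intro h z j hz
    rw [hψ]
    simp only
    refine iInf_congr fun k => ?_
    congr 1
    rw [hℓ]
    simp only [map_mul, map_zpow, hz]
  -- the finite-index subgroup of the centralizer
  obtain ⟨Z₀, hZ₀⟩ : ∃ Z₀ : Subgroup (Subgroup.centralizer ({g} : Set G)),
      Z₀ = ((Subgroup.zpowers (φ g)).comap φ).subgroupOf (Subgroup.centralizer ({g} : Set G)) :=
    ⟨_, rfl⟩
  have hFI : Z₀.FiniteIndex := by
    refine ⟨?_⟩
    rw [hZ₀]
    change ((Subgroup.zpowers (φ g)).comap φ).relIndex (Subgroup.centralizer ({g} : Set G)) ≠ 0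
    have hle : (Subgroup.centralizer ({g} : Set G)).map φ ≤ Subgroup.centralizer ({φ g} : Set Γ) := by
      rintro _ ⟨z, hz, rfl⟩
      rw [Subgroup.mem_centralizer_singleton_iff]
      have h1 : z * g = g * z := Subgroup.mem_centralizer_singleton_iff.mp hz
      rw [← map_mul, ← map_mul, h1]
    have h1 : ((Subgroup.zpowers (φ g)).comap φ).relIndex (Subgroup.centralizer ({g} : Set G))
        = (Subgroup.zpowers (φ g)).relIndex ((Subgroup.centralizer ({g} : Set G)).map φ) :=
      (Subgroup.relIndex_comap (Subgroup.zpowers (φ g)) φ _)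
    rw [h1]
    exact fun h0 => hfin (Subgroup.relIndex_eq_zero_of_le_right hle h0)
  refine matrix_class_trace_fi q e he_sum he_idem g ψ ?_ Z₀
    ⟨⟨g, Subgroup.mem_centralizer_singleton_iff.mpr rfl⟩, ?_, rfl⟩ ?_ ?_
  · intro m
    refine ⟨ℓ m, fun h => ?_⟩
    rw [abs_le]
    constructor
    · have h1 := hψle m⁻¹ (m * h)
      rw [inv_mul_cancel_left, hℓ_inv] at h1
      linarith
    · have h1 := hψle m h
      linarith
  · rw [hZ₀, Subgroup.mem_subgroupOf, Subgroup.mem_comap]
    exact Subgroup.mem_zpowers (φ g)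
  · intro z hz h
    rw [hZ₀, Subgroup.mem_subgroupOf, Subgroup.mem_comap] at hz
    obtain ⟨j, hj⟩ := Subgroup.mem_zpowers_iff.mp hz
    have h1 := hψφ h (z : G) j hj.symm
    have h2 := hψφ 1 (z : G) j hj.symm
    rw [one_mul] at h2
    rw [h1, h2, heq h j, heq 1 j]
    ring
  · have h1 := heq 1 1
    rw [one_mul, zpow_one] at h1
    intro h
    rw [h] at h1
    push_cast at h1
    linarith

end Vale.Agent.Lib.P184
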