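import Vale.Agent.Lib.P184.RHypVirtCyclic
import Vale.Agent.Lib.P184.RHypCentralizer
import Vale.Agent.Lib.P184.UndistortedHom

/-!
# Loxodromic elements with properly acting centralizer

`loxodromic_class_trace`: let a group `G` act by isometries on a pseudo-metric space satisfying
the four-point condition, and let `g : G` be an element whose orbit map grows linearly
(a loxodromic element) and whose centralizer has finite balls with respect to the orbit
pseudo-metric.  Then the coefficient of every summable idempotent matrix at the conjugacy class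
of `g` vanishes.
-/

namespace Vale.Agent.Lib.P184

open scoped BigOperators

theorem loxodromic_class_trace {G : Type*} [Group G] {X : Type*} [PseudoMetricSpace X]
    [MulAction G X] [IsIsometricSMul G X] (δ : ℝ)
    (hδ : ∀ x y z w : X, dist x z + dist y w
      ≤ max (dist x y + dist z w) (dist x w + dist y z) + 2 * δ)
    (g : G) (x₀ : X) (ε : ℝ) (hε : 0 < ε) (hgrow : ∀ n : ℕ, ε * n ≤ dist x₀ (g ^ n • x₀))
    (hfin : ∀ r : ℝ, {h : G | h * g = g * h ∧ dist x₀ (h • x₀) ≤ r}.Finite)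
    (q : ℕ) (e : Fin q → Fin q → G → ℂ)
    (he_sum : ∀ i j, Summable (fun x => ‖e i j x‖))
    (he_idem : ∀ i j x, ∑ l, ∑' y, e i l y * e l j (y⁻¹ * x) = e i j x) :
    HasSum (fun c : {c : G // IsConj g c} => ∑ i, e i i c.1) 0 := by
  let M : RHyp G := RHyp.ofAction δ hδ x₀
  have hM : ∀ h : G, M.d 1 h = dist x₀ (h • x₀) := by
    intro h
    change dist ((1 : G) • x₀) (h • x₀) = dist x₀ (h • x₀)
    rw [one_smul]
  have hgrow' : ∀ n : ℕ, ε * n ≤ M.d 1 (g ^ n) := by
    intro n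
    rw [hM]
    exact hgrow n
  have hfin' : ∀ r : ℝ, {h : G | h * g = g * h ∧ M.d 1 h ≤ r}.Finite := by
    intro r
    refine (hfin r).subset ?_
    intro h hh
    refine ⟨hh.1, ?_⟩
    rw [← hM]
    exact hh.2
  have hrel : (Subgroup.zpowers g).relIndex (Subgroup.centralizer ({g} : Set G)) ≠ 0 :=
    M.relIndex_ne_zero_of (fun g' hSL h hc hm => M.centralizer_bound g' hSL h hc hm)
      g ε hε hgrow' hfin'
  exact undistorted_class_trace q e he_sum he_idem g x₀ ε hε hgrow hrel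

end Vale.Agent.Lib.P184

namespace Vale.Agent.Lib.P184

open scoped BigOperators

/-- Pulled-back form of `loxodromic_class_trace`: the group `G` maps to a group `Γ` acting on a
hyperbolic space, and the hypotheses concern the image of `g`. -/
theorem loxodromic_class_trace_hom {G : Type*} [Group G] {Γ : Type*} [Group Γ] (φ : G →* Γ)
    {X : Type*} [PseudoMetricSpace X] [MulAction Γ X] [IsIsometricSMul Γ X] (δ : ℝ)
    (hδ : ∀ x y z w : X, dist x z + dist y w
      ≤ max (dist x y + dist z w) (dist x w + dist y z) + 2 * δ)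
    (g : G) (x₀ : X) (ε : ℝ) (hε : 0 < ε) (hgrow : ∀ n : ℕ, ε * n ≤ dist x₀ (φ g ^ n • x₀))
    (hfin : ∀ r : ℝ, {γ : Γ | γ * φ g = φ g * γ ∧ dist x₀ (γ • x₀) ≤ r}.Finite)
    (q : ℕ) (e : Fin q → Fin q → G → ℂ)
    (he_sum : ∀ i j, Summable (fun x => ‖e i j x‖))
    (he_idem : ∀ i j x, ∑ l, ∑' y, e i l y * e l j (y⁻¹ * x) = e i j x) :
    HasSum (fun c : {c : G // IsConj g c} => ∑ i, e i i c.1) 0 := by
  let M : RHyp Γ := RHyp.ofAction δ hδ x₀
  have hM : ∀ h : Γ, M.d 1 h = dist x₀ (h • x₀) := by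
    intro h
    change dist ((1 : Γ) • x₀) (h • x₀) = dist x₀ (h • x₀)
    rw [one_smul]
  have hgrow' : ∀ n : ℕ, ε * n ≤ M.d 1 (φ g ^ n) := by
    intro n
    rw [hM]
    exact hgrow n
  have hfin' : ∀ r : ℝ, {h : Γ | h * φ g = φ g * h ∧ M.d 1 h ≤ r}.Finite := by
    intro r
    refine (hfin r).subset ?_
    intro h hh
    refine ⟨hh.1, ?_⟩
    rw [← hM]
    exact hh.2
  have hrel : (Subgroup.zpowers (φ g)).relIndex (Subgroup.centralizer ({φ g} : Set Γ)) ≠ 0 :=
    M.relIndex_ne_zero_of (fun g' hSL h hc hm => M.centralizer_bound g' hSL h hc hm)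
      (φ g) ε hε hgrow' hfin'
  exact undistorted_class_trace_hom φ q e he_sum he_idem g x₀ ε hε hgrow hrel

/-- The same under the weak proper discontinuity condition for the image of `g`. -/
theorem wpd_class_trace_hom {G : Type*} [Group G] {Γ : Type*} [Group Γ] (φ : G →* Γ)
    {X : Type*} [PseudoMetricSpace X] [MulAction Γ X] [IsIsometricSMul Γ X] (δ : ℝ)
    (hδ : ∀ x y z w : X, dist x z + dist y w
      ≤ max (dist x y + dist z w) (dist x w + dist y z) + 2 * δ)
    (g : G) (x₀ : X) (ε : ℝ) (hε : 0 < ε) (hgrow : ∀ n : ℕ, ε * n ≤ dist x₀ (φ g ^ n • x₀))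
    (hwpd : ∀ r : ℝ, ∃ n : ℕ,
      {γ : Γ | dist x₀ (γ • x₀) ≤ r ∧ dist (φ g ^ n • x₀) (γ • φ g ^ n • x₀) ≤ r}.Finite)
    (q : ℕ) (e : Fin q → Fin q → G → ℂ)
    (he_sum : ∀ i j, Summable (fun x => ‖e i j x‖))
    (he_idem : ∀ i j x, ∑ l, ∑' y, e i l y * e l j (y⁻¹ * x) = e i j x) :
    HasSum (fun c : {c : G // IsConj g c} => ∑ i, e i i c.1) 0 := by
  refine loxodromic_class_trace_hom φ δ hδ g x₀ ε hε hgrow ?_ q e he_sum he_idem
  intro r
  obtain ⟨n, hn⟩ := hwpd r
  refine hn.subset ?_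
  intro γ hγ
  refine ⟨hγ.2, ?_⟩
  have h1 : γ • φ g ^ n • x₀ = φ g ^ n • γ • x₀ := by
    rw [← mul_smul, ← mul_smul]
    have h2 : Commute γ (φ g) := hγ.1
    rw [(h2.pow_right n).eq]
  rw [h1, dist_smul]
  exact hγ.2

end Vale.Agent.Lib.P184
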