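import Vale.Agent.Lib.P184.FinePaths
import Vale.Agent.Lib.P184.FinePair
import Vale.Agent.Lib.P184.FineTransfer
import Vale.Agent.Lib.P184.RHypMain
import Vale.Agent.Lib.P184.Abel

/-!
# Groups acting on fine hyperbolic graphs (relatively hyperbolic groups)

A group `Γ` acts on a connected graph `K` satisfying the four-point condition, with finitely
many paths of each length between any two vertices and finite edge stabilisers.

* `fine_lox_class_trace` : vanishing at the classes of elements mapping to loxodromic elements;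
* `fine_parabolic_class_trace` : vanishing at the classes of elements mapping to elements fixing
  a vertex whose stabiliser carries a twist function (here the edges fall into finitely many
  orbits);
* `fine_abelian_class_trace` : the case of an abelian vertex stabiliser.
-/

namespace Vale.Agent.Lib.P184

open SimpleGraph

open scoped BigOperators

/-- The graph distance of a connected graph as a pseudo-metric. -/
@[reducible] noncomputable def graphPseudoMetric {V : Type*} (K : SimpleGraph V)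
    (hconn : K.Connected) : PseudoMetricSpace V where
  dist u w := K.dist u w
  dist_self u := by simp
  dist_comm u w := by simp [SimpleGraph.dist_comm]
  dist_triangle u v w := by exact_mod_cast hconn.dist_triangle

theorem fine_lox_class_trace {G : Type*} [Group G] {Γ V : Type*} [Group Γ] [MulAction Γ V]
    (φ : G →* Γ) (K : SimpleGraph V) (hconn : K.Connected)
    (hact : ∀ (γ : Γ) (u w : V), K.Adj u w → K.Adj (γ • u) (γ • w))
    (δ : ℝ) (hδ : ∀ x y z w : V, (K.dist x z : ℝ) + K.dist y w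
      ≤ max ((K.dist x y : ℝ) + K.dist z w) ((K.dist x w : ℝ) + K.dist y z) + 2 * δ)
    (hpaths : ∀ (u w : V) (n : ℕ), {p : K.Walk u w | p.IsPath ∧ p.length ≤ n}.Finite)
    (hstab : ∀ u w : V, K.Adj u w → {γ : Γ | γ • u = u ∧ γ • w = w}.Finite)
    (g : G) (x₀ : V) (ε : ℝ) (hε : 0 < ε)
    (hlox : ∀ n : ℕ, ε * n ≤ K.dist x₀ (φ g ^ n • x₀))
    (q : ℕ) (e : Fin q → Fin q → G → ℂ)
    (he_sum : ∀ i j, Summable (fun x => ‖e i j x‖))
    (he_idem : ∀ i j x, ∑ l, ∑' y, e i l y * e l j (y⁻¹ * x) = e i j x) :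
    HasSum (fun c : {c : G // IsConj g c} => ∑ i, e i i c.1) 0 := by
  let _ : PseudoMetricSpace V := graphPseudoMetric K hconn
  have _ : IsIsometricSMul Γ V := ⟨fun γ => Isometry.of_dist_eq (fun u w => by
    change ((K.dist (γ • u) (γ • w) : ℕ) : ℝ) = K.dist u w
    rw [graph_dist_smul K hconn hact])⟩
  have hdist : ∀ u w : V, dist u w = K.dist u w := fun _ _ => rfl
  refine wpd_class_trace_hom φ δ (fun x y z w => by simpa only [hdist] using hδ x y z w)
    g x₀ ε hε (fun n => by rw [hdist]; exact hlox n) ?_ q e he_sum he_idem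
  intro r
  obtain ⟨D, hD⟩ := exists_nat_ge r
  obtain ⟨n, hn⟩ := exists_nat_gt ((2 * D : ℝ) / ε)
  have h1 : (2 * D : ℝ) < ε * n := by
    rw [div_lt_iff₀ hε] at hn
    linarith
  have h2 : 2 * D < K.dist x₀ (φ g ^ n • x₀) := by
    have h3 := hlox n
    have h4 : ((2 * D : ℕ) : ℝ) < (K.dist x₀ (φ g ^ n • x₀) : ℝ) := by
      push_cast
      linarith
    exact_mod_cast h4
  refine ⟨n, (fine_pair_finite K hconn hact hpaths hstab x₀ (φ g ^ n • x₀) D h2).subset ?_⟩
  intro γ hγ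
  have h5 : (K.dist x₀ (γ • x₀) : ℝ) ≤ D := (hγ.1).trans hD
  have h6 : (K.dist (φ g ^ n • x₀) (γ • φ g ^ n • x₀) : ℝ) ≤ D := (hγ.2).trans hD
  exact ⟨by exact_mod_cast h5, by exact_mod_cast h6⟩

theorem fine_parabolic_class_trace {G : Type*} [Group G] {Γ V : Type*} [Group Γ]
    [MulAction Γ V] (φ : G →* Γ) (K : SimpleGraph V) (hconn : K.Connected)
    (hact : ∀ (γ : Γ) (u w : V), K.Adj u w → K.Adj (γ • u) (γ • w))
    (δ : ℝ) (hδ : ∀ x y z w : V, (K.dist x z : ℝ) + K.dist y w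
      ≤ max ((K.dist x y : ℝ) + K.dist z w) ((K.dist x w : ℝ) + K.dist y z) + 2 * δ)
    (hpaths : ∀ (u w : V) (n : ℕ), {p : K.Walk u w | p.IsPath ∧ p.length ≤ n}.Finite)
    (hstab : ∀ u w : V, K.Adj u w → {γ : Γ | γ • u = u ∧ γ • w = w}.Finite)
    (hcocpt : ∃ F : Finset (V × V), ∀ u w : V, K.Adj u w → ∃ γ : Γ, (γ • u, γ • w) ∈ F)
    (g : G) (v : V) (hgv : φ g • v = v) (ψ : Γ → ℝ)
    (hψ1 : ∀ m : Γ, m • v = v → ∃ C : ℝ, ∀ h : Γ, h • v = v → |ψ (m * h) - ψ h| ≤ C)
    (hψ2 : ∀ z : Γ, z • v = v → z * φ g = φ g * z →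
      ∀ h : Γ, h • v = v → ψ (h * z) - ψ h = ψ z - ψ 1)
    (hψ3 : ψ (φ g) ≠ ψ 1)
    (q : ℕ) (e : Fin q → Fin q → G → ℂ)
    (he_sum : ∀ i j, Summable (fun x => ‖e i j x‖))
    (he_idem : ∀ i j x, ∑ l, ∑' y, e i l y * e l j (y⁻¹ * x) = e i j x) :
    HasSum (fun c : {c : G // IsConj g c} => ∑ i, e i i c.1) 0 := by
  obtain ⟨Ψ, hΨ1, hΨ2, hΨ3⟩ := fine_twist_transfer K hconn hact δ hδ hpaths hstab hcocpt
    (φ g) v hgv ψ hψ1 hψ2 hψ3
  refine matrix_class_trace q e he_sum he_idem g (fun h => Ψ (φ h)) (fun m => ?_)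
    (fun z hz h => ?_) ?_
  · obtain ⟨C, hC⟩ := hΨ1 (φ m)
    exact ⟨C, fun h => by simpa only [map_mul] using hC (φ h)⟩
  · have hz' : φ z * φ g = φ g * φ z := by rw [← map_mul, hz, map_mul]
    simpa only [map_mul, map_one] using hΨ2 (φ z) hz' (φ h)
  · simpa only [map_one] using hΨ3

theorem fine_abelian_class_trace {G : Type*} [Group G] {Γ V : Type*} [Group Γ]
    [MulAction Γ V] (φ : G →* Γ) (K : SimpleGraph V) (hconn : K.Connected)
    (hact : ∀ (γ : Γ) (u w : V), K.Adj u w → K.Adj (γ • u) (γ • w))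
    (δ : ℝ) (hδ : ∀ x y z w : V, (K.dist x z : ℝ) + K.dist y w
      ≤ max ((K.dist x y : ℝ) + K.dist z w) ((K.dist x w : ℝ) + K.dist y z) + 2 * δ)
    (hpaths : ∀ (u w : V) (n : ℕ), {p : K.Walk u w | p.IsPath ∧ p.length ≤ n}.Finite)
    (hstab : ∀ u w : V, K.Adj u w → {γ : Γ | γ • u = u ∧ γ • w = w}.Finite)
    (hcocpt : ∃ F : Finset (V × V), ∀ u w : V, K.Adj u w → ∃ γ : Γ, (γ • u, γ • w) ∈ F)
    (g : G) (v : V) (hgv : φ g • v = v) (hg : ∀ k : ℕ, 0 < k → φ g ^ k ≠ 1)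
    (habel : ∀ a b : Γ, a • v = v → b • v = v → a * b = b * a)
    (q : ℕ) (e : Fin q → Fin q → G → ℂ)
    (he_sum : ∀ i j, Summable (fun x => ‖e i j x‖))
    (he_idem : ∀ i j x, ∑ l, ∑' y, e i l y * e l j (y⁻¹ * x) = e i j x) :
    HasSum (fun c : {c : G // IsConj g c} => ∑ i, e i i c.1) 0 := by
  classical
  -- a real character of the stabiliser which does not vanish at the image of `g`
  let P := MulAction.stabilizer Γ v
  have hcomm : IsMulCommutative P := ⟨⟨fun a b => Subtype.ext (habel a b a.2 b.2)⟩⟩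
  have hcb : commutator P = ⊥ := (commutator_eq_bot_iff P).mpr hcomm
  have hgP : ¬ IsOfFinOrder (Abelianization.of (⟨φ g, hgv⟩ : P)) := by
    intro hfin
    obtain ⟨k, hk, hk1⟩ := isOfFinOrder_iff_pow_eq_one.mp hfin
    rw [← map_pow] at hk1
    have h1 : (⟨φ g, hgv⟩ : P) ^ k ∈ (Abelianization.of (G := P)).ker := hk1
    rw [Abelianization.ker_of, hcb, Subgroup.mem_bot] at h1
    have h2 : φ g ^ k = 1 := by
      have := congrArg (fun x : P => (x : Γ)) h1
      simpa using this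
    exact hg k hk h2
  obtain ⟨χ, hχmul, hχg⟩ := exists_hom_real (⟨φ g, hgv⟩ : P) hgP
  have hχ1 : χ 1 = 0 := by
    have := hχmul 1 1
    rw [one_mul] at this
    linarith
  refine fine_parabolic_class_trace φ K hconn hact δ hδ hpaths hstab hcocpt g v hgv
    (fun h => if hh : h • v = v then χ ⟨h, hh⟩ else 0) ?_ ?_ ?_ q e he_sum he_idem
  · intro m hm
    refine ⟨|χ ⟨m, hm⟩|, fun h hh => ?_⟩
    have hmh : (m * h) • v = v := by rw [mul_smul, hh, hm]
    rw [dif_pos hmh, dif_pos hh]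
    have : (⟨m * h, hmh⟩ : P) = ⟨m, hm⟩ * ⟨h, hh⟩ := rfl
    rw [this, hχmul]
    simp
  · intro z hz _ h hh
    have hhz : (h * z) • v = v := by rw [mul_smul, hz, hh]
    have h1v : (1 : Γ) • v = v := one_smul _ _
    rw [dif_pos hhz, dif_pos hh, dif_pos hz, dif_pos h1v]
    have : (⟨h * z, hhz⟩ : P) = ⟨h, hh⟩ * ⟨z, hz⟩ := rfl
    rw [this, hχmul]
    have h1 : (⟨1, h1v⟩ : P) = 1 := rfl
    rw [h1, hχ1]
    ring
  · have h1v : (1 : Γ) • v = v := one_smul _ _
    rw [dif_pos hgv, dif_pos h1v]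
    have h1 : (⟨1, h1v⟩ : P) = 1 := rfl
    rw [h1, hχ1]
    exact hχg

end Vale.Agent.Lib.P184
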