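import Vale.Agent.Lib.P184.HeisOps

/-!
# The twisted Leibniz rule for multiplier operators, with a finite sum of pairs

If a multiplier `Φ` satisfies `Φ k h = Φ k x + Φ x h + ∑ i, ΦA i k x * ΦB i x h`, then the
operator of entrywise multiplication by `Φ` satisfies the Leibniz rule twisted by the sum of
the products of the operators of the pairs.
-/

namespace Vale.Agent.Lib.P184

open scoped BigOperators Topology

variable {G : Type*} [Group G] {R : Type*} [NormedRing R] [NormedAlgebra ℂ R] [CompleteSpace R]
  {g : G} {W : PWeight G}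

omit [NormedAlgebra ℂ R] in
/-- The entries of a finite sum in the subring are the finite sums of the entries. -/
theorem mulOp_twisted_sum_K {ι : Type*} (s : Finset ι) (X : ι → SKer (R := R) g W) (k h : G) :
    ((∑ i ∈ s, X i : SKer (R := R) g W) : DKer G R g).K k h
      = ∑ i ∈ s, ((X i : SKer (R := R) g W) : DKer G R g).K k h := by
  classical
  induction s using Finset.induction_on with
  | empty => rw [Finset.sum_empty, Finset.sum_empty, Subring.coe_zero, DKer.zero_K]
  | insert a s ha ih =>
    rw [Finset.sum_insert ha, Finset.sum_insert ha, Subring.coe_add, DKer.add_K, ih]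

omit [CompleteSpace R] in
/-- The pointwise identity behind the twisted Leibniz rule. -/
theorem mulOp_twisted_sum_entry {m : ℕ} (a b : ℂ) (c d : Fin m → ℂ) (X Y : R) :
    (a + b + ∑ i, c i * d i) • (X * Y)
      = (a • X) * Y + X * (b • Y) + ∑ i, (c i • X) * (d i • Y) := by
  rw [add_smul, add_smul, Finset.sum_smul, smul_mul_assoc, mul_smul_comm]
  congr 1
  refine Finset.sum_congr rfl (fun i _ => ?_)
  rw [smul_mul_assoc, mul_smul_comm, mul_smul]

theorem mulOp_twisted_sum {m : ℕ} (M : Mult g W) (MA MB : Fin m → Mult g W)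
    (hM : ∀ k x h, M.Φ k h = M.Φ k x + M.Φ x h + ∑ i, (MA i).Φ k x * (MB i).Φ x h)
    (A B : SKer (R := R) g W) :
    mulOp M (A * B) = mulOp M A * B + A * mulOp M B
      + ∑ i, mulOp (MA i) A * mulOp (MB i) B := by
  refine Subtype.ext (DKer.ext' (fun k h => ?_))
  rw [mulOp_K, Subring.coe_add, Subring.coe_add, DKer.add_K, DKer.add_K, Subring.coe_mul,
    Subring.coe_mul, Subring.coe_mul, DKer.mul_K, DKer.mul_K, DKer.mul_K, mulOp_twisted_sum_K]
  have h1 := DKer.summable_mul (mulOp M A : DKer G R g) (B : DKer G R g) k h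
  have h2 := DKer.summable_mul (A : DKer G R g) (mulOp M B : DKer G R g) k h
  have h3 : ∀ i : Fin m, Summable (fun x => (mulOp (MA i) A : DKer G R g).K k x
      * (mulOp (MB i) B : DKer G R g).K x h) := fun i => DKer.summable_mul _ _ k h
  have h4 : ∑ i, ((mulOp (MA i) A * mulOp (MB i) B : SKer (R := R) g W) : DKer G R g).K k h
      = ∑' x, ∑ i, (mulOp (MA i) A : DKer G R g).K k x
        * (mulOp (MB i) B : DKer G R g).K x h := by
    rw [Summable.tsum_finsetSum (fun i _ => h3 i)]
    refine Finset.sum_congr rfl (fun i _ => ?_)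
    rw [Subring.coe_mul, DKer.mul_K]
  rw [h4, ← h1.tsum_add h2, ← (h1.add h2).tsum_add (summable_sum (fun i _ => h3 i)),
    ← tsum_const_smul'']
  refine tsum_congr (fun x => ?_)
  simp only [mulOp_K]
  rw [hM k x h]
  push_cast
  exact mulOp_twisted_sum_entry _ _ _ _ _ _

end Vale.Agent.Lib.P184
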