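import Vale.Agent.Lib.P184.HeisCore
import Vale.Agent.Lib.P184.HeisWeight

/-!
# A weight of polynomial type from a Heisenberg-type family of functions

Real functions `a i`, `b i` (for `i : Fin m`) and `c` on a group such that the increments of
the `a i`, of the `b i` and the twisted increments
`c (x h) - c h - ∑ i, (a i (x h) - a i h) * b i h` are bounded in `h` for every `x` give a
weight `w` of polynomial type which dominates the increments of the `a i`, `b i` and whose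
square dominates the twisted increments of `c`.
-/

namespace Vale.Agent.Lib.P184

open scoped BigOperators

/-- The square root of `u + v + ∑ i, p i * q i` is at most
`sqrt u + sqrt v + (∑ i, p i + ∑ i, q i) / 2`. -/
theorem heis_weight_multi_sqrt_le {m : ℕ} {u v : ℝ} (p q : Fin m → ℝ) (hu : 0 ≤ u)
    (hv : 0 ≤ v) (hp : ∀ i, 0 ≤ p i) (hq : ∀ i, 0 ≤ q i) :
    Real.sqrt (u + v + ∑ i, p i * q i) ≤
      Real.sqrt u + Real.sqrt v + (∑ i, p i + ∑ i, q i) / 2 := by
  have hP : 0 ≤ ∑ i, p i := Finset.sum_nonneg fun i _ => hp i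
  have hQ : 0 ≤ ∑ i, q i := Finset.sum_nonneg fun i _ => hq i
  have hle : ∑ i, p i * q i ≤ (∑ i, p i) * (∑ i, q i) := by
    rw [Finset.sum_mul]
    refine Finset.sum_le_sum fun i _ => ?_
    refine mul_le_mul_of_nonneg_left ?_ (hp i)
    exact Finset.single_le_sum (fun j _ => hq j) (Finset.mem_univ i)
  refine (Real.sqrt_le_sqrt ?_).trans (heis_weight_sqrt_le hu hv hP hQ)
  linarith

theorem heis_weight_multi {G : Type*} [Group G] (m : ℕ) (a b : Fin m → G → ℝ) (c : G → ℝ)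
    (h : ∀ x : G, ∃ C : ℝ, ∀ h : G,
      (∀ i, |a i (x * h) - a i h| ≤ C ∧ |b i (x * h) - b i h| ≤ C) ∧
      |c (x * h) - c h - ∑ i, (a i (x * h) - a i h) * b i h| ≤ C) :
    ∃ W : PWeight G, (∀ i k h, |a i k - a i h| ≤ W.w (k * h⁻¹)) ∧
      (∀ i k h, |b i k - b i h| ≤ W.w (k * h⁻¹)) ∧
      (∀ k h, |c k - c h - ∑ i, (a i k - a i h) * b i h| ≤ W.w (k * h⁻¹) ^ 2) := by
  have HA : ∀ i, ∃ L : G → ℝ, (∀ x, 0 ≤ L x) ∧ (∀ x y, |a i (x * y) - a i y| ≤ L x) ∧
      ∀ x K, (∀ y, |a i (x * y) - a i y| ≤ K) → L x ≤ K := fun i =>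
    heis_weight_sup (fun x y => |a i (x * y) - a i y|) (fun x y => abs_nonneg _)
      (fun x => (h x).imp fun C hC y => ((hC y).1 i).1)
  have HB : ∀ i, ∃ L : G → ℝ, (∀ x, 0 ≤ L x) ∧ (∀ x y, |b i (x * y) - b i y| ≤ L x) ∧
      ∀ x K, (∀ y, |b i (x * y) - b i y| ≤ K) → L x ≤ K := fun i =>
    heis_weight_sup (fun x y => |b i (x * y) - b i y|) (fun x y => abs_nonneg _)
      (fun x => (h x).imp fun C hC y => ((hC y).1 i).2)
  choose La hLa0 hLa hLa' using HA
  choose Lb hLb0 hLb hLb' using HB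
  obtain ⟨Lc, hLc0, hLc, hLc'⟩ := heis_weight_sup
    (fun x y => |c (x * y) - c y - ∑ i, (a i (x * y) - a i y) * b i y|)
    (fun x y => abs_nonneg _) (fun x => (h x).imp fun C hC y => (hC y).2)
  have hLaS : ∀ i x y, La i (x * y) ≤ La i x + La i y := by
    intro i x y
    refine hLa' i _ _ fun z => ?_
    have h1 := hLa i x (y * z)
    have h2 := hLa i y z
    have e : a i (x * y * z) - a i z =
        (a i (x * (y * z)) - a i (y * z)) + (a i (y * z) - a i z) := by
      rw [mul_assoc]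
      ring
    rw [e]
    exact (abs_add_le _ _).trans (add_le_add h1 h2)
  have hLbS : ∀ i x y, Lb i (x * y) ≤ Lb i x + Lb i y := by
    intro i x y
    refine hLb' i _ _ fun z => ?_
    have h1 := hLb i x (y * z)
    have h2 := hLb i y z
    have e : b i (x * y * z) - b i z =
        (b i (x * (y * z)) - b i (y * z)) + (b i (y * z) - b i z) := by
      rw [mul_assoc]
      ring
    rw [e]
    exact (abs_add_le _ _).trans (add_le_add h1 h2)
  have hLcS : ∀ x y, Lc (x * y) ≤ Lc x + Lc y + ∑ i, La i x * Lb i y := by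
    intro x y
    refine hLc' _ _ fun z => ?_
    have h1 := hLc x (y * z)
    have h2 := hLc y z
    have hsum : ∑ i, (a i (x * (y * z)) - a i z) * b i z =
        ∑ i, (a i (x * (y * z)) - a i (y * z)) * b i (y * z) +
          ∑ i, (a i (y * z) - a i z) * b i z -
          ∑ i, (a i (x * (y * z)) - a i (y * z)) * (b i (y * z) - b i z) := by
      rw [← Finset.sum_add_distrib, ← Finset.sum_sub_distrib]
      refine Finset.sum_congr rfl fun i _ => ?_
      ring
    have e : c (x * y * z) - c z - ∑ i, (a i (x * y * z) - a i z) * b i z =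
        (c (x * (y * z)) - c (y * z) -
            ∑ i, (a i (x * (y * z)) - a i (y * z)) * b i (y * z)) +
          (c (y * z) - c z - ∑ i, (a i (y * z) - a i z) * b i z) +
          ∑ i, (a i (x * (y * z)) - a i (y * z)) * (b i (y * z) - b i z) := by
      rw [mul_assoc, hsum]
      ring
    rw [e]
    have h5 : |∑ i, (a i (x * (y * z)) - a i (y * z)) * (b i (y * z) - b i z)| ≤
        ∑ i, La i x * Lb i y := by
      refine (Finset.abs_sum_le_sum_abs _ _).trans (Finset.sum_le_sum fun i _ => ?_)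
      rw [abs_mul]
      exact mul_le_mul (hLa i x (y * z)) (hLb i y z) (abs_nonneg _) (hLa0 i x)
    exact (abs_add_le _ _).trans (add_le_add ((abs_add_le _ _).trans (add_le_add h1 h2)) h5)
  have hs0 : ∀ x, 0 ≤ Real.sqrt (Lc x) := fun x => Real.sqrt_nonneg _
  have hSA0 : ∀ x, 0 ≤ ∑ i, La i x := fun x => Finset.sum_nonneg fun i _ => hLa0 i x
  have hSB0 : ∀ x, 0 ≤ ∑ i, Lb i x := fun x => Finset.sum_nonneg fun i _ => hLb0 i x
  have hAle : ∀ i x, La i x ≤ ∑ j, La j x := fun i x =>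
    Finset.single_le_sum (f := fun j => La j x) (fun j _ => hLa0 j x) (Finset.mem_univ i)
  have hBle : ∀ i x, Lb i x ≤ ∑ j, Lb j x := fun i x =>
    Finset.single_le_sum (f := fun j => Lb j x) (fun j _ => hLb0 j x) (Finset.mem_univ i)
  refine ⟨⟨fun x => 1 + ∑ i, La i x + ∑ i, Lb i x + Real.sqrt (Lc x), fun x => ?_,
    fun x y => ?_⟩, fun i k x => ?_, fun i k x => ?_, fun k x => ?_⟩
  · have h1 := hSA0 x
    have h2 := hSB0 x
    have h3 := hs0 x
    linarith
  · have h1 : ∑ i, La i (x * y) ≤ ∑ i, La i x + ∑ i, La i y := by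
      rw [← Finset.sum_add_distrib]
      exact Finset.sum_le_sum fun i _ => hLaS i x y
    have h2 : ∑ i, Lb i (x * y) ≤ ∑ i, Lb i x + ∑ i, Lb i y := by
      rw [← Finset.sum_add_distrib]
      exact Finset.sum_le_sum fun i _ => hLbS i x y
    have h3 : Real.sqrt (Lc (x * y)) ≤ Real.sqrt (Lc x) + Real.sqrt (Lc y) +
        (∑ i, La i x + ∑ i, Lb i y) / 2 :=
      (Real.sqrt_le_sqrt (hLcS x y)).trans
        (heis_weight_multi_sqrt_le (fun i => La i x) (fun i => Lb i y) (hLc0 x) (hLc0 y)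
          (fun i => hLa0 i x) (fun i => hLb0 i y))
    have h4 := hSA0 x
    have h5 := hSB0 y
    have h6 := hSA0 y
    have h7 := hSB0 x
    have h8 := hs0 x
    have h9 := hs0 y
    show 1 + ∑ i, La i (x * y) + ∑ i, Lb i (x * y) + Real.sqrt (Lc (x * y)) ≤
      2 * ((1 + ∑ i, La i x + ∑ i, Lb i x + Real.sqrt (Lc x)) +
        (1 + ∑ i, La i y + ∑ i, Lb i y + Real.sqrt (Lc y)))
    linarith
  · have h1 := hLa i (k * x⁻¹) x
    simp only [inv_mul_cancel_right] at h1
    have h2 := hSB0 (k * x⁻¹)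
    have h3 := hs0 (k * x⁻¹)
    have h4 := hAle i (k * x⁻¹)
    show |a i k - a i x| ≤
      1 + ∑ j, La j (k * x⁻¹) + ∑ j, Lb j (k * x⁻¹) + Real.sqrt (Lc (k * x⁻¹))
    linarith
  · have h1 := hLb i (k * x⁻¹) x
    simp only [inv_mul_cancel_right] at h1
    have h2 := hSA0 (k * x⁻¹)
    have h3 := hs0 (k * x⁻¹)
    have h4 := hBle i (k * x⁻¹)
    show |b i k - b i x| ≤
      1 + ∑ j, La j (k * x⁻¹) + ∑ j, Lb j (k * x⁻¹) + Real.sqrt (Lc (k * x⁻¹))
    linarith
  · have h1 := hLc (k * x⁻¹) x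
    simp only [inv_mul_cancel_right] at h1
    have h2 := hSA0 (k * x⁻¹)
    have h3 := hSB0 (k * x⁻¹)
    have h4 := hs0 (k * x⁻¹)
    have h5 := Real.sq_sqrt (hLc0 (k * x⁻¹))
    have h6 : Real.sqrt (Lc (k * x⁻¹)) ^ 2 ≤
        (1 + ∑ j, La j (k * x⁻¹) + ∑ j, Lb j (k * x⁻¹) + Real.sqrt (Lc (k * x⁻¹))) ^ 2 :=
      pow_le_pow_left₀ h4 (by linarith) 2
    show |c k - c x - ∑ i, (a i k - a i x) * b i x| ≤
      (1 + ∑ j, La j (k * x⁻¹) + ∑ j, Lb j (k * x⁻¹) + Real.sqrt (Lc (k * x⁻¹))) ^ 2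
    linarith

end Vale.Agent.Lib.P184
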