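import Vale.Agent.Lib.P184.MoyalRing

/-!
# Formal Moyal extension: lifting an idempotent

An idempotent `E` of the ring `S` lifts to an idempotent of the Moyal extension with constant
coefficient `E`.  The lift is the coefficientwise limit of the Newton iteration
`a ↦ a + (1 - 2 a) (a ^ 2 - a)`, whose defect `a ^ 2 - a` gains order at every step.
-/

namespace Vale.Agent.Lib.P184

open scoped BigOperators

namespace Moyal

variable {S : Type*} [Ring S] [Algebra ℚ S] {P : MoyalData S}

/-- The series `x` has order at least `p`: its coefficients below `p` vanish. -/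
def m4_ord (x : Moyal P) (p : ℕ) : Prop := ∀ n, n < p → x.coeff n = 0

theorem m4_ord_mul (x y : Moyal P) (p q : ℕ) (hx : m4_ord x p) (hy : m4_ord y q) :
    m4_ord (x * y) (p + q) := by
  intro n hn
  rw [mul_coeff]
  apply Finset.sum_eq_zero
  intro a ha
  apply Finset.sum_eq_zero
  intro b hb
  rw [Finset.HasAntidiagonal.mem_antidiagonal] at ha hb
  by_cases h1 : b.1 < p
  · rw [hx b.1 h1, iterate_map_zero, zero_mul, smul_zero]
  · have h2 : a.2 < q := by omega
    rw [hy a.2 h2, iterate_map_zero, mul_zero, smul_zero]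

theorem m4_ord_mul_left (x y : Moyal P) (q : ℕ) (hy : m4_ord y q) : m4_ord (x * y) q := by
  have h := m4_ord_mul x y 0 q (fun n hn => absurd hn (Nat.not_lt_zero n)) hy
  rwa [zero_add] at h

theorem m4_ord_mul_right (x y : Moyal P) (p : ℕ) (hx : m4_ord x p) : m4_ord (x * y) p := by
  have h := m4_ord_mul x y p 0 hx (fun n hn => absurd hn (Nat.not_lt_zero n))
  rwa [add_zero] at h

/-- The coefficient `n` of a product depends only on the coefficients up to `n`. -/
theorem m4_coeff_congr (x x' y y' : Moyal P) (n : ℕ) (hx : ∀ i, i ≤ n → x.coeff i = x'.coeff i)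
    (hy : ∀ i, i ≤ n → y.coeff i = y'.coeff i) : (x * y).coeff n = (x' * y').coeff n := by
  rw [mul_coeff, mul_coeff]
  apply Finset.sum_congr rfl
  intro a ha
  apply Finset.sum_congr rfl
  intro b hb
  rw [Finset.HasAntidiagonal.mem_antidiagonal] at ha hb
  rw [hx b.1 (by omega), hy a.2 (by omega)]

/-- The Newton iteration starting at the constant series `E`. -/
noncomputable def m4_seq (P : MoyalData S) (E : S) : ℕ → Moyal P
  | 0 => const E
  | j + 1 => m4_seq P E j
      + (1 - (m4_seq P E j + m4_seq P E j)) * (m4_seq P E j * m4_seq P E j - m4_seq P E j)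

theorem m4_seq_succ (P : MoyalData S) (E : S) (j : ℕ) :
    m4_seq P E (j + 1) = m4_seq P E j
      + (1 - (m4_seq P E j + m4_seq P E j)) * (m4_seq P E j * m4_seq P E j - m4_seq P E j) :=
  rfl

theorem m4_ring_identity {R : Type*} [Ring R] (a : R) :
    (a + (1 - (a + a)) * (a * a - a)) * (a + (1 - (a + a)) * (a * a - a))
        - (a + (1 - (a + a)) * (a * a - a))
      = (a * a - a) * (a * a - a)
        * ((a * a - a) + (a * a - a) + (a * a - a) + (a * a - a) - (1 + 1 + 1)) := by
  noncomm_ring

theorem m4_defect (P : MoyalData S) (E : S) (j : ℕ) :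
    m4_seq P E (j + 1) * m4_seq P E (j + 1) - m4_seq P E (j + 1)
      = (m4_seq P E j * m4_seq P E j - m4_seq P E j)
        * (m4_seq P E j * m4_seq P E j - m4_seq P E j)
        * ((m4_seq P E j * m4_seq P E j - m4_seq P E j)
          + (m4_seq P E j * m4_seq P E j - m4_seq P E j)
          + (m4_seq P E j * m4_seq P E j - m4_seq P E j)
          + (m4_seq P E j * m4_seq P E j - m4_seq P E j) - (1 + 1 + 1)) := by
  rw [m4_seq_succ]
  exact m4_ring_identity (m4_seq P E j)

theorem m4_coeff_zero (P : MoyalData S) (E : S) (hE : E * E = E) :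
    ∀ j, (m4_seq P E j).coeff 0 = E
  | 0 => by simp [m4_seq, const_coeff]
  | j + 1 => by
    have ih := m4_coeff_zero P E hE j
    have h : (m4_seq P E j * m4_seq P E j - m4_seq P E j).coeff 0 = 0 := by
      rw [sub_coeff, mul_coeff_zero, ih, hE, sub_self]
    rw [m4_seq_succ, add_coeff, mul_coeff_zero, h, mul_zero, add_zero]
    exact ih

theorem m4_defect_ord (P : MoyalData S) (E : S) (hE : E * E = E) :
    ∀ j, m4_ord (m4_seq P E j * m4_seq P E j - m4_seq P E j) (2 ^ j)
  | 0 => by
    intro n hn
    have hn0 : n = 0 := by simpa using hn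
    subst hn0
    rw [sub_coeff, mul_coeff_zero, m4_coeff_zero P E hE 0, hE, sub_self]
  | j + 1 => by
    have ih := m4_defect_ord P E hE j
    rw [m4_defect]
    have h1 := m4_ord_mul _ _ _ _ ih ih
    have h2 := m4_ord_mul_right _
      ((m4_seq P E j * m4_seq P E j - m4_seq P E j)
          + (m4_seq P E j * m4_seq P E j - m4_seq P E j)
          + (m4_seq P E j * m4_seq P E j - m4_seq P E j)
          + (m4_seq P E j * m4_seq P E j - m4_seq P E j) - (1 + 1 + 1)) _ h1
    have e : 2 ^ (j + 1) = 2 ^ j + 2 ^ j := by ring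
    rw [e]
    exact h2

theorem m4_stable (P : MoyalData S) (E : S) (hE : E * E = E) (j n : ℕ) (hn : n < 2 ^ j) :
    ∀ J, j ≤ J → (m4_seq P E J).coeff n = (m4_seq P E j).coeff n := by
  intro J hJ
  induction J, hJ using Nat.le_induction with
  | base => rfl
  | succ J hJ ih =>
    have h1 : n < 2 ^ J := lt_of_lt_of_le hn (Nat.pow_le_pow_right (by norm_num) hJ)
    have h2 := m4_ord_mul_left (1 - (m4_seq P E J + m4_seq P E J)) _ _
      (m4_defect_ord P E hE J) n h1
    rw [m4_seq_succ, add_coeff, ih, h2, add_zero]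

/-- An idempotent of `S` lifts to an idempotent of the Moyal extension. -/
theorem exists_idempotent_lift (P : MoyalData S) (E : S) (hE : E * E = E) :
    ∃ X : Moyal P, X * X = X ∧ X.coeff 0 = E := by
  refine ⟨⟨fun n => (m4_seq P E (n + 1)).coeff n⟩, ?_, ?_⟩
  · apply Moyal.ext
    funext n
    have hlt : ∀ i : ℕ, i < 2 ^ (i + 1) := fun i =>
      lt_of_lt_of_le Nat.lt_two_pow_self (Nat.pow_le_pow_right (by norm_num) (Nat.le_succ i))
    have hX : ∀ i, i ≤ n → (⟨fun n => (m4_seq P E (n + 1)).coeff n⟩ : Moyal P).coeff i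
        = (m4_seq P E (n + 1)).coeff i := by
      intro i hi
      exact (m4_stable P E hE (i + 1) i (hlt i) (n + 1) (by omega)).symm
    rw [m4_coeff_congr _ (m4_seq P E (n + 1)) _ (m4_seq P E (n + 1)) n hX hX]
    have hr := m4_defect_ord P E hE (n + 1) n (hlt n)
    rw [sub_coeff] at hr
    exact sub_eq_zero.mp hr
  · exact m4_coeff_zero P E hE 1

end Moyal

end Vale.Agent.Lib.P184
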