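import Vale.Agent.Lib.P184.MoyalDefs

/-!
# Operators on the formal Moyal extension

Coefficientwise lifts of derivations (resp. twisted derivations) of the base ring which commute
with the two structure derivations are derivations (resp. twisted derivations) of the Moyal
product, and the formal derivative is a twisted derivation.
-/

namespace Vale.Agent.Lib.P184

open scoped BigOperators
open Finset

namespace Moyal

variable {S : Type*} [Ring S] [Algebra ℚ S] {P : MoyalData S}

omit [Algebra ℚ S] in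
/-- An additive map commuting with another one commutes with its iterates. -/
theorem m2_iter_comm (f d : S →+ S) (h : ∀ x, f (d x) = d (f x)) (k : ℕ) (x : S) :
    f ((⇑d)^[k] x) = (⇑d)^[k] (f x) := by
  induction k generalizing x with
  | zero => rfl
  | succ k ih => rw [Function.iterate_succ_apply, Function.iterate_succ_apply, ih, h]

omit [Algebra ℚ S] in
/-- Iterates of an additive map commute with natural multiples. -/
theorem m2_iter_nsmul (d : S →+ S) (k m : ℕ) (x : S) :
    (⇑d)^[k] (m • x) = m • (⇑d)^[k] x := by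
  induction k generalizing x with
  | zero => rfl
  | succ k ih => rw [Function.iterate_succ_apply, Function.iterate_succ_apply, map_nsmul, ih]

/-- The coefficient of a list sum. -/
theorem m2_list_sum_coeff (l : List (Moyal P)) (n : ℕ) :
    l.sum.coeff n = (l.map (fun z => z.coeff n)).sum := by
  induction l with
  | nil => rfl
  | cons z l ih => rw [List.sum_cons, add_coeff, ih, List.map_cons, List.sum_cons]

/-- The list part of the twisted Leibniz rule, coefficientwise. -/
theorem m2_list_part (l : List ((S →+ S) × (S →+ S)))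
    (hl : ∀ p ∈ l, (∀ x, p.1 (P.d1 x) = P.d1 (p.1 x)) ∧ (∀ x, p.2 (P.d2 x) = P.d2 (p.2 x)))
    (x y : Moyal P) (n : ℕ) :
    ∑ p ∈ antidiagonal n, ∑ q ∈ antidiagonal p.1,
      ((q.2.factorial : ℚ)⁻¹) • (l.map (fun r => r.1 ((⇑P.d1)^[q.2] (x.coeff q.1))
        * r.2 ((⇑P.d2)^[q.2] (y.coeff p.2)))).sum
    = ((l.map (fun r => lift r.1 x * lift r.2 y)).sum).coeff n := by
  induction l with
  | nil => simp
  | cons r l ih =>
    have hr := hl r List.mem_cons_self
    have hl' : ∀ p ∈ l, (∀ x, p.1 (P.d1 x) = P.d1 (p.1 x)) ∧ (∀ x, p.2 (P.d2 x) = P.d2 (p.2 x)) :=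
      fun p hp => hl p (List.mem_cons_of_mem _ hp)
    simp only [List.map_cons, List.sum_cons, smul_add, Finset.sum_add_distrib, add_coeff]
    rw [ih hl']
    congr 1
    rw [mul_coeff]
    refine Finset.sum_congr rfl fun p _ => Finset.sum_congr rfl fun q _ => ?_
    rw [lift_coeff, lift_coeff, m2_iter_comm _ _ hr.1, m2_iter_comm _ _ hr.2]

theorem lift_twisted (D : S →+ S) (l : List ((S →+ S) × (S →+ S)))
    (hD : ∀ x y, D (x * y) = D x * y + x * D y + (l.map (fun p => p.1 x * p.2 y)).sum)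
    (hD1 : ∀ x, D (P.d1 x) = P.d1 (D x)) (hD2 : ∀ x, D (P.d2 x) = P.d2 (D x))
    (hl : ∀ p ∈ l, (∀ x, p.1 (P.d1 x) = P.d1 (p.1 x)) ∧ (∀ x, p.2 (P.d2 x) = P.d2 (p.2 x)))
    (x y : Moyal P) :
    lift D (x * y) = lift D x * y + x * lift D y
      + (l.map (fun p => lift p.1 x * lift p.2 y)).sum := by
  apply Moyal.ext
  funext n
  rw [add_coeff, add_coeff, ← m2_list_part l hl x y n, lift_coeff, mul_coeff, mul_coeff,
    mul_coeff]
  simp only [map_sum]
  rw [← Finset.sum_add_distrib, ← Finset.sum_add_distrib]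
  refine Finset.sum_congr rfl fun p _ => ?_
  rw [← Finset.sum_add_distrib, ← Finset.sum_add_distrib]
  refine Finset.sum_congr rfl fun q _ => ?_
  rw [map_inv_natCast_smul D ℚ ℚ, hD, smul_add, smul_add, lift_coeff, lift_coeff,
    m2_iter_comm D P.d1 hD1, m2_iter_comm D P.d2 hD2]

theorem lift_leibniz (f : S →+ S) (hf : ∀ x y, f (x * y) = f x * y + x * f y)
    (h1 : ∀ x, f (P.d1 x) = P.d1 (f x)) (h2 : ∀ x, f (P.d2 x) = P.d2 (f x)) (x y : Moyal P) :
    lift f (x * y) = lift f x * y + x * lift f y := by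
  have h := lift_twisted (P := P) f [] (by intro a b; simp [hf]) h1 h2 (by intro p hp; simp at hp)
    x y
  simpa using h

/-- Shifting the first index of a triple sum. -/
theorem m2_shift_i {M : Type*} [AddCommMonoid M] (H : ℕ → ℕ → ℕ → M)
    (h0 : ∀ j k, H 0 j k = 0) (n : ℕ) :
    ∑ p ∈ antidiagonal (n + 1), ∑ q ∈ antidiagonal p.1, H q.1 p.2 q.2
      = ∑ p ∈ antidiagonal n, ∑ q ∈ antidiagonal p.1, H (q.1 + 1) p.2 q.2 := by
  rw [Finset.Nat.sum_antidiagonal_succ]
  simp only [Finset.Nat.antidiagonal_zero, Finset.sum_singleton, h0, zero_add]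
  refine Finset.sum_congr rfl fun p _ => ?_
  rw [Finset.Nat.sum_antidiagonal_succ, h0, zero_add]

/-- Shifting the second index of a triple sum. -/
theorem m2_shift_j {M : Type*} [AddCommMonoid M] (H : ℕ → ℕ → ℕ → M)
    (h0 : ∀ i k, H i 0 k = 0) (n : ℕ) :
    ∑ p ∈ antidiagonal (n + 1), ∑ q ∈ antidiagonal p.1, H q.1 p.2 q.2
      = ∑ p ∈ antidiagonal n, ∑ q ∈ antidiagonal p.1, H q.1 (p.2 + 1) q.2 := by
  rw [Finset.Nat.sum_antidiagonal_succ']
  simp only [h0, Finset.sum_const_zero, zero_add]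

/-- Shifting the third index of a triple sum. -/
theorem m2_shift_k {M : Type*} [AddCommMonoid M] (H : ℕ → ℕ → ℕ → M)
    (h0 : ∀ i j, H i j 0 = 0) (n : ℕ) :
    ∑ p ∈ antidiagonal (n + 1), ∑ q ∈ antidiagonal p.1, H q.1 p.2 q.2
      = ∑ p ∈ antidiagonal n, ∑ q ∈ antidiagonal p.1, H q.1 p.2 (q.2 + 1) := by
  rw [Finset.Nat.sum_antidiagonal_succ]
  simp only [Finset.Nat.antidiagonal_zero, Finset.sum_singleton, h0, zero_add]
  refine Finset.sum_congr rfl fun p _ => ?_
  rw [Finset.Nat.sum_antidiagonal_succ', h0, zero_add]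

/-- The scalar identity: k + 1 over the factorial of k + 1 is one over the factorial of k. -/
theorem m2_fact (k : ℕ) (z : S) :
    (k + 1) • (((k + 1).factorial : ℚ)⁻¹ • z) = ((k.factorial : ℚ)⁻¹) • z := by
  rw [← Nat.cast_smul_eq_nsmul ℚ, smul_smul]
  congr 1
  rw [Nat.factorial_succ]
  have h1 : ((k + 1 : ℕ) : ℚ) ≠ 0 := by positivity
  have h2 : ((k.factorial : ℕ) : ℚ) ≠ 0 := by positivity
  push_cast
  field_simp

theorem ds_twisted (x y : Moyal P) :
    ds (x * y) = ds x * y + x * ds y + lift P.d1 x * lift P.d2 y := by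
  apply Moyal.ext
  funext n
  rw [add_coeff, add_coeff, ds_coeff, mul_coeff, mul_coeff, mul_coeff, mul_coeff]
  -- the general term
  set G : ℕ → ℕ → ℕ → S := fun i j k =>
    ((k.factorial : ℚ)⁻¹) • ((⇑P.d1)^[k] (x.coeff i) * (⇑P.d2)^[k] (y.coeff j)) with hG
  have hL : (n + 1) • ∑ p ∈ antidiagonal (n + 1), ∑ q ∈ antidiagonal p.1, G q.1 p.2 q.2
      = ∑ p ∈ antidiagonal (n + 1), ∑ q ∈ antidiagonal p.1, q.1 • G q.1 p.2 q.2
        + ∑ p ∈ antidiagonal (n + 1), ∑ q ∈ antidiagonal p.1, p.2 • G q.1 p.2 q.2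
        + ∑ p ∈ antidiagonal (n + 1), ∑ q ∈ antidiagonal p.1, q.2 • G q.1 p.2 q.2 := by
    rw [Finset.smul_sum, ← Finset.sum_add_distrib, ← Finset.sum_add_distrib]
    refine Finset.sum_congr rfl fun p hp => ?_
    rw [Finset.smul_sum, ← Finset.sum_add_distrib, ← Finset.sum_add_distrib]
    refine Finset.sum_congr rfl fun q hq => ?_
    have h1 : p.1 + p.2 = n + 1 := Finset.HasAntidiagonal.mem_antidiagonal.mp hp
    have h2 : q.1 + q.2 = p.1 := Finset.HasAntidiagonal.mem_antidiagonal.mp hq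
    rw [← add_smul, ← add_smul]
    congr 1
    omega
  have e1 := m2_shift_i (fun i j k => i • G i j k) (fun j k => zero_smul ℕ _) n
  have e2 := m2_shift_j (fun i j k => j • G i j k) (fun i k => zero_smul ℕ _) n
  have e3 := m2_shift_k (fun i j k => k • G i j k) (fun i j => zero_smul ℕ _) n
  change (n + 1) • ∑ p ∈ antidiagonal (n + 1), ∑ q ∈ antidiagonal p.1, G q.1 p.2 q.2 = _
  rw [hL, e1, e2, e3]
  congr 1
  · congr 1
    · refine Finset.sum_congr rfl fun p _ => Finset.sum_congr rfl fun q _ => ?_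
      rw [ds_coeff, m2_iter_nsmul, smul_mul_assoc, smul_comm]
    · refine Finset.sum_congr rfl fun p _ => Finset.sum_congr rfl fun q _ => ?_
      rw [ds_coeff, m2_iter_nsmul, mul_smul_comm, smul_comm]
  · refine Finset.sum_congr rfl fun p _ => Finset.sum_congr rfl fun q _ => ?_
    rw [lift_coeff, lift_coeff]
    exact m2_fact q.2 _

theorem lift_lift_comm (f h : S →+ S) (hfh : ∀ x, f (h x) = h (f x)) (x : Moyal P) :
    lift f (lift h x) = lift h (lift f x) :=
  Moyal.ext (funext fun n => hfh (x.coeff n))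

theorem lift_ds_comm (f : S →+ S) (x : Moyal P) : lift f (ds x) = ds (lift f x) :=
  Moyal.ext (funext fun _ => map_nsmul f _ _)

end Moyal

end Vale.Agent.Lib.P184
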