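import Vale.Agent.Lib.P184.MoyalDefs

/-!
The coefficientwise trace on the Moyal extension is cyclic.

If `τ` is a trace on `S` which vanishes on the images of the two derivations, then its
coefficientwise extension is a trace for the Moyal product.
-/

namespace Vale.Agent.Lib.P184

open scoped BigOperators

namespace Moyal

variable {S : Type*} [Ring S] [Algebra ℚ S] {P : MoyalData S}

/-- Exchanging the two outer indices in the double sum over `i + j + k = n`. -/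
theorem m3_reindex {M : Type*} [AddCommMonoid M] (F : ℕ → ℕ → ℕ → M) (n : ℕ) :
    ∑ p ∈ Finset.HasAntidiagonal.antidiagonal n,
        ∑ q ∈ Finset.HasAntidiagonal.antidiagonal p.1, F q.1 p.2 q.2
      = ∑ p ∈ Finset.HasAntidiagonal.antidiagonal n,
        ∑ q ∈ Finset.HasAntidiagonal.antidiagonal p.1, F p.2 q.1 q.2 := by
  rw [Finset.sum_sigma', Finset.sum_sigma']
  refine Finset.sum_nbij'
    (fun x => ⟨(x.1.2 + x.2.2, x.2.1), (x.1.2, x.2.2)⟩)
    (fun x => ⟨(x.1.2 + x.2.2, x.2.1), (x.1.2, x.2.2)⟩) ?_ ?_ ?_ ?_ ?_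
  · rintro ⟨⟨a, j⟩, ⟨i, k⟩⟩ hx
    simp only [Finset.mem_sigma, Finset.HasAntidiagonal.mem_antidiagonal] at hx ⊢
    obtain ⟨h1, h2⟩ := hx
    exact ⟨by omega, trivial⟩
  · rintro ⟨⟨a, j⟩, ⟨i, k⟩⟩ hx
    simp only [Finset.mem_sigma, Finset.HasAntidiagonal.mem_antidiagonal] at hx ⊢
    obtain ⟨h1, h2⟩ := hx
    exact ⟨by omega, trivial⟩
  · rintro ⟨⟨a, j⟩, ⟨i, k⟩⟩ hx
    simp only [Finset.mem_sigma, Finset.HasAntidiagonal.mem_antidiagonal] at hx
    obtain ⟨h1, h2⟩ := hx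
    subst h2
    rfl
  · rintro ⟨⟨a, j⟩, ⟨i, k⟩⟩ hx
    simp only [Finset.mem_sigma, Finset.HasAntidiagonal.mem_antidiagonal] at hx
    obtain ⟨h1, h2⟩ := hx
    subst h2
    rfl
  · rintro ⟨⟨a, j⟩, ⟨i, k⟩⟩ _
    rfl

omit [Algebra ℚ S] in
/-- Integration by parts for the first derivation. -/
theorem m3_ibp1 {M : Type*} [AddCommGroup M] (τ : S →+ M) (h1 : ∀ x, τ (P.d1 x) = 0)
    (a b : S) : τ (P.d1 a * b) = - τ (a * P.d1 b) := by
  have h := h1 (a * b)
  rw [P.leib1, map_add] at h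
  exact eq_neg_of_add_eq_zero_left h

omit [Algebra ℚ S] in
/-- Integration by parts for the second derivation. -/
theorem m3_ibp2 {M : Type*} [AddCommGroup M] (τ : S →+ M) (h2 : ∀ x, τ (P.d2 x) = 0)
    (a b : S) : τ (P.d2 a * b) = - τ (a * P.d2 b) := by
  have h := h2 (a * b)
  rw [P.leib2, map_add] at h
  exact eq_neg_of_add_eq_zero_left h

omit [Algebra ℚ S] in
/-- Iterated integration by parts for the first derivation. -/
theorem m3_ibp1_iter {M : Type*} [AddCommGroup M] (τ : S →+ M) (h1 : ∀ x, τ (P.d1 x) = 0)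
    (k : ℕ) (a b : S) :
    τ ((⇑P.d1)^[k] a * b) = ((-1 : ℤ) ^ k) • τ (a * (⇑P.d1)^[k] b) := by
  induction k generalizing a b with
  | zero => simp
  | succ k ih =>
    rw [Function.iterate_succ_apply', m3_ibp1 τ h1, ih, Function.iterate_succ_apply, pow_succ,
      mul_smul, ← smul_neg]
    simp

omit [Algebra ℚ S] in
/-- Iterated integration by parts for the second derivation. -/
theorem m3_ibp2_iter {M : Type*} [AddCommGroup M] (τ : S →+ M) (h2 : ∀ x, τ (P.d2 x) = 0)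
    (k : ℕ) (a b : S) :
    τ ((⇑P.d2)^[k] a * b) = ((-1 : ℤ) ^ k) • τ (a * (⇑P.d2)^[k] b) := by
  induction k generalizing a b with
  | zero => simp
  | succ k ih =>
    rw [Function.iterate_succ_apply', m3_ibp2 τ h2, ih, Function.iterate_succ_apply, pow_succ,
      mul_smul, ← smul_neg]
    simp

omit [Algebra ℚ S] in
/-- The two derivations may be exchanged under the trace. -/
theorem m3_swap {M : Type*} [AddCommGroup M] (τ : S →+ M) (h1 : ∀ x, τ (P.d1 x) = 0)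
    (h2 : ∀ x, τ (P.d2 x) = 0) (k : ℕ) (a b : S) :
    τ ((⇑P.d1)^[k] a * (⇑P.d2)^[k] b) = τ ((⇑P.d2)^[k] a * (⇑P.d1)^[k] b) := by
  have hc : Function.Commute (⇑P.d1) (⇑P.d2) := P.comm
  rw [m3_ibp1_iter τ h1, m3_ibp2_iter τ h2, (hc.iterate_iterate k k).eq b]

theorem tr_mul_comm {M : Type*} [AddCommGroup M] [Module ℚ M] (τ : S →+ M)
    (hτ : ∀ x y, τ (x * y) = τ (y * x))
    (h1 : ∀ x, τ (P.d1 x) = 0) (h2 : ∀ x, τ (P.d2 x) = 0) (x y : Moyal P) :
    tr τ (x * y) = tr τ (y * x) := by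
  funext n
  rw [tr_apply, tr_apply, mul_coeff, mul_coeff]
  have hsm : ∀ (k : ℕ) (s : S),
      τ (((k.factorial : ℚ)⁻¹) • s) = ((k.factorial : ℚ)⁻¹) • τ s :=
    fun k s => map_rat_smul τ _ s
  simp only [map_sum, hsm]
  refine (m3_reindex (fun i j k => ((k.factorial : ℚ)⁻¹) •
    τ ((⇑P.d1)^[k] (x.coeff i) * (⇑P.d2)^[k] (y.coeff j))) n).trans ?_
  refine Finset.sum_congr rfl fun p _ => Finset.sum_congr rfl fun q _ => ?_
  show ((q.2.factorial : ℚ)⁻¹) • τ ((⇑P.d1)^[q.2] (x.coeff p.2) * (⇑P.d2)^[q.2] (y.coeff q.1))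
    = ((q.2.factorial : ℚ)⁻¹) • τ ((⇑P.d1)^[q.2] (y.coeff q.1) * (⇑P.d2)^[q.2] (x.coeff p.2))
  rw [m3_swap τ h1 h2, hτ]

end Moyal

end Vale.Agent.Lib.P184
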