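import Vale.Agent.Lib.P184.MoyalRing
import Vale.Agent.Lib.P184.MoyalOps
import Vale.Agent.Lib.P184.MoyalTrace
import Vale.Agent.Lib.P184.HeisAlgebra

/-!
# Traces of the higher coefficients of an idempotent of the Moyal extension

The traces of the coefficients of order at least two of an idempotent of the Moyal extension
vanish, for a trace that kills the two derivations.
-/

namespace Vale.Agent.Lib.P184

namespace Moyal

variable {S : Type*} [Ring S] [Algebra ℚ S]

/-- A nonzero vector of a rational vector space is detected by a linear functional. -/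
theorem m5_exists_dual {M : Type*} [AddCommGroup M] [Module ℚ M] (v : M) (hv : v ≠ 0) :
    ∃ φ : M →ₗ[ℚ] ℚ, φ v ≠ 0 := by
  by_contra hno
  push Not at hno
  exact hv ((Module.forall_dual_apply_eq_zero_iff ℚ v).1 hno)

/-- The second formal derivative, coefficientwise. -/
theorem m5_ds_ds_coeff {P : MoyalData S} (X : Moyal P) (n : ℕ) :
    (ds (ds X)).coeff n = (n + 1) • ((n + 1 + 1) • X.coeff (n + 1 + 1)) := by
  rw [ds_coeff, ds_coeff]

theorem coeff_trace_zero {M : Type*} [AddCommGroup M] [Module ℚ M] (P : MoyalData S)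
    (τ : S →+ M) (hτ : ∀ x y, τ (x * y) = τ (y * x))
    (h1 : ∀ x, τ (P.d1 x) = 0) (h2 : ∀ x, τ (P.d2 x) = 0)
    (X : Moyal P) (hX : X * X = X) (n : ℕ) : τ (X.coeff (n + 2)) = 0 := by
  by_contra hv
  obtain ⟨φ, hφ⟩ := m5_exists_dual (τ (X.coeff (n + 2))) hv
  obtain ⟨T, hT⟩ : ∃ T : Moyal P →+ ℂ, ∀ y : Moyal P, T y = ((φ (τ (y.coeff n)) : ℚ) : ℂ) :=
    ⟨(Rat.castHom ℂ).toAddMonoidHom.comp (φ.toAddMonoidHom.comp
      ((Pi.evalAddMonoidHom (fun _ : ℕ => M) n).comp (tr τ))), fun y => rfl⟩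
  have hcyc : ∀ x y : Moyal P, T (x * y) = T (y * x) := by
    intro x y
    rw [hT, hT]
    have h := congrFun (tr_mul_comm τ hτ h1 h2 x y) n
    rw [tr_apply, tr_apply] at h
    rw [h]
  have ht1 : ∀ x : Moyal P, T (lift P.d1 x) = 0 := by
    intro x
    rw [hT, lift_coeff, h1, map_zero, Rat.cast_zero]
  have ht2 : ∀ x : Moyal P, T (lift P.d2 x) = 0 := by
    intro x
    rw [hT, lift_coeff, h2, map_zero, Rat.cast_zero]
  have key := heis_algebra T hcyc (lift P.d1) (lift P.d2) ds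
    (lift_leibniz P.d1 P.leib1 (fun _ => rfl) P.comm)
    (lift_leibniz P.d2 P.leib2 (fun x => (P.comm x).symm) (fun _ => rfl))
    ds_twisted (lift_lift_comm P.d1 P.d2 P.comm) (lift_ds_comm P.d1) (lift_ds_comm P.d2)
    ht1 ht2 X hX
  rw [hT, m5_ds_ds_coeff, map_nsmul, map_nsmul, map_nsmul, map_nsmul, nsmul_eq_mul,
    nsmul_eq_mul, Rat.cast_eq_zero] at key
  have hn1 : ((n + 1 : ℕ) : ℚ) ≠ 0 := by positivity
  have hn2 : ((n + 1 + 1 : ℕ) : ℚ) ≠ 0 := by positivity
  rcases mul_eq_zero.1 key with h | h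
  · exact hn1 h
  · rcases mul_eq_zero.1 h with h' | h'
    · exact hn2 h'
    · exact hφ h'

end Moyal

end Vale.Agent.Lib.P184
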