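import Vale.Agent.Lib.P184.MoyalRing
import Vale.Agent.Lib.P184.MoyalOps
import Vale.Agent.Lib.P184.MoyalTrace
import Vale.Agent.Lib.P184.MoyalLift
import Vale.Agent.Lib.P184.MoyalSecond

/-!
# Induction over formal Moyal extensions

A trace kills the image of an idempotent under a derivation; an operator which is a derivation
up to the sum of `n` products of pairs of commuting trace-killing derivations and which acts on
traces through an additive map `L` satisfies `L ^ (n + 1) (trace of an idempotent) = 0`.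
-/

namespace Vale.Agent.Lib.P184

universe u v

/-- A trace kills the image of an idempotent under a derivation. -/
theorem trace_derivation_idem {S : Type*} [Ring S] {M : Type*} [AddCommGroup M] (τ : S →+ M)
    (hτ : ∀ x y, τ (x * y) = τ (y * x)) (D : S →+ S)
    (hD : ∀ x y, D (x * y) = D x * y + x * D y) (E : S) (hE : E * E = E) : τ (D E) = 0 := by
  have hX : D E = D E * E + E * D E := by
    have h := hD E E
    rw [hE] at h
    exact h
  have hEXE : E * D E * E = 0 := by
    have h1 : E * D E * E = E * (D E * E + E * D E) * E := by rw [← hX]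
    have h2 : E * (D E * E + E * D E) * E = E * D E * (E * E) + E * E * D E * E := by
      noncomm_ring
    rw [h2, hE] at h1
    have h3 : E * D E * E = E * D E * E + E * D E * E := h1
    have h4 : E * D E * E + 0 = E * D E * E + E * D E * E := by rw [add_zero]; exact h3
    exact (add_left_cancel h4).symm
  have h5 : τ (E * D E) = 0 := by
    have h6 : τ (E * D E) = τ (E * (E * D E)) := by rw [← mul_assoc, hE]
    rw [h6, hτ E (E * D E), hEXE, map_zero]
  rw [hX, map_add, hτ (D E) E, h5, add_zero]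

/-- Iterates of an additive map are additive: differences. -/
private theorem m6_iter_sub {M : Type*} [AddCommGroup M] (L : M →+ M) (j : ℕ) (a b : M) :
    (⇑L)^[j] (a - b) = (⇑L)^[j] a - (⇑L)^[j] b := by
  induction j with
  | zero => rfl
  | succ j ih =>
    rw [Function.iterate_succ_apply', Function.iterate_succ_apply', Function.iterate_succ_apply',
      ih, map_sub]

/-- Iterates of an additive map are additive: natural multiples. -/
private theorem m6_iter_nsmul {M : Type*} [AddCommGroup M] (L : M →+ M) (j m : ℕ) (a : M) :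
    (⇑L)^[j] (m • a) = m • (⇑L)^[j] a := by
  induction j with
  | zero => rfl
  | succ j ih =>
    rw [Function.iterate_succ_apply', Function.iterate_succ_apply', ih, map_nsmul]

/-- Iterates of an additive map send zero to zero. -/
private theorem m6_iter_zero {M : Type*} [AddCommGroup M] (L : M →+ M) (j : ℕ) :
    (⇑L)^[j] (0 : M) = 0 := by
  induction j with
  | zero => rfl
  | succ j ih => rw [Function.iterate_succ_apply', ih, map_zero]

/-- The operator on sequences induced by `L` and the formal derivative. -/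
private def m6_Lp {M : Type*} [AddCommGroup M] (L : M →+ M) : (ℕ → M) →+ (ℕ → M) where
  toFun f := fun k => L (f k) - (k + 1) • f (k + 1)
  map_zero' := by
    funext k
    simp
  map_add' f g := by
    funext k
    simp only [Pi.add_apply, map_add, smul_add]
    abel

private theorem m6_Lp_apply {M : Type*} [AddCommGroup M] (L : M →+ M) (f : ℕ → M) (k : ℕ) :
    m6_Lp L f k = L (f k) - (k + 1) • f (k + 1) := rfl

/-- Iterates of the sequence operator on sequences supported in degrees `0` and `1`. -/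
private theorem m6_iter_Lp {M : Type*} [AddCommGroup M] (L : M →+ M) (j : ℕ) :
    ∀ f : ℕ → M, (∀ k, f (k + 2) = 0) →
      ((⇑(m6_Lp L))^[j + 1] f) 0 = (⇑L)^[j + 1] (f 0) - (j + 1) • (⇑L)^[j] (f 1) ∧
      ((⇑(m6_Lp L))^[j] f) 1 = (⇑L)^[j] (f 1) ∧
      ∀ k, ((⇑(m6_Lp L))^[j] f) (k + 2) = 0 := by
  induction j with
  | zero =>
    intro f hf
    refine ⟨?_, rfl, hf⟩
    show m6_Lp L f 0 = L (f 0) - (0 + 1) • f 1
    rw [m6_Lp_apply]
  | succ j ih =>
    intro f hf
    have hg0 : m6_Lp L f 0 = L (f 0) - f 1 := by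
      rw [m6_Lp_apply]
      simp
    have hg1 : m6_Lp L f 1 = L (f 1) := by
      rw [m6_Lp_apply, hf 0, smul_zero, sub_zero]
    have hg2 : ∀ k, m6_Lp L f (k + 2) = 0 := by
      intro k
      rw [m6_Lp_apply, hf k, hf (k + 1), map_zero, smul_zero, sub_zero]
    obtain ⟨ia, ib, ic⟩ := ih (m6_Lp L f) hg2
    refine ⟨?_, ?_, ?_⟩
    · rw [Function.iterate_succ_apply, ia, hg0, hg1, m6_iter_sub,
        ← Function.iterate_succ_apply (⇑L) (j + 1) (f 0),
        ← Function.iterate_succ_apply (⇑L) j (f 1)]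
      have e' : (j + 1 + 1) • (⇑L)^[j + 1] (f 1)
          = (⇑L)^[j + 1] (f 1) + (j + 1) • (⇑L)^[j + 1] (f 1) := by
        rw [add_nsmul, one_nsmul, add_comm]
      rw [e']
      abel
    · rw [Function.iterate_succ_apply, ib, hg1, ← Function.iterate_succ_apply (⇑L) j (f 1)]
    · intro k
      rw [Function.iterate_succ_apply]
      exact ic k

/-- The induction over Moyal extensions. -/
theorem moyal_induction (n : ℕ) : ∀ (S : Type u) [Ring S] [Algebra ℚ S] (M : Type v)
    [AddCommGroup M] [Module ℚ M] (τ : S →+ M) (_ : ∀ x y, τ (x * y) = τ (y * x))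
    (l : List ((S →+ S) × (S →+ S))) (_ : l.length = n)
    (_ : ∀ p ∈ l, (∀ x y, p.1 (x * y) = p.1 x * y + x * p.1 y) ∧
      (∀ x y, p.2 (x * y) = p.2 x * y + x * p.2 y))
    (_ : ∀ p ∈ l, ∀ q ∈ l, (∀ x, p.1 (q.1 x) = q.1 (p.1 x)) ∧ (∀ x, p.1 (q.2 x) = q.2 (p.1 x)) ∧
      (∀ x, p.2 (q.2 x) = q.2 (p.2 x)))
    (_ : ∀ p ∈ l, (∀ x, τ (p.1 x) = 0) ∧ (∀ x, τ (p.2 x) = 0))
    (D : S →+ S)
    (_ : ∀ x y, D (x * y) = D x * y + x * D y + (l.map (fun p => p.1 x * p.2 y)).sum)
    (_ : ∀ p ∈ l, (∀ x, D (p.1 x) = p.1 (D x)) ∧ (∀ x, D (p.2 x) = p.2 (D x)))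
    (L : M →+ M) (_ : ∀ x, τ (D x) = L (τ x))
    (E : S) (_ : E * E = E), (⇑L)^[n + 1] (τ E) = 0 := by
  induction n with
  | zero =>
    intro S _ _ M _ _ τ hτ l hl hder hcomm hkill D hD hDc L hL E hE
    have hl0 : l = [] := List.length_eq_zero_iff.mp hl
    subst hl0
    have hD' : ∀ x y, D (x * y) = D x * y + x * D y := by
      intro x y
      have h := hD x y
      simpa using h
    have h0 := trace_derivation_idem τ hτ D hD' E hE
    rw [zero_add, Function.iterate_one, ← hL, h0]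
  | succ n ih =>
    intro S _ _ M _ _ τ hτ l hl hder hcomm hkill D hD hDc L hL E hE
    obtain ⟨p, l', rfl⟩ : ∃ p l', l = p :: l' := by
      cases l with
      | nil => simp at hl
      | cons p l' => exact ⟨p, l', rfl⟩
    have hl' : l'.length = n := by simpa using hl
    have hpm : p ∈ p :: l' := List.mem_cons_self
    have hqm : ∀ q ∈ l', q ∈ p :: l' := fun q hq => List.mem_cons_of_mem p hq
    let P : MoyalData S := ⟨p.1, p.2, (hder p hpm).1, (hder p hpm).2, (hcomm p hpm p hpm).2.1⟩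
    have hτ' : ∀ x y : Moyal P, Moyal.tr τ (x * y) = Moyal.tr τ (y * x) :=
      Moyal.tr_mul_comm τ hτ (hkill p hpm).1 (hkill p hpm).2
    -- the lifted list
    have hder'' : ∀ q'' ∈ l'.map (fun q => ((Moyal.lift q.1 : Moyal P →+ Moyal P),
        (Moyal.lift q.2 : Moyal P →+ Moyal P))),
        (∀ x y, q''.1 (x * y) = q''.1 x * y + x * q''.1 y) ∧
        (∀ x y, q''.2 (x * y) = q''.2 x * y + x * q''.2 y) := by
      intro q'' hq''
      obtain ⟨q, hq, rfl⟩ := List.mem_map.mp hq''
      refine ⟨?_, ?_⟩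
      · exact Moyal.lift_leibniz q.1 (hder q (hqm q hq)).1 (hcomm q (hqm q hq) p hpm).1
          (hcomm q (hqm q hq) p hpm).2.1
      · exact Moyal.lift_leibniz q.2 (hder q (hqm q hq)).2
          (fun x => ((hcomm p hpm q (hqm q hq)).2.1 x).symm) (hcomm q (hqm q hq) p hpm).2.2
    have hcomm'' : ∀ q1'' ∈ l'.map (fun q => ((Moyal.lift q.1 : Moyal P →+ Moyal P),
        (Moyal.lift q.2 : Moyal P →+ Moyal P))),
        ∀ q2'' ∈ l'.map (fun q => ((Moyal.lift q.1 : Moyal P →+ Moyal P),
        (Moyal.lift q.2 : Moyal P →+ Moyal P))),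
        (∀ x, q1''.1 (q2''.1 x) = q2''.1 (q1''.1 x)) ∧ (∀ x, q1''.1 (q2''.2 x) = q2''.2 (q1''.1 x)) ∧
        (∀ x, q1''.2 (q2''.2 x) = q2''.2 (q1''.2 x)) := by
      intro q1'' hq1'' q2'' hq2''
      obtain ⟨q1, hq1, rfl⟩ := List.mem_map.mp hq1''
      obtain ⟨q2, hq2, rfl⟩ := List.mem_map.mp hq2''
      have hc := hcomm q1 (hqm q1 hq1) q2 (hqm q2 hq2)
      exact ⟨Moyal.lift_lift_comm q1.1 q2.1 hc.1, Moyal.lift_lift_comm q1.1 q2.2 hc.2.1,
        Moyal.lift_lift_comm q1.2 q2.2 hc.2.2⟩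
    have hkill'' : ∀ q'' ∈ l'.map (fun q => ((Moyal.lift q.1 : Moyal P →+ Moyal P),
        (Moyal.lift q.2 : Moyal P →+ Moyal P))),
        (∀ x, Moyal.tr τ (q''.1 x) = 0) ∧ (∀ x, Moyal.tr τ (q''.2 x) = 0) := by
      intro q'' hq''
      obtain ⟨q, hq, rfl⟩ := List.mem_map.mp hq''
      refine ⟨?_, ?_⟩
      · intro x
        funext k
        exact (hkill q (hqm q hq)).1 (x.coeff k)
      · intro x
        funext k
        exact (hkill q (hqm q hq)).2 (x.coeff k)
    -- the twisted derivation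
    let D' : Moyal P →+ Moyal P := Moyal.lift D - Moyal.ds
    have hD'a : ∀ x : Moyal P, D' x = Moyal.lift D x - Moyal.ds x := fun x => rfl
    have hD'' : ∀ x y : Moyal P, D' (x * y)
        = D' x * y + x * D' y
          + ((l'.map (fun q => ((Moyal.lift q.1 : Moyal P →+ Moyal P),
            (Moyal.lift q.2 : Moyal P →+ Moyal P)))).map (fun q => q.1 x * q.2 y)).sum := by
      intro x y
      have h1 := Moyal.lift_twisted (P := P) D (p :: l') hD (hDc p hpm).1 (hDc p hpm).2
        (fun q hq => ⟨(hcomm q hq p hpm).1, (hcomm q hq p hpm).2.2⟩) x y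
      have h2 := Moyal.ds_twisted (P := P) x y
      rw [List.map_cons, List.sum_cons] at h1
      rw [List.map_map, hD'a, hD'a, hD'a, h1, h2]
      have e : (List.map ((fun q : (Moyal P →+ Moyal P) × (Moyal P →+ Moyal P) => q.1 x * q.2 y) ∘
          fun q : (S →+ S) × (S →+ S) => ((Moyal.lift q.1 : Moyal P →+ Moyal P),
            (Moyal.lift q.2 : Moyal P →+ Moyal P))) l').sum
          = (List.map (fun q : (S →+ S) × (S →+ S) => (Moyal.lift q.1 : Moyal P →+ Moyal P) x
            * (Moyal.lift q.2 : Moyal P →+ Moyal P) y) l').sum := rfl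
      rw [e]
      have e2 : (Moyal.lift P.d1 : Moyal P →+ Moyal P) x * (Moyal.lift P.d2 : Moyal P →+ Moyal P) y
          = (Moyal.lift p.1 : Moyal P →+ Moyal P) x * (Moyal.lift p.2 : Moyal P →+ Moyal P) y := rfl
      rw [e2]
      noncomm_ring
    have hDc'' : ∀ q'' ∈ l'.map (fun q => ((Moyal.lift q.1 : Moyal P →+ Moyal P),
        (Moyal.lift q.2 : Moyal P →+ Moyal P))),
        (∀ x, D' (q''.1 x) = q''.1 (D' x)) ∧
        (∀ x, D' (q''.2 x) = q''.2 (D' x)) := by
      intro q'' hq''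
      obtain ⟨q, hq, rfl⟩ := List.mem_map.mp hq''
      refine ⟨?_, ?_⟩
      · intro x
        rw [hD'a, hD'a, map_sub, Moyal.lift_lift_comm D q.1 (hDc q (hqm q hq)).1 x,
          Moyal.lift_ds_comm q.1 x]
      · intro x
        rw [hD'a, hD'a, map_sub, Moyal.lift_lift_comm D q.2 (hDc q (hqm q hq)).2 x,
          Moyal.lift_ds_comm q.2 x]
    have hL'' : ∀ x : Moyal P, Moyal.tr τ (D' x)
        = m6_Lp L (Moyal.tr τ x) := by
      intro x
      funext k
      rw [m6_Lp_apply, Moyal.tr_apply, Moyal.tr_apply, Moyal.tr_apply, hD'a,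
        Moyal.sub_coeff, Moyal.lift_coeff, Moyal.ds_coeff, map_sub, map_nsmul, hL]
    obtain ⟨X, hX, hX0⟩ := Moyal.exists_idempotent_lift P E hE
    have key := ih (Moyal P) (ℕ → M) (Moyal.tr τ) hτ'
      (l'.map (fun q => ((Moyal.lift q.1 : Moyal P →+ Moyal P),
        (Moyal.lift q.2 : Moyal P →+ Moyal P))))
      (by rw [List.length_map]; exact hl') hder'' hcomm'' hkill''
      D' hD'' hDc'' (m6_Lp L) hL'' X hX
    have hf2 : ∀ k, Moyal.tr τ X (k + 2) = 0 := fun k =>
      Moyal.coeff_trace_zero P τ hτ (hkill p hpm).1 (hkill p hpm).2 X hX k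
    have hf0 : Moyal.tr τ X 0 = τ E := by rw [Moyal.tr_apply, hX0]
    obtain ⟨ja, -, -⟩ := m6_iter_Lp L n (Moyal.tr τ X) hf2
    obtain ⟨-, jb, -⟩ := m6_iter_Lp L (n + 1) (Moyal.tr τ X) hf2
    rw [key] at ja jb
    have h1 : (⇑L)^[n + 1] (Moyal.tr τ X 1) = 0 := by
      rw [← jb]
      rfl
    have h0 : (⇑L)^[n + 1] (Moyal.tr τ X 0) = (n + 1) • (⇑L)^[n] (Moyal.tr τ X 1) := by
      have h : (0 : M) = (⇑L)^[n + 1] (Moyal.tr τ X 0) - (n + 1) • (⇑L)^[n] (Moyal.tr τ X 1) := by
        rw [← ja]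
        rfl
      exact (sub_eq_zero.mp h.symm)
    rw [← hf0, Function.iterate_succ_apply', h0, map_nsmul, ← Function.iterate_succ_apply' (⇑L) n,
      h1, smul_zero]

end Vale.Agent.Lib.P184
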