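import Vale.Agent.Lib.P184.HeisCore

/-!
# The moment subring is an algebra over the rationals

The subring `SKer g W` of the ring of dominated invariant kernels with values in a complex
Banach algebra is an algebra over `ℚ`: a rational `q` acts on a kernel entrywise by the complex
scalar `(q : ℂ)`.
-/

namespace Vale.Agent.Lib.P184

open scoped BigOperators Topology

variable {G : Type*} [Group G] {R : Type*} [NormedRing R] [NormedAlgebra ℂ R] [CompleteSpace R]
  {g : G} {W : PWeight G}

/-- Entrywise action of a rational number on a dominated invariant kernel (a plain function,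
not an instance). -/
def heisRatSmul (q : ℚ) (A : DKer G R g) : DKer G R g where
  K := fun k h => (q : ℂ) • A.K k h
  inv' := fun z hz k h => by rw [A.inv' z hz]
  dom' := by
    obtain ⟨u, hu⟩ := A.dom'
    refine ⟨fun x => ‖(q : ℂ)‖ * u x, fun x => mul_nonneg (norm_nonneg _) (hu.1 x),
      hu.2.1.mul_left _, fun k h => ?_⟩
    rw [norm_smul]
    exact mul_le_mul_of_nonneg_left (hu.2.2 k h) (norm_nonneg _)

omit [CompleteSpace R] in
theorem heisRatSmul_K (q : ℚ) (A : DKer G R g) (k h : G) :
    (heisRatSmul q A).K k h = (q : ℂ) • A.K k h := rfl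

/-- The entrywise rational action preserves the moment subring. -/
theorem heisRatSmul_mem (q : ℚ) {A : DKer G R g} (hA : A ∈ SKer (R := R) g W) :
    heisRatSmul q A ∈ SKer (R := R) g W := by
  obtain ⟨u, hu, hus⟩ := hA
  refine ⟨fun x => ‖(q : ℂ)‖ * u x, ⟨fun x => mul_nonneg (norm_nonneg _) (hu.1 x),
    hu.2.1.mul_left _, fun k h => ?_⟩, fun s => ?_⟩
  · rw [heisRatSmul_K, norm_smul]
    exact mul_le_mul_of_nonneg_left (hu.2.2 k h) (norm_nonneg _)
  · have h1 := (hus s).mul_left ‖(q : ℂ)‖
    refine h1.congr (fun x => ?_)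
    ring

/-- The moment subring is a module over the rationals, a rational acting entrywise by the
corresponding complex scalar. -/
noncomputable instance SKer.instModuleRat : Module ℚ (SKer (R := R) g W) where
  smul q A := ⟨heisRatSmul q A.1, heisRatSmul_mem q A.2⟩
  one_smul A := Subtype.ext (DKer.ext' (fun k h => by
    show ((1 : ℚ) : ℂ) • (A : DKer G R g).K k h = (A : DKer G R g).K k h
    rw [Rat.cast_one, one_smul]))
  mul_smul q r A := Subtype.ext (DKer.ext' (fun k h => by
    show ((q * r : ℚ) : ℂ) • (A : DKer G R g).K k h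
      = (q : ℂ) • ((r : ℂ) • (A : DKer G R g).K k h)
    rw [Rat.cast_mul, mul_smul]))
  smul_zero q := Subtype.ext (DKer.ext' (fun k h => by
    show (q : ℂ) • (0 : R) = 0
    exact smul_zero _))
  smul_add q A B := Subtype.ext (DKer.ext' (fun k h => by
    show (q : ℂ) • ((A : DKer G R g).K k h + (B : DKer G R g).K k h)
      = (q : ℂ) • (A : DKer G R g).K k h + (q : ℂ) • (B : DKer G R g).K k h
    exact smul_add _ _ _))
  add_smul q r A := Subtype.ext (DKer.ext' (fun k h => by
    show ((q + r : ℚ) : ℂ) • (A : DKer G R g).K k h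
      = (q : ℂ) • (A : DKer G R g).K k h + (r : ℂ) • (A : DKer G R g).K k h
    rw [Rat.cast_add, add_smul]))
  zero_smul A := Subtype.ext (DKer.ext' (fun k h => by
    show ((0 : ℚ) : ℂ) • (A : DKer G R g).K k h = 0
    rw [Rat.cast_zero, zero_smul]))

theorem SKer.rat_smul_K (q : ℚ) (A : SKer (R := R) g W) (k h : G) :
    ((q • A : SKer (R := R) g W) : DKer G R g).K k h = (q : ℂ) • (A : DKer G R g).K k h :=
  rfl

/-- The moment subring is an algebra over the rationals. -/
noncomputable instance SKer.instAlgebraRat : Algebra ℚ (SKer (R := R) g W) :=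
  Algebra.ofModule
    (fun r x y => Subtype.ext (DKer.ext' (fun k h => by
      show ∑' z, ((r : ℂ) • (x : DKer G R g).K k z) * (y : DKer G R g).K z h
        = (r : ℂ) • ∑' z, (x : DKer G R g).K k z * (y : DKer G R g).K z h
      rw [← (DKer.summable_mul (x : DKer G R g) (y : DKer G R g) k h).tsum_const_smul]
      exact tsum_congr (fun z => smul_mul_assoc _ _ _))))
    (fun r x y => Subtype.ext (DKer.ext' (fun k h => by
      show ∑' z, (x : DKer G R g).K k z * ((r : ℂ) • (y : DKer G R g).K z h)
        = (r : ℂ) • ∑' z, (x : DKer G R g).K k z * (y : DKer G R g).K z h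
      rw [← (DKer.summable_mul (x : DKer G R g) (y : DKer G R g) k h).tsum_const_smul]
      exact tsum_congr (fun z => mul_smul_comm _ _ _))))

end Vale.Agent.Lib.P184
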