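import Vale.Agent.Lib.P184.HeisSmooth
import Vale.Agent.Lib.P184.HeisOpsMulti
import Vale.Agent.Lib.P184.SKerAlgebra
import Vale.Agent.Lib.P184.HeisWeightMulti
import Vale.Agent.Lib.P184.MoyalInduction
import Vale.Agent.Lib.P184.MatrixForm

/-!
# Vanishing of class traces under a twisting family of Heisenberg type

The version of the criterion of `HeisCriterion` with a finite family of pairs `a i`, `b i` of
functions and one function `c` behaving like the coordinates of a homomorphism to a generalised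
real Heisenberg group: `c (x y) = c x + c y + ∑ i, a i x * b i y`.
-/

namespace Vale.Agent.Lib.P184

open scoped BigOperators Topology

theorem iterate_mulLeft (c : ℂ) (n : ℕ) (x : ℂ) :
    (⇑(AddMonoidHom.mulLeft c))^[n] x = c ^ n * x := by
  induction n generalizing x with
  | zero => simp
  | succ n ih =>
    rw [Function.iterate_succ_apply, ih, AddMonoidHom.coe_mulLeft, pow_succ]
    ring

section Main

variable {G : Type*} [Group G] {R : Type*} [NormedRing R] [NormedAlgebra ℂ R] [CompleteSpace R]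

theorem heis_multi_class_trace_eq_zero (τ : R →L[ℂ] ℂ) (hτ : ∀ a b, τ (a * b) = τ (b * a))
    (e : G → R) (he : Summable (fun x => ‖e x‖))
    (he_idem : ∀ x, ∑' y, e y * e (y⁻¹ * x) = e x)
    (g : G) (m : ℕ) (a b : Fin m → G → ℝ) (c : G → ℝ)
    (h1 : ∀ x : G, ∃ C : ℝ, ∀ h : G,
      (∀ i, |a i (x * h) - a i h| ≤ C ∧ |b i (x * h) - b i h| ≤ C) ∧
      |c (x * h) - c h - ∑ i, (a i (x * h) - a i h) * b i h| ≤ C)
    (h2 : ∀ z : G, z * g = g * z → ∀ h : G,
      (∀ i, a i (h * z) - a i h = a i z - a i 1 ∧ b i (h * z) - b i h = b i z - b i 1) ∧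
      c (h * z) - c h - ∑ i, a i h * (b i z - b i 1) = c z - c 1 - ∑ i, a i 1 * (b i z - b i 1))
    (h3 : (∀ i, a i g = a i 1 ∧ b i g = b i 1) ∧ c g ≠ c 1) :
    ∑' x : {x : G // IsConj g x}, τ (e x.1) = 0 := by
  classical
  obtain ⟨W, hWa, hWb, hWc⟩ := heis_weight_multi m a b c h1
  -- the multipliers
  obtain ⟨MA, hMA⟩ : ∃ MA : Fin m → Mult g W, ∀ i, (MA i).Φ = fun k h => a i k - a i h :=
    ⟨fun i => ⟨fun k h => a i k - a i h, fun z hz k h => by
        have e1 := ((h2 z hz k).1 i).1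
        have e2 := ((h2 z hz h).1 i).1
        linarith,
      ⟨1, fun k h => by simpa using hWa i k h⟩⟩, fun i => rfl⟩
  obtain ⟨MB, hMB⟩ : ∃ MB : Fin m → Mult g W, ∀ i, (MB i).Φ = fun k h => b i k - b i h :=
    ⟨fun i => ⟨fun k h => b i k - b i h, fun z hz k h => by
        have e1 := ((h2 z hz k).1 i).2
        have e2 := ((h2 z hz h).1 i).2
        linarith,
      ⟨1, fun k h => by simpa using hWb i k h⟩⟩, fun i => rfl⟩
  obtain ⟨MC, hMC⟩ : ∃ MC : Mult g W,
      MC.Φ = fun k h => c k - c h - ∑ i, (a i k - a i h) * b i h :=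
    ⟨⟨fun k h => c k - c h - ∑ i, (a i k - a i h) * b i h, fun z hz k h => by
        obtain ⟨e1, e3⟩ := h2 z hz k
        obtain ⟨e4, e6⟩ := h2 z hz h
        have e7 : ∑ i, (a i (k * z) - a i (h * z)) * b i (h * z)
            = ∑ i, (a i k - a i h) * b i h + ∑ i, a i k * (b i z - b i 1)
              - ∑ i, a i h * (b i z - b i 1) := by
          rw [← Finset.sum_add_distrib, ← Finset.sum_sub_distrib]
          refine Finset.sum_congr rfl (fun i _ => ?_)
          have f1 := (e1 i).1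
          have f2 := (e4 i).1
          have f3 := (e4 i).2
          have f4 : a i (k * z) - a i (h * z) = a i k - a i h := by linarith
          have f5 : b i (h * z) = b i h + (b i z - b i 1) := by linarith
          rw [f4, f5]
          ring
        rw [e7]
        linarith,
      ⟨2, fun k h => hWc k h⟩⟩, rfl⟩
  obtain ⟨c₀, hc₀⟩ : ∃ c₀ : ℝ, c₀ = c g - c 1 := ⟨_, rfl⟩
  have hc₀ne : c₀ ≠ 0 := by rw [hc₀]; exact sub_ne_zero.mpr h3.2
  have hdiagA : ∀ i (r : G), (MA i).Φ (r * g) r = 0 := by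
    intro i r
    rw [hMA]
    have e1 := ((h2 g rfl r).1 i).1
    have e2 := (h3.1 i).1
    change a i (r * g) - a i r = 0
    linarith
  have hdiagB : ∀ i (r : G), (MB i).Φ (r * g) r = 0 := by
    intro i r
    rw [hMB]
    have e1 := ((h2 g rfl r).1 i).2
    have e2 := (h3.1 i).2
    change b i (r * g) - b i r = 0
    linarith
  have hdiagC : ∀ r : G, MC.Φ (r * g) r = c₀ := by
    intro r
    rw [hMC, hc₀]
    obtain ⟨e1, e3⟩ := h2 g rfl r
    change c (r * g) - c r - ∑ i, (a i (r * g) - a i r) * b i r = c g - c 1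
    have e4 : ∑ i, (a i (r * g) - a i r) * b i r = 0 := by
      refine Finset.sum_eq_zero (fun i _ => ?_)
      have f1 := (e1 i).1
      have f2 := (h3.1 i).1
      have f3 : a i (r * g) - a i r = 0 := by linarith
      rw [f3, zero_mul]
    have e5 : ∑ i, a i r * (b i g - b i 1) = 0 := by
      refine Finset.sum_eq_zero (fun i _ => ?_)
      have f2 := (h3.1 i).2
      have f3 : b i g - b i 1 = 0 := by linarith
      rw [f3, mul_zero]
    have e6 : ∑ i, a i 1 * (b i g - b i 1) = 0 := by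
      refine Finset.sum_eq_zero (fun i _ => ?_)
      have f2 := (h3.1 i).2
      have f3 : b i g - b i 1 = 0 := by linarith
      rw [f3, mul_zero]
    rw [e5, e6] at e3
    rw [e4]
    linarith
  have htwist : ∀ k x h, MC.Φ k h = MC.Φ k x + MC.Φ x h + ∑ i, (MA i).Φ k x * (MB i).Φ x h := by
    intro k x h
    rw [hMC]
    simp only [hMA, hMB]
    have e1 : ∑ i, (a i k - a i h) * b i h = ∑ i, (a i k - a i x) * b i x
        + ∑ i, (a i x - a i h) * b i h - ∑ i, (a i k - a i x) * (b i x - b i h) := by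
      rw [← Finset.sum_add_distrib, ← Finset.sum_sub_distrib]
      exact Finset.sum_congr rfl (fun i _ => by ring)
    rw [e1]
    ring
  -- the smooth idempotent
  obtain ⟨E', hidem, hmem, htr⟩ := smooth_idempotent W τ hτ e he he_idem g
  obtain ⟨T, hT⟩ : ∃ T : SKer (R := R) g W →+ ℂ,
      ∀ A : SKer (R := R) g W, T A = DKer.tr τ (A : DKer G R g) :=
    ⟨(DKer.trHom (g := g) τ).comp (SKer (R := R) g W).subtype.toAddMonoidHom, fun A => rfl⟩
  have hTcomm : ∀ A B : SKer (R := R) g W, T (A * B) = T (B * A) := by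
    intro A B
    rw [hT, hT]
    exact DKer.tr_mul_comm τ hτ (A : DKer G R g) (B : DKer G R g)
  obtain ⟨l, hl⟩ : ∃ l : List ((SKer (R := R) g W →+ SKer (R := R) g W)
      × (SKer (R := R) g W →+ SKer (R := R) g W)),
      l = List.ofFn (fun i : Fin m => (mulOp (MA i), mulOp (MB i))) := ⟨_, rfl⟩
  have hmem_l : ∀ p ∈ l, ∃ i : Fin m, p = (mulOp (MA i), mulOp (MB i)) := by
    intro p hp
    rw [hl, List.mem_ofFn] at hp
    obtain ⟨i, hi⟩ := hp
    exact ⟨i, hi.symm⟩
  have key := moyal_induction m (SKer (R := R) g W) ℂ T hTcomm l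
    (by rw [hl, List.length_ofFn])
    (fun p hp => by
      obtain ⟨i, rfl⟩ := hmem_l p hp
      exact ⟨mulOp_leibniz (MA i) (fun k x h => by rw [hMA]; ring),
        mulOp_leibniz (MB i) (fun k x h => by rw [hMB]; ring)⟩)
    (fun p hp q hq => by
      obtain ⟨i, rfl⟩ := hmem_l p hp
      obtain ⟨j, rfl⟩ := hmem_l q hq
      exact ⟨fun A => mulOp_comm (MA i) (MA j) A, fun A => mulOp_comm (MA i) (MB j) A,
        fun A => mulOp_comm (MB i) (MB j) A⟩)
    (fun p hp => by
      obtain ⟨i, rfl⟩ := hmem_l p hp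
      exact ⟨fun A => by rw [hT, tr_mulOp τ (MA i) 0 (hdiagA i)]; simp,
        fun A => by rw [hT, tr_mulOp τ (MB i) 0 (hdiagB i)]; simp⟩)
    (mulOp MC)
    (fun A B => by
      rw [mulOp_twisted_sum MC MA MB htwist A B, hl, List.map_ofFn, List.sum_ofFn]
      rfl)
    (fun p hp => by
      obtain ⟨i, rfl⟩ := hmem_l p hp
      exact ⟨fun A => mulOp_comm MC (MA i) A, fun A => mulOp_comm MC (MB i) A⟩)
    (AddMonoidHom.mulLeft (c₀ : ℂ))
    (fun A => by
      rw [hT, hT, tr_mulOp τ MC c₀ hdiagC]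
      rfl)
    (⟨E', hmem⟩ : SKer (R := R) g W) (Subtype.ext hidem)
  rw [iterate_mulLeft, hT] at key
  have hE' : ((⟨E', hmem⟩ : SKer (R := R) g W) : DKer G R g) = E' := rfl
  rw [hE', htr] at key
  have hc₀' : (c₀ : ℂ) ^ (m + 1) ≠ 0 := pow_ne_zero _ (by exact_mod_cast hc₀ne)
  rcases mul_eq_zero.mp key with h | h
  · exact absurd h hc₀'
  · exact h

end Main

theorem heis_multi_matrix_class_trace {G : Type*} [Group G] (q : ℕ) (e : Fin q → Fin q → G → ℂ)
    (he_sum : ∀ i j, Summable (fun x => ‖e i j x‖))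
    (he_idem : ∀ i j x, ∑ l, ∑' y, e i l y * e l j (y⁻¹ * x) = e i j x)
    (g : G) (m : ℕ) (a b : Fin m → G → ℝ) (c : G → ℝ)
    (h1 : ∀ x : G, ∃ C : ℝ, ∀ h : G,
      (∀ i, |a i (x * h) - a i h| ≤ C ∧ |b i (x * h) - b i h| ≤ C) ∧
      |c (x * h) - c h - ∑ i, (a i (x * h) - a i h) * b i h| ≤ C)
    (h2 : ∀ z : G, z * g = g * z → ∀ h : G,
      (∀ i, a i (h * z) - a i h = a i z - a i 1 ∧ b i (h * z) - b i h = b i z - b i 1) ∧
      c (h * z) - c h - ∑ i, a i h * (b i z - b i 1) = c z - c 1 - ∑ i, a i 1 * (b i z - b i 1))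
    (h3 : (∀ i, a i g = a i 1 ∧ b i g = b i 1) ∧ c g ≠ c 1) :
    HasSum (fun x : {x : G // IsConj g x} => ∑ i, e i i x.1) 0 := by
  classical
  let _i1 : NormedRing (Matrix (Fin q) (Fin q) ℂ) := Matrix.linftyOpNormedRing
  let _i2 : NormedAlgebra ℂ (Matrix (Fin q) (Fin q) ℂ) := Matrix.linftyOpNormedAlgebra
  have _i3 : CompleteSpace (Matrix (Fin q) (Fin q) ℂ) := FiniteDimensional.complete ℂ _
  let τ : Matrix (Fin q) (Fin q) ℂ →L[ℂ] ℂ :=
    LinearMap.toContinuousLinearMap (Matrix.traceLinearMap (Fin q) ℂ ℂ)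
  have hτ : ∀ a b, τ (a * b) = τ (b * a) := fun a b => Matrix.trace_mul_comm a b
  let E : G → Matrix (Fin q) (Fin q) ℂ := fun x => Matrix.of (fun i j => e i j x)
  have hnorm : ∀ A : Matrix (Fin q) (Fin q) ℂ, ‖A‖ ≤ ∑ i, ∑ j, ‖A i j‖ := by
    intro A
    have h1 : ‖A‖₊ ≤ ∑ i, ∑ j, ‖A i j‖₊ := by
      rw [Matrix.linfty_opNNNorm_def]
      exact Finset.sup_le (fun i _ =>
        Finset.single_le_sum (f := fun i => ∑ j, ‖A i j‖₊) (fun _ _ => by positivity)
          (Finset.mem_univ i))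
    have h2 : ((‖A‖₊ : NNReal) : ℝ) ≤ ((∑ i, ∑ j, ‖A i j‖₊ : NNReal) : ℝ) := by
      exact_mod_cast h1
    simpa using h2
  have hE : Summable (fun x => ‖E x‖) :=
    Summable.of_nonneg_of_le (fun _ => norm_nonneg _) (fun x => hnorm (E x))
      (summable_sum fun i _ => summable_sum fun j _ => he_sum i j)
  have hsm : ∀ x, Summable (fun y => E y * E (y⁻¹ * x)) := by
    intro x
    refine Summable.of_norm_bounded (hE.mul_right (∑' z, ‖E z‖)) (fun y => ?_)
    exact (norm_mul_le _ _).trans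
      (mul_le_mul_of_nonneg_left (hE.le_tsum _ (fun _ _ => norm_nonneg _)) (norm_nonneg _))
  have hEidem : ∀ x, ∑' y, E y * E (y⁻¹ * x) = E x := by
    intro x
    ext i j
    let φ : Matrix (Fin q) (Fin q) ℂ →L[ℂ] ℂ :=
      LinearMap.toContinuousLinearMap (Matrix.entryLinearMap ℂ ℂ i j)
    have h1 : (∑' y, E y * E (y⁻¹ * x)) i j = ∑' y, (E y * E (y⁻¹ * x)) i j :=
      φ.map_tsum (hsm x)
    rw [h1]
    simp only [Matrix.mul_apply, E, Matrix.of_apply]
    rw [Summable.tsum_finsetSum (fun l _ => ?_)]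
    · exact he_idem i j x
    · refine Summable.of_norm_bounded ((he_sum i l).mul_right (∑' z, ‖e l j z‖)) (fun y => ?_)
      rw [norm_mul]
      exact mul_le_mul_of_nonneg_left ((he_sum l j).le_tsum _ (fun _ _ => norm_nonneg _))
        (norm_nonneg _)
  have key := heis_multi_class_trace_eq_zero τ hτ E hE hEidem g m a b c h1 h2 h3
  have hsum : Summable (fun x : {x : G // IsConj g x} => ∑ i, e i i x.1) :=
    summable_sum fun i _ => ((he_sum i i).of_norm).subtype _
  have hτE : ∀ x : G, τ (E x) = ∑ i, e i i x := fun x => by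
    simp only [τ, E, LinearMap.coe_toContinuousLinearMap', Matrix.traceLinearMap_apply,
      Matrix.trace, Matrix.diag_apply, Matrix.of_apply]
  have h0 : ∑' x : {x : G // IsConj g x}, ∑ i, e i i x.1 = 0 := by
    rw [← key]
    exact tsum_congr (fun x => (hτE x.1).symm)
  rw [← h0]
  exact hsum.hasSum

end Vale.Agent.Lib.P184
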