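import Vale.Agent.Lib.P184.Nil2Basic
import Vale.Agent.Lib.P184.Abel

/-!
# A conjugation-invariant real character on the preimage of the torsion of the abelianization

In a group whose commutators are central, an element of infinite order having a positive power
in the commutator subgroup is detected by a real function that is additive on the set of all
such elements and invariant under conjugation there.
-/

namespace Vale.Agent.Lib.P184

open scoped commutatorElement

variable {P : Type*} [Group P]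

/-- The commutator of an element having a positive power in the commutator subgroup with any
element has finite order. -/
theorem nil2_char_comm_left (hc : ∀ x y z : P, ⁅x, y⁆ * z = z * ⁅x, y⁆) (s t : P)
    (hs : ∃ k : ℕ, 0 < k ∧ s ^ k ∈ commutator P) : IsOfFinOrder ⁅s, t⁆ := by
  obtain ⟨k, hk, hsk⟩ := hs
  rw [isOfFinOrder_iff_pow_eq_one]
  refine ⟨k, hk, ?_⟩
  rw [← nil2_comm_pow_left hc]
  exact nil2_comm_central_left _ (nil2_commutator_central hc _ hsk) t

/-- The commutator of any element with an element having a positive power in the commutator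
subgroup has finite order. -/
theorem nil2_char_comm_right (hc : ∀ x y z : P, ⁅x, y⁆ * z = z * ⁅x, y⁆) (p t : P)
    (ht : ∃ k : ℕ, 0 < k ∧ t ^ k ∈ commutator P) : IsOfFinOrder ⁅p, t⁆ := by
  obtain ⟨k, hk, htk⟩ := ht
  rw [isOfFinOrder_iff_pow_eq_one]
  refine ⟨k, hk, ?_⟩
  rw [← nil2_comm_pow_right hc]
  exact nil2_comm_central_right _ (nil2_commutator_central hc _ htk) p

/-- Finite order in a subgroup and in the ambient group agree. -/
theorem nil2_char_finOrder_coe (T : Subgroup P) (x : T) :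
    IsOfFinOrder (x : P) ↔ IsOfFinOrder x := by
  rw [isOfFinOrder_iff_pow_eq_one, isOfFinOrder_iff_pow_eq_one]
  constructor
  · rintro ⟨n, hn, h⟩
    exact ⟨n, hn, Subtype.ext (by rw [Subgroup.coe_pow, h, Subgroup.coe_one])⟩
  · rintro ⟨n, hn, h⟩
    refine ⟨n, hn, ?_⟩
    rw [← Subgroup.coe_pow, h, Subgroup.coe_one]

/-- In a subgroup all of whose elements have a positive power in the commutator subgroup of the
ambient group, every element of the commutator subgroup of the subgroup has finite order. -/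
theorem nil2_char_commT (hc : ∀ x y z : P, ⁅x, y⁆ * z = z * ⁅x, y⁆) (T : Subgroup P)
    (hT : ∀ t ∈ T, ∃ k : ℕ, 0 < k ∧ t ^ k ∈ commutator P) (x : T) (hx : x ∈ commutator T) :
    IsOfFinOrder x := by
  rw [commutator_eq_closure] at hx
  have key : IsOfFinOrder x ∧ ∀ w : T, x * w = w * x := by
    induction hx using Subgroup.closure_induction with
    | mem y hy =>
      obtain ⟨s, t, rfl⟩ := hy
      refine ⟨?_, fun w => Subtype.ext (hc s.1 t.1 w.1)⟩
      rw [← nil2_char_finOrder_coe]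
      exact nil2_char_comm_left hc s.1 t.1 (hT s.1 s.2)
    | one => exact ⟨IsOfFinOrder.one, fun w => by rw [one_mul, mul_one]⟩
    | mul y z _ _ hy hz =>
      refine ⟨(show Commute y z from hy.2 z).isOfFinOrder_mul hy.1 hz.1, fun w => ?_⟩
      rw [mul_assoc, hz.2 w, ← mul_assoc, hy.2 w, mul_assoc]
    | inv y _ hy =>
      refine ⟨hy.1.inv, fun w => ?_⟩
      exact ((show Commute y w from hy.2 w).inv_left).eq
  exact key.1

theorem nil2_character (hc : ∀ x y z : P, ⁅x, y⁆ * z = z * ⁅x, y⁆) (g : P)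
    (hg : ¬ IsOfFinOrder g) (hgT : ∃ k : ℕ, 0 < k ∧ g ^ k ∈ commutator P) :
    ∃ lam : P → ℝ,
      (∀ s t : P, (∃ k : ℕ, 0 < k ∧ s ^ k ∈ commutator P) →
        (∃ k : ℕ, 0 < k ∧ t ^ k ∈ commutator P) → lam (s * t) = lam s + lam t) ∧
      (∀ p t : P, (∃ k : ℕ, 0 < k ∧ t ^ k ∈ commutator P) → lam (p⁻¹ * t * p) = lam t) ∧
      lam g ≠ 0 := by
  classical
  obtain ⟨T, hTdef⟩ : ∃ T : Subgroup P,
      T = (CommGroup.torsion (Abelianization P)).comap Abelianization.of := ⟨_, rfl⟩
  have hmem : ∀ t : P, t ∈ T ↔ ∃ k : ℕ, 0 < k ∧ t ^ k ∈ commutator P := by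
    intro t
    rw [hTdef, Subgroup.mem_comap, CommGroup.mem_torsion, nil2_pow_mem_commutator_iff]
  have hgmem : g ∈ T := (hmem g).2 hgT
  have hgab : ¬ IsOfFinOrder (Abelianization.of (⟨g, hgmem⟩ : T)) := by
    intro hfin
    rw [← nil2_pow_mem_commutator_iff] at hfin
    obtain ⟨k, hk, hkc⟩ := hfin
    have h1 : IsOfFinOrder ((⟨g, hgmem⟩ : T) ^ k) :=
      nil2_char_commT hc T (fun t ht => (hmem t).1 ht) _ hkc
    have h2 : IsOfFinOrder (⟨g, hgmem⟩ : T) := h1.of_pow hk.ne'
    rw [← nil2_char_finOrder_coe] at h2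
    exact hg h2
  obtain ⟨ψ, hψ, hψg⟩ := exists_hom_real (⟨g, hgmem⟩ : T) hgab
  have hψ1 : ψ 1 = 0 := by
    have h1 := hψ 1 1
    rw [one_mul] at h1
    linarith
  have hψpow : ∀ (x : T) (n : ℕ), ψ (x ^ n) = n * ψ x := by
    intro x n
    induction n with
    | zero => rw [pow_zero, hψ1, Nat.cast_zero, zero_mul]
    | succ n ih =>
      rw [pow_succ, hψ, ih]
      push_cast
      ring
  have hψfin : ∀ x : T, IsOfFinOrder x → ψ x = 0 := by
    intro x hx
    rw [isOfFinOrder_iff_pow_eq_one] at hx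
    obtain ⟨n, hn, hxn⟩ := hx
    have h1 := hψpow x n
    rw [hxn, hψ1] at h1
    have hn' : (n : ℝ) ≠ 0 := by exact_mod_cast hn.ne'
    rcases mul_eq_zero.mp h1.symm with h | h
    · exact absurd h hn'
    · exact h
  refine ⟨fun x => if h : x ∈ T then ψ ⟨x, h⟩ else 0, ?_, ?_, ?_⟩
  · intro s t hs ht
    have hsT := (hmem s).2 hs
    have htT := (hmem t).2 ht
    simp only [dif_pos hsT, dif_pos htT, dif_pos (T.mul_mem hsT htT)]
    exact hψ ⟨s, hsT⟩ ⟨t, htT⟩
  · intro p t ht
    have htT := (hmem t).2 ht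
    have hcT : ⁅p⁻¹, t⁆ ∈ T :=
      (hmem _).2 ⟨1, one_pos, by
        rw [pow_one]
        exact Subgroup.commutator_mem_commutator (Subgroup.mem_top _) (Subgroup.mem_top _)⟩
    have heq : p⁻¹ * t * p = ⁅p⁻¹, t⁆ * t := by
      rw [commutatorElement_def]
      group
    have hmem2 : p⁻¹ * t * p ∈ T := by
      rw [heq]
      exact T.mul_mem hcT htT
    have hfin : IsOfFinOrder (⟨⁅p⁻¹, t⁆, hcT⟩ : T) := by
      rw [← nil2_char_finOrder_coe]
      exact nil2_char_comm_right hc p⁻¹ t ht
    have h1 : (⟨p⁻¹ * t * p, hmem2⟩ : T) = ⟨⁅p⁻¹, t⁆, hcT⟩ * ⟨t, htT⟩ := Subtype.ext heq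
    simp only [dif_pos hmem2, dif_pos htT]
    rw [h1, hψ, hψfin _ hfin, zero_add]
  · simp only [dif_pos hgmem]
    exact hψg

end Vale.Agent.Lib.P184
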