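import Vale.Agent.Lib.P184.Nil2Collect
import Vale.Agent.Lib.P184.Nil2Character

/-!
# Heisenberg-type coordinates on a group with central commutators

Given free coordinates `e i` (with dual elements `u i`) whose common kernel is the set of the
elements with a positive power in the commutator subgroup, and an element `g` of infinite order
in that kernel, there are additive real functions `a i`, `b i` and a function `c` with
`c (x * y) = c x + c y + ∑ i, a i x * b i y`, all `a i`, `b i` vanishing at `g`, and `c g ≠ 0`.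
-/

namespace Vale.Agent.Lib.P184

open scoped BigOperators commutatorElement

variable {P : Type*} [Group P]

/-- An additive real function on integer vectors is determined by its values on the standard
basis. -/
theorem nil2Coords_expand (r : ℕ) (f : (Fin r → ℤ) → ℝ)
    (hf : ∀ n n', f (n + n') = f n + f n') (n : Fin r → ℤ) :
    f n = ∑ i, (n i : ℝ) * f (Pi.single i 1) := by
  classical
  let F : (Fin r → ℤ) →+ ℝ := AddMonoidHom.mk' f hf
  have h1 : n = ∑ i, (n i) • (Pi.single i (1 : ℤ) : Fin r → ℤ) := by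
    conv_lhs => rw [← Finset.univ_sum_single n]
    refine Finset.sum_congr rfl (fun i _ => ?_)
    rw [← Pi.single_smul]
    simp
  have h2 : F n = ∑ i, (n i : ℝ) * F (Pi.single i 1) := by
    conv_lhs => rw [h1]
    rw [map_sum]
    refine Finset.sum_congr rfl (fun i _ => ?_)
    rw [map_zsmul, zsmul_eq_mul]
  exact h2

theorem nil2_coords (hc : ∀ x y z : P, ⁅x, y⁆ * z = z * ⁅x, y⁆) (r : ℕ) (u : Fin r → P)
    (e : Fin r → P → ℤ) (he : ∀ i x y, e i (x * y) = e i x + e i y)
    (heu : ∀ i j, e i (u j) = if i = j then 1 else 0)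
    (hker : ∀ x : P, (∀ i, e i x = 0) ↔ ∃ k : ℕ, 0 < k ∧ x ^ k ∈ commutator P)
    (g : P) (hg : ¬ IsOfFinOrder g) (hgT : ∀ i, e i g = 0) :
    ∃ (a b : Fin r → P → ℝ) (c : P → ℝ),
      (∀ i x y, a i (x * y) = a i x + a i y) ∧ (∀ i x y, b i (x * y) = b i x + b i y) ∧
      (∀ x y, c (x * y) = c x + c y + ∑ i, a i x * b i y) ∧
      (∀ i, a i g = 0) ∧ (∀ i, b i g = 0) ∧ c g ≠ 0 := by
  classical
  obtain ⟨K, hK1, hK2, hK3, hK4⟩ := nil2_collect hc r u
  obtain ⟨lam, hlam1, hlam2, hlamg⟩ := nil2_character hc g hg ((hker g).mp hgT)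
  obtain ⟨E, hE⟩ : ∃ E : P → (Fin r → ℤ), E = fun x i => e i x := ⟨_, rfl⟩
  have hEi : ∀ x i, E x i = e i x := fun x i => by rw [hE]
  have hEmul : ∀ x y, E (x * y) = E x + E y := fun x y => by
    funext i
    rw [Pi.add_apply, hEi, hEi, hEi, he]
  have he1 : ∀ i, e i 1 = 0 := fun i => by
    have h := he i 1 1
    rw [mul_one] at h
    omega
  have heinv : ∀ i x, e i x⁻¹ = -e i x := fun i x => by
    have h := he i x x⁻¹
    rw [mul_inv_cancel, he1] at h
    omega
  have hEσ : ∀ n, E (nil2Sigma r u n) = n := by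
    intro n
    funext i
    rw [hEi, nil2Sigma_map (e i) (he i)]
    simp [heu]
  have hmem : ∀ x : P, (∀ i, e i x = 0) → ∃ k : ℕ, 0 < k ∧ x ^ k ∈ commutator P :=
    fun x hx => (hker x).mp hx
  have hKe : ∀ n m i, e i (K n m) = 0 := fun n m =>
    (hker _).mpr ⟨1, one_pos, by rw [pow_one]; exact hK2 n m⟩
  obtain ⟨t, ht⟩ : ∃ t : P → P, t = fun x => (nil2Sigma r u (E x))⁻¹ * x := ⟨_, rfl⟩
  have htx : ∀ x, t x = (nil2Sigma r u (E x))⁻¹ * x := fun x => by rw [ht]
  have hte : ∀ x i, e i (t x) = 0 := by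
    intro x i
    have h1 : e i (nil2Sigma r u (E x)) = e i x := by
      have h := congrFun (hEσ (E x)) i
      rw [hEi, hEi] at h
      exact h
    rw [htx, he, heinv, h1]
    omega
  have hconj : ∀ (p x : P) i, e i (p⁻¹ * t x * p) = 0 := by
    intro p x i
    rw [he, he, heinv, hte]
    omega
  have key : ∀ x y, t (x * y)
      = K (E x) (E y) * ((nil2Sigma r u (E y))⁻¹ * t x * nil2Sigma r u (E y)) * t y := by
    intro x y
    have h1 := hK1 (E x) (E y)
    have h2 : nil2Sigma r u (E x + E y)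
        = nil2Sigma r u (E x) * nil2Sigma r u (E y) * (K (E x) (E y))⁻¹ := by
      rw [h1]
      group
    rw [htx, htx, htx, hEmul, h2]
    group
  obtain ⟨β, hβ⟩ : ∃ β : (Fin r → ℤ) → (Fin r → ℤ) → ℝ, β = fun n m => lam (K n m) :=
    ⟨_, rfl⟩
  have hβ1 : ∀ n n' m, β (n + n') m = β n m + β n' m := by
    intro n n' m
    rw [hβ]
    show lam (K (n + n') m) = lam (K n m) + lam (K n' m)
    rw [hK3]
    exact hlam1 _ _ (hmem _ (hKe n m)) (hmem _ (hKe n' m))
  have hβ2 : ∀ n m m', β n (m + m') = β n m + β n m' := by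
    intro n m m'
    rw [hβ]
    show lam (K n (m + m')) = lam (K n m) + lam (K n m')
    rw [hK4]
    exact hlam1 _ _ (hmem _ (hKe n m)) (hmem _ (hKe n m'))
  have hβ0 : ∀ n, β n 0 = 0 := by
    intro n
    have h := hβ2 n 0 0
    rw [add_zero] at h
    linarith
  have hcmul : ∀ x y, lam (t (x * y)) = lam (t x) + lam (t y) + β (E x) (E y) := by
    intro x y
    have hm1 : ∀ i, e i (K (E x) (E y) * ((nil2Sigma r u (E y))⁻¹ * t x * nil2Sigma r u (E y)))
        = 0 := by
      intro i
      rw [he, hKe, hconj]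
      omega
    rw [key, hlam1 _ _ (hmem _ hm1) (hmem _ (hte y)),
      hlam1 _ _ (hmem _ (hKe (E x) (E y))) (hmem _ (hconj _ x)),
      hlam2 _ _ (hmem _ (hte x)), hβ]
    ring
  have hEg : E g = 0 := by
    funext i
    rw [hEi, hgT]
    rfl
  refine ⟨fun i x => (e i x : ℝ), fun i y => β (Pi.single i 1) (E y), fun x => lam (t x),
    ?_, ?_, ?_, ?_, ?_, ?_⟩
  · intro i x y
    show ((e i (x * y) : ℤ) : ℝ) = (e i x : ℝ) + (e i y : ℝ)
    rw [he]
    push_cast
    ring
  · intro i x y
    show β (Pi.single i 1) (E (x * y)) = β (Pi.single i 1) (E x) + β (Pi.single i 1) (E y)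
    rw [hEmul, hβ2]
  · intro x y
    show lam (t (x * y)) = lam (t x) + lam (t y)
      + ∑ i, (e i x : ℝ) * β (Pi.single i 1) (E y)
    rw [hcmul, nil2Coords_expand r (fun n => β n (E y)) (fun n n' => hβ1 n n' (E y)) (E x)]
    refine congrArg _ (Finset.sum_congr rfl (fun i _ => ?_))
    rw [hEi]
  · intro i
    show ((e i g : ℤ) : ℝ) = 0
    rw [hgT]
    norm_num
  · intro i
    show β (Pi.single i 1) (E g) = 0
    rw [hEg, hβ0]
  · show lam (t g) ≠ 0
    rw [htx, hEg, nil2Sigma_zero, inv_one, one_mul]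
    exact hlamg

end Vale.Agent.Lib.P184
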