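import Mathlib

/-!
Free integer coordinates on a finitely generated group: the abelianization modulo its torsion
subgroup is free abelian of finite rank.
-/

namespace Vale.Agent.Lib.P184

/-- A power with a nonzero integer exponent that is trivial gives a trivial power with a positive
natural exponent. -/
theorem nil2free_pow_natAbs {G : Type*} [Group G] (g : G) (a : ℤ) (h : g ^ a = 1) :
    g ^ a.natAbs = 1 := by
  rcases Int.natAbs_eq a with h1 | h1
  · rw [h1, zpow_natCast] at h
    exact h
  · rw [h1, zpow_neg, zpow_natCast, inv_eq_one] at h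
    exact h

theorem fg_free_coords (P : Type*) [Group P] [Group.FG P] :
    ∃ (r : ℕ) (u : Fin r → P) (e : Fin r → P → ℤ),
      (∀ i x y, e i (x * y) = e i x + e i y) ∧
      (∀ i j, e i (u j) = if i = j then 1 else 0) ∧
      (∀ x : P, (∀ i, e i x = 0) ↔ ∃ k : ℕ, 0 < k ∧ x ^ k ∈ commutator P) := by
  classical
  have hfgAb : Group.FG (Abelianization P) := QuotientGroup.fg (commutator P)
  have hfgA : AddGroup.FG (Additive (Abelianization P)) := AddGroup.fg_of_group_fg
  have hfin : Module.Finite ℤ (Additive (Abelianization P)) :=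
    Module.Finite.iff_addGroup_fg.mpr hfgA
  have hfinQ : Module.Finite ℤ (Additive (Abelianization P) ⧸
      Submodule.torsion ℤ (Additive (Abelianization P))) := inferInstance
  have hfree : Module.Free ℤ (Additive (Abelianization P) ⧸
      Submodule.torsion ℤ (Additive (Abelianization P))) := inferInstance
  obtain ⟨b⟩ : Nonempty (Module.Basis (Fin (Module.finrank ℤ (Additive (Abelianization P) ⧸
      Submodule.torsion ℤ (Additive (Abelianization P))))) ℤ (Additive (Abelianization P) ⧸
      Submodule.torsion ℤ (Additive (Abelianization P)))) := ⟨Module.finBasis ℤ _⟩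
  obtain ⟨π, hπ⟩ : ∃ π : P → (Additive (Abelianization P) ⧸
      Submodule.torsion ℤ (Additive (Abelianization P))),
      π = fun x => Submodule.Quotient.mk (Additive.ofMul (Abelianization.of x)) := ⟨_, rfl⟩
  have hπmul : ∀ x y, π (x * y) = π x + π y := by
    intro x y
    rw [hπ]
    simp only [map_mul, ofMul_mul, Submodule.Quotient.mk_add]
  have hπsurj : Function.Surjective π := by
    intro q
    obtain ⟨a, rfl⟩ := Submodule.Quotient.mk_surjective _ q
    obtain ⟨x, hx⟩ := QuotientGroup.mk_surjective (Additive.toMul a)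
    refine ⟨x, ?_⟩
    rw [hπ]
    have : Abelianization.of x = Additive.toMul a := hx
    simp only [this, ofMul_toMul]
  have hπzero : ∀ x, π x = 0 ↔ ∃ k : ℕ, 0 < k ∧ x ^ k ∈ commutator P := by
    intro x
    rw [hπ]
    simp only
    rw [Submodule.Quotient.mk_eq_zero, Submodule.mem_torsion_iff]
    constructor
    · rintro ⟨a, ha⟩
      refine ⟨(a : ℤ).natAbs, Int.natAbs_pos.mpr (nonZeroDivisors.coe_ne_zero a), ?_⟩
      have h2 : (a : ℤ) • Additive.ofMul (Abelianization.of x) = 0 := ha
      rw [← ofMul_zpow] at h2
      have h3 : Abelianization.of x ^ (a : ℤ) = 1 := h2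
      have h4 := nil2free_pow_natAbs _ _ h3
      rw [← map_pow] at h4
      have h5 : x ^ (a : ℤ).natAbs ∈ (Abelianization.of (G := P)).ker := MonoidHom.mem_ker.mpr h4
      rwa [Abelianization.ker_of] at h5
    · rintro ⟨k, hk, hx⟩
      have hk0 : (k : ℤ) ≠ 0 := by exact_mod_cast hk.ne'
      refine ⟨⟨(k : ℤ), mem_nonZeroDivisors_of_ne_zero hk0⟩, ?_⟩
      have h5 : x ^ k ∈ (Abelianization.of (G := P)).ker := by
        rwa [Abelianization.ker_of]
      have h4 : Abelianization.of x ^ k = 1 := by
        rw [← map_pow]
        exact MonoidHom.mem_ker.mp h5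
      change (k : ℤ) • Additive.ofMul (Abelianization.of x) = 0
      rw [← ofMul_zpow, zpow_natCast, h4]
      rfl
  choose u hu using fun j => hπsurj (b j)
  refine ⟨_, u, fun i x => b.repr (π x) i, ?_, ?_, ?_⟩
  · intro i x y
    change b.repr (π (x * y)) i = b.repr (π x) i + b.repr (π y) i
    rw [hπmul, map_add, Finsupp.add_apply]
  · intro i j
    change b.repr (π (u j)) i = if i = j then 1 else 0
    rw [hu, Module.Basis.repr_self, Finsupp.single_apply]
    by_cases h : i = j
    · rw [if_pos h, if_pos h.symm]
    · rw [if_neg h, if_neg (Ne.symm h)]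
  · intro x
    rw [← hπzero]
    constructor
    · intro h
      have h1 : b.repr (π x) = 0 := Finsupp.ext h
      exact (LinearEquiv.map_eq_zero_iff b.repr).mp h1
    · intro h i
      change b.repr (π x) i = 0
      rw [h, map_zero]
      rfl

end Vale.Agent.Lib.P184
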