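import Vale.Agent.Lib.P184.Nil2Basic
import Vale.Agent.Lib.P184.VirtAbelianFG

/-!
A finitely generated group in which all commutators are central has a finitely generated
commutator subgroup and only finitely many elements of finite order.
-/

namespace Vale.Agent.Lib.P184

open scoped commutatorElement

variable {P : Type*} [Group P]

/-- All commutators lie in the subgroup generated by the commutators of the generators. -/
theorem nil2Tor_comm_mem (hc : ∀ x y z : P, ⁅x, y⁆ * z = z * ⁅x, y⁆) (S : Set P)
    (hS : Subgroup.closure S = ⊤) (C : Subgroup P)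
    (hC : ∀ s ∈ S, ∀ t ∈ S, ⁅s, t⁆ ∈ C) (x y : P) : ⁅x, y⁆ ∈ C := by
  have hx : ∀ x : P, ∀ t ∈ S, ⁅x, t⁆ ∈ C := by
    intro x t ht
    have hxm : x ∈ Subgroup.closure S := by rw [hS]; exact Subgroup.mem_top x
    induction hxm using Subgroup.closure_induction with
    | mem s hs => exact hC s hs t ht
    | one =>
      have h1 : ⁅(1 : P), t⁆ = 1 := by simp [commutatorElement_def]
      rw [h1]; exact C.one_mem
    | mul a b _ _ iha ihb =>
      rw [nil2_comm_mul_left hc]; exact C.mul_mem iha ihb
    | inv a _ iha =>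
      rw [nil2_comm_inv_left hc]; exact C.inv_mem iha
  have hym : y ∈ Subgroup.closure S := by rw [hS]; exact Subgroup.mem_top y
  induction hym using Subgroup.closure_induction with
  | mem t ht => exact hx x t ht
  | one =>
    have h1 : ⁅x, (1 : P)⁆ = 1 := by simp [commutatorElement_def]
    rw [h1]; exact C.one_mem
  | mul a b _ _ iha ihb =>
    rw [nil2_comm_mul_right hc]; exact C.mul_mem iha ihb
  | inv a _ iha =>
    rw [nil2_comm_inv_right hc]; exact C.inv_mem iha

theorem nil2_commutator_fg [Group.FG P] (hc : ∀ x y z : P, ⁅x, y⁆ * z = z * ⁅x, y⁆) :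
    (commutator P).FG := by
  classical
  obtain ⟨S, hS⟩ := (Group.fg_iff (G := P)).mp inferInstance
  obtain ⟨hS, hSfin⟩ := hS
  have hT : ((fun p : P × P => ⁅p.1, p.2⁆) '' (S ×ˢ S)).Finite :=
    (hSfin.prod hSfin).image _
  have hmem : ∀ x y : P, ⁅x, y⁆ ∈
      Subgroup.closure ((fun p : P × P => ⁅p.1, p.2⁆) '' (S ×ˢ S)) := by
    intro x y
    refine nil2Tor_comm_mem hc S hS _ ?_ x y
    intro s hs t ht
    exact Subgroup.subset_closure ⟨(s, t), ⟨hs, ht⟩, rfl⟩
  have heq : commutator P =
      Subgroup.closure ((fun p : P × P => ⁅p.1, p.2⁆) '' (S ×ˢ S)) := by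
    apply le_antisymm
    · rw [commutator_eq_closure, Subgroup.closure_le]
      intro g hg
      obtain ⟨x, y, rfl⟩ := mem_commutatorSet_iff.mp hg
      exact hmem x y
    · rw [Subgroup.closure_le]
      rintro g ⟨p, _, rfl⟩
      rw [commutator_eq_closure]
      exact Subgroup.subset_closure (mem_commutatorSet_iff.mpr ⟨p.1, p.2, rfl⟩)
  rw [heq]
  exact (Subgroup.fg_iff _).mpr ⟨_, rfl, hT⟩

/-- The elements of finite order of the commutator subgroup form a finite set. -/
theorem nil2Tor_commutator_torsion_finite [Group.FG P]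
    (hc : ∀ x y z : P, ⁅x, y⁆ * z = z * ⁅x, y⁆) :
    {z : P | z ∈ commutator P ∧ IsOfFinOrder z}.Finite := by
  let instC : CommGroup (commutator P) :=
    { (inferInstance : Group (commutator P)) with
      mul_comm := fun a b => Subtype.ext (nil2_commutator_central hc a.1 a.2 b.1) }
  have hfg : Group.FG (commutator P) :=
    (Group.fg_iff_subgroup_fg (commutator P)).mpr (nil2_commutator_fg hc)
  have hfin : {m : (commutator P) | IsOfFinOrder m}.Finite :=
    virtAbelian_fg_torsion_finite
  refine (hfin.image (Subtype.val)).subset ?_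
  rintro z ⟨hz, hzo⟩
  refine ⟨⟨z, hz⟩, ?_, rfl⟩
  change IsOfFinOrder (⟨z, hz⟩ : commutator P)
  rw [isOfFinOrder_iff_pow_eq_one] at hzo ⊢
  obtain ⟨k, hk, hk1⟩ := hzo
  exact ⟨k, hk, Subtype.ext (by simpa using hk1)⟩

theorem nil2_torsion_finite [Group.FG P] (hc : ∀ x y z : P, ⁅x, y⁆ * z = z * ⁅x, y⁆) :
    {x : P | IsOfFinOrder x}.Finite := by
  classical
  have hF1 := nil2Tor_commutator_torsion_finite hc
  have hAfg : Group.FG (Abelianization P) :=
    Group.fg_of_surjective (f := (Abelianization.of : P →* Abelianization P))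
      (QuotientGroup.mk_surjective (s := commutator P))
  have hF2 : {m : Abelianization P | IsOfFinOrder m}.Finite := virtAbelian_fg_torsion_finite
  -- fibres over the abelianization
  have hfib : ∀ m : Abelianization P,
      {x : P | IsOfFinOrder x ∧ Abelianization.of x = m}.Finite := by
    intro m
    by_cases hne : ∃ x₀ : P, IsOfFinOrder x₀ ∧ Abelianization.of x₀ = m
    · obtain ⟨x₀, hx₀, hx₀m⟩ := hne
      refine (hF1.image (fun z => x₀ * z)).subset ?_
      rintro x ⟨hx, hxm⟩
      refine ⟨x₀⁻¹ * x, ⟨?_, ?_⟩, by simp⟩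
      · have h1 : Abelianization.of (x₀⁻¹ * x) = 1 := by
          rw [map_mul, map_inv, hx₀m, hxm, inv_mul_cancel]
        have h2 : x₀⁻¹ * x ∈ (Abelianization.of : P →* Abelianization P).ker :=
          MonoidHom.mem_ker.mpr h1
        rwa [Abelianization.ker_of] at h2
      · have hzc : x₀⁻¹ * x ∈ commutator P := by
          have h1 : Abelianization.of (x₀⁻¹ * x) = 1 := by
            rw [map_mul, map_inv, hx₀m, hxm, inv_mul_cancel]
          have h2 : x₀⁻¹ * x ∈ (Abelianization.of : P →* Abelianization P).ker :=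
            MonoidHom.mem_ker.mpr h1
          rwa [Abelianization.ker_of] at h2
        have hcomm : Commute x₀ (x₀⁻¹ * x) :=
          (nil2_commutator_central hc _ hzc x₀).symm
        rw [isOfFinOrder_iff_pow_eq_one] at hx hx₀ ⊢
        obtain ⟨k, hk, hk1⟩ := hx₀
        obtain ⟨k', hk', hk1'⟩ := hx
        refine ⟨k * k', Nat.mul_pos hk hk', ?_⟩
        have hxe : x = x₀ * (x₀⁻¹ * x) := by simp
        have h3 : x ^ (k * k') = x₀ ^ (k * k') * (x₀⁻¹ * x) ^ (k * k') := by
          conv_lhs => rw [hxe]
          exact hcomm.mul_pow (k * k')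
        have h4 : x ^ (k * k') = 1 := by rw [mul_comm, pow_mul, hk1', one_pow]
        have h5 : x₀ ^ (k * k') = 1 := by rw [pow_mul, hk1, one_pow]
        rw [h4, h5, one_mul] at h3
        exact h3.symm
    · have hemp : {x : P | IsOfFinOrder x ∧ Abelianization.of x = m} = ∅ := by
        ext x
        constructor
        · rintro ⟨hx, hxm⟩
          exact (hne ⟨x, hx, hxm⟩).elim
        · intro hx
          exact hx.elim
      rw [hemp]
      exact Set.finite_empty
  refine (hF2.biUnion (fun m _ => hfib m)).subset ?_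
  intro x hx
  have hx' : IsOfFinOrder x := hx
  rw [Set.mem_iUnion₂]
  refine ⟨Abelianization.of x, ?_, hx', rfl⟩
  change IsOfFinOrder (Abelianization.of x)
  exact MonoidHom.isOfFinOrder _ hx'

end Vale.Agent.Lib.P184
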