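import Vale.Agent.Lib.P184.FineCatZero
import Vale.Agent.Lib.P184.FineProjection
import Vale.Agent.Lib.P184.HeisCriterionMulti
import Vale.Agent.Lib.P184.Nil2Coords
import Vale.Agent.Lib.P184.Nil2Free
import Vale.Agent.Lib.P184.Nil2Torsion

/-!
# Relatively hyperbolic groups with nilpotent peripheral subgroups of class two

* `fine_heis_multi_transfer`: a twisting family of Heisenberg type on a vertex stabiliser of a
  group acting on a fine hyperbolic graph extends to the whole group.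
* `fine_heis_multi_bass_stab`: the transfer theorem with twisting functions or twisting families
  on the vertex stabilisers.
* `multi_heis_of_stabilizer`: a vertex stabiliser with a homomorphism with finite kernel to a
  generalised real Heisenberg group.
* `nil2_of_stabilizer`: a finitely generated vertex stabiliser in which all commutators are
  central.
* `fine_nil2_bass`: the statement of the Bass conjecture for a group acting on a fine hyperbolic
  graph all of whose vertex stabilisers are of one of these kinds (or finitely generated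
  virtually abelian, or acting properly and cocompactly on a space with the `CN` inequality).
-/

namespace Vale.Agent.Lib.P184

open SimpleGraph

open scoped BigOperators commutatorElement

theorem fine_heis_multi_transfer {Γ V : Type*} [Group Γ] [MulAction Γ V] (K : SimpleGraph V)
    (hconn : K.Connected)
    (hact : ∀ (γ : Γ) (u w : V), K.Adj u w → K.Adj (γ • u) (γ • w))
    (δ : ℝ) (hδ : ∀ x y z w : V, (K.dist x z : ℝ) + K.dist y w
      ≤ max ((K.dist x y : ℝ) + K.dist z w) ((K.dist x w : ℝ) + K.dist y z) + 2 * δ)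
    (hpaths : ∀ (u w : V) (n : ℕ), {p : K.Walk u w | p.IsPath ∧ p.length ≤ n}.Finite)
    (hstab : ∀ u w : V, K.Adj u w → {γ : Γ | γ • u = u ∧ γ • w = w}.Finite)
    (hcocpt : ∃ F : Finset (V × V), ∀ u w : V, K.Adj u w → ∃ γ : Γ, (γ • u, γ • w) ∈ F)
    (g : Γ) (v : V) (hgv : g • v = v) (hg : ∀ k : ℕ, 0 < k → g ^ k ≠ 1) (m : ℕ)
    (a b : Fin m → Γ → ℝ) (c : Γ → ℝ)
    (h1 : ∀ x : Γ, x • v = v → ∃ C : ℝ, ∀ h : Γ, h • v = v →
      (∀ i, |a i (x * h) - a i h| ≤ C ∧ |b i (x * h) - b i h| ≤ C) ∧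
        |c (x * h) - c h - ∑ i, (a i (x * h) - a i h) * b i h| ≤ C)
    (h2 : ∀ z : Γ, z • v = v → z * g = g * z → ∀ h : Γ, h • v = v →
      (∀ i, a i (h * z) - a i h = a i z - a i 1 ∧ b i (h * z) - b i h = b i z - b i 1) ∧
        c (h * z) - c h - ∑ i, a i h * (b i z - b i 1)
          = c z - c 1 - ∑ i, a i 1 * (b i z - b i 1))
    (h3 : (∀ i, a i g = a i 1 ∧ b i g = b i 1) ∧ c g ≠ c 1) :
    ∃ (A B : Fin m → Γ → ℝ) (C : Γ → ℝ),
      (∀ x : Γ, ∃ D : ℝ, ∀ h : Γ,
        (∀ i, |A i (x * h) - A i h| ≤ D ∧ |B i (x * h) - B i h| ≤ D) ∧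
        |C (x * h) - C h - ∑ i, (A i (x * h) - A i h) * B i h| ≤ D) ∧
      (∀ z : Γ, z * g = g * z → ∀ h : Γ,
        (∀ i, A i (h * z) - A i h = A i z - A i 1 ∧ B i (h * z) - B i h = B i z - B i 1) ∧
        C (h * z) - C h - ∑ i, A i h * (B i z - B i 1)
          = C z - C 1 - ∑ i, A i 1 * (B i z - B i 1)) ∧
      ((∀ i, A i g = A i 1 ∧ B i g = B i 1) ∧ C g ≠ C 1) := by
  classical
  have hcent : ∀ z : Γ, z * g = g * z → z • v = v := fun z hz =>
    fine_fixes_of_commute K hconn hact hpaths hstab g v hgv hg z hz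
  obtain ⟨π, hπv, hπz, hπid, hπfin⟩ := fine_projection K hconn hact δ hδ hpaths hstab hcocpt v
  have hπ1 : π 1 = 1 := hπid 1 (one_smul _ _)
  refine ⟨fun i h => a i (π h), fun i h => b i (π h), fun h => c (π h), ?_, ?_, ?_⟩
  · intro x
    have hB : ∀ y : Γ, ∃ D : ℝ, y • v = v → ∀ h : Γ, h • v = v →
        (∀ i, |a i (y * h) - a i h| ≤ D ∧ |b i (y * h) - b i h| ≤ D) ∧
          |c (y * h) - c h - ∑ i, (a i (y * h) - a i h) * b i h| ≤ D := by
      intro y
      by_cases hy : y • v = v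
      · obtain ⟨D, hD⟩ := h1 y hy
        exact ⟨D, fun _ => hD⟩
      · exact ⟨0, fun h => absurd h hy⟩
    choose D hD using hB
    refine ⟨∑ y ∈ (hπfin x).toFinset, |D y|, fun h => ?_⟩
    have hmem : π (x * h) * (π h)⁻¹ ∈ (hπfin x).toFinset :=
      (hπfin x).mem_toFinset.mpr ⟨h, rfl⟩
    have hxv : (π (x * h) * (π h)⁻¹) • v = v := by
      rw [mul_smul, inv_smul_eq_iff.mpr (hπv h).symm, hπv]
    have key := hD _ hxv (π h) (hπv h)
    rw [inv_mul_cancel_right] at key
    have hle : D (π (x * h) * (π h)⁻¹) ≤ ∑ y ∈ (hπfin x).toFinset, |D y| :=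
      (le_abs_self _).trans
        (Finset.single_le_sum (f := fun y => |D y|) (fun _ _ => abs_nonneg _) hmem)
    exact ⟨fun i => ⟨(key.1 i).1.trans hle, (key.1 i).2.trans hle⟩, key.2.trans hle⟩
  · intro z hz h
    have hzv := hcent z hz
    beta_reduce
    rw [hπz h z hzv, hπid z hzv, hπ1]
    exact h2 z hzv hz (π h) (hπv h)
  · beta_reduce
    rw [hπid g hgv, hπ1]
    exact h3

theorem fine_heis_multi_bass_stab {Γ V : Type*} [Group Γ] [MulAction Γ V] (K : SimpleGraph V)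
    (hconn : K.Connected)
    (hact : ∀ (γ : Γ) (u w : V), K.Adj u w → K.Adj (γ • u) (γ • w))
    (δ : ℝ) (hδ : ∀ x y z w : V, (K.dist x z : ℝ) + K.dist y w
      ≤ max ((K.dist x y : ℝ) + K.dist z w) ((K.dist x w : ℝ) + K.dist y z) + 2 * δ)
    (hfine : ∀ (u w : V), K.Adj u w → ∀ n : ℕ,
      {p : K.Walk u u | p.IsCycle ∧ s(u, w) ∈ p.edges ∧ p.length ≤ n}.Finite)
    (hstab : ∀ u w : V, K.Adj u w → {γ : Γ | γ • u = u ∧ γ • w = w}.Finite)
    (hcocpt : ∃ F : Finset (V × V), ∀ u w : V, K.Adj u w → ∃ γ : Γ, (γ • u, γ • w) ∈ F)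
    (hper : ∀ v : V,
      (∀ g : Γ, g • v = v → ¬ IsOfFinOrder g →
        (∃ ψ : Γ → ℝ,
          (∀ m : Γ, m • v = v → ∃ C : ℝ, ∀ h : Γ, h • v = v → |ψ (m * h) - ψ h| ≤ C) ∧
          (∀ z : Γ, z • v = v → z * g = g * z →
            ∀ h : Γ, h • v = v → ψ (h * z) - ψ h = ψ z - ψ 1) ∧
          ψ g ≠ ψ 1) ∨
        (∃ (m : ℕ) (a b : Fin m → Γ → ℝ) (c : Γ → ℝ),
          (∀ x : Γ, x • v = v → ∃ C : ℝ, ∀ h : Γ, h • v = v →
            (∀ i, |a i (x * h) - a i h| ≤ C ∧ |b i (x * h) - b i h| ≤ C) ∧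
              |c (x * h) - c h - ∑ i, (a i (x * h) - a i h) * b i h| ≤ C) ∧
          (∀ z : Γ, z • v = v → z * g = g * z → ∀ h : Γ, h • v = v →
            (∀ i, a i (h * z) - a i h = a i z - a i 1 ∧ b i (h * z) - b i h = b i z - b i 1) ∧
              c (h * z) - c h - ∑ i, a i h * (b i z - b i 1)
                = c z - c 1 - ∑ i, a i 1 * (b i z - b i 1)) ∧
          ((∀ i, a i g = a i 1 ∧ b i g = b i 1) ∧ c g ≠ c 1))) ∧
      ∃ T : Finset Γ, ∀ h : Γ, h • v = v → IsOfFinOrder h → ∃ t ∈ T, IsConj t h)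
    (q : ℕ) (e : Fin q → Fin q → Γ → ℂ)
    (he_sum : ∀ i j, Summable (fun x => ‖e i j x‖))
    (he_idem : ∀ i j x, ∑ l, ∑' y, e i l y * e l j (y⁻¹ * x) = e i j x) :
    ∃ F : Finset (ConjClasses Γ), (∀ g : Γ, ConjClasses.mk g ∈ F → IsOfFinOrder g) ∧
      ∀ g : Γ, ConjClasses.mk g ∉ F →
        HasSum (fun c : {c : Γ // IsConj g c} => ∑ i, e i i c.1) 0 := by
  classical
  have hpaths := fine_paths K hfine
  obtain ⟨T, hTall⟩ := fine_torsion_all K hconn hact δ hδ hfine hstab hcocpt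
    (fun v => (hper v).2)
  refine bass_of_finite_torsion q e (fun g hg => ?_) T hTall
  have hg' : ∀ k : ℕ, 0 < k → g ^ k ≠ 1 :=
    fun k hk h1 => hg (isOfFinOrder_iff_pow_eq_one.mpr ⟨k, hk, h1⟩)
  rcases fine_classification K hconn hact δ hδ hfine hstab hcocpt g hg'
    with ⟨v, hgv⟩ | ⟨x₀, ε, hε, hlox⟩
  · rcases (hper v).1 g hgv hg with ⟨ψ, hψ1, hψ2, hψ3⟩ | ⟨m, a, b, c, h1, h2, h3⟩
    · exact fine_parabolic_class_trace (MonoidHom.id Γ) K hconn hact δ hδ hpaths hstab
        hcocpt g v hgv ψ hψ1 hψ2 hψ3 q e he_sum he_idem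
    · obtain ⟨A, B, C, hA1, hA2, hA3⟩ := fine_heis_multi_transfer K hconn hact δ hδ hpaths
        hstab hcocpt g v hgv hg' m a b c h1 h2 h3
      exact heis_multi_matrix_class_trace q e he_sum he_idem g m A B C hA1 hA2 hA3
  · exact fine_lox_class_trace (MonoidHom.id Γ) K hconn hact δ hδ hpaths hstab g x₀ ε hε hlox
      q e he_sum he_idem

/-- An additive real function on a vertex stabiliser which does not vanish at `g` gives a
twisting function for `g`. -/
theorem twist_of_additive {Γ V : Type*} [Group Γ] [MulAction Γ V] (v : V) (g : Γ)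
    (hgv : g • v = v) (χ : MulAction.stabilizer Γ v → ℝ)
    (hχ : ∀ x y, χ (x * y) = χ x + χ y) (hχg : χ ⟨g, hgv⟩ ≠ 0) :
    ∃ ψ : Γ → ℝ,
      (∀ m : Γ, m • v = v → ∃ C : ℝ, ∀ h : Γ, h • v = v → |ψ (m * h) - ψ h| ≤ C) ∧
      (∀ z : Γ, z • v = v → z * g = g * z →
        ∀ h : Γ, h • v = v → ψ (h * z) - ψ h = ψ z - ψ 1) ∧
      ψ g ≠ ψ 1 := by
  have hχ1 : χ 1 = 0 := by
    have := hχ 1 1
    rw [one_mul] at this
    linarith
  refine twist_of_stabilizer v g hgv ⟨χ, fun m => ⟨|χ m|, fun h => ?_⟩, fun z _ h => ?_, ?_⟩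
  · rw [hχ]
    have e2 : χ m + χ h - χ h = χ m := by ring
    rw [e2]
  · rw [hχ, hχ1]
    ring
  · rw [hχ1]
    exact hχg

/-- Coordinates of Heisenberg type on a vertex stabiliser, with `g` in the central direction,
give a twisting family for `g`. -/
theorem multi_heis_of_additive {Γ V : Type*} [Group Γ] [MulAction Γ V] (v : V) (m : ℕ)
    (a b : Fin m → MulAction.stabilizer Γ v → ℝ) (c : MulAction.stabilizer Γ v → ℝ)
    (ha : ∀ i x y, a i (x * y) = a i x + a i y) (hb : ∀ i x y, b i (x * y) = b i x + b i y)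
    (hc : ∀ x y, c (x * y) = c x + c y + ∑ i, a i x * b i y)
    (g : Γ) (hgv : g • v = v) (hag : ∀ i, a i ⟨g, hgv⟩ = 0) (hbg : ∀ i, b i ⟨g, hgv⟩ = 0)
    (hcg : c ⟨g, hgv⟩ ≠ 0) :
    ∃ (A B : Fin m → Γ → ℝ) (C : Γ → ℝ),
      (∀ x : Γ, x • v = v → ∃ D : ℝ, ∀ h : Γ, h • v = v →
        (∀ i, |A i (x * h) - A i h| ≤ D ∧ |B i (x * h) - B i h| ≤ D) ∧
          |C (x * h) - C h - ∑ i, (A i (x * h) - A i h) * B i h| ≤ D) ∧
      (∀ z : Γ, z • v = v → z * g = g * z → ∀ h : Γ, h • v = v →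
        (∀ i, A i (h * z) - A i h = A i z - A i 1 ∧ B i (h * z) - B i h = B i z - B i 1) ∧
          C (h * z) - C h - ∑ i, A i h * (B i z - B i 1)
            = C z - C 1 - ∑ i, A i 1 * (B i z - B i 1)) ∧
      ((∀ i, A i g = A i 1 ∧ B i g = B i 1) ∧ C g ≠ C 1) := by
  classical
  have ha1 : ∀ i, a i 1 = 0 := fun i => by
    have := ha i 1 1
    rw [one_mul] at this
    linarith
  have hb1 : ∀ i, b i 1 = 0 := fun i => by
    have := hb i 1 1
    rw [one_mul] at this
    linarith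
  have hc1 : c 1 = 0 := by
    have := hc 1 1
    rw [one_mul] at this
    have h0 : ∑ i, a i 1 * b i 1 = 0 :=
      Finset.sum_eq_zero (fun i _ => by rw [ha1, zero_mul])
    linarith
  obtain ⟨A, hA⟩ : ∃ A : Fin m → Γ → ℝ,
      A = fun i h => if hh : h • v = v then a i ⟨h, hh⟩ else 0 := ⟨_, rfl⟩
  obtain ⟨B, hB⟩ : ∃ B : Fin m → Γ → ℝ,
      B = fun i h => if hh : h • v = v then b i ⟨h, hh⟩ else 0 := ⟨_, rfl⟩
  obtain ⟨C, hC⟩ : ∃ C : Γ → ℝ, C = fun h => if hh : h • v = v then c ⟨h, hh⟩ else 0 :=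
    ⟨_, rfl⟩
  have hAv : ∀ i (h : Γ) (hh : h • v = v), A i h = a i ⟨h, hh⟩ := fun i h hh => by
    rw [hA]; exact dif_pos hh
  have hBv : ∀ i (h : Γ) (hh : h • v = v), B i h = b i ⟨h, hh⟩ := fun i h hh => by
    rw [hB]; exact dif_pos hh
  have hCv : ∀ (h : Γ) (hh : h • v = v), C h = c ⟨h, hh⟩ := fun h hh => by
    rw [hC]; exact dif_pos hh
  have h1v : (1 : Γ) • v = v := one_smul _ _
  have hA1 : ∀ i, A i 1 = 0 := fun i => by rw [hAv i 1 h1v]; exact ha1 i
  have hB1 : ∀ i, B i 1 = 0 := fun i => by rw [hBv i 1 h1v]; exact hb1 i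
  have hC1 : C 1 = 0 := by rw [hCv 1 h1v]; exact hc1
  have hmulv : ∀ x h : Γ, x • v = v → h • v = v → (x * h) • v = v := fun x h hx hh => by
    rw [mul_smul, hh, hx]
  have hAmul : ∀ i (x h : Γ), x • v = v → h • v = v → A i (x * h) = A i x + A i h :=
    fun i x h hx hh => by
      rw [hAv i _ (hmulv x h hx hh), hAv i x hx, hAv i h hh]
      exact ha i ⟨x, hx⟩ ⟨h, hh⟩
  have hBmul : ∀ i (x h : Γ), x • v = v → h • v = v → B i (x * h) = B i x + B i h :=
    fun i x h hx hh => by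
      rw [hBv i _ (hmulv x h hx hh), hBv i x hx, hBv i h hh]
      exact hb i ⟨x, hx⟩ ⟨h, hh⟩
  have hCmul : ∀ (x h : Γ), x • v = v → h • v = v →
      C (x * h) = C x + C h + ∑ i, A i x * B i h :=
    fun x h hx hh => by
      rw [hCv _ (hmulv x h hx hh), hCv x hx, hCv h hh]
      have e1 : ∑ i, A i x * B i h = ∑ i, a i ⟨x, hx⟩ * b i ⟨h, hh⟩ :=
        Finset.sum_congr rfl (fun i _ => by rw [hAv i x hx, hBv i h hh])
      rw [e1]
      exact hc ⟨x, hx⟩ ⟨h, hh⟩
  refine ⟨A, B, C, fun x hx => ?_, fun z hz _ h hh => ?_, ?_⟩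
  · refine ⟨∑ i, (|A i x| + |B i x|) + |C x|, fun h hh => ?_⟩
    have hnn : ∀ i, 0 ≤ |A i x| + |B i x| := fun i =>
      add_nonneg (abs_nonneg _) (abs_nonneg _)
    have hsum_nn : 0 ≤ ∑ i, (|A i x| + |B i x|) := Finset.sum_nonneg (fun i _ => hnn i)
    have hle : ∀ i, |A i x| + |B i x| ≤ ∑ i, (|A i x| + |B i x|) := fun i =>
      Finset.single_le_sum (f := fun i => |A i x| + |B i x|) (fun i _ => hnn i)
        (Finset.mem_univ i)
    refine ⟨fun i => ⟨?_, ?_⟩, ?_⟩
    · rw [hAmul i x h hx hh]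
      have e1 : A i x + A i h - A i h = A i x := by ring
      rw [e1]
      have := hle i
      have p1 := abs_nonneg (B i x)
      have p2 := abs_nonneg (C x)
      linarith
    · rw [hBmul i x h hx hh]
      have e1 : B i x + B i h - B i h = B i x := by ring
      rw [e1]
      have := hle i
      have p1 := abs_nonneg (A i x)
      have p2 := abs_nonneg (C x)
      linarith
    · have e1 : ∑ i, (A i (x * h) - A i h) * B i h = ∑ i, A i x * B i h :=
        Finset.sum_congr rfl (fun i _ => by rw [hAmul i x h hx hh]; ring)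
      rw [e1, hCmul x h hx hh]
      have e3 : C x + C h + ∑ i, A i x * B i h - C h - ∑ i, A i x * B i h = C x := by ring
      rw [e3]
      linarith
  · refine ⟨fun i => ⟨?_, ?_⟩, ?_⟩
    · rw [hAmul i h z hh hz, hA1]
      ring
    · rw [hBmul i h z hh hz, hB1]
      ring
    · have e1 : ∑ i, A i h * (B i z - B i 1) = ∑ i, A i h * B i z :=
        Finset.sum_congr rfl (fun i _ => by rw [hB1, sub_zero])
      have e2 : ∑ i, A i 1 * (B i z - B i 1) = 0 :=
        Finset.sum_eq_zero (fun i _ => by rw [hA1, zero_mul])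
      rw [e1, e2, hCmul h z hh hz, hC1]
      ring
  · refine ⟨fun i => ⟨?_, ?_⟩, ?_⟩
    · rw [hA1, hAv i g hgv]
      exact hag i
    · rw [hB1, hBv i g hgv]
      exact hbg i
    · rw [hC1, hCv g hgv]
      exact hcg

/-- A vertex stabiliser with a homomorphism with finite kernel to a generalised real Heisenberg
group (given by its coordinates `a i`, `b i`, `c`) has a twisting function or a twisting family
for every element of infinite order, and only finitely many elements of finite order. -/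
theorem multi_heis_of_stabilizer {Γ V : Type*} [Group Γ] [MulAction Γ V] (v : V) (m : ℕ)
    (a b : Fin m → MulAction.stabilizer Γ v → ℝ) (c : MulAction.stabilizer Γ v → ℝ)
    (ha : ∀ i x y, a i (x * y) = a i x + a i y) (hb : ∀ i x y, b i (x * y) = b i x + b i y)
    (hc : ∀ x y, c (x * y) = c x + c y + ∑ i, a i x * b i y)
    (hfin : {x : MulAction.stabilizer Γ v | (∀ i, a i x = 0 ∧ b i x = 0) ∧ c x = 0}.Finite) :
    (∀ g : Γ, g • v = v → ¬ IsOfFinOrder g →
        (∃ ψ : Γ → ℝ,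
          (∀ m : Γ, m • v = v → ∃ C : ℝ, ∀ h : Γ, h • v = v → |ψ (m * h) - ψ h| ≤ C) ∧
          (∀ z : Γ, z • v = v → z * g = g * z →
            ∀ h : Γ, h • v = v → ψ (h * z) - ψ h = ψ z - ψ 1) ∧
          ψ g ≠ ψ 1) ∨
        (∃ (m : ℕ) (a b : Fin m → Γ → ℝ) (c : Γ → ℝ),
          (∀ x : Γ, x • v = v → ∃ C : ℝ, ∀ h : Γ, h • v = v →
            (∀ i, |a i (x * h) - a i h| ≤ C ∧ |b i (x * h) - b i h| ≤ C) ∧
              |c (x * h) - c h - ∑ i, (a i (x * h) - a i h) * b i h| ≤ C) ∧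
          (∀ z : Γ, z • v = v → z * g = g * z → ∀ h : Γ, h • v = v →
            (∀ i, a i (h * z) - a i h = a i z - a i 1 ∧ b i (h * z) - b i h = b i z - b i 1) ∧
              c (h * z) - c h - ∑ i, a i h * (b i z - b i 1)
                = c z - c 1 - ∑ i, a i 1 * (b i z - b i 1)) ∧
          ((∀ i, a i g = a i 1 ∧ b i g = b i 1) ∧ c g ≠ c 1))) ∧
      ∃ T : Finset Γ, ∀ h : Γ, h • v = v → IsOfFinOrder h → ∃ t ∈ T, IsConj t h := by
  classical
  have ha1 : ∀ i, a i 1 = 0 := fun i => by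
    have := ha i 1 1
    rw [one_mul] at this
    linarith
  have hb1 : ∀ i, b i 1 = 0 := fun i => by
    have := hb i 1 1
    rw [one_mul] at this
    linarith
  have hc1 : c 1 = 0 := by
    have := hc 1 1
    rw [one_mul] at this
    have h0 : ∑ i, a i 1 * b i 1 = 0 :=
      Finset.sum_eq_zero (fun i _ => by rw [ha1, zero_mul])
    linarith
  have hapow : ∀ i (x : MulAction.stabilizer Γ v) (n : ℕ), a i (x ^ n) = n * a i x := by
    intro i x n
    induction n with
    | zero => simp [ha1]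
    | succ n ih => rw [pow_succ, ha, ih]; push_cast; ring
  have hbpow : ∀ i (x : MulAction.stabilizer Γ v) (n : ℕ), b i (x ^ n) = n * b i x := by
    intro i x n
    induction n with
    | zero => simp [hb1]
    | succ n ih => rw [pow_succ, hb, ih]; push_cast; ring
  have hcpow : ∀ (x : MulAction.stabilizer Γ v), (∀ i, b i x = 0) →
      ∀ n : ℕ, c (x ^ n) = n * c x := by
    intro x hx n
    induction n with
    | zero => simp [hc1]
    | succ n ih =>
      have h0 : ∑ i, a i (x ^ n) * b i x = 0 :=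
        Finset.sum_eq_zero (fun i _ => by rw [hx i, mul_zero])
      rw [pow_succ, hc, ih, h0]; push_cast; ring
  refine ⟨fun g hgv hg => ?_, ?_⟩
  · by_cases hag : ∀ i, a i ⟨g, hgv⟩ = 0
    · by_cases hbg : ∀ i, b i ⟨g, hgv⟩ = 0
      · right
        have hcg : c ⟨g, hgv⟩ ≠ 0 := by
          intro hcg
          have hginf : ¬ IsOfFinOrder (⟨g, hgv⟩ : MulAction.stabilizer Γ v) := by
            intro hfin'
            obtain ⟨n, hn, hgn⟩ := isOfFinOrder_iff_pow_eq_one.mp hfin'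
            refine hg (isOfFinOrder_iff_pow_eq_one.mpr ⟨n, hn, ?_⟩)
            have := congrArg Subtype.val hgn
            simpa using this
          have hinj := injective_pow_iff_not_isOfFinOrder.mpr hginf
          have hsub : Set.range (fun n : ℕ => (⟨g, hgv⟩ : MulAction.stabilizer Γ v) ^ n)
              ⊆ {x : MulAction.stabilizer Γ v | (∀ i, a i x = 0 ∧ b i x = 0) ∧ c x = 0} := by
            rintro _ ⟨n, rfl⟩
            refine ⟨fun i => ⟨?_, ?_⟩, ?_⟩
            · rw [hapow, hag i, mul_zero]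
            · rw [hbpow, hbg i, mul_zero]
            · rw [hcpow _ hbg, hcg, mul_zero]
          exact (Set.infinite_range_of_injective hinj) (hfin.subset hsub)
        exact ⟨m, multi_heis_of_additive v m a b c ha hb hc g hgv hag hbg hcg⟩
      · left
        push Not at hbg
        obtain ⟨i, hi⟩ := hbg
        exact twist_of_additive v g hgv (b i) (hb i) hi
    · left
      push Not at hag
      obtain ⟨i, hi⟩ := hag
      exact twist_of_additive v g hgv (a i) (ha i) hi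
  · refine torsion_of_stabilizer v ⟨hfin.toFinset, fun h hh => ⟨h, ?_, IsConj.refl h⟩⟩
    rw [Set.Finite.mem_toFinset]
    obtain ⟨n, hn, hhn⟩ := isOfFinOrder_iff_pow_eq_one.mp hh
    have hn' : (n : ℝ) ≠ 0 := by exact_mod_cast hn.ne'
    have e1 : ∀ i, a i h = 0 := fun i => by
      have := hapow i h n
      rw [hhn, ha1] at this
      rcases mul_eq_zero.mp this.symm with h' | h'
      · exact absurd h' hn'
      · exact h'
    have e2 : ∀ i, b i h = 0 := fun i => by
      have := hbpow i h n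
      rw [hhn, hb1] at this
      rcases mul_eq_zero.mp this.symm with h' | h'
      · exact absurd h' hn'
      · exact h'
    have e3 : c h = 0 := by
      have := hcpow h e2 n
      rw [hhn, hc1] at this
      rcases mul_eq_zero.mp this.symm with h' | h'
      · exact absurd h' hn'
      · exact h'
    exact ⟨fun i => ⟨e1 i, e2 i⟩, e3⟩

/-- In a finitely generated group with central commutators, every element of infinite order is
detected by a real character or lies in the central direction of coordinates of Heisenberg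
type. -/
theorem nil2_data {P : Type*} [Group P] [Group.FG P]
    (hc : ∀ x y z : P, ⁅x, y⁆ * z = z * ⁅x, y⁆) (g : P) (hg : ¬ IsOfFinOrder g) :
    (∃ χ : P → ℝ, (∀ x y, χ (x * y) = χ x + χ y) ∧ χ g ≠ 0) ∨
    (∃ (m : ℕ) (a b : Fin m → P → ℝ) (c : P → ℝ),
      (∀ i x y, a i (x * y) = a i x + a i y) ∧ (∀ i x y, b i (x * y) = b i x + b i y) ∧
      (∀ x y, c (x * y) = c x + c y + ∑ i, a i x * b i y) ∧
      (∀ i, a i g = 0) ∧ (∀ i, b i g = 0) ∧ c g ≠ 0) := by
  by_cases h : IsOfFinOrder (Abelianization.of g)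
  · right
    obtain ⟨r, u, e, he, heu, hker⟩ := fg_free_coords P
    have hgT : ∀ i, e i g = 0 := (hker g).mpr ((nil2_pow_mem_commutator_iff g).mpr h)
    obtain ⟨a, b, c, hh⟩ := nil2_coords hc r u e he heu hker g hg hgT
    exact ⟨r, a, b, c, hh⟩
  · left
    exact exists_hom_real g h

/-- A finitely generated vertex stabiliser in which all commutators are central has a twisting
function or a twisting family for every element of infinite order, and only finitely many
elements of finite order. -/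
theorem nil2_of_stabilizer {Γ V : Type*} [Group Γ] [MulAction Γ V] (v : V)
    (hfg : (MulAction.stabilizer Γ v).FG)
    (hcen : ∀ x y z : Γ, x • v = v → y • v = v → z • v = v →
      x * y * x⁻¹ * y⁻¹ * z = z * (x * y * x⁻¹ * y⁻¹)) :
    (∀ g : Γ, g • v = v → ¬ IsOfFinOrder g →
        (∃ ψ : Γ → ℝ,
          (∀ m : Γ, m • v = v → ∃ C : ℝ, ∀ h : Γ, h • v = v → |ψ (m * h) - ψ h| ≤ C) ∧
          (∀ z : Γ, z • v = v → z * g = g * z →
            ∀ h : Γ, h • v = v → ψ (h * z) - ψ h = ψ z - ψ 1) ∧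
          ψ g ≠ ψ 1) ∨
        (∃ (m : ℕ) (a b : Fin m → Γ → ℝ) (c : Γ → ℝ),
          (∀ x : Γ, x • v = v → ∃ C : ℝ, ∀ h : Γ, h • v = v →
            (∀ i, |a i (x * h) - a i h| ≤ C ∧ |b i (x * h) - b i h| ≤ C) ∧
              |c (x * h) - c h - ∑ i, (a i (x * h) - a i h) * b i h| ≤ C) ∧
          (∀ z : Γ, z • v = v → z * g = g * z → ∀ h : Γ, h • v = v →
            (∀ i, a i (h * z) - a i h = a i z - a i 1 ∧ b i (h * z) - b i h = b i z - b i 1) ∧
              c (h * z) - c h - ∑ i, a i h * (b i z - b i 1)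
                = c z - c 1 - ∑ i, a i 1 * (b i z - b i 1)) ∧
          ((∀ i, a i g = a i 1 ∧ b i g = b i 1) ∧ c g ≠ c 1))) ∧
      ∃ T : Finset Γ, ∀ h : Γ, h • v = v → IsOfFinOrder h → ∃ t ∈ T, IsConj t h := by
  classical
  have _inst : Group.FG (MulAction.stabilizer Γ v) := (Group.fg_iff_subgroup_fg _).mpr hfg
  have hc : ∀ x y z : MulAction.stabilizer Γ v, ⁅x, y⁆ * z = z * ⁅x, y⁆ := by
    intro x y z
    apply Subtype.ext
    exact hcen x.1 y.1 z.1 x.2 y.2 z.2
  refine ⟨fun g hgv hg => ?_, ?_⟩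
  · have hginf : ¬ IsOfFinOrder (⟨g, hgv⟩ : MulAction.stabilizer Γ v) := by
      intro hfin'
      obtain ⟨n, hn, hgn⟩ := isOfFinOrder_iff_pow_eq_one.mp hfin'
      refine hg (isOfFinOrder_iff_pow_eq_one.mpr ⟨n, hn, ?_⟩)
      have := congrArg Subtype.val hgn
      simpa using this
    rcases nil2_data hc ⟨g, hgv⟩ hginf with ⟨χ, hχ, hχg⟩ | ⟨m, a, b, c, ha, hb, hcc, hag, hbg, hcg⟩
    · left
      exact twist_of_additive v g hgv χ hχ hχg
    · right
      exact ⟨m, multi_heis_of_additive v m a b c ha hb hcc g hgv hag hbg hcg⟩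
  · have hT := nil2_torsion_finite hc
    exact torsion_of_stabilizer v ⟨hT.toFinset, fun h hh =>
      ⟨h, hT.mem_toFinset.mpr hh, IsConj.refl h⟩⟩

universe u v w

theorem fine_nil2_bass {Γ : Type u} {V : Type v} [Group Γ] [MulAction Γ V]
    (K : SimpleGraph V) (hconn : K.Connected)
    (hact : ∀ (γ : Γ) (u w : V), K.Adj u w → K.Adj (γ • u) (γ • w))
    (δ : ℝ) (hδ : ∀ x y z w : V, (K.dist x z : ℝ) + K.dist y w
      ≤ max ((K.dist x y : ℝ) + K.dist z w) ((K.dist x w : ℝ) + K.dist y z) + 2 * δ)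
    (hfine : ∀ (u w : V), K.Adj u w → ∀ n : ℕ,
      {p : K.Walk u u | p.IsCycle ∧ s(u, w) ∈ p.edges ∧ p.length ≤ n}.Finite)
    (hstab : ∀ u w : V, K.Adj u w → {γ : Γ | γ • u = u ∧ γ • w = w}.Finite)
    (hcocpt : ∃ F : Finset (V × V), ∀ u w : V, K.Adj u w → ∃ γ : Γ, (γ • u, γ • w) ∈ F)
    (hper : ∀ v : V,
      (∃ A : Subgroup Γ, (∀ a ∈ A, ∀ b ∈ A, a * b = b * a) ∧ A.FG ∧
        ∃ T : Finset Γ, ∀ h : Γ, h • v = v → ∃ t ∈ T, t⁻¹ * h ∈ A) ∨
      (∃ (X : Type w) (_ : MetricSpace X) (_ : MulAction (MulAction.stabilizer Γ v) X),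
        Nonempty X ∧
        (∀ (p : MulAction.stabilizer Γ v) (x y : X), dist (p • x) (p • y) = dist x y) ∧
        (∀ x y : X, ∃ m : X, ∀ z : X,
          dist z m ^ 2 ≤ (dist z x ^ 2 + dist z y ^ 2) / 2 - dist x y ^ 2 / 4) ∧
        (∀ (x : X) (R : ℝ), {p : MulAction.stabilizer Γ v | dist (p • x) x ≤ R}.Finite) ∧
        ∃ C : Set X, IsCompact C ∧ ∀ x : X, ∃ p : MulAction.stabilizer Γ v, p • x ∈ C) ∨
      ((MulAction.stabilizer Γ v).FG ∧
        ∀ x y z : Γ, x • v = v → y • v = v → z • v = v →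
          x * y * x⁻¹ * y⁻¹ * z = z * (x * y * x⁻¹ * y⁻¹)) ∨
      (∃ (m : ℕ) (a b : Fin m → MulAction.stabilizer Γ v → ℝ)
          (c : MulAction.stabilizer Γ v → ℝ),
        (∀ i x y, a i (x * y) = a i x + a i y) ∧ (∀ i x y, b i (x * y) = b i x + b i y) ∧
        (∀ x y, c (x * y) = c x + c y + ∑ i, a i x * b i y) ∧
        {x : MulAction.stabilizer Γ v | (∀ i, a i x = 0 ∧ b i x = 0) ∧ c x = 0}.Finite))
    (q : ℕ) (e : Fin q → Fin q → Γ → ℂ)
    (he_sum : ∀ i j, Summable (fun x => ‖e i j x‖))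
    (he_idem : ∀ i j x, ∑ l, ∑' y, e i l y * e l j (y⁻¹ * x) = e i j x) :
    ∃ F : Finset (ConjClasses Γ), (∀ g : Γ, ConjClasses.mk g ∈ F → IsOfFinOrder g) ∧
      ∀ g : Γ, ConjClasses.mk g ∉ F →
        HasSum (fun c : {c : Γ // IsConj g c} => ∑ i, e i i c.1) 0 := by
  classical
  refine fine_heis_multi_bass_stab K hconn hact δ hδ hfine hstab hcocpt (fun v => ?_) q e
    he_sum he_idem
  rcases hper v with ⟨A, hA, hfg, T, hT⟩ |
    ⟨X, instM, instA, hne, hiso, hCN, hproper, C, hC, hcoc⟩ | ⟨hfg, hcen⟩ |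
    ⟨m, a, b, c, ha, hb, hc, hfin⟩
  · refine ⟨fun g hgv hg => Or.inl ?_, virtAbelian_torsion_stab v A hA hfg T hT⟩
    exact virtAbelian_twist_stab v A hA T hT g hgv
      (fun k hk h1 => hg (isOfFinOrder_iff_pow_eq_one.mpr ⟨k, hk, h1⟩))
  · have : IsIsometricSMul (MulAction.stabilizer Γ v) X :=
      ⟨fun p => Isometry.of_dist_eq (hiso p)⟩
    refine ⟨fun g hgv hg => Or.inl ?_, ?_⟩
    · refine twist_of_stabilizer v g hgv ?_
      have hginf : ¬ IsOfFinOrder (⟨g, hgv⟩ : MulAction.stabilizer Γ v) := by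
        intro hfin
        obtain ⟨n, hn, hgn⟩ := isOfFinOrder_iff_pow_eq_one.mp hfin
        refine hg (isOfFinOrder_iff_pow_eq_one.mpr ⟨n, hn, ?_⟩)
        have := congrArg Subtype.val hgn
        simpa using this
      exact cn_twist hCN hproper C hC hcoc ⟨g, hgv⟩ hginf
    · exact torsion_of_stabilizer v (cn_torsion_classes hCN hproper C hC hcoc)
  · exact nil2_of_stabilizer v hfg hcen
  · exact multi_heis_of_stabilizer v m a b c ha hb hc hfin

end Vale.Agent.Lib.P184
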