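import Vale.Agent.Lib.P184.FineGraph

/-!
# Fineness via circuits gives finitely many arcs of bounded length
-/

namespace Vale.Agent.Lib.P184

open SimpleGraph

/-- Walks of length zero between two given vertices form a finite set. -/
theorem finePaths_len_zero {V : Type*} (K : SimpleGraph V) (u w : V) :
    {p : K.Walk u w | p.length = 0}.Finite := by
  apply Set.Subsingleton.finite
  intro p hp q hq
  simp only [Set.mem_ofPred_eq] at hp hq
  have huw : u = w := Walk.eq_of_length_eq_zero hp
  subst huw
  rw [Walk.length_eq_zero_iff, ← Walk.eq_nil_iff_nil] at hp hq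
  rw [hp, hq]

/-- The possible second vertices of short arcs from `u` to `w` are finitely many. -/
theorem finePaths_second_finite {V : Type*} (K : SimpleGraph V)
    (hfine : ∀ (u w : V), K.Adj u w → ∀ n : ℕ,
      {p : K.Walk u u | p.IsCycle ∧ s(u, w) ∈ p.edges ∧ p.length ≤ n}.Finite)
    (u w : V) (n : ℕ) :
    {u₁ : V | ∃ (_ : K.Adj u u₁) (p' : K.Walk u₁ w),
      p'.IsPath ∧ p'.length ≤ n ∧ u ∉ p'.support}.Finite := by
  classical
  rcases Set.eq_empty_or_nonempty {u₁ : V | ∃ (_ : K.Adj u u₁) (p' : K.Walk u₁ w),
      p'.IsPath ∧ p'.length ≤ n ∧ u ∉ p'.support} with hN | ⟨a₀, h₀, α₀, hα₀p, hα₀l, hα₀u⟩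
  · rw [hN]
    exact Set.finite_empty
  · refine Set.Finite.subset ((Set.Finite.image (fun c : K.Walk u u => c.getVert 1)
      (hfine u a₀ h₀ (2 * n + 2))).insert a₀) ?_
    rintro u₁ ⟨h, β, hβp, hβl, hβu⟩
    by_cases hne : u₁ = a₀
    · exact Set.mem_insert_iff.mpr (Or.inl hne)
    · refine Set.mem_insert_iff.mpr (Or.inr ?_)
      have hq_supp : u ∉ ((β.append α₀.reverse).bypass).support := by
        intro hmem
        have hmem2 := Walk.support_bypass_subset_support _ hmem
        rw [Walk.mem_support_append_iff, Walk.support_reverse, List.mem_reverse] at hmem2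
        exact hmem2.elim hβu hα₀u
      have hq_path : ((β.append α₀.reverse).bypass).IsPath := Walk.bypass_isPath _
      have hq_len : ((β.append α₀.reverse).bypass).length ≤ 2 * n := by
        have hle := Walk.length_bypass_le_length (β.append α₀.reverse)
        rw [Walk.length_append, Walk.length_reverse] at hle
        omega
      generalize (β.append α₀.reverse).bypass = q at hq_supp hq_path hq_len
      have hq'path : (q.concat h₀.symm).IsPath := hq_path.concat hq_supp h₀.symm
      have hedge : s(u, u₁) ∉ (q.concat h₀.symm).edges := by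
        rw [Walk.edges_concat, List.concat_eq_append, List.mem_append, List.mem_singleton]
        rintro (h1 | h1)
        · exact hq_supp (Walk.fst_mem_support_of_mem_edges q h1)
        · rw [Sym2.eq_iff] at h1
          rcases h1 with ⟨_, h3⟩ | ⟨_, h3⟩
          · exact h.ne h3.symm
          · exact hne h3
      have hcyc : (Walk.cons h (q.concat h₀.symm)).IsCycle :=
        (Walk.cons_isCycle_iff _ _).mpr ⟨hq'path, hedge⟩
      refine ⟨Walk.cons h (q.concat h₀.symm), ⟨hcyc, ?_, ?_⟩, ?_⟩
      · rw [Walk.edges_cons, Walk.edges_concat]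
        simp [Sym2.eq_swap]
      · rw [Walk.length_cons, Walk.length_concat]
        omega
      · simp

theorem fine_paths {V : Type*} (K : SimpleGraph V)
    (hfine : ∀ (u w : V), K.Adj u w → ∀ n : ℕ,
      {p : K.Walk u u | p.IsCycle ∧ s(u, w) ∈ p.edges ∧ p.length ≤ n}.Finite)
    (u w : V) (n : ℕ) : {p : K.Walk u w | p.IsPath ∧ p.length ≤ n}.Finite := by
  classical
  induction n generalizing u w with
  | zero =>
    refine Set.Finite.subset (finePaths_len_zero K u w) ?_
    rintro p ⟨_, hp⟩
    exact Nat.le_zero.mp hp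
  | succ n ih =>
    have hN := finePaths_second_finite K hfine u w n
    have hS : ∀ u₁ : V, {p : K.Walk u w | ∃ (h : K.Adj u u₁) (p' : K.Walk u₁ w),
        (p'.IsPath ∧ p'.length ≤ n) ∧ p = Walk.cons h p'}.Finite := by
      intro u₁
      by_cases h : K.Adj u u₁
      · refine Set.Finite.subset ((ih u₁ w).image (fun p' => Walk.cons h p')) ?_
        rintro p ⟨h', p', hp', rfl⟩
        exact ⟨p', hp', rfl⟩
      · refine Set.Finite.subset Set.finite_empty ?_
        rintro p ⟨h', _⟩
        exact absurd h' h
    refine Set.Finite.subset ((finePaths_len_zero K u w).union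
      (Set.Finite.biUnion hN (fun u₁ _ => hS u₁))) ?_
    rintro p ⟨hp, hl⟩
    cases p with
    | nil =>
      left
      rfl
    | cons h p' =>
      right
      rw [Walk.cons_isPath_iff] at hp
      rw [Walk.length_cons] at hl
      simp only [Set.mem_iUnion, Set.mem_ofPred_eq]
      exact ⟨_, ⟨h, p', hp.1, by omega, hp.2⟩, h, p', ⟨hp.1, by omega⟩, rfl⟩

end Vale.Agent.Lib.P184
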