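import Vale.Agent.Lib.P184.FineNil2

/-!
# Transfer of twisting families from vertex stabilisers

A twisting family for an element `g` of a group `P` consists of finitely many pairs of real
functions `a i`, `b i` and one real function `c` on `P` such that

* the left differences `a i (x * h) - a i h`, `b i (x * h) - b i h` and the second-order left
  difference `c (x * h) - c h - ∑ i, (a i (x * h) - a i h) * b i h` are bounded in `h` for
  every fixed `x`;
* under right multiplication by an element `z` commuting with `g` the functions `a i`, `b i`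
  change by constants and `c` changes by a constant plus `∑ i, a i h * (b i z - b i 1)`;
* `a i g = a i 1`, `b i g = b i 1` and `c g ≠ c 1`.

With no pairs this is a twisting function.  `fine_twisting_bass`: if a group acts on a fine
hyperbolic graph with finite edge stabilisers and finitely many orbits of edges, and every
vertex stabiliser has a twisting family for each of its elements of infinite order and finitely
many conjugacy classes of elements of finite order, then the statement of the `ℓ¹`-Bass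
conjecture holds for the group.
-/

namespace Vale.Agent.Lib.P184

open SimpleGraph

open scoped BigOperators

/-- Passage from a twisting family on the stabiliser subgroup to one on the ambient group. -/
theorem twisting_of_stabilizer {Γ V : Type*} [Group Γ] [MulAction Γ V] (v : V) (g : Γ)
    (hgv : g • v = v)
    (h : ∃ (m : ℕ) (a b : Fin m → MulAction.stabilizer Γ v → ℝ)
        (c : MulAction.stabilizer Γ v → ℝ),
      (∀ x, ∃ C : ℝ, ∀ h,
        (∀ i, |a i (x * h) - a i h| ≤ C ∧ |b i (x * h) - b i h| ≤ C) ∧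
          |c (x * h) - c h - ∑ i, (a i (x * h) - a i h) * b i h| ≤ C) ∧
      (∀ z, z * (⟨g, hgv⟩ : MulAction.stabilizer Γ v) = ⟨g, hgv⟩ * z → ∀ h,
        (∀ i, a i (h * z) - a i h = a i z - a i 1 ∧ b i (h * z) - b i h = b i z - b i 1) ∧
          c (h * z) - c h - ∑ i, a i h * (b i z - b i 1)
            = c z - c 1 - ∑ i, a i 1 * (b i z - b i 1)) ∧
      ((∀ i, a i ⟨g, hgv⟩ = a i 1 ∧ b i ⟨g, hgv⟩ = b i 1) ∧ c ⟨g, hgv⟩ ≠ c 1)) :
    ∃ (m : ℕ) (a b : Fin m → Γ → ℝ) (c : Γ → ℝ),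
      (∀ x : Γ, x • v = v → ∃ C : ℝ, ∀ h : Γ, h • v = v →
        (∀ i, |a i (x * h) - a i h| ≤ C ∧ |b i (x * h) - b i h| ≤ C) ∧
          |c (x * h) - c h - ∑ i, (a i (x * h) - a i h) * b i h| ≤ C) ∧
      (∀ z : Γ, z • v = v → z * g = g * z → ∀ h : Γ, h • v = v →
        (∀ i, a i (h * z) - a i h = a i z - a i 1 ∧ b i (h * z) - b i h = b i z - b i 1) ∧
          c (h * z) - c h - ∑ i, a i h * (b i z - b i 1)
            = c z - c 1 - ∑ i, a i 1 * (b i z - b i 1)) ∧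
      ((∀ i, a i g = a i 1 ∧ b i g = b i 1) ∧ c g ≠ c 1) := by
  classical
  obtain ⟨m, a, b, c, h1, h2, h3⟩ := h
  obtain ⟨A, hA⟩ : ∃ A : Fin m → Γ → ℝ,
      A = fun i h => if hh : h • v = v then a i ⟨h, hh⟩ else 0 := ⟨_, rfl⟩
  obtain ⟨B, hB⟩ : ∃ B : Fin m → Γ → ℝ,
      B = fun i h => if hh : h • v = v then b i ⟨h, hh⟩ else 0 := ⟨_, rfl⟩
  obtain ⟨C, hC⟩ : ∃ C : Γ → ℝ, C = fun h => if hh : h • v = v then c ⟨h, hh⟩ else 0 :=
    ⟨_, rfl⟩
  have hAv : ∀ i (h : Γ) (hh : h • v = v), A i h = a i ⟨h, hh⟩ := fun i h hh => by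
    rw [hA]; exact dif_pos hh
  have hBv : ∀ i (h : Γ) (hh : h • v = v), B i h = b i ⟨h, hh⟩ := fun i h hh => by
    rw [hB]; exact dif_pos hh
  have hCv : ∀ (h : Γ) (hh : h • v = v), C h = c ⟨h, hh⟩ := fun h hh => by
    rw [hC]; exact dif_pos hh
  have h1v : (1 : Γ) • v = v := one_smul _ _
  have hmulv : ∀ x h : Γ, x • v = v → h • v = v → (x * h) • v = v := fun x h hx hh => by
    rw [mul_smul, hh, hx]
  have hone : (⟨1, h1v⟩ : MulAction.stabilizer Γ v) = 1 := rfl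
  have hmk : ∀ (x h : Γ) (hx : x • v = v) (hh : h • v = v),
      (⟨x * h, hmulv x h hx hh⟩ : MulAction.stabilizer Γ v) = ⟨x, hx⟩ * ⟨h, hh⟩ := fun _ _ _ _ => rfl
  refine ⟨m, A, B, C, fun x hx => ?_, fun z hz hzg h hh => ?_, ?_⟩
  · obtain ⟨D, hD⟩ := h1 ⟨x, hx⟩
    refine ⟨D, fun h hh => ?_⟩
    have key := hD ⟨h, hh⟩
    have e1 : ∑ i, (A i (x * h) - A i h) * B i h
        = ∑ i, (a i (⟨x, hx⟩ * ⟨h, hh⟩) - a i ⟨h, hh⟩) * b i ⟨h, hh⟩ :=
      Finset.sum_congr rfl (fun i _ => by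
        rw [hAv i _ (hmulv x h hx hh), hAv i h hh, hBv i h hh, hmk x h hx hh])
    refine ⟨fun i => ⟨?_, ?_⟩, ?_⟩
    · rw [hAv i _ (hmulv x h hx hh), hAv i h hh, hmk x h hx hh]
      exact (key.1 i).1
    · rw [hBv i _ (hmulv x h hx hh), hBv i h hh, hmk x h hx hh]
      exact (key.1 i).2
    · rw [e1, hCv _ (hmulv x h hx hh), hCv h hh, hmk x h hx hh]
      exact key.2
  · have key := h2 ⟨z, hz⟩ (Subtype.ext hzg) ⟨h, hh⟩
    have e1 : ∑ i, A i h * (B i z - B i 1)
        = ∑ i, a i ⟨h, hh⟩ * (b i ⟨z, hz⟩ - b i 1) :=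
      Finset.sum_congr rfl (fun i _ => by
        rw [hAv i h hh, hBv i z hz, hBv i 1 h1v, hone])
    have e2 : ∑ i, A i 1 * (B i z - B i 1)
        = ∑ i, a i 1 * (b i ⟨z, hz⟩ - b i 1) :=
      Finset.sum_congr rfl (fun i _ => by
        rw [hAv i 1 h1v, hBv i z hz, hBv i 1 h1v, hone])
    refine ⟨fun i => ⟨?_, ?_⟩, ?_⟩
    · rw [hAv i _ (hmulv h z hh hz), hAv i h hh, hAv i z hz, hAv i 1 h1v, hmk h z hh hz, hone]
      exact (key.1 i).1
    · rw [hBv i _ (hmulv h z hh hz), hBv i h hh, hBv i z hz, hBv i 1 h1v, hmk h z hh hz, hone]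
      exact (key.1 i).2
    · rw [e1, e2, hCv _ (hmulv h z hh hz), hCv h hh, hCv z hz, hCv 1 h1v, hmk h z hh hz, hone]
      exact key.2
  · refine ⟨fun i => ⟨?_, ?_⟩, ?_⟩
    · rw [hAv i g hgv, hAv i 1 h1v, hone]
      exact (h3.1 i).1
    · rw [hBv i g hgv, hBv i 1 h1v, hone]
      exact (h3.1 i).2
    · rw [hCv g hgv, hCv 1 h1v, hone]
      exact h3.2

theorem fine_twisting_bass {Γ V : Type*} [Group Γ] [MulAction Γ V] (K : SimpleGraph V)
    (hconn : K.Connected)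
    (hact : ∀ (γ : Γ) (u w : V), K.Adj u w → K.Adj (γ • u) (γ • w))
    (δ : ℝ) (hδ : ∀ x y z w : V, (K.dist x z : ℝ) + K.dist y w
      ≤ max ((K.dist x y : ℝ) + K.dist z w) ((K.dist x w : ℝ) + K.dist y z) + 2 * δ)
    (hfine : ∀ (u w : V), K.Adj u w → ∀ n : ℕ,
      {p : K.Walk u u | p.IsCycle ∧ s(u, w) ∈ p.edges ∧ p.length ≤ n}.Finite)
    (hstab : ∀ u w : V, K.Adj u w → {γ : Γ | γ • u = u ∧ γ • w = w}.Finite)
    (hcocpt : ∃ F : Finset (V × V), ∀ u w : V, K.Adj u w → ∃ γ : Γ, (γ • u, γ • w) ∈ F)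
    (hper : ∀ v : V,
      (∀ g : MulAction.stabilizer Γ v, ¬ IsOfFinOrder g →
        ∃ (m : ℕ) (a b : Fin m → MulAction.stabilizer Γ v → ℝ)
            (c : MulAction.stabilizer Γ v → ℝ),
          (∀ x, ∃ C : ℝ, ∀ h,
            (∀ i, |a i (x * h) - a i h| ≤ C ∧ |b i (x * h) - b i h| ≤ C) ∧
              |c (x * h) - c h - ∑ i, (a i (x * h) - a i h) * b i h| ≤ C) ∧
          (∀ z, z * g = g * z → ∀ h,
            (∀ i, a i (h * z) - a i h = a i z - a i 1 ∧ b i (h * z) - b i h = b i z - b i 1) ∧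
              c (h * z) - c h - ∑ i, a i h * (b i z - b i 1)
                = c z - c 1 - ∑ i, a i 1 * (b i z - b i 1)) ∧
          ((∀ i, a i g = a i 1 ∧ b i g = b i 1) ∧ c g ≠ c 1)) ∧
      ∃ T : Finset (MulAction.stabilizer Γ v),
        ∀ h : MulAction.stabilizer Γ v, IsOfFinOrder h → ∃ t ∈ T, IsConj t h)
    (q : ℕ) (e : Fin q → Fin q → Γ → ℂ)
    (he_sum : ∀ i j, Summable (fun x => ‖e i j x‖))
    (he_idem : ∀ i j x, ∑ l, ∑' y, e i l y * e l j (y⁻¹ * x) = e i j x) :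
    ∃ F : Finset (ConjClasses Γ), (∀ g : Γ, ConjClasses.mk g ∈ F → IsOfFinOrder g) ∧
      ∀ g : Γ, ConjClasses.mk g ∉ F →
        HasSum (fun c : {c : Γ // IsConj g c} => ∑ i, e i i c.1) 0 := by
  classical
  refine fine_heis_multi_bass_stab K hconn hact δ hδ hfine hstab hcocpt (fun v => ?_) q e
    he_sum he_idem
  refine ⟨fun g hgv hg => Or.inr ?_, torsion_of_stabilizer v (hper v).2⟩
  have hginf : ¬ IsOfFinOrder (⟨g, hgv⟩ : MulAction.stabilizer Γ v) := by
    intro hfin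
    obtain ⟨n, hn, hgn⟩ := isOfFinOrder_iff_pow_eq_one.mp hfin
    refine hg (isOfFinOrder_iff_pow_eq_one.mpr ⟨n, hn, ?_⟩)
    have := congrArg Subtype.val hgn
    simpa using this
  exact twisting_of_stabilizer v g hgv ((hper v).1 ⟨g, hgv⟩ hginf)

end Vale.Agent.Lib.P184
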