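import Vale.Agent.Lib.P184.FineMain
import Vale.Agent.Lib.P184.FineClassify
import Vale.Agent.Lib.P184.VirtAbelianStab

/-!
# Groups hyperbolic relative to virtually abelian subgroups

`fine_virtAbelian_class_trace`: for a group acting on a connected fine hyperbolic graph with
finite edge stabilisers and finitely many orbits of edges, such that every vertex stabiliser is
covered by finitely many cosets of a commutative subgroup, the Hattori-Stallings coefficients of
idempotent matrices vanish at the class of every element whose image has infinite order.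
-/

namespace Vale.Agent.Lib.P184

open scoped BigOperators

theorem fine_virtAbelian_class_trace {G : Type*} [Group G] {Γ V : Type*} [Group Γ]
    [MulAction Γ V] (φ : G →* Γ) (K : SimpleGraph V) (hconn : K.Connected)
    (hact : ∀ (γ : Γ) (u w : V), K.Adj u w → K.Adj (γ • u) (γ • w))
    (δ : ℝ) (hδ : ∀ x y z w : V, (K.dist x z : ℝ) + K.dist y w
      ≤ max ((K.dist x y : ℝ) + K.dist z w) ((K.dist x w : ℝ) + K.dist y z) + 2 * δ)
    (hfine : ∀ (u w : V), K.Adj u w → ∀ n : ℕ,
      {p : K.Walk u u | p.IsCycle ∧ s(u, w) ∈ p.edges ∧ p.length ≤ n}.Finite)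
    (hstab : ∀ u w : V, K.Adj u w → {γ : Γ | γ • u = u ∧ γ • w = w}.Finite)
    (hcocpt : ∃ F : Finset (V × V), ∀ u w : V, K.Adj u w → ∃ γ : Γ, (γ • u, γ • w) ∈ F)
    (hva : ∀ v : V, ∃ A : Subgroup Γ, (∀ a ∈ A, ∀ b ∈ A, a * b = b * a) ∧
      ∃ T : Finset Γ, ∀ h : Γ, h • v = v → ∃ t ∈ T, t⁻¹ * h ∈ A)
    (q : ℕ) (e : Fin q → Fin q → G → ℂ)
    (he_sum : ∀ i j, Summable (fun x => ‖e i j x‖))
    (he_idem : ∀ i j x, ∑ l, ∑' y, e i l y * e l j (y⁻¹ * x) = e i j x)
    (g : G) (hg : ∀ k : ℕ, 0 < k → φ g ^ k ≠ 1) :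
    HasSum (fun c : {c : G // IsConj g c} => ∑ i, e i i c.1) 0 := by
  classical
  have hpaths := fine_paths K hfine
  rcases fine_classification K hconn hact δ hδ hfine hstab hcocpt (φ g) hg
    with ⟨v, hgv⟩ | ⟨x₀, ε, hε, hlox⟩
  · obtain ⟨A, hA, T, hT⟩ := hva v
    obtain ⟨ψ, hψ1, hψ2, hψ3⟩ := virtAbelian_twist_stab v A hA T hT (φ g) hgv hg
    exact fine_parabolic_class_trace φ K hconn hact δ hδ hpaths hstab hcocpt g v hgv ψ
      hψ1 hψ2 hψ3 q e he_sum he_idem
  · exact fine_lox_class_trace φ K hconn hact δ hδ hpaths hstab g x₀ ε hε hlox q e he_sum he_idem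

end Vale.Agent.Lib.P184
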