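import Vale.Agent.Lib.P184.Abel

/-!
# Finite-index refinements

* `matrix_class_trace_fi`: in the vanishing theorem it suffices that the twisting function is
  equivariant under a finite-index subgroup of the centralizer of `g` containing `g` (one averages
  over the finitely many cosets).
* `virtual_abelianization_class_trace`: the coefficient at the class of `g` vanishes as soon as `g`
  has infinite order in the abelianization of some finite-index subgroup containing `g`.
-/

namespace Vale.Agent.Lib.P184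

open scoped BigOperators Topology

theorem matrix_class_trace_fi {G : Type*} [Group G] (q : ℕ) (e : Fin q → Fin q → G → ℂ)
    (he_sum : ∀ i j, Summable (fun x => ‖e i j x‖))
    (he_idem : ∀ i j x, ∑ l, ∑' y, e i l y * e l j (y⁻¹ * x) = e i j x)
    (g : G) (ψ : G → ℝ)
    (hψ1 : ∀ m, ∃ K, ∀ h, |ψ (m * h) - ψ h| ≤ K)
    (Z₀ : Subgroup (Subgroup.centralizer ({g} : Set G))) [Z₀.FiniteIndex]
    (hgZ : ∃ z ∈ Z₀, (z : G) = g)
    (hψ2 : ∀ z ∈ Z₀, ∀ h : G, ψ (h * (z : G)) - ψ h = ψ (z : G) - ψ 1)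
    (hψ3 : ψ g ≠ ψ 1) :
    HasSum (fun c : {c : G // IsConj g c} => ∑ i, e i i c.1) 0 := by
  classical
  have : Fintype (Subgroup.centralizer ({g} : Set G) ⧸ Z₀) :=
    Subgroup.fintypeQuotientOfFiniteIndex
  obtain ⟨zc, hzc⟩ : ∃ zc : Subgroup.centralizer ({g} : Set G) →
      (Subgroup.centralizer ({g} : Set G) ⧸ Z₀) → Subgroup.centralizer ({g} : Set G),
      zc = fun z q => (z • q).out⁻¹ * (z * q.out) := ⟨_, rfl⟩
  have hzc_mem : ∀ z q, zc z q ∈ Z₀ := by
    intro z q
    rw [hzc]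
    have h1 : (((z • q).out : Subgroup.centralizer ({g} : Set G)) :
        Subgroup.centralizer ({g} : Set G) ⧸ Z₀) = ((z * q.out : Subgroup.centralizer ({g} : Set G)) :
        Subgroup.centralizer ({g} : Set G) ⧸ Z₀) := by
      rw [QuotientGroup.out_eq']
      conv_lhs => rw [← QuotientGroup.out_eq' q]
      rfl
    exact QuotientGroup.eq.mp h1
  have hzc_eq : ∀ z q, z * q.out = (z • q).out * zc z q := by
    intro z q
    rw [hzc]
    simp
  obtain ⟨ψ', hψ'⟩ : ∃ ψ' : G → ℝ, ψ' = fun x =>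
      ∑ q : Subgroup.centralizer ({g} : Set G) ⧸ Z₀, ψ (x * ((q.out :
        Subgroup.centralizer ({g} : Set G)) : G)) := ⟨_, rfl⟩
  have hkey : ∀ (z : Subgroup.centralizer ({g} : Set G)) (x : G),
      ψ' (x * (z : G)) - ψ' x
        = ∑ q : Subgroup.centralizer ({g} : Set G) ⧸ Z₀, (ψ ((zc z q : _) : G) - ψ 1) := by
    intro z x
    have h1 : ∀ q : Subgroup.centralizer ({g} : Set G) ⧸ Z₀,
        ψ (x * (z : G) * ((q.out : Subgroup.centralizer ({g} : Set G)) : G))
          = ψ (x * (((z • q).out : Subgroup.centralizer ({g} : Set G)) : G))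
            + (ψ ((zc z q : _) : G) - ψ 1) := by
      intro q
      have h2 := hψ2 (zc z q) (hzc_mem z q)
        (x * (((z • q).out : Subgroup.centralizer ({g} : Set G)) : G))
      have h3 := congrArg (fun y : Subgroup.centralizer ({g} : Set G) => (y : G)) (hzc_eq z q)
      simp only [Subgroup.coe_mul] at h3
      have e1 : x * (z : G) * ((q.out : Subgroup.centralizer ({g} : Set G)) : G)
          = x * (((z • q).out : Subgroup.centralizer ({g} : Set G)) : G)
            * ((zc z q : _) : G) := by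
        rw [mul_assoc, h3, mul_assoc]
      rw [e1]
      linarith
    have h4 := Equiv.sum_comp (MulAction.toPerm z :
        Equiv.Perm (Subgroup.centralizer ({g} : Set G) ⧸ Z₀))
      (fun q => ψ (x * ((q.out : Subgroup.centralizer ({g} : Set G)) : G)))
    simp only [MulAction.toPerm_apply] at h4
    rw [hψ']
    simp only
    rw [Finset.sum_congr rfl (fun q _ => h1 q), Finset.sum_add_distrib, h4]
    ring
  have hcard : 0 < Fintype.card (Subgroup.centralizer ({g} : Set G) ⧸ Z₀) := Fintype.card_pos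
  refine matrix_class_trace q e he_sum he_idem g ψ' ?_ ?_ ?_
  · intro m
    obtain ⟨K, hK⟩ := hψ1 m
    refine ⟨Fintype.card (Subgroup.centralizer ({g} : Set G) ⧸ Z₀) * K, fun h => ?_⟩
    rw [hψ']
    simp only
    rw [← Finset.sum_sub_distrib]
    refine (Finset.abs_sum_le_sum_abs _ _).trans ?_
    have h1 : ∀ q ∈ (Finset.univ : Finset (Subgroup.centralizer ({g} : Set G) ⧸ Z₀)),
        |ψ (m * h * ((q.out : Subgroup.centralizer ({g} : Set G)) : G))
          - ψ (h * ((q.out : Subgroup.centralizer ({g} : Set G)) : G))| ≤ K := by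
      intro q _
      rw [mul_assoc]
      exact hK _
    refine (Finset.sum_le_sum h1).trans (le_of_eq ?_)
    simp
  · intro z hz h
    have hzmem : z ∈ Subgroup.centralizer ({g} : Set G) :=
      Subgroup.mem_centralizer_singleton_iff.mpr hz
    have h1 := hkey ⟨z, hzmem⟩ h
    have h2 := hkey ⟨z, hzmem⟩ 1
    simp only [one_mul] at h2
    simp only at h1
    rw [h1, h2]
  · obtain ⟨zg, hzg, hzg_eq⟩ := hgZ
    have h1 := hkey zg 1
    rw [one_mul, hzg_eq] at h1
    have h2 : ∀ q : Subgroup.centralizer ({g} : Set G) ⧸ Z₀, zc zg q = zg := by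
      intro q
      have hcomm : zg * q.out = q.out * zg := by
        apply Subtype.ext
        simp only [Subgroup.coe_mul, hzg_eq]
        exact (Subgroup.mem_centralizer_singleton_iff.mp q.out.2).symm
      have hfix : zg • q = q := by
        conv_lhs => rw [← QuotientGroup.out_eq' q]
        have : (zg • ((q.out : Subgroup.centralizer ({g} : Set G)) :
            Subgroup.centralizer ({g} : Set G) ⧸ Z₀)) = ((zg * q.out :
            Subgroup.centralizer ({g} : Set G)) : Subgroup.centralizer ({g} : Set G) ⧸ Z₀) := rfl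
        rw [this, hcomm, QuotientGroup.mk_mul_of_mem _ hzg, QuotientGroup.out_eq']
      rw [hzc]
      simp only
      rw [hfix, hcomm]
      simp
    simp only [h2, hzg_eq, Finset.sum_const, Finset.card_univ, nsmul_eq_mul] at h1
    intro h
    rw [h, sub_self] at h1
    have h3 : (Fintype.card (Subgroup.centralizer ({g} : Set G) ⧸ Z₀) : ℝ) ≠ 0 := by
      exact_mod_cast hcard.ne'
    rcases mul_eq_zero.mp h1.symm with h4 | h4
    · exact h3 h4
    · exact hψ3 (sub_eq_zero.mp h4)

theorem virtual_abelianization_class_trace {G : Type*} [Group G] (q : ℕ)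
    (e : Fin q → Fin q → G → ℂ)
    (he_sum : ∀ i j, Summable (fun x => ‖e i j x‖))
    (he_idem : ∀ i j x, ∑ l, ∑' y, e i l y * e l j (y⁻¹ * x) = e i j x)
    (H : Subgroup G) [H.FiniteIndex] (g : H)
    (hg : ¬ IsOfFinOrder (Abelianization.of g)) :
    HasSum (fun c : {c : G // IsConj (g : G) c} => ∑ i, e i i c.1) 0 := by
  classical
  have : Fintype (G ⧸ H) := Subgroup.fintypeQuotientOfFiniteIndex
  obtain ⟨φ, hφ, hφg⟩ := exists_hom_real g hg
  have hφ1 : φ 1 = 0 := by
    have := hφ 1 1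
    rw [one_mul] at this
    linarith
  -- the `H`-part of an element of `G` with respect to the chosen coset representatives
  have hmem : ∀ x : G, ((x : G ⧸ H).out)⁻¹ * x ∈ H := fun x =>
    QuotientGroup.eq.mp (QuotientGroup.out_eq' (x : G ⧸ H))
  obtain ⟨ψ, hψ⟩ : ∃ ψ : G → ℝ, ψ = fun x : G => φ ⟨((x : G ⧸ H).out)⁻¹ * x, hmem x⟩ := ⟨_, rfl⟩
  -- right multiplication by elements of `H`
  have hright : ∀ (x : G) (z : H), ψ (x * (z : G)) = ψ x + φ z := by
    intro x z
    rw [hψ]
    simp only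
    have h1 : ((x * (z : G) : G) : G ⧸ H) = (x : G ⧸ H) := QuotientGroup.mk_mul_of_mem x z.2
    have h2 : (⟨((x * (z : G) : G) : G ⧸ H).out⁻¹ * (x * (z : G)), hmem _⟩ : H)
        = ⟨((x : G ⧸ H).out)⁻¹ * x, hmem x⟩ * z := by
      apply Subtype.ext
      simp only [Subgroup.coe_mul]
      rw [h1, mul_assoc]
    rw [h2, hφ]
  have hψ1' : ψ 1 = - φ ⟨((1 : G) : G ⧸ H).out, by
      have := hmem 1
      rw [mul_one] at this
      exact (Subgroup.inv_mem_iff H).mp this⟩ := by
    rw [hψ]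
    simp only
    have h0 := hmem 1
    rw [mul_one] at h0
    have h1 : (⟨((1 : G) : G ⧸ H).out⁻¹ * 1, hmem 1⟩ : H)
        = (⟨((1 : G) : G ⧸ H).out, (Subgroup.inv_mem_iff H).mp h0⟩ : H)⁻¹ := by
      apply Subtype.ext
      simp
    rw [h1]
    have h2 := hφ (⟨((1 : G) : G ⧸ H).out, (Subgroup.inv_mem_iff H).mp h0⟩ : H)⁻¹
      ⟨((1 : G) : G ⧸ H).out, (Subgroup.inv_mem_iff H).mp h0⟩
    rw [inv_mul_cancel, hφ1] at h2
    linarith
  have hψH : ∀ z : H, ψ (z : G) - ψ 1 = φ z := by
    intro z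
    have h1 := hright 1 z
    rw [one_mul] at h1
    rw [h1]
    ring
  -- left multiplication
  have hleft : ∀ (m x : G), ψ (m * x) - ψ x
      = φ ⟨((m * (x : G ⧸ H).out : G) : G ⧸ H).out⁻¹ * (m * (x : G ⧸ H).out), hmem _⟩ := by
    intro m x
    have h1 := hright (m * (x : G ⧸ H).out) ⟨((x : G ⧸ H).out)⁻¹ * x, hmem x⟩
    have h2 : m * (x : G ⧸ H).out * ((⟨((x : G ⧸ H).out)⁻¹ * x, hmem x⟩ : H) : G) = m * x := by
      simp [mul_assoc]
    rw [h2] at h1
    have h3 : ψ (m * (x : G ⧸ H).out)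
        = φ ⟨((m * (x : G ⧸ H).out : G) : G ⧸ H).out⁻¹ * (m * (x : G ⧸ H).out), hmem _⟩ := by
      rw [hψ]
    have h4 : ψ x = φ ⟨((x : G ⧸ H).out)⁻¹ * x, hmem x⟩ := by rw [hψ]
    rw [h1, h3, h4]
    ring
  refine matrix_class_trace_fi q e he_sum he_idem (g : G) ψ ?_
    (H.subgroupOf (Subgroup.centralizer ({(g : G)} : Set G))) ?_ ?_ ?_
  · intro m
    refine ⟨∑ t : G ⧸ H, |φ ⟨((m * t.out : G) : G ⧸ H).out⁻¹ * (m * t.out), hmem _⟩|,
      fun x => ?_⟩
    rw [hleft m x]
    exact Finset.single_le_sum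
      (f := fun t : G ⧸ H => |φ ⟨((m * t.out : G) : G ⧸ H).out⁻¹ * (m * t.out), hmem _⟩|)
      (fun _ _ => abs_nonneg _) (Finset.mem_univ (x : G ⧸ H))
  · exact ⟨⟨(g : G), Subgroup.mem_centralizer_singleton_iff.mpr rfl⟩,
      Subgroup.mem_subgroupOf.mpr g.2, rfl⟩
  · intro z hz h
    have hzH : (z : G) ∈ H := Subgroup.mem_subgroupOf.mp hz
    have h1 := hright h ⟨(z : G), hzH⟩
    have h2 := hψH ⟨(z : G), hzH⟩
    simp only at h1 h2
    rw [h1, h2]
    ring
  · have h1 := hψH g
    intro h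
    rw [h, sub_self] at h1
    exact hφg h1.symm

end Vale.Agent.Lib.P184
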