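import Vale.Agent.Lib.P184.Trace

/-!
# Kernels with finite moments of all orders

For a weight `W` of polynomial type on a group (at least one, quasi-subadditive), the dominated
invariant kernels whose dominating weight has finite moments of all orders against `W` form a
subring `SKer g W` of the ring `DKer G R g`.
-/

namespace Vale.Agent.Lib.P184

open scoped BigOperators Topology

/-- A weight of polynomial type on a group: at least one and quasi-subadditive. -/
structure PWeight (G : Type*) [Group G] where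
  w : G → ℝ
  one_le : ∀ x, 1 ≤ w x
  quasi : ∀ x y, w (x * y) ≤ 2 * (w x + w y)

variable {G : Type*} [Group G] {R : Type*} [NormedRing R]

theorem PWeight.pos (W : PWeight G) (x : G) : 0 < W.w x := lt_of_lt_of_le one_pos (W.one_le x)

theorem PWeight.one_le_pow (W : PWeight G) (x : G) (s : ℕ) : 1 ≤ W.w x ^ s :=
  one_le_pow₀ (W.one_le x)

theorem PWeight.pow_le (W : PWeight G) (x y : G) (s : ℕ) :
    W.w (x * y) ^ s ≤ 4 ^ s * (W.w x ^ s + W.w y ^ s) := by
  have hx := (W.pos x).le
  have hy := (W.pos y).le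
  have h1 : W.w (x * y) ^ s ≤ (2 * (W.w x + W.w y)) ^ s :=
    pow_le_pow_left₀ (W.pos _).le (W.quasi x y) s
  have h2 : (W.w x + W.w y) ^ s ≤ 2 ^ s * (W.w x ^ s + W.w y ^ s) := by
    rcases le_total (W.w x) (W.w y) with h | h
    · calc (W.w x + W.w y) ^ s ≤ (2 * W.w y) ^ s :=
            pow_le_pow_left₀ (add_nonneg hx hy) (by linarith) s
        _ = 2 ^ s * W.w y ^ s := mul_pow _ _ _
        _ ≤ 2 ^ s * (W.w x ^ s + W.w y ^ s) :=
            mul_le_mul_of_nonneg_left (le_add_of_nonneg_left (pow_nonneg hx s)) (by positivity)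
    · calc (W.w x + W.w y) ^ s ≤ (2 * W.w x) ^ s :=
            pow_le_pow_left₀ (add_nonneg hx hy) (by linarith) s
        _ = 2 ^ s * W.w x ^ s := mul_pow _ _ _
        _ ≤ 2 ^ s * (W.w x ^ s + W.w y ^ s) :=
            mul_le_mul_of_nonneg_left (le_add_of_nonneg_right (pow_nonneg hy s)) (by positivity)
  calc W.w (x * y) ^ s ≤ (2 * (W.w x + W.w y)) ^ s := h1
    _ = 2 ^ s * (W.w x + W.w y) ^ s := mul_pow _ _ _
    _ ≤ 2 ^ s * (2 ^ s * (W.w x ^ s + W.w y ^ s)) :=
        mul_le_mul_of_nonneg_left h2 (by positivity)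
    _ = 4 ^ s * (W.w x ^ s + W.w y ^ s) := by
        rw [← mul_assoc, ← mul_pow]
        norm_num

/-- The moments of a convolution of weights. -/
theorem wconv_moment (W : PWeight G) {u v : G → ℝ} (hu0 : ∀ x, 0 ≤ u x) (hv0 : ∀ x, 0 ≤ v x)
    (hu : Summable u) (hv : Summable v) (s : ℕ)
    (hus : Summable (fun x => u x * W.w x ^ s)) (hvs : Summable (fun x => v x * W.w x ^ s)) :
    Summable (fun x => wconv u v x * W.w x ^ s) ∧
      ∑' x, wconv u v x * W.w x ^ s ≤ 4 ^ s * ((∑' x, u x * W.w x ^ s) * (∑' x, v x)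
        + (∑' x, u x) * (∑' x, v x * W.w x ^ s)) := by
  have hus0 : ∀ x, 0 ≤ u x * W.w x ^ s := fun x => mul_nonneg (hu0 x) (pow_nonneg (W.pos x).le s)
  have hvs0 : ∀ x, 0 ≤ v x * W.w x ^ s := fun x => mul_nonneg (hv0 x) (pow_nonneg (W.pos x).le s)
  have h1 := summable_wconv hus hv hus0 hv0
  have h2 := summable_wconv hu hvs hu0 hvs0
  have hsum : Summable (fun x => 4 ^ s * (wconv (fun x => u x * W.w x ^ s) v x
      + wconv u (fun x => v x * W.w x ^ s) x)) := (h1.add h2).mul_left _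
  have hle : ∀ x, wconv u v x * W.w x ^ s ≤ 4 ^ s * (wconv (fun x => u x * W.w x ^ s) v x
      + wconv u (fun x => v x * W.w x ^ s) x) := by
    intro x
    have hr0 : Summable (fun y => u (x * y⁻¹) * v y) :=
      (summable_shear hu hv hu0 hv0).prod_factor x
    have hr1 : Summable (fun y => u (x * y⁻¹) * W.w (x * y⁻¹) ^ s * v y) :=
      (summable_shear hus hv hus0 hv0).prod_factor x
    have hr2 : Summable (fun y => u (x * y⁻¹) * (v y * W.w y ^ s)) :=
      (summable_shear hu hvs hu0 hvs0).prod_factor x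
    unfold wconv
    rw [← tsum_mul_right, ← hr1.tsum_add hr2, ← tsum_mul_left]
    refine (hr0.mul_right _).tsum_le_tsum (fun y => ?_) ((hr1.add hr2).mul_left _)
    have h3 := W.pow_le (x * y⁻¹) y s
    rw [inv_mul_cancel_right] at h3
    have h4 : 0 ≤ u (x * y⁻¹) * v y := mul_nonneg (hu0 _) (hv0 _)
    calc u (x * y⁻¹) * v y * W.w x ^ s
        ≤ u (x * y⁻¹) * v y * (4 ^ s * (W.w (x * y⁻¹) ^ s + W.w y ^ s)) :=
          mul_le_mul_of_nonneg_left h3 h4
      _ = 4 ^ s * (u (x * y⁻¹) * W.w (x * y⁻¹) ^ s * v y + u (x * y⁻¹) * (v y * W.w y ^ s)) := by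
          ring
  have hnn : ∀ x, 0 ≤ wconv u v x * W.w x ^ s := fun x =>
    mul_nonneg (wconv_nonneg hu0 hv0 x) (pow_nonneg (W.pos x).le s)
  have hS : Summable (fun x => wconv u v x * W.w x ^ s) :=
    Summable.of_nonneg_of_le hnn hle hsum
  refine ⟨hS, ?_⟩
  calc ∑' x, wconv u v x * W.w x ^ s
      ≤ ∑' x, 4 ^ s * (wconv (fun x => u x * W.w x ^ s) v x
          + wconv u (fun x => v x * W.w x ^ s) x) := hS.tsum_le_tsum hle hsum
    _ = 4 ^ s * ((∑' x, u x * W.w x ^ s) * (∑' x, v x)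
          + (∑' x, u x) * (∑' x, v x * W.w x ^ s)) := by
        rw [tsum_mul_left, h1.tsum_add h2, tsum_wconv hus hv hus0 hv0,
          tsum_wconv hu hvs hu0 hvs0]

/-- `SDom W u K`: the kernel `K` is dominated by the weight `u`, all of whose moments against
`W` are finite. -/
def SDom (W : PWeight G) (u : G → ℝ) (K : G → G → R) : Prop :=
  Dom u K ∧ ∀ s : ℕ, Summable (fun x => u x * W.w x ^ s)

theorem SDom.summable {W : PWeight G} {u : G → ℝ} {K : G → G → R} (h : SDom W u K) :
    Summable u := h.1.2.1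

variable [CompleteSpace R] {g : G}

/-- The subring of kernels with finite moments of all orders. -/
def SKer (g : G) (W : PWeight G) : Subring (DKer G R g) where
  carrier := {A | ∃ u, SDom W u A.K}
  mul_mem' := by
    rintro A B ⟨u, hu, hus⟩ ⟨v, hv, hvs⟩
    exact ⟨wconv u v, hu.mul hv, fun s =>
      (wconv_moment W hu.1 hv.1 hu.2.1 hv.2.1 s (hus s) (hvs s)).1⟩
  one_mem' := by
    classical
    refine ⟨fun x => if x = 1 then ‖(1 : R)‖ else 0, ⟨fun x => ?_, ?_, fun k h => ?_⟩, fun s => ?_⟩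
    · dsimp only
      split_ifs <;> simp
    · exact summable_of_ne_finset_zero (s := {1}) (fun b hb => by simp at hb; simp [hb])
    · rw [DKer.one_K]
      by_cases hkh : k = h
      · subst hkh; simp
      · have : k * h⁻¹ ≠ 1 := fun hh => hkh (mul_inv_eq_one.mp hh)
        simp [hkh, this]
    · exact summable_of_ne_finset_zero (s := {1}) (fun b hb => by simp at hb; simp [hb])
  add_mem' := by
    rintro A B ⟨u, hu, hus⟩ ⟨v, hv, hvs⟩
    refine ⟨fun x => u x + v x, hu.add hv, fun s => ?_⟩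
    have := (hus s).add (hvs s)
    refine this.congr (fun x => ?_)
    ring
  zero_mem' := ⟨fun _ => 0, ⟨fun _ => le_rfl, summable_zero, fun _ _ => by simp⟩,
    fun s => by simp [summable_zero]⟩
  neg_mem' := by
    rintro A ⟨u, hu, hus⟩
    exact ⟨u, hu.neg, hus⟩

theorem mem_SKer (W : PWeight G) (A : DKer G R g) : A ∈ SKer g W ↔ ∃ u, SDom W u A.K := Iff.rfl

end Vale.Agent.Lib.P184
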