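import Vale.Agent.Lib.P184.Main

/-!
# Limits of approximate idempotents; close idempotents have equal class trace

Two soft facts about the ring of dominated invariant kernels: a kernel which is approximated
(in dominated mass) by approximately idempotent kernels of bounded mass is idempotent, and two
idempotents whose difference has dominated mass less than one have the same class trace.
-/

namespace Vale.Agent.Lib.P184

open scoped BigOperators Topology
open Filter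

variable {G : Type*} [Group G] {R : Type*} [NormedRing R] [CompleteSpace R] {g : G}

omit [CompleteSpace R] in
/-- Every value of a dominated kernel is bounded by the total mass of the weight. -/
theorem idempotent_of_approx_norm_le {w : G → ℝ} {K : G → G → R} (hK : Dom w K) (k h : G) :
    ‖K k h‖ ≤ ∑' x, w x :=
  (hK.2.2 k h).trans (hK.le_tsum _)

/-- The quantitative estimate behind `idempotent_of_approx`. -/
theorem idempotent_of_approx_bound (E' a : DKer G R g) (B ε : ℝ) (hε1 : ε ≤ 1)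
    (f ρ t : G → ℝ) (hf : Dom f a.K) (hfB : ∑' x, f x ≤ B)
    (hρ : Dom ρ (a * a - a).K) (hρε : ∑' x, ρ x ≤ ε) (ht : Dom t (E' - a).K)
    (htε : ∑' x, t x ≤ ε) (k h' : G) :
    ‖(E' * E' - E').K k h'‖ ≤ ε * (3 + 2 * B) := by
  have hid : E' * E' - E'
      = (a * a - a) + a * (E' - a) + (E' - a) * a + (E' - a) * (E' - a) - (E' - a) := by
    noncomm_ring
  have h1 : ‖(a * a - a).K k h'‖ ≤ ∑' x, ρ x := idempotent_of_approx_norm_le hρ k h'
  have h2 : ‖(a * (E' - a)).K k h'‖ ≤ ∑' x, wconv f t x :=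
    idempotent_of_approx_norm_le (hf.mul ht) k h'
  have h3 : ‖((E' - a) * a).K k h'‖ ≤ ∑' x, wconv t f x :=
    idempotent_of_approx_norm_le (ht.mul hf) k h'
  have h4 : ‖((E' - a) * (E' - a)).K k h'‖ ≤ ∑' x, wconv t t x :=
    idempotent_of_approx_norm_le (ht.mul ht) k h'
  have h5 : ‖(E' - a).K k h'‖ ≤ ∑' x, t x := idempotent_of_approx_norm_le ht k h'
  rw [tsum_wconv hf.2.1 ht.2.1 hf.1 ht.1] at h2
  rw [tsum_wconv ht.2.1 hf.2.1 ht.1 hf.1] at h3
  rw [tsum_wconv ht.2.1 ht.2.1 ht.1 ht.1] at h4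
  have hf0 : 0 ≤ ∑' x, f x := hf.tsum_nonneg
  have ht0 : 0 ≤ ∑' x, t x := ht.tsum_nonneg
  have hB : 0 ≤ B := hf0.trans hfB
  have hε0 : 0 ≤ ε := ht0.trans htε
  have p1 : (∑' x, f x) * (∑' x, t x) ≤ B * ε := mul_le_mul hfB htε ht0 hB
  have p2 : (∑' x, t x) * (∑' x, f x) ≤ ε * B := mul_le_mul htε hfB hf0 hε0
  have p3 : (∑' x, t x) * (∑' x, t x) ≤ ε * ε := mul_le_mul htε htε ht0 hε0
  have p4 : ε * ε ≤ ε * 1 := mul_le_mul_of_nonneg_left hε1 hε0
  have e : (E' * E' - E').K k h'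
      = (a * a - a).K k h' + (a * (E' - a)).K k h' + ((E' - a) * a).K k h'
        + ((E' - a) * (E' - a)).K k h' - (E' - a).K k h' := by
    rw [hid, DKer.sub_K, DKer.add_K, DKer.add_K, DKer.add_K]
  rw [e]
  have n1 := norm_sub_le ((a * a - a).K k h' + (a * (E' - a)).K k h' + ((E' - a) * a).K k h'
        + ((E' - a) * (E' - a)).K k h') ((E' - a).K k h')
  have n2 := norm_add_le ((a * a - a).K k h' + (a * (E' - a)).K k h' + ((E' - a) * a).K k h')
        (((E' - a) * (E' - a)).K k h')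
  have n3 := norm_add_le ((a * a - a).K k h' + (a * (E' - a)).K k h') (((E' - a) * a).K k h')
  have n4 := norm_add_le ((a * a - a).K k h') ((a * (E' - a)).K k h')
  have hfin : ε + B * ε + ε * B + ε * 1 + ε = ε * (3 + 2 * B) := by ring
  linarith

theorem idempotent_of_approx (E' : DKer G R g) (B : ℝ)
    (h : ∀ ε : ℝ, 0 < ε → ∃ (a : DKer G R g) (f ρ t : G → ℝ), Dom f a.K ∧ ∑' x, f x ≤ B ∧
      Dom ρ (a * a - a).K ∧ ∑' x, ρ x ≤ ε ∧ Dom t (E' - a).K ∧ ∑' x, t x ≤ ε) :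
    E' * E' = E' := by
  have hB : 0 ≤ B := by
    obtain ⟨a, f, ρ, t, hf, hfB, -⟩ := h 1 one_pos
    exact hf.tsum_nonneg.trans hfB
  have hpos : 0 < 3 + 2 * B := by linarith
  have key : ∀ ε : ℝ, 0 < ε → ε ≤ 1 → ∀ k h', ‖(E' * E' - E').K k h'‖ ≤ ε * (3 + 2 * B) := by
    intro ε hε hε1 k h'
    obtain ⟨a, f, ρ, t, hf, hfB, hρ, hρε, ht, htε⟩ := h ε hε
    exact idempotent_of_approx_bound E' a B ε hε1 f ρ t hf hfB hρ hρε ht htε k h'
  refine DKer.ext' (fun k h' => ?_)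
  have hz : ‖(E' * E' - E').K k h'‖ ≤ 0 := by
    by_contra hcon
    push Not at hcon
    obtain ⟨η, hη⟩ : ∃ η : ℝ, η = ‖(E' * E' - E').K k h'‖ := ⟨_, rfl⟩
    rw [← hη] at hcon
    have hd : 0 < η / (2 * (3 + 2 * B)) := div_pos hcon (by linarith)
    have hε : 0 < min 1 (η / (2 * (3 + 2 * B))) := lt_min one_pos hd
    have h1 := key _ hε (min_le_left _ _) k h'
    have h2 : min 1 (η / (2 * (3 + 2 * B))) * (3 + 2 * B)
        ≤ η / (2 * (3 + 2 * B)) * (3 + 2 * B) :=
      mul_le_mul_of_nonneg_right (min_le_right _ _) hpos.le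
    have h3 : η / (2 * (3 + 2 * B)) * (3 + 2 * B) = η / 2 := by
      field_simp
    rw [← hη] at h1
    linarith
  have hz' := norm_le_zero_iff.mp hz
  rw [DKer.sub_K] at hz'
  exact sub_eq_zero.mp hz'

theorem tr_eq_of_close {R : Type*} [NormedRing R] [NormedAlgebra ℂ R] [CompleteSpace R]
    (τ : R →L[ℂ] ℂ) (hτ : ∀ a b, τ (a * b) = τ (b * a)) (E F : DKer G R g)
    (hE : E * E = E) (hF : F * F = F) (u : G → ℝ) (hu : Dom u (F - E).K)
    (hlt : ∑' x, u x < 1) : DKer.tr τ F = DKer.tr τ E := by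
  have hid : ∀ n : ℕ, DKer.tr τ ((F - E) ^ (2 * n + 1)) = DKer.tr τ F - DKer.tr τ E := by
    intro n
    have h1 := trace_sub_pow (DKer.trHom (g := g) τ) (DKer.tr_mul_comm τ hτ)
      (e := E) (f := F) hE hF n
    exact h1
  have hbound : ∀ n : ℕ, ‖DKer.tr τ F - DKer.tr τ E‖ ≤ ‖τ‖ * (∑' x, u x) ^ (2 * n + 1) := by
    intro n
    rw [← hid n]
    obtain ⟨w', hw', hle⟩ := DKer.dom_pow (F - E) hu (2 * n)
    exact (DKer.norm_tr_le τ _ hw').trans (mul_le_mul_of_nonneg_left hle (norm_nonneg _))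
  have hzero : DKer.tr τ F - DKer.tr τ E = 0 := by
    have hs0 : 0 ≤ ∑' x, u x := tsum_nonneg hu.1
    have h1 := tendsto_pow_atTop_nhds_zero_of_lt_one hs0 hlt
    have h2 : Tendsto (fun n : ℕ => 2 * n + 1) atTop atTop :=
      tendsto_atTop_mono (fun n => by
        change n ≤ 2 * n + 1
        omega) tendsto_id
    have h3 : Tendsto (fun n : ℕ => ‖τ‖ * (∑' x, u x) ^ (2 * n + 1)) atTop (𝓝 0) := by
      simpa using (h1.comp h2).const_mul ‖τ‖
    exact norm_le_zero_iff.mp (ge_of_tendsto' h3 hbound)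
  exact sub_eq_zero.mp hzero

end Vale.Agent.Lib.P184
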