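import Vale.Agent.Lib.P184.HeisCore

/-!
# Limit of a sequence of kernels with summable dominated increments

A sequence of dominated invariant kernels whose increments are dominated by weights with summable
moments of every order converges to a kernel with all moments finite, and the distance to the
limit is controlled by the tail masses.
-/

namespace Vale.Agent.Lib.P184

open scoped BigOperators Topology

/-- Exchange of the order of summation for a nonnegative double family indexed by `ℕ × G`. -/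
theorem limit_kernel_tonelli {G : Type*} (e : ℕ → G → ℝ) (he0 : ∀ n x, 0 ≤ e n x)
    (he : ∀ n, Summable (e n)) (hes : Summable (fun n => ∑' x, e n x)) :
    (∀ x, Summable (fun n => e n x)) ∧ Summable (fun x => ∑' n, e n x) ∧
      ∑' x, ∑' n, e n x = ∑' n, ∑' x, e n x := by
  have hP : Summable (fun p : ℕ × G => e p.1 p.2) :=
    (summable_prod_of_nonneg (fun p => he0 p.1 p.2)).mpr ⟨he, hes⟩
  have hP' : Summable (fun p : G × ℕ => e p.2 p.1) := hP.prod_symm
  exact ⟨fun x => hP'.prod_factor x, hP'.prod, hP.tsum_comm⟩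

variable {G : Type*} [Group G] {R : Type*} [NormedRing R] [CompleteSpace R] {g : G}

theorem limit_kernel (W : PWeight G) (a : ℕ → DKer G R g) (f₀ : G → ℝ) (d : ℕ → G → ℝ)
    (hf : SDom W f₀ (a 0).K)
    (hd : ∀ n, Dom (d n) (a (n + 1) - a n).K)
    (hds : ∀ (n s : ℕ), Summable (fun x => d n x * W.w x ^ s))
    (hdn : ∀ s : ℕ, Summable (fun n => ∑' x, d n x * W.w x ^ s)) :
    ∃ E' : DKer G R g, E' ∈ SKer g W ∧
      ∀ N : ℕ, ∃ t : G → ℝ, Dom t (E' - a N).K ∧ ∑' x, t x ≤ ∑' n, ∑' x, d (n + N) x := by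
  have hd0 : ∀ n x, 0 ≤ d n x := fun n => (hd n).1
  have hdS : ∀ n, Summable (d n) := fun n => (hd n).2.1
  have hdn0 : Summable (fun n => ∑' x, d n x) := by
    have h := hdn 0
    simpa using h
  have hT : ∀ N : ℕ, (∀ x, Summable (fun n => d (n + N) x)) ∧
      Summable (fun x => ∑' n, d (n + N) x) ∧
      ∑' x, ∑' n, d (n + N) x = ∑' n, ∑' x, d (n + N) x := fun N =>
    limit_kernel_tonelli (fun n x => d (n + N) x) (fun n x => hd0 _ x) (fun n => hdS _)
      ((summable_nat_add_iff N).mpr hdn0)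
  have hM : ∀ s : ℕ, Summable (fun x => (∑' n, d n x) * W.w x ^ s) := by
    intro s
    have h1 := (limit_kernel_tonelli (fun n x => d n x * W.w x ^ s)
      (fun n x => mul_nonneg (hd0 n x) (pow_nonneg (W.pos x).le s))
      (fun n => hds n s) (hdn s)).2.1
    refine h1.congr (fun x => ?_)
    exact tsum_mul_right (f := fun n => d n x) (a := W.w x ^ s)
  have hcol : ∀ x, Summable (fun n => d n x) := fun x => (hT 0).1 x
  have hinc : ∀ k h, Summable (fun n => (a (n + 1) - a n).K k h) := fun k h =>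
    Summable.of_norm_bounded (hcol (k * h⁻¹)) (fun n => (hd n).2.2 k h)
  have htel : ∀ (N : ℕ) (k h : G), (a N).K k h
      = (a 0).K k h + ∑ n ∈ Finset.range N, (a (n + 1) - a n).K k h := by
    intro N k h
    induction N with
    | zero => simp
    | succ N ih =>
      rw [Finset.sum_range_succ, DKer.sub_K, ← add_assoc, ← ih]
      abel
  have hdiff : ∀ (N : ℕ) (k h : G),
      (a 0).K k h + ∑' n, (a (n + 1) - a n).K k h - (a N).K k h
        = ∑' n, (a (n + N + 1) - a (n + N)).K k h := by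
    intro N k h
    have h1 := (hinc k h).sum_add_tsum_nat_add N
    rw [htel N k h, ← h1]
    abel
  have hbound : ∀ (N : ℕ) (k h : G),
      ‖(a 0).K k h + ∑' n, (a (n + 1) - a n).K k h - (a N).K k h‖
        ≤ ∑' n, d (n + N) (k * h⁻¹) := by
    intro N k h
    rw [hdiff N k h]
    have hs : Summable (fun n => ‖(a (n + N + 1) - a (n + N)).K k h‖) :=
      Summable.of_nonneg_of_le (fun _ => norm_nonneg _) (fun n => (hd (n + N)).2.2 k h)
        ((hT N).1 (k * h⁻¹))
    exact (norm_tsum_le_tsum_norm hs).trans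
      (hs.tsum_le_tsum (fun n => (hd (n + N)).2.2 k h) ((hT N).1 (k * h⁻¹)))
  have hT0 : ∀ (N : ℕ) (x : G), 0 ≤ ∑' n, d (n + N) x := fun N x =>
    tsum_nonneg (fun n => hd0 _ x)
  have hdomE : Dom (fun x => f₀ x + ∑' n, d (n + 0) x)
      (fun k h => (a 0).K k h + ∑' n, (a (n + 1) - a n).K k h) := by
    refine ⟨fun x => add_nonneg (hf.1.1 x) (hT0 0 x), hf.1.2.1.add (hT 0).2.1, fun k h => ?_⟩
    have h1 := hbound 0 k h
    have h2 := hf.1.2.2 k h
    have h3 : (a 0).K k h + ∑' n, (a (n + 1) - a n).K k h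
        = (a 0).K k h + ((a 0).K k h + ∑' n, (a (n + 1) - a n).K k h - (a 0).K k h) := by
      abel
    show ‖(a 0).K k h + ∑' n, (a (n + 1) - a n).K k h‖ ≤ f₀ (k * h⁻¹) + ∑' n, d (n + 0) (k * h⁻¹)
    rw [h3]
    exact (norm_add_le _ _).trans (add_le_add h2 h1)
  let E' : DKer G R g :=
    { K := fun k h => (a 0).K k h + ∑' n, (a (n + 1) - a n).K k h
      inv' := fun z hz k h => by
        rw [(a 0).inv' z hz]
        congr 1
        exact tsum_congr (fun n => (a (n + 1) - a n).inv' z hz k h)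
      dom' := ⟨_, hdomE⟩ }
  refine ⟨E', (mem_SKer W E').mpr ⟨fun x => f₀ x + ∑' n, d (n + 0) x, hdomE, fun s => ?_⟩,
    fun N => ⟨fun x => ∑' n, d (n + N) x, ⟨hT0 N, (hT N).2.1, fun k h => ?_⟩,
      le_of_eq (hT N).2.2⟩⟩
  · refine ((hf.2 s).add (hM s)).congr (fun x => ?_)
    show f₀ x * W.w x ^ s + (∑' n, d n x) * W.w x ^ s = (f₀ x + ∑' n, d (n + 0) x) * W.w x ^ s
    exact (add_mul _ _ _).symm
  · rw [DKer.sub_K]
    exact hbound N k h

end Vale.Agent.Lib.P184
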