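import Vale.Agent.Lib.P184.HeisNewtonDefs

/-!
# The Newton iteration for idempotents: the defect identity and the domination of the iterates

The Newton step `a ↦ a + (1 - 2 a) (a² - a)` replaces the defect `r = a² - a` by `r² (4 r - 3)`.
On the ring of dominated invariant kernels the approximants, their defects and the increments
are dominated by the weights of the recursion `newtonW`.
-/

namespace Vale.Agent.Lib.P184

open scoped BigOperators Topology

section Basic

variable {G : Type*} [Group G] {R : Type*} [NormedRing R] {g : G}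

/-- Domination is stable under pointwise equal replacements of the weight and of the kernel. -/
theorem newton_dom_congr {u u' : G → ℝ} {K K' : G → G → R} (h : Dom u K)
    (hK : ∀ k h, K' k h = K k h) (hu : ∀ x, u' x = u x) : Dom u' K' := by
  have e1 : K' = K := funext fun k => funext fun h => hK k h
  have e2 : u' = u := funext hu
  rw [e1, e2]
  exact h

/-- The unit kernel is dominated by the weight concentrated at the identity. -/
theorem newton_dom_one : Dom (iotaW ‖(1 : R)‖) (1 : DKer G R g).K := by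
  classical
  refine ⟨fun x => ?_, ?_, fun k h => ?_⟩
  · unfold iotaW
    split_ifs <;> simp
  · exact summable_of_ne_finset_zero (s := {1}) (fun b hb => by simp at hb; simp [iotaW, hb])
  · rw [DKer.one_K]
    by_cases hkh : k = h
    · subst hkh
      simp [iotaW]
    · have hne : k * h⁻¹ ≠ 1 := fun hh => hkh (mul_inv_eq_one.mp hh)
      simp [iotaW, hkh, hne]

end Basic

/-- The polynomial identity behind the Newton step, in an arbitrary ring. -/
theorem newton_ring_identity {S : Type*} [Ring S] (a : S) :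
    (a + (1 - (a + a)) * (a * a - a)) * (a + (1 - (a + a)) * (a * a - a))
        - (a + (1 - (a + a)) * (a * a - a))
      = (a * a - a) * (a * a - a)
        * ((a * a - a) + (a * a - a) + (a * a - a) + (a * a - a) - (1 + 1 + 1)) := by
  noncomm_ring

variable {G : Type*} [Group G] {R : Type*} [NormedRing R] [CompleteSpace R] {g : G}

theorem newton_defect (a₀ : DKer G R g) (n : ℕ) :
    newtonA a₀ (n + 1) * newtonA a₀ (n + 1) - newtonA a₀ (n + 1)
      = (newtonA a₀ n * newtonA a₀ n - newtonA a₀ n) * (newtonA a₀ n * newtonA a₀ n - newtonA a₀ n)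
        * ((newtonA a₀ n * newtonA a₀ n - newtonA a₀ n) + (newtonA a₀ n * newtonA a₀ n - newtonA a₀ n)
          + (newtonA a₀ n * newtonA a₀ n - newtonA a₀ n) + (newtonA a₀ n * newtonA a₀ n - newtonA a₀ n)
          - (1 + 1 + 1)) := by
  rw [newtonA_succ]
  exact newton_ring_identity (newtonA a₀ n)

/-- The factor `1 - 2 a` of the Newton step. -/
theorem newton_dom_lin (a : DKer G R g) (f : G → ℝ) (hf : Dom f a.K) :
    Dom (fun y => iotaW ‖(1 : R)‖ y + 2 * f y) (1 - (a + a)).K := by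
  have h1 : Dom (fun x => iotaW ‖(1 : R)‖ x + (f x + f x))
      (fun k h => (1 : DKer G R g).K k h + -(a.K k h + a.K k h)) :=
    (newton_dom_one (G := G) (R := R) (g := g)).add (hf.add hf).neg
  refine newton_dom_congr h1 (fun k h => ?_) (fun x => ?_)
  · rw [DKer.sub_K, DKer.add_K, sub_eq_add_neg]
  · ring

/-- The increment of the Newton step. -/
theorem newton_dom_incr (a : DKer G R g) (f ρ : G → ℝ) (hf : Dom f a.K)
    (hρ : Dom ρ (a * a - a).K) :
    Dom (wconv (fun y => iotaW ‖(1 : R)‖ y + 2 * f y) ρ)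
      ((1 - (a + a)) * (a * a - a)).K :=
  newton_dom_congr ((newton_dom_lin a f hf).mul hρ) (fun k h => DKer.mul_K _ _ k h)
    (fun _ => rfl)

/-- The next approximant of the Newton step. -/
theorem newton_dom_next (a : DKer G R g) (f ρ : G → ℝ) (hf : Dom f a.K)
    (hρ : Dom ρ (a * a - a).K) :
    Dom (fun x => f x + wconv (fun y => iotaW ‖(1 : R)‖ y + 2 * f y) ρ x)
      (a + (1 - (a + a)) * (a * a - a)).K :=
  newton_dom_congr (hf.add (newton_dom_incr a f ρ hf hρ)) (fun k h => DKer.add_K _ _ k h)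
    (fun _ => rfl)

/-- The polynomial `r² (4 r - 3)` of a dominated kernel. -/
theorem newton_dom_poly (r : DKer G R g) (ρ : G → ℝ) (hρ : Dom ρ r.K) :
    Dom (wconv (wconv ρ ρ) (fun y => 4 * ρ y + 3 * iotaW ‖(1 : R)‖ y))
      (r * r * (r + r + r + r - (1 + 1 + 1))).K := by
  have hone : Dom (iotaW ‖(1 : R)‖) (1 : DKer G R g).K := newton_dom_one
  have h2 : Dom (wconv ρ ρ) (r * r).K :=
    newton_dom_congr (hρ.mul hρ) (fun k h => DKer.mul_K _ _ k h) (fun _ => rfl)
  have h3 : Dom (fun x => ρ x + ρ x + ρ x + ρ x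
        + (iotaW ‖(1 : R)‖ x + iotaW ‖(1 : R)‖ x + iotaW ‖(1 : R)‖ x))
      (fun k h => r.K k h + r.K k h + r.K k h + r.K k h
        + -((1 : DKer G R g).K k h + (1 : DKer G R g).K k h + (1 : DKer G R g).K k h)) :=
    (((hρ.add hρ).add hρ).add hρ).add ((hone.add hone).add hone).neg
  have h4 : Dom (fun y => 4 * ρ y + 3 * iotaW ‖(1 : R)‖ y)
      (r + r + r + r - (1 + 1 + 1)).K := by
    refine newton_dom_congr h3 (fun k h => ?_) (fun x => ?_)
    · rw [DKer.sub_K, sub_eq_add_neg]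
      rfl
    · ring
  exact newton_dom_congr (h2.mul h4) (fun k h => DKer.mul_K _ _ k h) (fun _ => rfl)

theorem newton_dom (a₀ : DKer G R g) (f₀ ρ₀ : G → ℝ) (hf : Dom f₀ a₀.K)
    (hρ : Dom ρ₀ (a₀ * a₀ - a₀).K) (n : ℕ) :
    Dom (newtonW ‖(1 : R)‖ f₀ ρ₀ n).1 (newtonA a₀ n).K ∧
      Dom (newtonW ‖(1 : R)‖ f₀ ρ₀ n).2 (newtonA a₀ n * newtonA a₀ n - newtonA a₀ n).K ∧
      Dom (newtonD ‖(1 : R)‖ f₀ ρ₀ n) (newtonA a₀ (n + 1) - newtonA a₀ n).K := by
  have hincr : ∀ m : ℕ, Dom (newtonW ‖(1 : R)‖ f₀ ρ₀ m).1 (newtonA a₀ m).K →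
      Dom (newtonW ‖(1 : R)‖ f₀ ρ₀ m).2 (newtonA a₀ m * newtonA a₀ m - newtonA a₀ m).K →
      Dom (newtonD ‖(1 : R)‖ f₀ ρ₀ m) (newtonA a₀ (m + 1) - newtonA a₀ m).K := by
    intro m h1 h2
    rw [newtonA_succ, newtonD_eq, add_sub_cancel_left]
    exact newton_dom_incr _ _ _ h1 h2
  induction n with
  | zero =>
    have h1 : Dom (newtonW ‖(1 : R)‖ f₀ ρ₀ 0).1 (newtonA a₀ 0).K := hf
    have h2 : Dom (newtonW ‖(1 : R)‖ f₀ ρ₀ 0).2
        (newtonA a₀ 0 * newtonA a₀ 0 - newtonA a₀ 0).K := hρ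
    exact ⟨h1, h2, hincr 0 h1 h2⟩
  | succ n ih =>
    obtain ⟨h1, h2, -⟩ := ih
    have h1' : Dom (newtonW ‖(1 : R)‖ f₀ ρ₀ (n + 1)).1 (newtonA a₀ (n + 1)).K := by
      rw [newtonW_succ_fst, newtonA_succ]
      exact newton_dom_next _ _ _ h1 h2
    have h2' : Dom (newtonW ‖(1 : R)‖ f₀ ρ₀ (n + 1)).2
        (newtonA a₀ (n + 1) * newtonA a₀ (n + 1) - newtonA a₀ (n + 1)).K := by
      rw [newtonW_succ_snd, newton_defect]
      exact newton_dom_poly _ _ h2
    exact ⟨h1', h2', hincr (n + 1) h1' h2'⟩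

end Vale.Agent.Lib.P184
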