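import Vale.Agent.Lib.P184.HeisCore

/-!
# The Newton iteration for idempotents: definitions

For an approximate idempotent `a` of a ring, the Newton step is `a + (1 - 2 a) (a² - a)`; the
defect `a² - a` is squared (up to a bounded factor) at every step.  This file fixes the iteration
on the ring of dominated invariant kernels together with the recursion for the dominating
weights.
-/

namespace Vale.Agent.Lib.P184

open scoped BigOperators Topology

variable {G : Type*} [Group G]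

open Classical in
/-- The weight concentrated at the identity with mass `c`. -/
noncomputable def iotaW (c : ℝ) (x : G) : ℝ := if x = 1 then c else 0

/-- The weights of the Newton iteration: the pair consisting of the weight of the approximant
and the weight of its defect. -/
noncomputable def newtonW (c : ℝ) (f₀ ρ₀ : G → ℝ) : ℕ → (G → ℝ) × (G → ℝ)
  | 0 => (f₀, ρ₀)
  | n + 1 =>
    ((fun x => (newtonW c f₀ ρ₀ n).1 x
        + wconv (fun y => iotaW c y + 2 * (newtonW c f₀ ρ₀ n).1 y) (newtonW c f₀ ρ₀ n).2 x),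
      wconv (wconv (newtonW c f₀ ρ₀ n).2 (newtonW c f₀ ρ₀ n).2)
        (fun y => 4 * (newtonW c f₀ ρ₀ n).2 y + 3 * iotaW c y))

/-- The weight of the increment of the Newton iteration at step `n`. -/
noncomputable def newtonD (c : ℝ) (f₀ ρ₀ : G → ℝ) (n : ℕ) : G → ℝ :=
  wconv (fun y => iotaW c y + 2 * (newtonW c f₀ ρ₀ n).1 y) (newtonW c f₀ ρ₀ n).2

theorem newtonW_zero (c : ℝ) (f₀ ρ₀ : G → ℝ) : newtonW c f₀ ρ₀ 0 = (f₀, ρ₀) := rfl

theorem newtonW_succ_fst (c : ℝ) (f₀ ρ₀ : G → ℝ) (n : ℕ) :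
    (newtonW c f₀ ρ₀ (n + 1)).1
      = fun x => (newtonW c f₀ ρ₀ n).1 x + newtonD c f₀ ρ₀ n x := rfl

theorem newtonW_succ_snd (c : ℝ) (f₀ ρ₀ : G → ℝ) (n : ℕ) :
    (newtonW c f₀ ρ₀ (n + 1)).2
      = wconv (wconv (newtonW c f₀ ρ₀ n).2 (newtonW c f₀ ρ₀ n).2)
          (fun y => 4 * (newtonW c f₀ ρ₀ n).2 y + 3 * iotaW c y) := rfl

theorem newtonD_eq (c : ℝ) (f₀ ρ₀ : G → ℝ) (n : ℕ) :
    newtonD c f₀ ρ₀ n
      = wconv (fun y => iotaW c y + 2 * (newtonW c f₀ ρ₀ n).1 y) (newtonW c f₀ ρ₀ n).2 := rfl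

variable {R : Type*} [NormedRing R] [CompleteSpace R] {g : G}

/-- The Newton iteration for idempotents in the ring of dominated invariant kernels. -/
noncomputable def newtonA (a₀ : DKer G R g) : ℕ → DKer G R g
  | 0 => a₀
  | n + 1 => newtonA a₀ n
      + (1 - (newtonA a₀ n + newtonA a₀ n)) * (newtonA a₀ n * newtonA a₀ n - newtonA a₀ n)

theorem newtonA_zero (a₀ : DKer G R g) : newtonA a₀ 0 = a₀ := rfl

theorem newtonA_succ (a₀ : DKer G R g) (n : ℕ) :
    newtonA a₀ (n + 1) = newtonA a₀ n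
      + (1 - (newtonA a₀ n + newtonA a₀ n)) * (newtonA a₀ n * newtonA a₀ n - newtonA a₀ n) := rfl

end Vale.Agent.Lib.P184
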