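import Mathlib

/-!
# The scalar recursion behind the Newton iteration

Pure real analysis of sequences: quadratic decay of the defect, summability of the
corrections and boundedness of the norms.
-/

namespace Vale.Agent.Lib.P184

/-- A discrete Gronwall bound: a nonnegative sequence with
`h (n + 1) ≤ h n * (1 + a n) + b n`, where `a` and `b` are nonnegative and summable, is
bounded. -/
theorem newton_scalar_gronwall (h a b : ℕ → ℝ) (hh : ∀ n, 0 ≤ h n) (ha : ∀ n, 0 ≤ a n)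
    (hb : ∀ n, 0 ≤ b n) (hsa : Summable a) (hsb : Summable b)
    (hrec : ∀ n, h (n + 1) ≤ h n * (1 + a n) + b n) : ∃ B, ∀ n, h n ≤ B := by
  refine ⟨(h 0 + ∑' n, b n) * Real.exp (∑' n, a n), ?_⟩
  have key : ∀ n, h n ≤ (h 0 + ∑ j ∈ Finset.range n, b j)
      * Real.exp (∑ j ∈ Finset.range n, a j) := by
    intro n
    induction n with
    | zero => simp
    | succ n ih =>
      have hE1 : 1 ≤ Real.exp (∑ j ∈ Finset.range (n + 1), a j) :=
        Real.one_le_exp (Finset.sum_nonneg (fun j _ => ha j))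
      have hEs : Real.exp (∑ j ∈ Finset.range (n + 1), a j)
          = Real.exp (∑ j ∈ Finset.range n, a j) * Real.exp (a n) := by
        rw [Finset.sum_range_succ, Real.exp_add]
      have h1 : 1 + a n ≤ Real.exp (a n) := by linarith [Real.add_one_le_exp (a n)]
      have hS0 : 0 ≤ h 0 + ∑ j ∈ Finset.range n, b j :=
        add_nonneg (hh 0) (Finset.sum_nonneg (fun j _ => hb j))
      have hE0 : 0 ≤ Real.exp (∑ j ∈ Finset.range n, a j) := (Real.exp_pos _).le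
      have h2 : h n * (1 + a n) ≤ (h 0 + ∑ j ∈ Finset.range n, b j)
          * Real.exp (∑ j ∈ Finset.range n, a j) * Real.exp (a n) :=
        mul_le_mul ih h1 (by linarith [ha n]) (mul_nonneg hS0 hE0)
      have h3 : b n ≤ b n * Real.exp (∑ j ∈ Finset.range (n + 1), a j) := by
        have := mul_le_mul_of_nonneg_left hE1 (hb n)
        linarith
      calc h (n + 1) ≤ h n * (1 + a n) + b n := hrec n
        _ ≤ (h 0 + ∑ j ∈ Finset.range n, b j)
              * Real.exp (∑ j ∈ Finset.range n, a j) * Real.exp (a n)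
            + b n * Real.exp (∑ j ∈ Finset.range (n + 1), a j) := add_le_add h2 h3
        _ = (h 0 + ∑ j ∈ Finset.range (n + 1), b j)
              * Real.exp (∑ j ∈ Finset.range (n + 1), a j) := by
          rw [hEs, Finset.sum_range_succ]
          ring
  intro n
  have hS : ∑ j ∈ Finset.range n, b j ≤ ∑' n, b n :=
    hsb.sum_le_tsum (Finset.range n) (fun j _ => hb j)
  have hA : ∑ j ∈ Finset.range n, a j ≤ ∑' n, a n :=
    hsa.sum_le_tsum (Finset.range n) (fun j _ => ha j)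
  have hE : Real.exp (∑ j ∈ Finset.range n, a j) ≤ Real.exp (∑' n, a n) :=
    Real.exp_le_exp.mpr hA
  calc h n ≤ (h 0 + ∑ j ∈ Finset.range n, b j) * Real.exp (∑ j ∈ Finset.range n, a j) := key n
    _ ≤ (h 0 + ∑' n, b n) * Real.exp (∑' n, a n) :=
      mul_le_mul (by linarith) hE (Real.exp_pos _).le (add_nonneg (hh 0) (tsum_nonneg hb))

/-- The contraction of the defect: `x (n + 1) ≤ 3/8 * x n` and `x n ≤ 1 / (8 (1 + c₁))`. -/
theorem newton_scalar_decay (c₁ : ℝ) (hc : 0 ≤ c₁) (x : ℕ → ℝ) (hx0 : ∀ n, 0 ≤ x n)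
    (hsmall : x 0 ≤ 1 / (8 * (1 + c₁)))
    (hx : ∀ n, x (n + 1) ≤ x n ^ 2 * (4 * x n + 3 * c₁)) :
    (∀ n, x n ≤ 1 / 8) ∧ (∀ n, x (n + 1) ≤ 3 / 8 * x n) := by
  obtain ⟨θ, hθdef⟩ : ∃ θ : ℝ, θ = 1 / (8 * (1 + c₁)) := ⟨_, rfl⟩
  have h1c : 0 < 1 + c₁ := by linarith
  have hθc : θ * (1 + c₁) = 1 / 8 := by
    rw [hθdef]
    field_simp
  have hθpos : 0 < θ := by
    rw [hθdef]
    positivity
  have hθ8 : θ ≤ 1 / 8 := by nlinarith
  rw [← hθdef] at hsmall
  have step : ∀ n, x n ≤ θ → x (n + 1) ≤ 3 / 8 * x n := by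
    intro n hn
    have h1 : 4 * x n + 3 * c₁ ≤ 3 * (1 + c₁) := by linarith
    have h2 : x n * (4 * x n + 3 * c₁) ≤ θ * (3 * (1 + c₁)) :=
      mul_le_mul hn h1 (by linarith [hx0 n]) hθpos.le
    have h3 : θ * (3 * (1 + c₁)) = 3 / 8 := by linear_combination 3 * hθc
    have h4 : x n * (x n * (4 * x n + 3 * c₁)) ≤ x n * (3 / 8) :=
      mul_le_mul_of_nonneg_left (by linarith) (hx0 n)
    have h5 : x n ^ 2 * (4 * x n + 3 * c₁) = x n * (x n * (4 * x n + 3 * c₁)) := by ring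
    linarith [hx n]
  have hxθ : ∀ n, x n ≤ θ := by
    intro n
    induction n with
    | zero => exact hsmall
    | succ n ih =>
      have := step n ih
      linarith [hx0 n]
  exact ⟨fun n => le_trans (hxθ n) hθ8, fun n => step n (hxθ n)⟩

theorem newton_scalar (c₁ K : ℝ) (hc : 0 ≤ c₁) (hK : 0 ≤ K) (x y F H : ℕ → ℝ)
    (hx0 : ∀ n, 0 ≤ x n) (hy0 : ∀ n, 0 ≤ y n) (hF0 : ∀ n, 0 ≤ F n) (hH0 : ∀ n, 0 ≤ H n)
    (hsmall : x 0 ≤ 1 / (8 * (1 + c₁)))
    (hx : ∀ n, x (n + 1) ≤ x n ^ 2 * (4 * x n + 3 * c₁))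
    (hy : ∀ n, y (n + 1) ≤ K * (x n * y n * (1 + x n) + x n ^ 2))
    (hF : ∀ n, F (n + 1) ≤ F n + (c₁ + 2 * F n) * x n)
    (hH : ∀ n, H (n + 1) ≤ H n + K * ((1 + H n) * x n + (c₁ + 2 * F n) * y n)) :
    (∀ n, x (n + 1) ≤ x n / 2) ∧ (∀ n, x n ≤ 1 / 8) ∧ Summable x ∧ Summable y ∧
      (∃ B, ∀ n, F n ≤ B) ∧ (∃ B, ∀ n, H n ≤ B) ∧
      Summable (fun n => (c₁ + 2 * F n) * x n) ∧
      ∑' n, (c₁ + 2 * F n) * x n ≤ 4 * (c₁ + 2 * F 0) * x 0 := by
  obtain ⟨hx8, hx38⟩ := newton_scalar_decay c₁ hc x hx0 hsmall hx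
  have hhalf : ∀ n, x (n + 1) ≤ x n / 2 := fun n => by linarith [hx38 n, hx0 n]
  -- geometric decay and summability of x
  have hgeo : ∀ n, x n ≤ x 0 * (1 / 2 : ℝ) ^ n := by
    intro n
    induction n with
    | zero => simp
    | succ n ih =>
      have h1 := hhalf n
      rw [pow_succ]
      linarith
  have hsgeo : Summable (fun n : ℕ => x 0 * (1 / 2 : ℝ) ^ n) := summable_geometric_two.mul_left _
  have hsx : Summable x := Summable.of_nonneg_of_le hx0 hgeo hsgeo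
  have htx : ∑' n, x n ≤ 2 * x 0 := by
    have h1 : ∑' n, x n ≤ ∑' n : ℕ, x 0 * (1 / 2 : ℝ) ^ n :=
      Summable.tsum_le_tsum hgeo hsx hsgeo
    rw [tsum_mul_left, tsum_geometric_two] at h1
    linarith
  -- the bound for u = c₁ + 2 F
  have hun0 : ∀ n, 0 ≤ c₁ + 2 * F n := fun n => by linarith [hF0 n]
  have hu : ∀ n, (c₁ + 2 * F n) * (1 + 4 * x n) ≤ (c₁ + 2 * F 0) * (1 + 4 * x 0) := by
    intro n
    induction n with
    | zero => exact le_rfl
    | succ n ih =>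
      have e1 : c₁ + 2 * F (n + 1) ≤ (c₁ + 2 * F n) * (1 + 2 * x n) := by linarith [hF n]
      have e2 : 1 + 4 * x (n + 1) ≤ 1 + 3 / 2 * x n := by linarith [hx38 n]
      have e3 : (c₁ + 2 * F (n + 1)) * (1 + 4 * x (n + 1))
          ≤ (c₁ + 2 * F n) * (1 + 2 * x n) * (1 + 3 / 2 * x n) :=
        mul_le_mul e1 e2 (by linarith [hx0 (n + 1)])
          (mul_nonneg (hun0 n) (by linarith [hx0 n]))
      have e4 : (1 + 2 * x n) * (1 + 3 / 2 * x n) ≤ 1 + 4 * x n := by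
        nlinarith [hx0 n, hx8 n, mul_nonneg (hx0 n) (sub_nonneg.mpr (hx8 n))]
      have e5 : (c₁ + 2 * F n) * ((1 + 2 * x n) * (1 + 3 / 2 * x n))
          ≤ (c₁ + 2 * F n) * (1 + 4 * x n) := mul_le_mul_of_nonneg_left e4 (hun0 n)
      calc (c₁ + 2 * F (n + 1)) * (1 + 4 * x (n + 1))
          ≤ (c₁ + 2 * F n) * (1 + 2 * x n) * (1 + 3 / 2 * x n) := e3
        _ = (c₁ + 2 * F n) * ((1 + 2 * x n) * (1 + 3 / 2 * x n)) := by ring
        _ ≤ (c₁ + 2 * F n) * (1 + 4 * x n) := e5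
        _ ≤ (c₁ + 2 * F 0) * (1 + 4 * x 0) := ih
  have hu2 : ∀ n, c₁ + 2 * F n ≤ 2 * (c₁ + 2 * F 0) := by
    intro n
    have a1 : c₁ + 2 * F n ≤ (c₁ + 2 * F n) * (1 + 4 * x n) := by
      have := mul_nonneg (hun0 n) (hx0 n)
      linarith
    have a2 : (c₁ + 2 * F 0) * (1 + 4 * x 0) ≤ (c₁ + 2 * F 0) * (3 / 2) :=
      mul_le_mul_of_nonneg_left (by linarith [hx8 0]) (hun0 0)
    linarith [hu n, hun0 0]
  have hFB : ∃ B, ∀ n, F n ≤ B := ⟨c₁ + 2 * F 0, fun n => by linarith [hu2 n]⟩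
  -- the weighted sum
  have hle : ∀ n, (c₁ + 2 * F n) * x n ≤ 2 * (c₁ + 2 * F 0) * x n :=
    fun n => mul_le_mul_of_nonneg_right (hu2 n) (hx0 n)
  have hsg : Summable (fun n => (c₁ + 2 * F n) * x n) :=
    Summable.of_nonneg_of_le (fun n => mul_nonneg (hun0 n) (hx0 n)) hle (hsx.mul_left _)
  have htg : ∑' n, (c₁ + 2 * F n) * x n ≤ 4 * (c₁ + 2 * F 0) * x 0 := by
    calc ∑' n, (c₁ + 2 * F n) * x n ≤ ∑' n, 2 * (c₁ + 2 * F 0) * x n :=
          Summable.tsum_le_tsum hle hsg (hsx.mul_left _)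
      _ = 2 * (c₁ + 2 * F 0) * ∑' n, x n := tsum_mul_left
      _ ≤ 2 * (c₁ + 2 * F 0) * (2 * x 0) :=
          mul_le_mul_of_nonneg_left htx (mul_nonneg (by norm_num) (hun0 0))
      _ = 4 * (c₁ + 2 * F 0) * x 0 := by ring
  -- y is bounded, hence summable
  have hsa : Summable (fun n => K * (x n * (1 + x n))) := by
    refine Summable.of_nonneg_of_le
      (fun n => mul_nonneg hK (mul_nonneg (hx0 n) (by linarith [hx0 n]))) (fun n => ?_)
      ((hsx.mul_left (9 / 8)).mul_left K)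
    refine mul_le_mul_of_nonneg_left ?_ hK
    nlinarith [hx0 n, hx8 n, mul_nonneg (hx0 n) (sub_nonneg.mpr (hx8 n))]
  have hsb : Summable (fun n => K * x n ^ 2) := by
    refine Summable.of_nonneg_of_le (fun n => mul_nonneg hK (sq_nonneg _)) (fun n => ?_)
      ((hsx.mul_left (1 / 8)).mul_left K)
    refine mul_le_mul_of_nonneg_left ?_ hK
    nlinarith [hx0 n, hx8 n, mul_nonneg (hx0 n) (sub_nonneg.mpr (hx8 n))]
  obtain ⟨Y, hY⟩ := newton_scalar_gronwall y (fun n => K * (x n * (1 + x n)))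
    (fun n => K * x n ^ 2) hy0
    (fun n => mul_nonneg hK (mul_nonneg (hx0 n) (by linarith [hx0 n])))
    (fun n => mul_nonneg hK (sq_nonneg _)) hsa hsb
    (fun n => by
      have h1 := hy n
      have h2 := hy0 n
      have e : K * (x n * y n * (1 + x n) + x n ^ 2)
          = y n * (K * (x n * (1 + x n))) + K * x n ^ 2 := by ring
      rw [e] at h1
      linarith)
  have hY0 : 0 ≤ Y := le_trans (hy0 0) (hY 0)
  have hyle : ∀ n, y (n + 1) ≤ K * (Y * (9 / 8) + 1 / 8) * x n := by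
    intro n
    have b1 : x n * y n * (1 + x n) ≤ x n * Y * (9 / 8) :=
      mul_le_mul (mul_le_mul_of_nonneg_left (hY n) (hx0 n)) (by linarith [hx8 n])
        (by linarith [hx0 n]) (mul_nonneg (hx0 n) hY0)
    have b2 : x n ^ 2 ≤ 1 / 8 * x n := by
      nlinarith [hx0 n, hx8 n, mul_nonneg (hx0 n) (sub_nonneg.mpr (hx8 n))]
    have b3 : K * (x n * y n * (1 + x n) + x n ^ 2) ≤ K * (x n * Y * (9 / 8) + 1 / 8 * x n) :=
      mul_le_mul_of_nonneg_left (by linarith) hK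
    have b4 : K * (x n * Y * (9 / 8) + 1 / 8 * x n) = K * (Y * (9 / 8) + 1 / 8) * x n := by ring
    linarith [hy n]
  have hsy1 : Summable (fun n => y (n + 1)) :=
    Summable.of_nonneg_of_le (fun n => hy0 (n + 1)) hyle (hsx.mul_left _)
  have hsy : Summable y := (summable_nat_add_iff 1).mp hsy1
  -- H is bounded
  have hHB : ∃ B, ∀ n, H n ≤ B := by
    refine newton_scalar_gronwall H (fun n => K * x n)
      (fun n => K * x n + K * (2 * (c₁ + 2 * F 0)) * y n) hH0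
      (fun n => mul_nonneg hK (hx0 n))
      (fun n => add_nonneg (mul_nonneg hK (hx0 n))
        (mul_nonneg (mul_nonneg hK (mul_nonneg (by norm_num) (hun0 0))) (hy0 n)))
      (hsx.mul_left K) ((hsx.mul_left K).add (hsy.mul_left _)) (fun n => ?_)
    have d1 : (c₁ + 2 * F n) * y n ≤ 2 * (c₁ + 2 * F 0) * y n :=
      mul_le_mul_of_nonneg_right (hu2 n) (hy0 n)
    have d2 : K * ((c₁ + 2 * F n) * y n) ≤ K * (2 * (c₁ + 2 * F 0) * y n) :=
      mul_le_mul_of_nonneg_left d1 hK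
    have d3 := hH n
    have e : H n + K * ((1 + H n) * x n + (c₁ + 2 * F n) * y n)
        = H n * (1 + K * x n) + (K * x n + K * ((c₁ + 2 * F n) * y n)) := by ring
    rw [e] at d3
    have e2 : K * (2 * (c₁ + 2 * F 0)) * y n = K * (2 * (c₁ + 2 * F 0) * y n) := by ring
    rw [e2]
    linarith
  exact ⟨hhalf, hx8, hsx, hsy, hFB, hHB, hsg, htg⟩

end Vale.Agent.Lib.P184
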