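import Vale.Agent.Lib.P184.HeisNewtonDefs
import Vale.Agent.Lib.P184.HeisNewtonScalar

/-!
# The Newton iteration for idempotents: moments of the weights

All the weights of the Newton iteration are nonnegative and have finite moments of all orders;
the masses of the defects tend to zero, the masses of the approximants stay bounded and the
moments of the increments are summable.
-/

namespace Vale.Agent.Lib.P184

open scoped BigOperators Topology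
open Filter

variable {G : Type*} [Group G]

theorem newton_moments_iota_nonneg {c : ℝ} (hc : 0 ≤ c) (x : G) : 0 ≤ iotaW c x := by
  unfold iotaW
  split_ifs
  · exact hc
  · exact le_rfl

theorem newton_moments_iota_summable (W : PWeight G) (c : ℝ) (s : ℕ) :
    Summable (fun x => iotaW c x * W.w x ^ s) := by
  refine summable_of_ne_finset_zero (s := {1}) (fun b hb => ?_)
  have hb1 : b ≠ 1 := by simpa using hb
  simp [iotaW, hb1]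

theorem newton_moments_iota_tsum (W : PWeight G) (c : ℝ) (s : ℕ) :
    ∑' x, iotaW c x * W.w x ^ s = c * W.w 1 ^ s := by
  rw [tsum_eq_single (1 : G) (fun b hb => by simp [iotaW, hb])]
  simp [iotaW]

theorem newton_moments_iota_summable0 (c : ℝ) : Summable (iotaW (G := G) c) := by
  refine summable_of_ne_finset_zero (s := {1}) (fun b hb => ?_)
  have hb1 : b ≠ 1 := by simpa using hb
  simp [iotaW, hb1]

theorem newton_moments_iota_tsum0 (c : ℝ) : ∑' x, iotaW (G := G) c x = c := by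
  rw [tsum_eq_single (1 : G) (fun b hb => by simp [iotaW, hb])]
  simp [iotaW]

theorem newton_moments_mass (W : PWeight G) {u : G → ℝ}
    (hu : ∀ s : ℕ, Summable (fun x => u x * W.w x ^ s)) : Summable u := by
  have h := hu 0
  simpa using h

theorem newton_moments_lin1 (W : PWeight G) {c : ℝ} (hc : 0 ≤ c) {f : G → ℝ}
    (hf0 : ∀ x, 0 ≤ f x) (hf : ∀ s : ℕ, Summable (fun x => f x * W.w x ^ s)) :
    (∀ x, 0 ≤ iotaW c x + 2 * f x) ∧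
    (∀ s : ℕ, Summable (fun x => (iotaW c x + 2 * f x) * W.w x ^ s)) ∧
    (∀ s : ℕ, ∑' x, (iotaW c x + 2 * f x) * W.w x ^ s
      = c * W.w 1 ^ s + 2 * ∑' x, f x * W.w x ^ s) ∧
    (∑' x, (iotaW c x + 2 * f x) = c + 2 * ∑' x, f x) := by
  refine ⟨fun x => ?_, fun s => ?_, fun s => ?_, ?_⟩
  · have h1 := newton_moments_iota_nonneg hc x
    have h2 := hf0 x
    linarith
  · exact ((newton_moments_iota_summable W c s).add ((hf s).mul_left 2)).congr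
      (fun x => by ring)
  · have h1 := newton_moments_iota_summable W c s
    have h2 := (hf s).mul_left 2
    have e : (fun x => (iotaW c x + 2 * f x) * W.w x ^ s)
        = fun x => iotaW c x * W.w x ^ s + 2 * (f x * W.w x ^ s) := by
      funext x
      ring
    rw [e, h1.tsum_add h2, newton_moments_iota_tsum, tsum_mul_left]
  · have h1 := newton_moments_iota_summable0 (G := G) c
    have h2 := (newton_moments_mass W hf).mul_left 2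
    rw [h1.tsum_add h2, newton_moments_iota_tsum0, tsum_mul_left]

theorem newton_moments_lin2 (W : PWeight G) {c : ℝ} (hc : 0 ≤ c) {ρ : G → ℝ}
    (hρ0 : ∀ x, 0 ≤ ρ x) (hρ : ∀ s : ℕ, Summable (fun x => ρ x * W.w x ^ s)) :
    (∀ x, 0 ≤ 4 * ρ x + 3 * iotaW c x) ∧
    (∀ s : ℕ, Summable (fun x => (4 * ρ x + 3 * iotaW c x) * W.w x ^ s)) ∧
    (∀ s : ℕ, ∑' x, (4 * ρ x + 3 * iotaW c x) * W.w x ^ s
      = 4 * (∑' x, ρ x * W.w x ^ s) + 3 * (c * W.w 1 ^ s)) ∧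
    (∑' x, (4 * ρ x + 3 * iotaW c x) = 4 * (∑' x, ρ x) + 3 * c) := by
  refine ⟨fun x => ?_, fun s => ?_, fun s => ?_, ?_⟩
  · have h1 := newton_moments_iota_nonneg hc x
    have h2 := hρ0 x
    linarith
  · exact (((hρ s).mul_left 4).add ((newton_moments_iota_summable W c s).mul_left 3)).congr
      (fun x => by ring)
  · have h1 := (hρ s).mul_left 4
    have h2 := (newton_moments_iota_summable W c s).mul_left 3
    have e : (fun x => (4 * ρ x + 3 * iotaW c x) * W.w x ^ s)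
        = fun x => 4 * (ρ x * W.w x ^ s) + 3 * (iotaW c x * W.w x ^ s) := by
      funext x
      ring
    rw [e, h1.tsum_add h2, tsum_mul_left, tsum_mul_left, newton_moments_iota_tsum]
  · have h1 := (newton_moments_mass W hρ).mul_left 4
    have h2 := (newton_moments_iota_summable0 (G := G) c).mul_left 3
    rw [h1.tsum_add h2, tsum_mul_left, tsum_mul_left, newton_moments_iota_tsum0]

theorem newton_moments_step_d (W : PWeight G) {c : ℝ} (hc : 0 ≤ c) {f ρ : G → ℝ}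
    (hf0 : ∀ x, 0 ≤ f x) (hρ0 : ∀ x, 0 ≤ ρ x)
    (hf : ∀ s : ℕ, Summable (fun x => f x * W.w x ^ s))
    (hρ : ∀ s : ℕ, Summable (fun x => ρ x * W.w x ^ s)) :
    (∀ x, 0 ≤ wconv (fun y => iotaW c y + 2 * f y) ρ x) ∧
    (∀ s : ℕ, Summable (fun x => wconv (fun y => iotaW c y + 2 * f y) ρ x * W.w x ^ s)) ∧
    (∑' x, wconv (fun y => iotaW c y + 2 * f y) ρ x = (c + 2 * ∑' x, f x) * ∑' x, ρ x) ∧
    (∀ s : ℕ, ∑' x, wconv (fun y => iotaW c y + 2 * f y) ρ x * W.w x ^ s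
      ≤ 4 ^ s * ((c * W.w 1 ^ s + 2 * ∑' x, f x * W.w x ^ s) * (∑' x, ρ x)
        + (c + 2 * ∑' x, f x) * ∑' x, ρ x * W.w x ^ s)) := by
  obtain ⟨hu0, hu, hum, hu1⟩ := newton_moments_lin1 W hc hf0 hf
  have huS := newton_moments_mass W hu
  have hρS := newton_moments_mass W hρ
  refine ⟨wconv_nonneg hu0 hρ0,
    fun s => (wconv_moment W hu0 hρ0 huS hρS s (hu s) (hρ s)).1, ?_, fun s => ?_⟩
  · rw [tsum_wconv huS hρS hu0 hρ0, hu1]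
  · have h := (wconv_moment W hu0 hρ0 huS hρS s (hu s) (hρ s)).2
    rw [hum s, hu1] at h
    exact h

theorem newton_moments_step_rho (W : PWeight G) {c : ℝ} (hc : 0 ≤ c) {ρ : G → ℝ}
    (hρ0 : ∀ x, 0 ≤ ρ x) (hρ : ∀ s : ℕ, Summable (fun x => ρ x * W.w x ^ s)) :
    (∀ x, 0 ≤ wconv (wconv ρ ρ) (fun y => 4 * ρ y + 3 * iotaW c y) x) ∧
    (∀ s : ℕ, Summable (fun x =>
      wconv (wconv ρ ρ) (fun y => 4 * ρ y + 3 * iotaW c y) x * W.w x ^ s)) ∧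
    (∑' x, wconv (wconv ρ ρ) (fun y => 4 * ρ y + 3 * iotaW c y) x
      = (∑' x, ρ x) ^ 2 * (4 * (∑' x, ρ x) + 3 * c)) ∧
    (∀ s : ℕ, ∑' x, wconv (wconv ρ ρ) (fun y => 4 * ρ y + 3 * iotaW c y) x * W.w x ^ s
      ≤ 4 ^ s * (4 ^ s * (2 * ((∑' x, ρ x) * ∑' x, ρ x * W.w x ^ s))
            * (4 * (∑' x, ρ x) + 3 * c)
        + (∑' x, ρ x) ^ 2 * (4 * (∑' x, ρ x * W.w x ^ s) + 3 * (c * W.w 1 ^ s)))) := by
  obtain ⟨hv0, hv, hvm, hv1⟩ := newton_moments_lin2 W hc hρ0 hρ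
  have hvS := newton_moments_mass W hv
  have hρS := newton_moments_mass W hρ
  have hρρ0 : ∀ x, 0 ≤ wconv ρ ρ x := wconv_nonneg hρ0 hρ0
  have hρρ : ∀ s : ℕ, Summable (fun x => wconv ρ ρ x * W.w x ^ s) := fun s =>
    (wconv_moment W hρ0 hρ0 hρS hρS s (hρ s) (hρ s)).1
  have hρρS : Summable (wconv ρ ρ) := summable_wconv hρS hρS hρ0 hρ0
  have hρρ1 : ∑' x, wconv ρ ρ x = (∑' x, ρ x) ^ 2 := by
    rw [tsum_wconv hρS hρS hρ0 hρ0, sq]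
  refine ⟨wconv_nonneg hρρ0 hv0,
    fun s => (wconv_moment W hρρ0 hv0 hρρS hvS s (hρρ s) (hv s)).1, ?_, fun s => ?_⟩
  · rw [tsum_wconv hρρS hvS hρρ0 hv0, hρρ1, hv1]
  · have h := (wconv_moment W hρρ0 hv0 hρρS hvS s (hρρ s) (hv s)).2
    have h2 := (wconv_moment W hρ0 hρ0 hρS hρS s (hρ s) (hρ s)).2
    rw [hvm s, hv1, hρρ1] at h
    have hX : 0 ≤ ∑' x, ρ x := tsum_nonneg hρ0
    have h3 : 0 ≤ 4 * (∑' x, ρ x) + 3 * c := by positivity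
    have h4 : (0 : ℝ) ≤ 4 ^ s := by positivity
    refine h.trans (mul_le_mul_of_nonneg_left (add_le_add ?_ le_rfl) h4)
    calc (∑' x, wconv ρ ρ x * W.w x ^ s) * (4 * (∑' x, ρ x) + 3 * c)
        ≤ (4 ^ s * ((∑' x, ρ x * W.w x ^ s) * (∑' x, ρ x)
            + (∑' x, ρ x) * ∑' x, ρ x * W.w x ^ s)) * (4 * (∑' x, ρ x) + 3 * c) :=
          mul_le_mul_of_nonneg_right h2 h3
      _ = 4 ^ s * (2 * ((∑' x, ρ x) * ∑' x, ρ x * W.w x ^ s))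
            * (4 * (∑' x, ρ x) + 3 * c) := by ring

theorem newton_moments_good (W : PWeight G) (c₁ : ℝ) (hc : 0 ≤ c₁)
    (f₀ ρ₀ : G → ℝ) (hf0 : ∀ x, 0 ≤ f₀ x) (hρ0 : ∀ x, 0 ≤ ρ₀ x)
    (hf : ∀ s : ℕ, Summable (fun x => f₀ x * W.w x ^ s))
    (hρ : ∀ s : ℕ, Summable (fun x => ρ₀ x * W.w x ^ s)) (n : ℕ) :
    ((∀ x, 0 ≤ (newtonW c₁ f₀ ρ₀ n).1 x) ∧
      ∀ s : ℕ, Summable (fun x => (newtonW c₁ f₀ ρ₀ n).1 x * W.w x ^ s)) ∧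
    ((∀ x, 0 ≤ (newtonW c₁ f₀ ρ₀ n).2 x) ∧
      ∀ s : ℕ, Summable (fun x => (newtonW c₁ f₀ ρ₀ n).2 x * W.w x ^ s)) := by
  induction n with
  | zero => exact ⟨⟨hf0, hf⟩, ⟨hρ0, hρ⟩⟩
  | succ n ih =>
    obtain ⟨⟨hfn0, hfn⟩, ⟨hρn0, hρn⟩⟩ := ih
    have hd := newton_moments_step_d W hc hfn0 hρn0 hfn hρn
    have hr := newton_moments_step_rho W hc hρn0 hρn
    refine ⟨⟨fun x => ?_, fun s => ?_⟩, ⟨hr.1, hr.2.1⟩⟩
    · exact add_nonneg (hfn0 x) (hd.1 x)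
    · exact ((hfn s).add (hd.2.1 s)).congr (fun x => (add_mul _ _ _).symm)

theorem newton_moments_scalar (W : PWeight G) (c₁ : ℝ) (hc : 0 ≤ c₁)
    (f₀ ρ₀ : G → ℝ) (hf0 : ∀ x, 0 ≤ f₀ x) (hρ0 : ∀ x, 0 ≤ ρ₀ x)
    (hf : ∀ s : ℕ, Summable (fun x => f₀ x * W.w x ^ s))
    (hρ : ∀ s : ℕ, Summable (fun x => ρ₀ x * W.w x ^ s))
    (hsmall : ∑' x, ρ₀ x ≤ 1 / (8 * (1 + c₁))) (s : ℕ) :
    Summable (fun n => ∑' x, (newtonW c₁ f₀ ρ₀ n).2 x) ∧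
    (∃ B : ℝ, ∀ n, ∑' x, (newtonW c₁ f₀ ρ₀ n).1 x ≤ B) ∧
    (∑' n, (c₁ + 2 * ∑' x, (newtonW c₁ f₀ ρ₀ n).1 x) * ∑' x, (newtonW c₁ f₀ ρ₀ n).2 x
      ≤ 4 * (c₁ + 2 * ∑' x, f₀ x) * ∑' x, ρ₀ x) ∧
    Summable (fun n => ∑' x, newtonD c₁ f₀ ρ₀ n x * W.w x ^ s) := by
  have hgood := newton_moments_good W c₁ hc f₀ ρ₀ hf0 hρ0 hf hρ
  have hfn0 : ∀ n x, 0 ≤ (newtonW c₁ f₀ ρ₀ n).1 x := fun n => (hgood n).1.1
  have hfnS : ∀ n (t : ℕ), Summable (fun x => (newtonW c₁ f₀ ρ₀ n).1 x * W.w x ^ t) :=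
    fun n => (hgood n).1.2
  have hρn0 : ∀ n x, 0 ≤ (newtonW c₁ f₀ ρ₀ n).2 x := fun n => (hgood n).2.1
  have hρnS : ∀ n (t : ℕ), Summable (fun x => (newtonW c₁ f₀ ρ₀ n).2 x * W.w x ^ t) :=
    fun n => (hgood n).2.2
  have hD := fun n => newton_moments_step_d W hc (hfn0 n) (hρn0 n) (hfnS n) (hρnS n)
  have hR := fun n => newton_moments_step_rho W hc (hρn0 n) (hρnS n)
  have hd0 : ∀ n x, 0 ≤ newtonD c₁ f₀ ρ₀ n x := fun n => (hD n).1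
  have hdS : ∀ n (t : ℕ), Summable (fun x => newtonD c₁ f₀ ρ₀ n x * W.w x ^ t) :=
    fun n => (hD n).2.1
  have hd1 : ∀ n, ∑' x, newtonD c₁ f₀ ρ₀ n x
      = (c₁ + 2 * ∑' x, (newtonW c₁ f₀ ρ₀ n).1 x) * ∑' x, (newtonW c₁ f₀ ρ₀ n).2 x :=
    fun n => (hD n).2.2.1
  have hdm : ∀ n, ∑' x, newtonD c₁ f₀ ρ₀ n x * W.w x ^ s
      ≤ 4 ^ s * ((c₁ * W.w 1 ^ s + 2 * ∑' x, (newtonW c₁ f₀ ρ₀ n).1 x * W.w x ^ s)
          * (∑' x, (newtonW c₁ f₀ ρ₀ n).2 x)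
        + (c₁ + 2 * ∑' x, (newtonW c₁ f₀ ρ₀ n).1 x)
          * ∑' x, (newtonW c₁ f₀ ρ₀ n).2 x * W.w x ^ s) :=
    fun n => (hD n).2.2.2 s
  have hX : ∀ n, ∑' x, (newtonW c₁ f₀ ρ₀ (n + 1)).2 x
      = (∑' x, (newtonW c₁ f₀ ρ₀ n).2 x) ^ 2
        * (4 * (∑' x, (newtonW c₁ f₀ ρ₀ n).2 x) + 3 * c₁) :=
    fun n => (hR n).2.2.1
  have hY : ∀ n, ∑' x, (newtonW c₁ f₀ ρ₀ (n + 1)).2 x * W.w x ^ s
      ≤ 4 ^ s * (4 ^ s * (2 * ((∑' x, (newtonW c₁ f₀ ρ₀ n).2 x)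
              * ∑' x, (newtonW c₁ f₀ ρ₀ n).2 x * W.w x ^ s))
            * (4 * (∑' x, (newtonW c₁ f₀ ρ₀ n).2 x) + 3 * c₁)
        + (∑' x, (newtonW c₁ f₀ ρ₀ n).2 x) ^ 2
          * (4 * (∑' x, (newtonW c₁ f₀ ρ₀ n).2 x * W.w x ^ s) + 3 * (c₁ * W.w 1 ^ s))) :=
    fun n => (hR n).2.2.2 s
  have hF : ∀ n, ∑' x, (newtonW c₁ f₀ ρ₀ (n + 1)).1 x
      = ∑' x, (newtonW c₁ f₀ ρ₀ n).1 x + ∑' x, newtonD c₁ f₀ ρ₀ n x := fun n =>
    (newton_moments_mass W (hfnS n)).tsum_add (newton_moments_mass W (hdS n))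
  have hH : ∀ n, ∑' x, (newtonW c₁ f₀ ρ₀ (n + 1)).1 x * W.w x ^ s
      = ∑' x, (newtonW c₁ f₀ ρ₀ n).1 x * W.w x ^ s
        + ∑' x, newtonD c₁ f₀ ρ₀ n x * W.w x ^ s := by
    intro n
    rw [← (hfnS n s).tsum_add (hdS n s)]
    exact tsum_congr (fun x => add_mul _ _ _)
  have hP : (1 : ℝ) ≤ 4 ^ s := one_le_pow₀ (by norm_num)
  have hw : (1 : ℝ) ≤ W.w 1 ^ s := W.one_le_pow 1 s
  obtain ⟨K, hKdef⟩ : ∃ K : ℝ, K = 4 ^ s * (4 ^ s * 8 + 4 ^ s * 6 * c₁ + 4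
      + 3 * c₁ * W.w 1 ^ s + 2) := ⟨_, rfl⟩
  have hK : 0 ≤ K := by
    rw [hKdef]
    positivity
  have hXn0 : ∀ n, 0 ≤ ∑' x, (newtonW c₁ f₀ ρ₀ n).2 x := fun n => tsum_nonneg (hρn0 n)
  have hFn0 : ∀ n, 0 ≤ ∑' x, (newtonW c₁ f₀ ρ₀ n).1 x := fun n => tsum_nonneg (hfn0 n)
  have hYn0 : ∀ n, 0 ≤ ∑' x, (newtonW c₁ f₀ ρ₀ n).2 x * W.w x ^ s := fun n =>
    tsum_nonneg (fun x => mul_nonneg (hρn0 n x) (pow_nonneg (W.pos x).le s))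
  have hHn0 : ∀ n, 0 ≤ ∑' x, (newtonW c₁ f₀ ρ₀ n).1 x * W.w x ^ s := fun n =>
    tsum_nonneg (fun x => mul_nonneg (hfn0 n x) (pow_nonneg (W.pos x).le s))
  have hDn0 : ∀ n, 0 ≤ ∑' x, newtonD c₁ f₀ ρ₀ n x * W.w x ^ s := fun n =>
    tsum_nonneg (fun x => mul_nonneg (hd0 n x) (pow_nonneg (W.pos x).le s))
  have hDK : ∀ n, ∑' x, newtonD c₁ f₀ ρ₀ n x * W.w x ^ s
      ≤ K * ((1 + ∑' x, (newtonW c₁ f₀ ρ₀ n).1 x * W.w x ^ s)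
          * (∑' x, (newtonW c₁ f₀ ρ₀ n).2 x)
        + (c₁ + 2 * ∑' x, (newtonW c₁ f₀ ρ₀ n).1 x)
          * ∑' x, (newtonW c₁ f₀ ρ₀ n).2 x * W.w x ^ s) := by
    intro n
    refine (hdm n).trans ?_
    have hx := hXn0 n
    have hy := hYn0 n
    have hFF := hFn0 n
    have hHH := hHn0 n
    generalize (∑' x, (newtonW c₁ f₀ ρ₀ n).2 x) = X at hx ⊢
    generalize (∑' x, (newtonW c₁ f₀ ρ₀ n).2 x * W.w x ^ s) = Y at hy ⊢
    generalize (∑' x, (newtonW c₁ f₀ ρ₀ n).1 x) = F at hFF ⊢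
    generalize (∑' x, (newtonW c₁ f₀ ρ₀ n).1 x * W.w x ^ s) = H at hHH ⊢
    generalize W.w 1 ^ s = w at hw hKdef ⊢
    generalize (4 : ℝ) ^ s = P at hP hKdef ⊢
    have hP0 : 0 ≤ P := by linarith
    have hw0 : 0 ≤ w := by linarith
    have hdiff : K * ((1 + H) * X + (c₁ + 2 * F) * Y)
        - P * ((c₁ * w + 2 * H) * X + (c₁ + 2 * F) * Y)
        = P * (((8 * P + 6 * P * c₁ + 4 + 2 * c₁ * w + 2)
              + (8 * P + 6 * P * c₁ + 4 + 3 * c₁ * w) * H) * X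
            + (8 * P + 6 * P * c₁ + 4 + 3 * c₁ * w + 1) * ((c₁ + 2 * F) * Y)) := by
      rw [hKdef]
      ring
    have hpos : 0 ≤ P * (((8 * P + 6 * P * c₁ + 4 + 2 * c₁ * w + 2)
              + (8 * P + 6 * P * c₁ + 4 + 3 * c₁ * w) * H) * X
            + (8 * P + 6 * P * c₁ + 4 + 3 * c₁ * w + 1) * ((c₁ + 2 * F) * Y)) := by
      positivity
    linarith
  have hYK : ∀ n, ∑' x, (newtonW c₁ f₀ ρ₀ (n + 1)).2 x * W.w x ^ s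
      ≤ K * ((∑' x, (newtonW c₁ f₀ ρ₀ n).2 x)
            * (∑' x, (newtonW c₁ f₀ ρ₀ n).2 x * W.w x ^ s)
            * (1 + ∑' x, (newtonW c₁ f₀ ρ₀ n).2 x)
          + (∑' x, (newtonW c₁ f₀ ρ₀ n).2 x) ^ 2) := by
    intro n
    refine (hY n).trans ?_
    have hx := hXn0 n
    have hy := hYn0 n
    generalize (∑' x, (newtonW c₁ f₀ ρ₀ n).2 x) = X at hx ⊢
    generalize (∑' x, (newtonW c₁ f₀ ρ₀ n).2 x * W.w x ^ s) = Y at hy ⊢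
    generalize W.w 1 ^ s = w at hw hKdef ⊢
    generalize (4 : ℝ) ^ s = P at hP hKdef ⊢
    have hP0 : 0 ≤ P := by linarith
    have hw0 : 0 ≤ w := by linarith
    have hdiff : K * (X * Y * (1 + X) + X ^ 2)
        - P * (P * (2 * (X * Y)) * (4 * X + 3 * c₁) + X ^ 2 * (4 * Y + 3 * (c₁ * w)))
        = P * ((8 * P + 4 + 3 * c₁ * w + 2) * (X * Y)
            + (6 * P * c₁ + 3 * c₁ * w + 2) * (X ^ 2 * Y)
            + (8 * P + 6 * P * c₁ + 4 + 2) * X ^ 2) := by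
      rw [hKdef]
      ring
    have hpos : 0 ≤ P * ((8 * P + 4 + 3 * c₁ * w + 2) * (X * Y)
            + (6 * P * c₁ + 3 * c₁ * w + 2) * (X ^ 2 * Y)
            + (8 * P + 6 * P * c₁ + 4 + 2) * X ^ 2) := by
      positivity
    linarith
  obtain ⟨-, -, hXs, hYs, ⟨BF, hBF⟩, ⟨BH, hBH⟩, -, hlast⟩ :=
    newton_scalar c₁ K hc hK
      (fun n => ∑' x, (newtonW c₁ f₀ ρ₀ n).2 x)
      (fun n => ∑' x, (newtonW c₁ f₀ ρ₀ n).2 x * W.w x ^ s)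
      (fun n => ∑' x, (newtonW c₁ f₀ ρ₀ n).1 x)
      (fun n => ∑' x, (newtonW c₁ f₀ ρ₀ n).1 x * W.w x ^ s)
      hXn0 hYn0 hFn0 hHn0 hsmall
      (fun n => (hX n).le) hYK
      (fun n => by
        have h1 := hF n
        have h2 := hd1 n
        show ∑' x, (newtonW c₁ f₀ ρ₀ (n + 1)).1 x
          ≤ ∑' x, (newtonW c₁ f₀ ρ₀ n).1 x
            + (c₁ + 2 * ∑' x, (newtonW c₁ f₀ ρ₀ n).1 x) * ∑' x, (newtonW c₁ f₀ ρ₀ n).2 x
        rw [h1, h2])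
      (fun n => by
        have h1 := hH n
        have h2 := hDK n
        show ∑' x, (newtonW c₁ f₀ ρ₀ (n + 1)).1 x * W.w x ^ s
          ≤ ∑' x, (newtonW c₁ f₀ ρ₀ n).1 x * W.w x ^ s
            + K * ((1 + ∑' x, (newtonW c₁ f₀ ρ₀ n).1 x * W.w x ^ s)
                * (∑' x, (newtonW c₁ f₀ ρ₀ n).2 x)
              + (c₁ + 2 * ∑' x, (newtonW c₁ f₀ ρ₀ n).1 x)
                * ∑' x, (newtonW c₁ f₀ ρ₀ n).2 x * W.w x ^ s)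
        rw [h1]
        linarith)
  refine ⟨hXs, ⟨BF, hBF⟩, hlast, ?_⟩
  have hmaj : Summable (fun n => K * ((1 + BH) * (∑' x, (newtonW c₁ f₀ ρ₀ n).2 x)
      + (c₁ + 2 * BF) * ∑' x, (newtonW c₁ f₀ ρ₀ n).2 x * W.w x ^ s)) :=
    ((hXs.mul_left (1 + BH)).add (hYs.mul_left (c₁ + 2 * BF))).mul_left K
  refine Summable.of_nonneg_of_le hDn0 (fun n => ?_) hmaj
  refine (hDK n).trans (mul_le_mul_of_nonneg_left (add_le_add ?_ ?_) hK)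
  · exact mul_le_mul_of_nonneg_right (by linarith [hBH n]) (hXn0 n)
  · exact mul_le_mul_of_nonneg_right (by linarith [hBF n]) (hYn0 n)

theorem newton_moments {G : Type*} [Group G] (W : PWeight G) (c₁ : ℝ) (hc : 0 ≤ c₁)
    (f₀ ρ₀ : G → ℝ) (hf0 : ∀ x, 0 ≤ f₀ x) (hρ0 : ∀ x, 0 ≤ ρ₀ x)
    (hf : ∀ s : ℕ, Summable (fun x => f₀ x * W.w x ^ s))
    (hρ : ∀ s : ℕ, Summable (fun x => ρ₀ x * W.w x ^ s))
    (hsmall : ∑' x, ρ₀ x ≤ 1 / (8 * (1 + c₁))) :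
    (∀ n x, 0 ≤ (newtonW c₁ f₀ ρ₀ n).1 x) ∧ (∀ n x, 0 ≤ (newtonW c₁ f₀ ρ₀ n).2 x) ∧
    (∀ n x, 0 ≤ newtonD c₁ f₀ ρ₀ n x) ∧
    (∀ (n s : ℕ), Summable (fun x => (newtonW c₁ f₀ ρ₀ n).1 x * W.w x ^ s)) ∧
    (∀ (n s : ℕ), Summable (fun x => (newtonW c₁ f₀ ρ₀ n).2 x * W.w x ^ s)) ∧
    (∀ (n s : ℕ), Summable (fun x => newtonD c₁ f₀ ρ₀ n x * W.w x ^ s)) ∧
    (∀ s : ℕ, Summable (fun n => ∑' x, newtonD c₁ f₀ ρ₀ n x * W.w x ^ s)) ∧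
    (∑' n, ∑' x, newtonD c₁ f₀ ρ₀ n x ≤ 4 * (c₁ + 2 * ∑' x, f₀ x) * ∑' x, ρ₀ x) ∧
    Tendsto (fun n => ∑' x, (newtonW c₁ f₀ ρ₀ n).2 x) atTop (𝓝 0) ∧
    ∃ B : ℝ, ∀ n, ∑' x, (newtonW c₁ f₀ ρ₀ n).1 x ≤ B := by
  have hgood := newton_moments_good W c₁ hc f₀ ρ₀ hf0 hρ0 hf hρ
  have hD := fun n => newton_moments_step_d W hc (hgood n).1.1 (hgood n).2.1
    (hgood n).1.2 (hgood n).2.2
  obtain ⟨hXs, hB, hlast, -⟩ := newton_moments_scalar W c₁ hc f₀ ρ₀ hf0 hρ0 hf hρ hsmall 0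
  refine ⟨fun n => (hgood n).1.1, fun n => (hgood n).2.1, fun n => (hD n).1,
    fun n => (hgood n).1.2, fun n => (hgood n).2.2, fun n => (hD n).2.1,
    fun s => (newton_moments_scalar W c₁ hc f₀ ρ₀ hf0 hρ0 hf hρ hsmall s).2.2.2, ?_,
    hXs.tendsto_atTop_zero, hB⟩
  have e : (fun n => ∑' x, newtonD c₁ f₀ ρ₀ n x)
      = fun n => (c₁ + 2 * ∑' x, (newtonW c₁ f₀ ρ₀ n).1 x)
        * ∑' x, (newtonW c₁ f₀ ρ₀ n).2 x := funext (fun n => (hD n).2.2.1)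
  rw [e]
  exact hlast

end Vale.Agent.Lib.P184
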