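import Vale.Agent.Lib.P184.HeisNewton
import Vale.Agent.Lib.P184.HeisNewtonMoments
import Vale.Agent.Lib.P184.HeisLimit
import Vale.Agent.Lib.P184.HeisIdem

/-!
# Idempotents with finite moments of all orders

Every idempotent of the convolution algebra of absolutely summable functions is close to an
idempotent kernel all of whose moments against a weight of polynomial type are finite, with the
same class trace.  The idempotent is found by a Newton iteration started at a truncation of the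
given one to a finite set.
-/

namespace Vale.Agent.Lib.P184

open scoped BigOperators Topology
open Filter

set_option linter.unusedSectionVars false

variable {G : Type*} [Group G] {R : Type*} [NormedRing R] [CompleteSpace R] {g : G}

/-- The Newton iteration started at an approximate idempotent with finite moments and small
defect converges to an idempotent with finite moments. -/
theorem newton_idempotent (W : PWeight G) (a₀ : DKer G R g) (f₀ ρ₀ : G → ℝ)
    (hf : SDom W f₀ a₀.K) (hρ : SDom W ρ₀ (a₀ * a₀ - a₀).K)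
    (hsmall : ∑' x, ρ₀ x ≤ 1 / (8 * (1 + ‖(1 : R)‖))) :
    ∃ E' : DKer G R g, E' * E' = E' ∧ E' ∈ SKer g W ∧
      ∃ t : G → ℝ, Dom t (E' - a₀).K ∧
        ∑' x, t x ≤ 4 * (‖(1 : R)‖ + 2 * ∑' x, f₀ x) * ∑' x, ρ₀ x := by
  obtain ⟨-, -, -, -, -, hds, hdn, hmass, hlim, B, hB⟩ :=
    newton_moments W ‖(1 : R)‖ (norm_nonneg _) f₀ ρ₀ hf.1.1 hρ.1.1 hf.2 hρ.2 hsmall
  have hdom := newton_dom a₀ f₀ ρ₀ hf.1 hρ.1
  obtain ⟨E', hmem, htail⟩ := limit_kernel W (newtonA a₀) f₀ (newtonD ‖(1 : R)‖ f₀ ρ₀)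
    (by rw [newtonA_zero]; exact hf) (fun n => (hdom n).2.2) hds hdn
  refine ⟨E', ?_, hmem, ?_⟩
  · refine idempotent_of_approx E' B (fun ε hε => ?_)
    have htl := tendsto_sum_nat_add (fun n => ∑' x, newtonD ‖(1 : R)‖ f₀ ρ₀ n x)
    have e1 := hlim.eventually_le_const hε
    have e2 := htl.eventually_le_const hε
    obtain ⟨N, hN1, hN2⟩ := (e1.and e2).exists
    obtain ⟨t, ht, htle⟩ := htail N
    exact ⟨newtonA a₀ N, _, _, t, (hdom N).1, hB N, (hdom N).2.1, hN1, ht, htle.trans hN2⟩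
  · obtain ⟨t, ht, htle⟩ := htail 0
    refine ⟨t, by simpa [newtonA_zero] using ht, ?_⟩
    have : ∑' x, t x ≤ ∑' n, ∑' x, newtonD ‖(1 : R)‖ f₀ ρ₀ n x := by simpa using htle
    exact this.trans hmass

/-- The convolution kernel of an absolutely summable function. -/
def convKer (e : G → R) (he : Summable (fun x => ‖e x‖)) (g : G) : DKer G R g where
  K k h := e (k * h⁻¹)
  inv' z _ k h := by
    have h4 : k * z * (h * z)⁻¹ = k * h⁻¹ := by group
    rw [h4]
  dom' := ⟨fun x => ‖e x‖, fun x => norm_nonneg _, he, fun k h => le_rfl⟩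

theorem convKer_K (e : G → R) (he : Summable (fun x => ‖e x‖)) (g k h : G) :
    (convKer e he g).K k h = e (k * h⁻¹) := rfl

theorem convKer_mul (e : G → R) (he : Summable (fun x => ‖e x‖))
    (he_idem : ∀ x, ∑' y, e y * e (y⁻¹ * x) = e x) (g : G) :
    convKer e he g * convKer e he g = convKer e he g := by
  refine DKer.ext' (fun k h => ?_)
  rw [DKer.mul_K]
  simp only [convKer_K]
  rw [← he_idem (k * h⁻¹)]
  have h2 := Equiv.tsum_eq ((Equiv.inv G).trans (Equiv.mulLeft k))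
    (fun y => e y * e (y⁻¹ * (k * h⁻¹)))
  rw [← h2]
  refine tsum_congr (fun m => ?_)
  simp [mul_assoc]

open Classical in
/-- The truncation of a convolution kernel to a finite set. -/
noncomputable def truncKer (e : G → R) (S : Finset G) (g : G) : DKer G R g where
  K k h := if k * h⁻¹ ∈ S then e (k * h⁻¹) else 0
  inv' z _ k h := by
    have h4 : k * z * (h * z)⁻¹ = k * h⁻¹ := by group
    rw [h4]
  dom' := ⟨fun x => if x ∈ S then ‖e x‖ else 0,
    fun x => by
      dsimp only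
      split_ifs
      · exact norm_nonneg _
      · exact le_rfl,
    summable_of_ne_finset_zero (s := S) (fun b hb => by simp [hb]),
    fun k h => by
      dsimp only
      split_ifs
      · exact le_rfl
      · simp⟩

open Classical in
theorem truncKer_K (e : G → R) (S : Finset G) (g k h : G) :
    (truncKer e S g : DKer G R g).K k h = if k * h⁻¹ ∈ S then e (k * h⁻¹) else 0 := rfl

/-- Every idempotent of the convolution algebra has the same class trace as an idempotent kernel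
with finite moments of all orders. -/
theorem smooth_idempotent {R : Type*} [NormedRing R] [NormedAlgebra ℂ R] [CompleteSpace R]
    (W : PWeight G) (τ : R →L[ℂ] ℂ) (hτ : ∀ a b, τ (a * b) = τ (b * a))
    (e : G → R) (he : Summable (fun x => ‖e x‖))
    (he_idem : ∀ x, ∑' y, e y * e (y⁻¹ * x) = e x) (g : G) :
    ∃ E' : DKer G R g, E' * E' = E' ∧ E' ∈ SKer g W ∧
      DKer.tr τ E' = ∑' c : {c : G // IsConj g c}, τ (e c.1) := by
  classical
  obtain ⟨M, hM⟩ : ∃ M : ℝ, M = ∑' x, ‖e x‖ := ⟨_, rfl⟩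
  obtain ⟨c₁, hc₁⟩ : ∃ c₁ : ℝ, c₁ = ‖(1 : R)‖ := ⟨_, rfl⟩
  have hM0 : 0 ≤ M := by rw [hM]; exact tsum_nonneg (fun _ => norm_nonneg _)
  have hc0 : 0 ≤ c₁ := by rw [hc₁]; exact norm_nonneg _
  obtain ⟨L, hL⟩ : ∃ L : ℝ, L = 2 * M + 2 := ⟨_, rfl⟩
  have hL2 : 2 ≤ L := by rw [hL]; linarith
  obtain ⟨ε, hε⟩ : ∃ ε : ℝ, ε = 1 / (16 * L * (1 + c₁ + 2 * M)) := ⟨_, rfl⟩
  have hden : 0 < 16 * L * (1 + c₁ + 2 * M) := by positivity
  have hεpos : 0 < ε := by rw [hε]; positivity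
  have hεL : L * ε = 1 / (16 * (1 + c₁ + 2 * M)) := by
    rw [hε]
    field_simp
  have hε32 : ε ≤ 1 / 32 := by
    rw [hε]
    apply one_div_le_one_div_of_le (by norm_num)
    nlinarith
  -- the finite set
  obtain ⟨S, hS⟩ : ∃ S : Finset G, M - ε < ∑ x ∈ S, ‖e x‖ := by
    have h1 : Tendsto (fun S : Finset G => ∑ x ∈ S, ‖e x‖) atTop (𝓝 M) := by
      rw [hM]; exact he.hasSum
    exact (h1.eventually_const_lt (by linarith)).exists
  obtain ⟨η, hη⟩ : ∃ η : G → ℝ, η = fun x => if x ∈ S then ‖e x‖ else 0 := ⟨_, rfl⟩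
  obtain ⟨β, hβ⟩ : ∃ β : G → ℝ, β = fun x => if x ∈ S then 0 else ‖e x‖ := ⟨_, rfl⟩
  have hη0 : ∀ x, 0 ≤ η x := fun x => by
    rw [hη]; dsimp only; split_ifs
    · exact norm_nonneg _
    · exact le_rfl
  have hβ0 : ∀ x, 0 ≤ β x := fun x => by
    rw [hβ]; dsimp only; split_ifs
    · exact le_rfl
    · exact norm_nonneg _
  have hηs : Summable η := by
    rw [hη]
    exact summable_of_ne_finset_zero (s := S) (fun b hb => by simp [hb])
  have hηβ : ∀ x, η x + β x = ‖e x‖ := fun x => by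
    rw [hη, hβ]; dsimp only; split_ifs <;> simp
  have hβs : Summable β := by
    have h1 : β = fun x => ‖e x‖ - η x := by
      funext x
      linarith [hηβ x]
    rw [h1]
    exact he.sub hηs
  have hηsum : ∑' x, η x = ∑ x ∈ S, ‖e x‖ := by
    rw [hη, tsum_eq_sum (s := S) (fun b hb => by simp [hb])]
    exact Finset.sum_congr rfl (fun x hx => by simp [hx])
  have hsumηβ : ∑' x, η x + ∑' x, β x = M := by
    rw [← hηs.tsum_add hβs, hM]
    exact tsum_congr hηβ
  have hβε : ∑' x, β x ≤ ε := by linarith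
  have hβnn : 0 ≤ ∑' x, β x := tsum_nonneg hβ0
  have hηM : ∑' x, η x ≤ M := by linarith
  have hηnn : 0 ≤ ∑' x, η x := tsum_nonneg hη0
  -- the kernels
  obtain ⟨E₀, hE₀⟩ : ∃ E₀ : DKer G R g, E₀ = convKer e he g := ⟨_, rfl⟩
  obtain ⟨a₀, ha₀⟩ : ∃ a₀ : DKer G R g, a₀ = truncKer e S g := ⟨_, rfl⟩
  have hE₀idem : E₀ * E₀ = E₀ := by rw [hE₀]; exact convKer_mul e he he_idem g
  have hdomη : Dom η a₀.K := by
    refine ⟨hη0, hηs, fun k h => ?_⟩
    rw [ha₀, truncKer_K, hη]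
    dsimp only
    split_ifs
    · exact le_rfl
    · simp
  obtain ⟨b, hb⟩ : ∃ b : DKer G R g, b = E₀ - a₀ := ⟨_, rfl⟩
  have hdomβ : Dom β b.K := by
    refine ⟨hβ0, hβs, fun k h => ?_⟩
    rw [hb, DKer.sub_K, hE₀, ha₀, truncKer_K, convKer_K, hβ]
    dsimp only
    split_ifs
    · simp
    · simp
  -- the defect of the truncation
  have hdefect : a₀ * a₀ - a₀ = -(a₀ * b) + -(b * a₀) + -(b * b) + b := by
    have h1 : E₀ = a₀ + b := by rw [hb]; abel
    have h2 : (a₀ + b) * (a₀ + b) = a₀ + b := by rw [← h1]; exact hE₀idem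
    have h3 : a₀ * a₀ + a₀ * b + b * a₀ + b * b = a₀ + b := by
      rw [← h2]; noncomm_ring
    have h4 : a₀ * a₀ = a₀ + b - a₀ * b - b * a₀ - b * b := by
      rw [← h3]; abel
    rw [h4]; abel
  obtain ⟨ρf, hρf⟩ : ∃ ρf : G → ℝ,
      ρf = fun x => wconv η β x + wconv β η x + wconv β β x + β x := ⟨_, rfl⟩
  have hdomρf : Dom ρf (a₀ * a₀ - a₀).K := by
    have h1 := (((hdomη.mul hdomβ).neg).add ((hdomβ.mul hdomη).neg)).add ((hdomβ.mul hdomβ).neg)
    have h2 := h1.add hdomβ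
    rw [hdefect, hρf]
    exact h2
  have hρfsum : ∑' x, ρf x ≤ L * ε := by
    have s1 := summable_wconv hηs hβs hη0 hβ0
    have s2 := summable_wconv hβs hηs hβ0 hη0
    have s3 := summable_wconv hβs hβs hβ0 hβ0
    have h1 : ∑' x, ρf x = (∑' x, η x) * (∑' x, β x) + (∑' x, β x) * (∑' x, η x)
        + (∑' x, β x) * (∑' x, β x) + ∑' x, β x := by
      rw [hρf, ((s1.add s2).add s3).tsum_add hβs, (s1.add s2).tsum_add s3, s1.tsum_add s2,
        tsum_wconv hηs hβs hη0 hβ0, tsum_wconv hβs hηs hβ0 hη0, tsum_wconv hβs hβs hβ0 hβ0]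
    rw [h1, hL]
    nlinarith
  -- restriction of the weight of the defect to a finite set
  obtain ⟨S', hS'⟩ : ∃ S' : Finset G,
      S' = (S ×ˢ S).image (fun p : G × G => p.1 * p.2) ∪ S := ⟨_, rfl⟩
  obtain ⟨ρ₀, hρ₀⟩ : ∃ ρ₀ : G → ℝ, ρ₀ = fun x => if x ∈ S' then ρf x else 0 := ⟨_, rfl⟩
  have hρ₀0 : ∀ x, 0 ≤ ρ₀ x := fun x => by
    rw [hρ₀]; dsimp only; split_ifs
    · exact hdomρf.1 x
    · exact le_rfl
  have hρ₀le : ∀ x, ρ₀ x ≤ ρf x := fun x => by
    rw [hρ₀]; dsimp only; split_ifs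
    · exact le_rfl
    · exact hdomρf.1 x
  have hρ₀s : Summable ρ₀ := by
    rw [hρ₀]
    exact summable_of_ne_finset_zero (s := S') (fun b hb => by simp [hb])
  have hzero : ∀ k h : G, k * h⁻¹ ∉ S' → (a₀ * a₀ - a₀).K k h = 0 := by
    intro k h hkh
    have hS1 : k * h⁻¹ ∉ S := fun hh => hkh (by rw [hS']; exact Finset.mem_union_right _ hh)
    rw [DKer.sub_K, DKer.mul_K]
    have h1 : ∀ m, a₀.K k m * a₀.K m h = 0 := by
      intro m
      rw [ha₀, truncKer_K, truncKer_K]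
      by_cases h2 : k * m⁻¹ ∈ S
      · by_cases h3 : m * h⁻¹ ∈ S
        · exfalso
          apply hkh
          rw [hS']
          refine Finset.mem_union_left _ (Finset.mem_image.mpr ⟨(k * m⁻¹, m * h⁻¹), ?_, ?_⟩)
          · exact Finset.mem_product.mpr ⟨h2, h3⟩
          · simp [mul_assoc]
        · rw [if_neg h3, mul_zero]
      · rw [if_neg h2, zero_mul]
    rw [tsum_congr h1, tsum_zero, ha₀, truncKer_K, if_neg hS1, sub_zero]
  have hdomρ₀ : Dom ρ₀ (a₀ * a₀ - a₀).K := by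
    refine ⟨hρ₀0, hρ₀s, fun k h => ?_⟩
    by_cases hkh : k * h⁻¹ ∈ S'
    · have : ρ₀ (k * h⁻¹) = ρf (k * h⁻¹) := by rw [hρ₀]; simp [hkh]
      rw [this]
      exact hdomρf.2.2 k h
    · rw [hzero k h hkh, norm_zero]
      exact hρ₀0 _
  have hSDη : SDom W η a₀.K := by
    refine ⟨hdomη, fun s => ?_⟩
    rw [hη]
    exact summable_of_ne_finset_zero (s := S) (fun b hb => by simp [hb])
  have hSDρ : SDom W ρ₀ (a₀ * a₀ - a₀).K := by
    refine ⟨hdomρ₀, fun s => ?_⟩
    rw [hρ₀]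
    exact summable_of_ne_finset_zero (s := S') (fun b hb => by simp [hb])
  have hρ₀sum : ∑' x, ρ₀ x ≤ L * ε :=
    (hρ₀s.tsum_le_tsum hρ₀le hdomρf.2.1).trans hρfsum
  have hρ₀nn : 0 ≤ ∑' x, ρ₀ x := tsum_nonneg hρ₀0
  have hsmall : ∑' x, ρ₀ x ≤ 1 / (8 * (1 + ‖(1 : R)‖)) := by
    rw [← hc₁]
    refine hρ₀sum.trans ?_
    rw [hεL]
    apply one_div_le_one_div_of_le (by positivity)
    linarith
  obtain ⟨E', hE'idem, hE'mem, t, ht, htle⟩ := newton_idempotent W a₀ η ρ₀ hSDη hSDρ hsmall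
  refine ⟨E', hE'idem, hE'mem, ?_⟩
  -- the traces agree
  have hdiff : Dom (fun x => t x + β x) (E' - E₀).K := by
    have h1 := ht.add hdomβ.neg
    have h2 : (E' - E₀).K = fun k h => (E' - a₀).K k h + -b.K k h := by
      funext k h
      rw [hb]
      simp only [DKer.sub_K]
      abel
    rw [h2]
    exact h1
  have hlt : ∑' x, (t x + β x) < 1 := by
    rw [ht.2.1.tsum_add hβs]
    have h1 : ∑' x, t x ≤ 4 * (c₁ + 2 * M) * (L * ε) := by
      refine htle.trans ?_
      rw [← hc₁]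
      have h2 : 4 * (c₁ + 2 * ∑' x, η x) ≤ 4 * (c₁ + 2 * M) := by linarith
      calc 4 * (c₁ + 2 * ∑' x, η x) * ∑' x, ρ₀ x
          ≤ 4 * (c₁ + 2 * M) * ∑' x, ρ₀ x := mul_le_mul_of_nonneg_right h2 hρ₀nn
        _ ≤ 4 * (c₁ + 2 * M) * (L * ε) :=
            mul_le_mul_of_nonneg_left hρ₀sum (by positivity)
    have h3 : 4 * (c₁ + 2 * M) * (L * ε) ≤ 1 / 4 := by
      rw [hεL, mul_one_div, div_le_iff₀ (by positivity)]
      linarith
    linarith
  have htr := tr_eq_of_close τ hτ E₀ E' hE₀idem hE'idem _ hdiff hlt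
  rw [htr, hE₀, DKer.tr]
  refine tsum_congr (fun c => ?_)
  rw [convKer_K, mul_inv_cancel_right]

end Vale.Agent.Lib.P184
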