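import Vale.Agent.Lib.P184.Undistorted

/-!
# Hyperbolic word metrics

`HypMetric G` packages a natural-number valued metric on a group `G` which is left-invariant,
proper (finite balls), discretely geodesic and satisfies Gromov's four-point condition with
constant `δ`.  The word metric of a word-hyperbolic group with respect to a finite generating set
is of this kind, and conversely every such metric is the word metric of the finite generating set
`{x | d 1 x = 1}`.
-/

namespace Vale.Agent.Lib.P184

/-- A left-invariant, proper, discretely geodesic, `δ`-hyperbolic metric with values in `ℕ`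
on a group. -/
structure HypMetric (G : Type*) [Group G] where
  /-- the distance -/
  d : G → G → ℕ
  /-- the hyperbolicity constant -/
  δ : ℕ
  d_self : ∀ x, d x x = 0
  eq_of_d : ∀ x y, d x y = 0 → x = y
  d_comm : ∀ x y, d x y = d y x
  d_tri : ∀ x y z, d x z ≤ d x y + d y z
  d_inv : ∀ a x y, d (a * x) (a * y) = d x y
  geod : ∀ x y t, t ≤ d x y → ∃ z, d x z = t ∧ d x z + d z y = d x y
  proper : ∀ R : ℕ, {x : G | d 1 x ≤ R}.Finite
  hyp : ∀ x y z w, d x z + d y w ≤ max (d x y + d z w) (d x w + d y z) + 2 * δ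

namespace HypMetric

variable {G : Type*} [Group G] (M : HypMetric G)

theorem d_eq_len (x y : G) : M.d x y = M.d 1 (x⁻¹ * y) := by
  have h := M.d_inv x⁻¹ x y
  rw [inv_mul_cancel] at h
  exact h.symm

theorem len_inv (x : G) : M.d 1 x⁻¹ = M.d 1 x := by
  have h := M.d_inv x 1 x⁻¹
  rw [mul_one, mul_inv_cancel] at h
  rw [← h, M.d_comm]

theorem len_one : M.d 1 1 = 0 := M.d_self 1

theorem len_mul_le (x y : G) : M.d 1 (x * y) ≤ M.d 1 x + M.d 1 y := by
  have h1 := M.d_tri 1 x (x * y)
  have h2 := M.d_inv x 1 y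
  rw [mul_one] at h2
  omega

theorem len_pow_le (g : G) (n : ℕ) : M.d 1 (g ^ n) ≤ n * M.d 1 g := by
  induction n with
  | zero => simp [M.len_one]
  | succ n ih =>
    have h := M.len_mul_le (g ^ n) g
    rw [← pow_succ] at h
    have : (n + 1) * M.d 1 g = n * M.d 1 g + M.d 1 g := by ring
    omega

theorem d_pow (g : G) (i j : ℕ) : M.d (g ^ i) (g ^ (i + j)) = M.d 1 (g ^ j) := by
  have h := M.d_inv (g ^ i) 1 (g ^ j)
  rw [mul_one, ← pow_add] at h
  exact h

theorem len_zpow_neg (g : G) (j : ℤ) : M.d 1 (g ^ (-j)) = M.d 1 (g ^ j) := by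
  rw [zpow_neg, M.len_inv]

theorem len_inv_pow (g : G) (n : ℕ) : M.d 1 (g⁻¹ ^ n) = M.d 1 (g ^ n) := by
  rw [inv_pow, M.len_inv]

theorem eq_one_of_len (x : G) (h : M.d 1 x = 0) : x = 1 := (M.eq_of_d 1 x h).symm

end HypMetric

end Vale.Agent.Lib.P184
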