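import Vale.Agent.Lib.P184.Hyp

/-!
# Centralizers of undistorted elements of a hyperbolic group are virtually cyclic

`HypMetric.relIndex_ne_zero_of`: if `n ≤ K * |g ^ n|` for all `n` then the cyclic group generated
by `g` has finite index in the centralizer of `g`, given the centralizer bound `hC` for strongly
loxodromic elements (`|g'| + 3δ < |g'^2|`).  Some power `g ^ (2 ^ k)` is strongly loxodromic, and
every element of the centralizer of `g` is the product of an element of bounded length and a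
power of `g`.
-/

namespace Vale.Agent.Lib.P184

theorem exists_lt_two_pow (a b : ℕ) : ∃ k : ℕ, a + b * k < 2 ^ k := by
  refine ⟨2 * (a + 2 * b + 1), ?_⟩
  obtain ⟨m, hm⟩ : ∃ m : ℕ, m = a + 2 * b + 1 := ⟨_, rfl⟩
  rw [← hm]
  have h1 : m < 2 ^ m := Nat.lt_two_pow_self
  have h2 : m * m < 2 ^ m * 2 ^ m := Nat.mul_lt_mul'' h1 h1
  have h3 : 2 ^ (2 * m) = 2 ^ m * 2 ^ m := by rw [two_mul, pow_add]
  rw [h3]
  have h4 : a + b * (2 * m) ≤ m * m := by
    have h5 : m * m = a * m + 2 * b * m + m := by rw [hm]; ring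
    have h6 : a ≤ a * m := Nat.le_mul_of_pos_right a (by omega)
    have h7 : b * (2 * m) = 2 * b * m := by ring
    omega
  omega

theorem HypMetric.relIndex_ne_zero_of {G : Type*} [Group G] (M : HypMetric G)
    (hC : ∀ g' : G, M.d 1 g' + 3 * M.δ < M.d 1 (g' ^ 2) → ∀ h : G, h * g' = g' * h →
      (∀ j : ℤ, M.d 1 h ≤ M.d 1 (h * g' ^ j)) → M.d 1 h ≤ 5 * M.d 1 g' + 14 * M.δ)
    (g : G) (K : ℕ) (hgrow : ∀ n : ℕ, n ≤ K * M.d 1 (g ^ n)) :
    (Subgroup.zpowers g).relIndex (Subgroup.centralizer ({g} : Set G)) ≠ 0 := by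
  classical
  -- a strongly loxodromic power
  have hS : ∃ k : ℕ, M.d 1 (g ^ 2 ^ k) + 3 * M.δ < M.d 1 (g ^ 2 ^ (k + 1)) := by
    by_contra hcon
    push Not at hcon
    have h1 : ∀ k : ℕ, M.d 1 (g ^ 2 ^ k) ≤ M.d 1 g + 3 * M.δ * k := by
      intro k
      induction k with
      | zero => simp
      | succ k ih =>
        have h2 := hcon k
        have h3 : 3 * M.δ * (k + 1) = 3 * M.δ * k + 3 * M.δ := by ring
        omega
    obtain ⟨k, hk⟩ := exists_lt_two_pow (K * M.d 1 g) (K * (3 * M.δ))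
    have h4 := hgrow (2 ^ k)
    have h5 : K * M.d 1 (g ^ 2 ^ k) ≤ K * (M.d 1 g + 3 * M.δ * k) := Nat.mul_le_mul_left K (h1 k)
    have h6 : K * (M.d 1 g + 3 * M.δ * k) = K * M.d 1 g + K * (3 * M.δ) * k := by ring
    omega
  obtain ⟨k, hk⟩ := hS
  obtain ⟨h, hh⟩ : ∃ h : G, h = g ^ 2 ^ k := ⟨_, rfl⟩
  have hh2 : h ^ 2 = g ^ 2 ^ (k + 1) := by
    rw [hh, ← pow_mul, pow_succ]
  have hSL : M.d 1 h + 3 * M.δ < M.d 1 (h ^ 2) := by
    rw [hh2, hh]
    exact hk
  have hZmem : ∀ z : G, z ∈ Subgroup.centralizer ({g} : Set G) ↔ z * g = g * z := by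
    intro z
    rw [Subgroup.mem_centralizer_iff]
    constructor
    · intro hz
      exact (hz g rfl).symm
    · intro hz x hx
      rw [Set.mem_singleton_iff.mp hx]
      exact hz.symm
  have hhZ : ∀ j : ℤ, h ^ j ∈ Subgroup.centralizer ({g} : Set G) := by
    intro j
    rw [hZmem, hh]
    have h1 : Commute (g ^ 2 ^ k) g := (Commute.refl g).pow_left _
    exact (h1.zpow_left j).eq
  have hhpow : ∀ j : ℤ, h ^ j ∈ Subgroup.zpowers g := by
    intro j
    rw [hh, ← zpow_natCast, ← zpow_mul]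
    exact Subgroup.zpow_mem_zpowers g _
  -- every element of the centralizer is a short element times a power of `h`
  have hshort : ∀ z ∈ Subgroup.centralizer ({g} : Set G), ∃ j : ℤ,
      M.d 1 (z * h ^ j) ≤ 5 * M.d 1 h + 14 * M.δ := by
    intro z hz
    obtain ⟨j₀, hj₀⟩ : ∃ j₀ : ℤ, ∀ j : ℤ, M.d 1 (z * h ^ j₀) ≤ M.d 1 (z * h ^ j) :=
      ⟨Function.argmin (fun j : ℤ => M.d 1 (z * h ^ j)),
        fun j => Function.argmin_le (fun j : ℤ => M.d 1 (z * h ^ j)) j⟩
    refine ⟨j₀, hC h hSL (z * h ^ j₀) ?_ ?_⟩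
    · have h1 : Commute z g := (hZmem z).mp hz
      have h2 : Commute z h := by
        rw [hh]
        exact h1.pow_right _
      have h3 : Commute (z * h ^ j₀) h := h2.mul_left ((Commute.refl h).zpow_left j₀)
      exact h3.eq
    · intro j
      rw [mul_assoc, ← zpow_add]
      exact hj₀ (j₀ + j)
  have hSfin : {b : G | M.d 1 b ≤ 5 * M.d 1 h + 14 * M.δ}.Finite := M.proper _
  have hfinite : Finite (Subgroup.centralizer ({g} : Set G) ⧸
      (Subgroup.zpowers g).subgroupOf (Subgroup.centralizer ({g} : Set G))) := by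
    have : Finite ↥{b : G | M.d 1 b ≤ 5 * M.d 1 h + 14 * M.δ} := hSfin.to_subtype
    let f : ↥{b : G | M.d 1 b ≤ 5 * M.d 1 h + 14 * M.δ} →
        Subgroup.centralizer ({g} : Set G) ⧸
          (Subgroup.zpowers g).subgroupOf (Subgroup.centralizer ({g} : Set G)) :=
      fun b => if hb : b.1 ∈ Subgroup.centralizer ({g} : Set G) then
        QuotientGroup.mk ⟨b.1, hb⟩ else QuotientGroup.mk 1
    refine Finite.of_surjective f ?_
    intro q
    obtain ⟨z, rfl⟩ := QuotientGroup.mk_surjective q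
    obtain ⟨j, hj⟩ := hshort z.1 z.2
    have hbZ : z.1 * h ^ j ∈ Subgroup.centralizer ({g} : Set G) :=
      Subgroup.mul_mem _ z.2 (hhZ j)
    refine ⟨⟨z.1 * h ^ j, hj⟩, ?_⟩
    change (if hb : z.1 * h ^ j ∈ Subgroup.centralizer ({g} : Set G) then
        (QuotientGroup.mk ⟨z.1 * h ^ j, hb⟩ : Subgroup.centralizer ({g} : Set G) ⧸
          (Subgroup.zpowers g).subgroupOf (Subgroup.centralizer ({g} : Set G)))
        else QuotientGroup.mk 1) = _
    rw [dif_pos hbZ, QuotientGroup.eq, Subgroup.mem_subgroupOf, Subgroup.coe_mul,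
      Subgroup.coe_inv]
    have h1 : (z.1 * h ^ j)⁻¹ * z.1 = (h ^ j)⁻¹ := by group
    rw [h1]
    exact Subgroup.inv_mem _ (hhpow j)
  exact Subgroup.index_ne_zero_of_finite

end Vale.Agent.Lib.P184
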