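import Vale.Agent.Lib.P184.HypUndistorted
import Vale.Agent.Lib.P184.HypVirtCyclic

/-!
# The vanishing theorem for hyperbolic word metrics: assembly

`HypMetric.bass_of`: given the three geometric inputs
* `hA`: every finite-order element is conjugate to an element of length `≤ 4δ + 1`,
* `hU`: every infinite-order element is undistorted,
* `hV`: the centralizer of an undistorted element is virtually cyclic,
the statement of the `ℓ¹`-Bass conjecture holds for the group.
-/

namespace Vale.Agent.Lib.P184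

open scoped BigOperators

theorem HypMetric.bass_of {G : Type*} [Group G] (M : HypMetric G)
    (hA : ∀ g : G, IsOfFinOrder g → ∃ x : G, M.d 1 (x⁻¹ * g * x) ≤ 4 * M.δ + 1)
    (hU : ∀ g : G, ¬ IsOfFinOrder g → ∃ K : ℕ, 0 < K ∧ ∀ n : ℕ, n ≤ K * M.d 1 (g ^ n))
    (hV : ∀ (g : G) (K : ℕ), (∀ n : ℕ, n ≤ K * M.d 1 (g ^ n)) →
      (Subgroup.zpowers g).relIndex (Subgroup.centralizer ({g} : Set G)) ≠ 0)
    (q : ℕ) (e : Fin q → Fin q → G → ℂ)
    (he_sum : ∀ i j, Summable (fun x => ‖e i j x‖))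
    (he_idem : ∀ i j x, ∑ l, ∑' y, e i l y * e l j (y⁻¹ * x) = e i j x) :
    ∃ F : Finset (ConjClasses G), (∀ g : G, ConjClasses.mk g ∈ F → IsOfFinOrder g) ∧
      ∀ g : G, ConjClasses.mk g ∉ F →
        HasSum (fun c : {c : G // IsConj g c} => ∑ i, e i i c.1) 0 := by
  classical
  have hSfin : {x : G | M.d 1 x ≤ 4 * M.δ + 1 ∧ IsOfFinOrder x}.Finite :=
    (M.proper _).subset (fun x hx => hx.1)
  refine ⟨hSfin.toFinset.image ConjClasses.mk, ?_, ?_⟩
  · intro g hg
    rw [Finset.mem_image] at hg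
    obtain ⟨s, hs, hsg⟩ := hg
    rw [Set.Finite.mem_toFinset] at hs
    obtain ⟨n, hn, hsn⟩ := isOfFinOrder_iff_pow_eq_one.mp hs.2
    obtain ⟨c, hc⟩ := isConj_iff.mp (ConjClasses.mk_eq_mk_iff_isConj.mp hsg)
    rw [isOfFinOrder_iff_pow_eq_one]
    refine ⟨n, hn, ?_⟩
    rw [← hc, conj_pow, hsn, mul_one, mul_inv_cancel]
  · intro g hg
    have hginf : ¬ IsOfFinOrder g := by
      intro hfin
      apply hg
      obtain ⟨x, hx⟩ := hA g hfin
      rw [Finset.mem_image]
      refine ⟨x⁻¹ * g * x, ?_, ?_⟩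
      · rw [Set.Finite.mem_toFinset]
        refine ⟨hx, ?_⟩
        obtain ⟨n, hn, hgn⟩ := isOfFinOrder_iff_pow_eq_one.mp hfin
        rw [isOfFinOrder_iff_pow_eq_one]
        refine ⟨n, hn, ?_⟩
        have h1 : x⁻¹ * g * x = x⁻¹ * g * x⁻¹⁻¹ := by rw [inv_inv]
        rw [h1, conj_pow, hgn, mul_one, inv_inv, inv_mul_cancel]
      · refine ConjClasses.mk_eq_mk_iff_isConj.mpr (isConj_iff.mpr ⟨x, ?_⟩)
        group
    obtain ⟨K, hK0, hK⟩ := hU g hginf
    have hfin := hV g K hK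
    let inst : PseudoMetricSpace G :=
      { dist := fun x y => (M.d x y : ℝ)
        dist_self := fun x => by simp [M.d_self]
        dist_comm := fun x y => by simp [M.d_comm x y]
        dist_triangle := fun x y z => by exact_mod_cast M.d_tri x y z }
    have : IsIsometricSMul G G := ⟨fun c => Isometry.of_dist_eq (fun x y => by
      change ((M.d (c * x) (c * y) : ℕ) : ℝ) = M.d x y
      rw [M.d_inv])⟩
    refine undistorted_class_trace q e he_sum he_idem g (1 : G) (1 / (K : ℝ)) (by positivity) ?_ hfin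
    intro n
    change 1 / (K : ℝ) * n ≤ ((M.d 1 (g ^ n * 1) : ℕ) : ℝ)
    rw [mul_one, div_mul_eq_mul_div, one_mul, div_le_iff₀ (by positivity)]
    have h2 := hK n
    have h3 : ((n : ℕ) : ℝ) ≤ ((K * M.d 1 (g ^ n) : ℕ) : ℝ) := by exact_mod_cast h2
    push_cast at h3
    linarith

end Vale.Agent.Lib.P184
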