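import Vale.Agent.Lib.P184.Hyp

/-!
# Quasi-convex subgroups are generated by short elements

A quasi-convex subgroup of a group with a hyperbolic word metric is generated by its elements
of length at most `2 * N + 1`, and every element of the subgroup is a product of at most
as many such elements as its own length.
-/

namespace Vale.Agent.Lib.P184

theorem HypMetric.quasiconvex_generation {G : Type*} [Group G] (M : HypMetric G) (A : Subgroup G)
    (N : ℕ) (hA : ∀ h ∈ A, ∀ p : G, M.d 1 p + M.d p h = M.d 1 h → ∃ z ∈ A, M.d p z ≤ N)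
    (a : G) (ha : a ∈ A) :
    ∃ l : List G, (∀ x ∈ l, x ∈ A ∧ M.d 1 x ≤ 2 * N + 1) ∧ l.prod = a ∧ l.length ≤ M.d 1 a := by
  suffices H : ∀ L : ℕ, ∀ a : G, a ∈ A → M.d 1 a = L →
      ∃ l : List G, (∀ x ∈ l, x ∈ A ∧ M.d 1 x ≤ 2 * N + 1) ∧ l.prod = a ∧ l.length ≤ L from
    H (M.d 1 a) a ha rfl
  intro L
  induction L using Nat.strong_induction_on with
  | _ L ih =>
    intro a ha hL
    by_cases h0 : L = 0
    · subst h0
      refine ⟨[], ?_, ?_, ?_⟩
      · intro x hx
        simp at hx
      · simp [M.eq_one_of_len a hL]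
      · simp
    by_cases h1 : L ≤ 2 * N + 1
    · refine ⟨[a], ?_, ?_, ?_⟩
      · intro x hx
        simp only [List.mem_singleton] at hx
        subst hx
        exact ⟨ha, by omega⟩
      · simp
      · simp only [List.length_singleton]
        omega
    · obtain ⟨p, hp1, hp2⟩ := M.geod 1 a (L - (N + 1)) (by omega)
      obtain ⟨z, hzA, hz⟩ := hA a ha p hp2
      have hzlen : M.d 1 z ≤ L - 1 := by
        have h := M.d_tri 1 p z
        omega
      have hza : M.d 1 (z⁻¹ * a) ≤ 2 * N + 1 := by
        rw [← M.d_eq_len]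
        have h2 := M.d_tri z p a
        have h3 := M.d_comm z p
        omega
      obtain ⟨l', hl1, hl2, hl3⟩ := ih (M.d 1 z) (by omega) z hzA rfl
      refine ⟨l' ++ [z⁻¹ * a], ?_, ?_, ?_⟩
      · intro x hx
        rw [List.mem_append, List.mem_singleton] at hx
        rcases hx with hx | hx
        · exact hl1 x hx
        · subst hx
          exact ⟨A.mul_mem (A.inv_mem hzA) ha, hza⟩
      · rw [List.prod_append, hl2]
        simp
      · rw [List.length_append, List.length_singleton]
        omega

end Vale.Agent.Lib.P184
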