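import Vale.Agent.Lib.P184.HypMain
import Vale.Agent.Lib.P184.UndistortedHom
import Vale.Agent.Lib.P184.CatZeroGroup

/-!
# Classes with infinite-order image in a hyperbolic group or in a `CAT(0)` group

* `hyperbolic_image_class_trace`: let `φ : G →* Γ` be a homomorphism to a group `Γ` whose word
  metric with respect to a finite set satisfies the four-point condition.  If `φ g` has infinite
  order, the coefficient at the class of `g` of every summable idempotent matrix over `G`
  vanishes.
* `cn_image_class_trace`: the same when `Γ` acts metrically properly and cocompactly by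
  isometries on a metric space satisfying the `CN` inequality.
-/

namespace Vale.Agent.Lib.P184

open scoped BigOperators

theorem hyperbolic_image_class_trace {G : Type*} [Group G] {Γ : Type*} [Group Γ] (φ : G →* Γ)
    (S : Finset Γ) (d : Γ → Γ → ℕ)
    (hd : ∀ (x y : Γ) (n : ℕ), d x y ≤ n ↔
      ∃ l : List Γ, l.length ≤ n ∧ (∀ s ∈ l, s ∈ S ∨ s⁻¹ ∈ S) ∧ x * l.prod = y)
    (δ : ℕ) (hδ : ∀ x y z w : Γ, d x z + d y w ≤ max (d x y + d z w) (d x w + d y z) + 2 * δ)
    (g : G) (hg : ¬ IsOfFinOrder (φ g))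
    (q : ℕ) (e : Fin q → Fin q → G → ℂ)
    (he_sum : ∀ i j, Summable (fun x => ‖e i j x‖))
    (he_idem : ∀ i j x, ∑ l, ∑' y, e i l y * e l j (y⁻¹ * x) = e i j x) :
    HasSum (fun c : {c : G // IsConj g c} => ∑ i, e i i c.1) 0 := by
  let M : HypMetric Γ := HypMetric.ofWord S d hd δ hδ
  obtain ⟨K, hK0, hK⟩ := M.undistorted_of (fun T => M.centralizer_quasiconvex T)
    (fun A N hA a ha => M.quasiconvex_generation A N hA a ha) (φ g) hg
  have hfin := M.relIndex_ne_zero_of
    (fun g' hSL h hc hm => M.centralizer_bound g' hSL h hc hm) (φ g) K hK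
  let inst : PseudoMetricSpace Γ :=
    { dist := fun x y => (M.d x y : ℝ)
      dist_self := fun x => by simp [M.d_self]
      dist_comm := fun x y => by simp [M.d_comm x y]
      dist_triangle := fun x y z => by exact_mod_cast M.d_tri x y z }
  have : IsIsometricSMul Γ Γ := ⟨fun c => Isometry.of_dist_eq (fun x y => by
    change ((M.d (c * x) (c * y) : ℕ) : ℝ) = M.d x y
    rw [M.d_inv])⟩
  refine undistorted_class_trace_hom φ q e he_sum he_idem g (1 : Γ) (1 / (K : ℝ))
    (by positivity) ?_ hfin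
  intro n
  change 1 / (K : ℝ) * n ≤ ((M.d 1 (φ g ^ n * 1) : ℕ) : ℝ)
  rw [mul_one, div_mul_eq_mul_div, one_mul, div_le_iff₀ (by positivity)]
  have h2 := hK n
  have h3 : ((n : ℕ) : ℝ) ≤ ((K * M.d 1 (φ g ^ n) : ℕ) : ℝ) := by exact_mod_cast h2
  push_cast at h3
  linarith

theorem cn_image_class_trace {G : Type*} [Group G] {Γ : Type*} [Group Γ] (φ : G →* Γ)
    {X : Type*} [MetricSpace X] [Nonempty X] [MulAction Γ X] [IsIsometricSMul Γ X]
    (hCN : ∀ x y : X, ∃ m : X, ∀ z : X,
      dist z m ^ 2 ≤ (dist z x ^ 2 + dist z y ^ 2) / 2 - dist x y ^ 2 / 4)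
    (hproper : ∀ (x : X) (R : ℝ), {γ : Γ | dist (γ • x) x ≤ R}.Finite)
    (K : Set X) (hK : IsCompact K) (hcocompact : ∀ x : X, ∃ γ : Γ, γ • x ∈ K)
    (g : G) (hg : ¬ IsOfFinOrder (φ g))
    (q : ℕ) (e : Fin q → Fin q → G → ℂ)
    (he_sum : ∀ i j, Summable (fun x => ‖e i j x‖))
    (he_idem : ∀ i j x, ∑ l, ∑' y, e i l y * e l j (y⁻¹ * x) = e i j x) :
    HasSum (fun c : {c : G // IsConj g c} => ∑ i, e i i c.1) 0 := by
  classical
  obtain ⟨x₀, hx₀⟩ := exists_min_displacement hproper K hK hcocompact (φ g)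
  have hpos : 0 < dist x₀ (φ g • x₀) := by
    rcases (dist_nonneg (x := x₀) (y := φ g • x₀)).lt_or_eq with h | h
    · exact h
    · exfalso
      apply hg
      have hfix : φ g • x₀ = x₀ := (dist_eq_zero.mp h.symm).symm
      have hpow : ∀ n : ℕ, φ g ^ n • x₀ = x₀ := by
        intro n
        induction n with
        | zero => simp
        | succ n ih => rw [pow_succ, mul_smul, hfix, ih]
      rw [← finite_powers, Submonoid.coe_powers]
      refine (hproper x₀ 0).subset ?_
      rintro _ ⟨n, rfl⟩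
      change dist (φ g ^ n • x₀) x₀ ≤ 0
      rw [hpow n, dist_self]
  let act : MulAction G X := MulAction.compHom X φ
  have hsmul : ∀ (a : G) (x : X), a • x = φ a • x := fun a x => rfl
  have : IsIsometricSMul G X := ⟨fun a => Isometry.of_dist_eq (fun x y => by
    rw [hsmul, hsmul, dist_smul])⟩
  exact cn_hyperbolic_class_trace hCN g x₀ hx₀ hpos q e he_sum he_idem

end Vale.Agent.Lib.P184
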