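import Vale.Agent.Lib.P184.Hyp

/-!
# Quasi-convexity of centralizers of finite sets

In a group with a hyperbolic metric the common centralizer of a finite set is quasi-convex:
every point of a geodesic from `1` to an element of the centralizer lies within a uniform
distance of the centralizer.
-/

namespace Vale.Agent.Lib.P184

/-- Conjugates along a geodesic are short: if `h` commutes with `s` and `p` lies on a geodesic
from `1` to `h`, then the conjugate of `s` by `p` has length at most the length of `s`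
plus `2 δ`. -/
theorem hypQuasiconvex_conj_short {G : Type*} [Group G] (M : HypMetric G) {h s p : G}
    (hs : h * s = s * h) (hp : M.d 1 p + M.d p h = M.d 1 h) :
    M.d 1 (p⁻¹ * s * p) ≤ M.d 1 s + 2 * M.δ := by
  have e0 : M.d p (s * p) = M.d 1 (p⁻¹ * s * p) := by
    rw [M.d_eq_len p (s * p), mul_assoc]
  have h1 := M.hyp p s (s * p) (s * h)
  have e1 : M.d s (s * h) = M.d 1 h := by
    have := M.d_inv s 1 h
    rwa [mul_one] at this
  have e2 : M.d (s * p) (s * h) = M.d p h := M.d_inv s p h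
  have e3 : M.d s (s * p) = M.d 1 p := by
    have := M.d_inv s 1 p
    rwa [mul_one] at this
  have e4 : M.d p s ≤ M.d 1 p + M.d 1 s := by
    have := M.d_tri p 1 s
    rw [M.d_comm p 1] at this
    exact this
  have e5 : M.d p (s * h) ≤ M.d p h + M.d 1 s := by
    have t := M.d_tri p h (h * s)
    have i := M.d_inv h 1 s
    rw [mul_one] at i
    rw [← hs]
    omega
  omega

theorem HypMetric.centralizer_quasiconvex {G : Type*} [Group G] (M : HypMetric G) (T : Finset G) :
    ∃ N : ℕ, ∀ h : G, (∀ s ∈ T, h * s = s * h) → ∀ p : G, M.d 1 p + M.d p h = M.d 1 h →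
      ∃ z : G, (∀ s ∈ T, z * s = s * z) ∧ M.d p z ≤ N := by
  classical
  set R := (T.sup fun s => M.d 1 s) + 2 * M.δ with hR
  have : Fintype {x : G | M.d 1 x ≤ R} := (M.proper R).fintype
  let W : (↥T → {x : G | M.d 1 x ≤ R}) → G := fun f =>
    if hf : ∃ w : G, ∀ s : ↥T, w * (f s : G) * w⁻¹ = (s : G) then Classical.choose hf else 1
  refine ⟨Finset.univ.sup (fun f => M.d 1 (W f)), ?_⟩
  intro h hh p hp
  have hmem : ∀ s : ↥T, M.d 1 (p⁻¹ * (s : G) * p) ≤ R := by
    intro s
    have h1 := hypQuasiconvex_conj_short M (hh s s.2) hp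
    have h2 : M.d 1 (s : G) ≤ T.sup fun s => M.d 1 s :=
      Finset.le_sup (f := fun s => M.d 1 s) s.2
    omega
  let f : ↥T → {x : G | M.d 1 x ≤ R} := fun s => ⟨p⁻¹ * (s : G) * p, hmem s⟩
  have hf : ∃ w : G, ∀ s : ↥T, w * (f s : G) * w⁻¹ = (s : G) :=
    ⟨p, fun s => by
      show p * (p⁻¹ * (s : G) * p) * p⁻¹ = (s : G)
      group⟩
  have hW : ∀ s : ↥T, W f * (f s : G) * (W f)⁻¹ = (s : G) := by
    have hWf : W f = Classical.choose hf := dif_pos hf
    rw [hWf]
    exact Classical.choose_spec hf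
  refine ⟨p * (W f)⁻¹, ?_, ?_⟩
  · intro s hs
    have h1 : W f * (p⁻¹ * s * p) * (W f)⁻¹ = s := hW ⟨s, hs⟩
    calc p * (W f)⁻¹ * s = p * (W f)⁻¹ * (W f * (p⁻¹ * s * p) * (W f)⁻¹) := by rw [h1]
      _ = s * (p * (W f)⁻¹) := by group
  · rw [M.d_eq_len p (p * (W f)⁻¹)]
    have e : p⁻¹ * (p * (W f)⁻¹) = (W f)⁻¹ := by group
    rw [e, M.len_inv]
    exact Finset.le_sup (f := fun f => M.d 1 (W f)) (Finset.mem_univ f)

end Vale.Agent.Lib.P184
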