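import Vale.Agent.Lib.P184.Hyp

/-!
# Finite-order elements in hyperbolic metrics

A finite-order element of a group with a hyperbolic metric is conjugate to an element of
length at most `4 δ + 1` (quasi-centre of the finite orbit of powers).
-/

namespace Vale.Agent.Lib.P184

theorem HypMetric.exists_conj_short_of_finOrder {G : Type*} [Group G] (M : HypMetric G) (g : G)
    (hg : IsOfFinOrder g) : ∃ x : G, M.d 1 (x⁻¹ * g * x) ≤ 4 * M.δ + 1 := by
  classical
  set n := orderOf g with hn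
  have hnpos : 0 < n := hg.orderOf_pos
  let O : Finset G := (Finset.range n).image (fun i => g ^ i)
  have hOne : O.Nonempty :=
    ⟨1, Finset.mem_image.2 ⟨0, Finset.mem_range.2 hnpos, pow_zero g⟩⟩
  have hOinv : ∀ o ∈ O, g⁻¹ * o ∈ O := by
    intro o ho
    obtain ⟨i, hi, rfl⟩ := Finset.mem_image.1 ho
    rw [Finset.mem_range] at hi
    rcases Nat.eq_zero_or_pos i with h0 | hpos
    · subst h0
      refine Finset.mem_image.2 ⟨n - 1, Finset.mem_range.2 (by omega), ?_⟩
      rw [pow_zero, mul_one]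
      have h1 : g ^ (n - 1) * g = 1 := by
        rw [← pow_succ, Nat.sub_add_cancel hnpos, hn, pow_orderOf_eq_one]
      exact eq_inv_of_mul_eq_one_left h1
    · refine Finset.mem_image.2 ⟨i - 1, Finset.mem_range.2 (by omega), ?_⟩
      have h1 : g ^ i = g * g ^ (i - 1) := by
        rw [← pow_succ', Nat.sub_add_cancel hpos]
      rw [h1, inv_mul_cancel_left]
  let ρ : G → ℕ := fun x => O.sup (fun o => M.d x o)
  have hρ : ∀ x, ∀ o ∈ O, M.d x o ≤ ρ x := fun x o ho =>
    Finset.le_sup (f := fun o => M.d x o) ho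
  obtain ⟨x, hx⟩ : ∃ x, ∀ y, ρ x ≤ ρ y := by
    have hne : ∃ k, ∃ x, ρ x = k := ⟨ρ 1, 1, rfl⟩
    obtain ⟨x, hx⟩ := Nat.find_spec hne
    refine ⟨x, fun y => ?_⟩
    rw [hx]
    exact Nat.find_min' hne ⟨y, rfl⟩
  refine ⟨x, ?_⟩
  have hlen : M.d 1 (x⁻¹ * g * x) = M.d x (g * x) := by
    rw [M.d_eq_len x (g * x), mul_assoc]
  rw [hlen]
  by_contra hcon
  have hD : 4 * M.δ + 2 ≤ M.d x (g * x) := by omega
  obtain ⟨m, hm1, hm2⟩ := M.geod x (g * x) (M.d x (g * x) / 2) (Nat.div_le_self _ _)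
  have hlt : ρ m < ρ x := by
    obtain ⟨o0, ho0⟩ := hOne
    have key : ∀ o ∈ O, M.d m o + 1 ≤ ρ x := by
      intro o ho
      have h1 := M.hyp o x m (g * x)
      have h2 := hρ x o ho
      have h3 := hρ x (g⁻¹ * o) (hOinv o ho)
      have h4 : M.d (g * x) o = M.d x (g⁻¹ * o) := by
        have h := M.d_inv g x (g⁻¹ * o)
        rw [mul_inv_cancel_left] at h
        exact h
      have h5 := M.d_comm o x
      have h6 := M.d_comm o (g * x)
      have h7 := M.d_comm o m
      omega
    have h8 : ρ m ≤ ρ x - 1 := Finset.sup_le (fun o ho => by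
      have := key o ho
      omega)
    have h9 := key o0 ho0
    omega
  exact absurd (hx m) (by omega)

end Vale.Agent.Lib.P184
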