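import Vale.Agent.Lib.P184.Hyp

/-!
# The word metric of a finite generating set is a `HypMetric`

Let `S` be a finite subset of a group `G` and let `d : G → G → ℕ` be the word distance with
respect to `S`: `d x y ≤ n` iff `x⁻¹ y` is a product of at most `n` elements of `S ∪ S⁻¹`.  If `d`
satisfies Gromov's four-point condition with constant `δ`, then `d` is a `HypMetric`.
-/

namespace Vale.Agent.Lib.P184

/-- The word metric of a finite set `S`, assumed to satisfy the four-point condition, as a
`HypMetric`. -/
noncomputable def HypMetric.ofWord {G : Type*} [Group G] (S : Finset G) (d : G → G → ℕ)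
    (hd : ∀ (x y : G) (n : ℕ), d x y ≤ n ↔
      ∃ l : List G, l.length ≤ n ∧ (∀ s ∈ l, s ∈ S ∨ s⁻¹ ∈ S) ∧ x * l.prod = y)
    (δ : ℕ) (hδ : ∀ x y z w : G, d x z + d y w ≤ max (d x y + d z w) (d x w + d y z) + 2 * δ) :
    HypMetric G where
  d := d
  δ := δ
  d_self := by
    intro x
    have h1 : d x x ≤ 0 := (hd x x 0).mpr ⟨[], by simp, by simp, by simp⟩
    omega
  eq_of_d := by
    intro x y hxy
    obtain ⟨l, hl, -, hprod⟩ := (hd x y 0).mp (by omega)
    have hl0 : l = [] := List.eq_nil_of_length_eq_zero (by omega)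
    rw [hl0, List.prod_nil, mul_one] at hprod
    exact hprod
  d_comm := by
    have key : ∀ x y : G, d y x ≤ d x y := by
      intro x y
      obtain ⟨l, hl, hS, hprod⟩ := (hd x y (d x y)).mp le_rfl
      refine (hd y x (d x y)).mpr ⟨(l.map fun s => s⁻¹).reverse, by simpa using hl, ?_, ?_⟩
      · intro s hs
        rw [List.mem_reverse, List.mem_map] at hs
        obtain ⟨t, ht, rfl⟩ := hs
        rcases hS t ht with h | h
        · right
          rw [inv_inv]
          exact h
        · left
          exact h
      · rw [← List.prod_inv_reverse, ← hprod]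
        group
    intro x y
    exact le_antisymm (key y x) (key x y)
  d_tri := by
    intro x y z
    obtain ⟨l₁, hl₁, hS₁, hprod₁⟩ := (hd x y (d x y)).mp le_rfl
    obtain ⟨l₂, hl₂, hS₂, hprod₂⟩ := (hd y z (d y z)).mp le_rfl
    refine (hd x z (d x y + d y z)).mpr ⟨l₁ ++ l₂, ?_, ?_, ?_⟩
    · rw [List.length_append]
      omega
    · intro s hs
      rcases List.mem_append.mp hs with h | h
      · exact hS₁ s h
      · exact hS₂ s h
    · rw [List.prod_append, ← mul_assoc, hprod₁, hprod₂]
  d_inv := by
    intro a x y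
    have key : ∀ n : ℕ, d (a * x) (a * y) ≤ n ↔ d x y ≤ n := by
      intro n
      rw [hd, hd]
      constructor
      · rintro ⟨l, hl, hS, hprod⟩
        refine ⟨l, hl, hS, ?_⟩
        rw [mul_assoc] at hprod
        exact mul_left_cancel hprod
      · rintro ⟨l, hl, hS, hprod⟩
        refine ⟨l, hl, hS, ?_⟩
        rw [mul_assoc, hprod]
    exact le_antisymm ((key _).mpr le_rfl) ((key _).mp le_rfl)
  geod := by
    intro x y t ht
    have htri : ∀ x y z : G, d x z ≤ d x y + d y z := by
      intro x y z
      obtain ⟨l₁, hl₁, hS₁, hprod₁⟩ := (hd x y (d x y)).mp le_rfl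
      obtain ⟨l₂, hl₂, hS₂, hprod₂⟩ := (hd y z (d y z)).mp le_rfl
      refine (hd x z (d x y + d y z)).mpr ⟨l₁ ++ l₂, ?_, ?_, ?_⟩
      · rw [List.length_append]
        omega
      · intro s hs
        rcases List.mem_append.mp hs with h | h
        · exact hS₁ s h
        · exact hS₂ s h
      · rw [List.prod_append, ← mul_assoc, hprod₁, hprod₂]
    obtain ⟨l, hl, hS, hprod⟩ := (hd x y (d x y)).mp le_rfl
    refine ⟨x * (l.take t).prod, ?_⟩
    have h1 : d x (x * (l.take t).prod) ≤ t :=
      (hd _ _ t).mpr ⟨l.take t, by rw [List.length_take]; omega,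
        fun s hs => hS s (List.mem_of_mem_take hs), rfl⟩
    have h2 : d (x * (l.take t).prod) y ≤ d x y - t :=
      (hd _ _ _).mpr ⟨l.drop t, by rw [List.length_drop]; omega,
        fun s hs => hS s (List.mem_of_mem_drop hs), by
          rw [mul_assoc, ← List.prod_append, List.take_append_drop, hprod]⟩
    have h3 := htri x (x * (l.take t).prod) y
    constructor <;> omega
  proper := by
    classical
    intro R
    have hfin : {l : List ↥(S ∪ S.image fun s => s⁻¹) | l.length ≤ R}.Finite :=
      List.finite_length_le _ R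
    refine (hfin.image fun l => (l.map Subtype.val).prod).subset ?_
    intro x hx
    obtain ⟨l, hl, hS, hprod⟩ := (hd 1 x R).mp hx
    rw [one_mul] at hprod
    have hmem : ∀ s ∈ l, s ∈ S ∪ S.image fun s => s⁻¹ := by
      intro s hs
      rcases hS s hs with h | h
      · exact Finset.mem_union_left _ h
      · refine Finset.mem_union_right _ (Finset.mem_image.mpr ⟨s⁻¹, h, inv_inv s⟩)
    refine ⟨l.pmap (fun s hs => (⟨s, hs⟩ : ↥(S ∪ S.image fun s => s⁻¹))) hmem, ?_, ?_⟩
    · change (l.pmap _ hmem).length ≤ R
      rw [List.length_pmap]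
      exact hl
    · change ((l.pmap _ hmem).map Subtype.val).prod = x
      rw [List.map_pmap]
      simp only [List.pmap_eq_map, List.map_id']
      exact hprod
  hyp := hδ

end Vale.Agent.Lib.P184
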