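import Vale.Agent.Lib.P184.HypBass
import Vale.Agent.Lib.P184.HypWord
import Vale.Agent.Lib.P184.HypTorsion
import Vale.Agent.Lib.P184.HypQuasiconvex
import Vale.Agent.Lib.P184.HypGeneration
import Vale.Agent.Lib.P184.HypCentralizer

/-!
# The vanishing theorem for word-hyperbolic groups

`hyperbolic_bass`: if the word metric `d` of a finite subset `S` of a group `G` satisfies the
four-point condition with constant `δ`, then the statement of the `ℓ¹`-Bass conjecture holds
for `G`: there is a finite set of conjugacy classes of finite-order elements outside of which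
the class traces of every summable idempotent matrix vanish.
-/

namespace Vale.Agent.Lib.P184

open scoped BigOperators

theorem hyperbolic_bass {G : Type*} [Group G] (S : Finset G) (d : G → G → ℕ)
    (hd : ∀ (x y : G) (n : ℕ), d x y ≤ n ↔
      ∃ l : List G, l.length ≤ n ∧ (∀ s ∈ l, s ∈ S ∨ s⁻¹ ∈ S) ∧ x * l.prod = y)
    (δ : ℕ) (hδ : ∀ x y z w : G, d x z + d y w ≤ max (d x y + d z w) (d x w + d y z) + 2 * δ)
    (q : ℕ) (e : Fin q → Fin q → G → ℂ)
    (he_sum : ∀ i j, Summable (fun x => ‖e i j x‖))
    (he_idem : ∀ i j x, ∑ l, ∑' y, e i l y * e l j (y⁻¹ * x) = e i j x) :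
    ∃ F : Finset (ConjClasses G), (∀ g : G, ConjClasses.mk g ∈ F → IsOfFinOrder g) ∧
      ∀ g : G, ConjClasses.mk g ∉ F →
        HasSum (fun c : {c : G // IsConj g c} => ∑ i, e i i c.1) 0 := by
  let M : HypMetric G := HypMetric.ofWord S d hd δ hδ
  exact M.bass_of
    (fun g hg => M.exists_conj_short_of_finOrder g hg)
    (fun g hg => M.undistorted_of (fun T => M.centralizer_quasiconvex T)
      (fun A N hA a ha => M.quasiconvex_generation A N hA a ha) g hg)
    (fun g K hK => M.relIndex_ne_zero_of
      (fun g' hSL h hc hm => M.centralizer_bound g' hSL h hc hm) g K hK)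
    q e he_sum he_idem

end Vale.Agent.Lib.P184
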