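import Vale.Agent.Lib.P184.Hyp

/-!
# Infinite-order elements of a hyperbolic group are undistorted

`HypMetric.undistorted_of`: given quasi-convexity of centralizers of finite sets (`hQ`) and the
generation of quasi-convex subgroups by short elements (`hG`), every element `g` of infinite order
satisfies `n ≤ K * |g ^ n|` for some `K > 0`.

Proof (following Bridson-Haefliger III.Γ.3.10): the centralizer `Z` of `g` is quasi-convex, hence
generated by a finite set `T₁`; the subgroup `A` of elements commuting with `g` and with `T₁` is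
abelian, contains `g` and is quasi-convex, hence every `a ∈ A` is a product of at most `|a|`
elements of a finite set `T₃`.  An additive character of `A` not vanishing at `g` is bounded on
`T₃`, so it grows at most linearly in the length.
-/

namespace Vale.Agent.Lib.P184

theorem HypMetric.undistorted_of {G : Type*} [Group G] (M : HypMetric G)
    (hQ : ∀ T : Finset G, ∃ N : ℕ, ∀ h : G, (∀ s ∈ T, h * s = s * h) → ∀ p : G,
      M.d 1 p + M.d p h = M.d 1 h → ∃ z : G, (∀ s ∈ T, z * s = s * z) ∧ M.d p z ≤ N)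
    (hG : ∀ (A : Subgroup G) (N : ℕ),
      (∀ h ∈ A, ∀ p : G, M.d 1 p + M.d p h = M.d 1 h → ∃ z ∈ A, M.d p z ≤ N) →
      ∀ a ∈ A, ∃ l : List G, (∀ x ∈ l, x ∈ A ∧ M.d 1 x ≤ 2 * N + 1) ∧ l.prod = a ∧
        l.length ≤ M.d 1 a)
    (g : G) (hg : ¬ IsOfFinOrder g) : ∃ K : ℕ, 0 < K ∧ ∀ n : ℕ, n ≤ K * M.d 1 (g ^ n) := by
  classical
  -- the centralizer of `g`
  have hZmem : ∀ h : G, h ∈ Subgroup.centralizer ({g} : Set G) ↔ h * g = g * h := by
    intro h
    rw [Subgroup.mem_centralizer_iff]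
    constructor
    · intro hh
      exact (hh g rfl).symm
    · intro hh x hx
      rw [Set.mem_singleton_iff.mp hx]
      exact hh.symm
  obtain ⟨N₁, hN₁⟩ := hQ {g}
  have hqc₁ : ∀ h ∈ Subgroup.centralizer ({g} : Set G), ∀ p : G,
      M.d 1 p + M.d p h = M.d 1 h → ∃ z ∈ Subgroup.centralizer ({g} : Set G), M.d p z ≤ N₁ := by
    intro h hh p hp
    obtain ⟨z, hz, hzd⟩ := hN₁ h (fun s hs => by
      rw [Finset.mem_singleton.mp hs]
      exact (hZmem h).mp hh) p hp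
    exact ⟨z, (hZmem z).mpr (hz g (Finset.mem_singleton_self g)), hzd⟩
  have hgen₁ := hG (Subgroup.centralizer ({g} : Set G)) N₁ hqc₁
  -- the finite generating set `T₁` of the centralizer
  have hT₁fin : {x : G | x ∈ Subgroup.centralizer ({g} : Set G) ∧ M.d 1 x ≤ 2 * N₁ + 1}.Finite :=
    (M.proper _).subset (fun x hx => hx.2)
  obtain ⟨T₂, hT₂⟩ : ∃ T₂ : Finset G, T₂ = insert g hT₁fin.toFinset := ⟨_, rfl⟩
  -- the abelian subgroup `A`
  obtain ⟨A, hA⟩ : ∃ A : Subgroup G, A = Subgroup.centralizer (↑T₂ : Set G) := ⟨_, rfl⟩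
  have hAmem : ∀ h : G, h ∈ A ↔ ∀ s ∈ T₂, h * s = s * h := by
    intro h
    rw [hA, Subgroup.mem_centralizer_iff]
    constructor
    · intro hh s hs
      exact (hh s (Finset.mem_coe.mpr hs)).symm
    · intro hh s hs
      exact (hh s (Finset.mem_coe.mp hs)).symm
  have hgT₂ : g ∈ T₂ := by
    rw [hT₂]
    exact Finset.mem_insert_self _ _
  have hAZ : ∀ h ∈ A, h ∈ Subgroup.centralizer ({g} : Set G) := by
    intro h hh
    exact (hZmem h).mpr ((hAmem h).mp hh g hgT₂)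
  have hcomm : ∀ a ∈ A, ∀ a' ∈ A, a * a' = a' * a := by
    intro a ha a' ha'
    obtain ⟨l, hl, hlprod, -⟩ := hgen₁ a' (hAZ a' ha')
    rw [← hlprod]
    refine Commute.list_prod_right l a (fun x hx => ?_)
    have hxT₂ : x ∈ T₂ := by
      rw [hT₂]
      exact Finset.mem_insert_of_mem (hT₁fin.mem_toFinset.mpr (hl x hx))
    exact (hAmem a).mp ha x hxT₂
  have hgA : g ∈ A := by
    rw [hAmem]
    intro s hs
    rw [hT₂, Finset.mem_insert] at hs
    rcases hs with hs | hs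
    · rw [hs]
    · exact ((hZmem s).mp (hT₁fin.mem_toFinset.mp hs).1).symm
  obtain ⟨N₂, hN₂⟩ := hQ T₂
  have hqc₂ : ∀ h ∈ A, ∀ p : G, M.d 1 p + M.d p h = M.d 1 h → ∃ z ∈ A, M.d p z ≤ N₂ := by
    intro h hh p hp
    obtain ⟨z, hz, hzd⟩ := hN₂ h ((hAmem h).mp hh) p hp
    exact ⟨z, (hAmem z).mpr hz, hzd⟩
  have hgen₂ := hG A N₂ hqc₂
  -- an additive character of `A` not vanishing at `g`
  have hcommA : ∀ x y : A, x * y = y * x := fun x y => Subtype.ext (hcomm x.1 x.2 y.1 y.2)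
  have hginf : ¬ IsOfFinOrder (Abelianization.of (⟨g, hgA⟩ : A)) := by
    intro hfin
    obtain ⟨n, hn, hn1⟩ := isOfFinOrder_iff_pow_eq_one.mp hfin
    rw [← map_pow] at hn1
    have hker : (⟨g, hgA⟩ : A) ^ n ∈ (Abelianization.of : A →* Abelianization A).ker := hn1
    rw [Abelianization.ker_of] at hker
    have hbot : commutator A = ⊥ := by
      rw [commutator_def, Subgroup.commutator_eq_bot_iff_le_centralizer]
      intro x _
      rw [Subgroup.mem_centralizer_iff]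
      intro y _
      exact hcommA y x
    rw [hbot, Subgroup.mem_bot] at hker
    apply hg
    rw [isOfFinOrder_iff_pow_eq_one]
    refine ⟨n, hn, ?_⟩
    have h5 := congrArg Subtype.val hker
    simpa using h5
  obtain ⟨ψ, hψadd, hψg⟩ := exists_hom_real (⟨g, hgA⟩ : A) hginf
  obtain ⟨Ψ, hΨ⟩ : ∃ Ψ : G → ℝ, Ψ = fun x => if hx : x ∈ A then ψ ⟨x, hx⟩ else 0 := ⟨_, rfl⟩
  have hΨadd : ∀ x ∈ A, ∀ y ∈ A, Ψ (x * y) = Ψ x + Ψ y := by
    intro x hx y hy
    rw [hΨ]
    simp only [dif_pos hx, dif_pos hy, dif_pos (A.mul_mem hx hy)]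
    exact hψadd ⟨x, hx⟩ ⟨y, hy⟩
  have hΨ1 : Ψ 1 = 0 := by
    have h5 := hΨadd 1 A.one_mem 1 A.one_mem
    rw [one_mul] at h5
    linarith
  have hΨg : Ψ g ≠ 0 := by
    rw [hΨ]
    simp only [dif_pos hgA]
    exact hψg
  -- the character is bounded on short elements
  have hT₃fin : {x : G | M.d 1 x ≤ 2 * N₂ + 1}.Finite := M.proper _
  obtain ⟨B, hB⟩ : ∃ B : ℝ, ∀ x, M.d 1 x ≤ 2 * N₂ + 1 → |Ψ x| ≤ B := by
    obtain ⟨B, hB⟩ := (hT₃fin.image (fun x => |Ψ x|)).bddAbove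
    exact ⟨B, fun x hx => hB ⟨x, hx, rfl⟩⟩
  have hB0 : 0 ≤ B := (abs_nonneg _).trans (hB 1 (by rw [M.len_one]; omega))
  have hlist : ∀ l : List G, (∀ x ∈ l, x ∈ A ∧ M.d 1 x ≤ 2 * N₂ + 1) →
      l.prod ∈ A ∧ |Ψ l.prod| ≤ B * l.length := by
    intro l
    induction l with
    | nil =>
      intro _
      simp [hΨ1, A.one_mem]
    | cons x l ih =>
      intro hl
      have hx := hl x List.mem_cons_self
      have ih' := ih (fun y hy => hl y (List.mem_cons_of_mem _ hy))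
      rw [List.prod_cons, List.length_cons]
      refine ⟨A.mul_mem hx.1 ih'.1, ?_⟩
      rw [hΨadd x hx.1 _ ih'.1]
      have h5 := hB x hx.2
      push_cast
      calc |Ψ x + Ψ l.prod| ≤ |Ψ x| + |Ψ l.prod| := abs_add_le _ _
        _ ≤ B + B * l.length := add_le_add h5 ih'.2
        _ = B * (l.length + 1) := by ring
  have hlen : ∀ a ∈ A, |Ψ a| ≤ B * M.d 1 a := by
    intro a ha
    obtain ⟨l, hl, hlprod, hllen⟩ := hgen₂ a ha
    have h5 := (hlist l hl).2
    rw [hlprod] at h5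
    exact h5.trans (mul_le_mul_of_nonneg_left (by exact_mod_cast hllen) hB0)
  have hpow : ∀ n : ℕ, g ^ n ∈ A ∧ Ψ (g ^ n) = n * Ψ g := by
    intro n
    induction n with
    | zero => simp [hΨ1, A.one_mem]
    | succ n ih =>
      refine ⟨A.pow_mem hgA _, ?_⟩
      rw [pow_succ, hΨadd _ ih.1 g hgA, ih.2]
      push_cast
      ring
  obtain ⟨K, hK⟩ := exists_nat_gt (B / |Ψ g|)
  refine ⟨K + 1, Nat.succ_pos K, fun n => ?_⟩
  have h1 := hlen (g ^ n) (hpow n).1
  rw [(hpow n).2, abs_mul, Nat.abs_cast] at h1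
  have hpos : 0 < |Ψ g| := abs_pos.mpr hΨg
  have h2 : (n : ℝ) ≤ (B / |Ψ g|) * M.d 1 (g ^ n) := by
    rw [div_mul_eq_mul_div, le_div_iff₀ hpos]
    exact h1
  have h3 : (n : ℝ) ≤ ((K + 1 : ℕ) : ℝ) * M.d 1 (g ^ n) := by
    refine h2.trans (mul_le_mul_of_nonneg_right ?_ (Nat.cast_nonneg _))
    push_cast
    linarith
  exact_mod_cast h3

end Vale.Agent.Lib.P184
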