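import Mathlib

/-!
# Dominated invariant kernels

Auxiliary Banach-algebra style machinery for problem P184.  For a group `G`, an element `g : G`
and a complete normed ring `R`, we build the ring of kernels `K : G → G → R` that are invariant
under simultaneous right translation by elements commuting with `g` and that are dominated by a
summable weight of `k * h⁻¹`.  The sum over the conjugacy class of `g` of the values
`τ (K (c * x) x)` (where `x * g * x⁻¹ = c`) is a trace on this ring.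
-/

namespace Vale.Agent.Lib.P184

open scoped BigOperators Topology

section Weights

variable {G : Type*} [Group G]

/-- The shear equivalence `(x, y) ↦ (x * y⁻¹, y)`. -/
def shear (G : Type*) [Group G] : G × G ≃ G × G where
  toFun p := (p.1 * p.2⁻¹, p.2)
  invFun p := (p.1 * p.2, p.2)
  left_inv p := by simp
  right_inv p := by simp

/-- Convolution of two real weights. -/
noncomputable def wconv (u v : G → ℝ) (x : G) : ℝ := ∑' y, u (x * y⁻¹) * v y

variable {u v : G → ℝ}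

theorem summable_shear (hu : Summable u) (hv : Summable v) (hu0 : ∀ x, 0 ≤ u x)
    (hv0 : ∀ x, 0 ≤ v x) : Summable (fun p : G × G => u (p.1 * p.2⁻¹) * v p.2) :=
  (Equiv.summable_iff (shear G)).mpr (hu.mul_of_nonneg hv hu0 hv0)

theorem wconv_nonneg (hu0 : ∀ x, 0 ≤ u x) (hv0 : ∀ x, 0 ≤ v x) (x : G) : 0 ≤ wconv u v x :=
  tsum_nonneg (fun _ => mul_nonneg (hu0 _) (hv0 _))

theorem summable_wconv (hu : Summable u) (hv : Summable v) (hu0 : ∀ x, 0 ≤ u x)
    (hv0 : ∀ x, 0 ≤ v x) : Summable (wconv u v) :=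
  (summable_shear hu hv hu0 hv0).prod

theorem tsum_wconv (hu : Summable u) (hv : Summable v) (hu0 : ∀ x, 0 ≤ u x)
    (hv0 : ∀ x, 0 ≤ v x) : ∑' x, wconv u v x = (∑' x, u x) * ∑' y, v y := by
  have h := summable_shear hu hv hu0 hv0
  have h1 : ∑' x, wconv u v x = ∑' p : G × G, u (p.1 * p.2⁻¹) * v p.2 := (h.tsum_prod).symm
  rw [h1]
  have h2 := Equiv.tsum_eq (shear G) (fun p : G × G => u p.1 * v p.2)
  have h3 : (∑' p : G × G, u (p.1 * p.2⁻¹) * v p.2)
      = ∑' c, (fun p : G × G => u p.1 * v p.2) (shear G c) := rfl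
  rw [h3, h2]
  exact (hu.tsum_mul_tsum hv (hu.mul_of_nonneg hv hu0 hv0)).symm

theorem summable_row (hu : Summable u) (hv : Summable v) (hu0 : ∀ x, 0 ≤ u x)
    (hv0 : ∀ x, 0 ≤ v x) (k h : G) : Summable (fun m => u (k * m⁻¹) * v (m * h⁻¹)) := by
  have h1 : Summable (fun y => u ((k * h⁻¹) * y⁻¹) * v y) :=
    (summable_shear hu hv hu0 hv0).prod_factor (k * h⁻¹)
  have h2 := (Equiv.summable_iff (Equiv.mulRight h⁻¹)).mpr h1
  refine h2.congr ?_
  intro m
  simp [mul_assoc]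

theorem tsum_row (k h : G) : ∑' m, u (k * m⁻¹) * v (m * h⁻¹) = wconv u v (k * h⁻¹) := by
  have h1 := Equiv.tsum_eq (Equiv.mulRight h⁻¹) (fun y => u ((k * h⁻¹) * y⁻¹) * v y)
  rw [wconv, ← h1]
  refine tsum_congr (fun m => ?_)
  simp [mul_assoc]

end Weights

section Dom

variable {G : Type*} [Group G] {R : Type*} [NormedRing R]

/-- `Dom w K`: the kernel `K` is dominated by the summable nonnegative weight `w`. -/
def Dom (w : G → ℝ) (K : G → G → R) : Prop :=
  (∀ x, 0 ≤ w x) ∧ Summable w ∧ ∀ k h, ‖K k h‖ ≤ w (k * h⁻¹)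

variable {u v w : G → ℝ} {A B C : G → G → R}

theorem Dom.norm_mul_le (hA : Dom u A) (hB : Dom v B) (k m h : G) :
    ‖A k m * B m h‖ ≤ u (k * m⁻¹) * v (m * h⁻¹) :=
  (_root_.norm_mul_le _ _).trans (mul_le_mul (hA.2.2 k m) (hB.2.2 m h) (norm_nonneg _) (hA.1 _))

theorem Dom.summable_norm_mul (hA : Dom u A) (hB : Dom v B) (k h : G) :
    Summable (fun m => ‖A k m * B m h‖) :=
  Summable.of_nonneg_of_le (fun _ => norm_nonneg _) (fun m => hA.norm_mul_le hB k m h)
    (summable_row hA.2.1 hB.2.1 hA.1 hB.1 k h)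

theorem Dom.summable_mul [CompleteSpace R] (hA : Dom u A) (hB : Dom v B) (k h : G) :
    Summable (fun m => A k m * B m h) :=
  (hA.summable_norm_mul hB k h).of_norm

theorem Dom.mul [CompleteSpace R] (hA : Dom u A) (hB : Dom v B) :
    Dom (wconv u v) (fun k h => ∑' m, A k m * B m h) := by
  refine ⟨fun x => wconv_nonneg hA.1 hB.1 x, summable_wconv hA.2.1 hB.2.1 hA.1 hB.1,
    fun k h => ?_⟩
  have hs := summable_row hA.2.1 hB.2.1 hA.1 hB.1 k h
  have hn := hA.summable_norm_mul hB k h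
  calc ‖∑' m, A k m * B m h‖ ≤ ∑' m, ‖A k m * B m h‖ := norm_tsum_le_tsum_norm hn
    _ ≤ ∑' m, u (k * m⁻¹) * v (m * h⁻¹) :=
        hn.tsum_le_tsum (fun m => hA.norm_mul_le hB k m h) hs
    _ = wconv u v (k * h⁻¹) := tsum_row k h

theorem Dom.add (hA : Dom u A) (hB : Dom v B) :
    Dom (fun x => u x + v x) (fun k h => A k h + B k h) :=
  ⟨fun x => add_nonneg (hA.1 x) (hB.1 x), hA.2.1.add hB.2.1,
    fun k h => (norm_add_le _ _).trans (add_le_add (hA.2.2 k h) (hB.2.2 k h))⟩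

theorem Dom.neg (hA : Dom u A) : Dom u (fun k h => -A k h) :=
  ⟨hA.1, hA.2.1, fun k h => by rw [norm_neg]; exact hA.2.2 k h⟩

theorem Dom.le_tsum (hA : Dom u A) (x : G) : u x ≤ ∑' y, u y :=
  hA.2.1.le_tsum x (fun j _ => hA.1 j)

theorem Dom.tsum_nonneg (hA : Dom u A) : 0 ≤ ∑' y, u y := _root_.tsum_nonneg hA.1

/-- The equivalence `(n, m) ↦ (k * n⁻¹, n * m⁻¹)`. -/
def assocEquiv (k : G) : G × G ≃ G × G where
  toFun p := (k * p.1⁻¹, p.1 * p.2⁻¹)
  invFun q := (q.1⁻¹ * k, q.2⁻¹ * (q.1⁻¹ * k))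
  left_inv p := by simp [mul_assoc]
  right_inv q := by simp [mul_assoc]

theorem Dom.summable_triple [CompleteSpace R] (hA : Dom u A) (hB : Dom v B) (hC : Dom w C)
    (k h : G) : Summable (Function.uncurry (fun n m => A k n * B n m * C m h)) := by
  have h1 : Summable (fun p : G × G => u p.1 * v p.2) := hA.2.1.mul_of_nonneg hB.2.1 hA.1 hB.1
  have h2 : Summable (fun p : G × G => u (k * p.1⁻¹) * v (p.1 * p.2⁻¹)) :=
    (Equiv.summable_iff (assocEquiv k)).mpr h1
  have h3 : Summable (fun p : G × G => u (k * p.1⁻¹) * v (p.1 * p.2⁻¹) * ∑' y, w y) :=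
    h2.mul_right _
  refine Summable.of_norm_bounded h3 ?_
  rintro ⟨n, m⟩
  simp only [Function.uncurry]
  calc ‖A k n * B n m * C m h‖ ≤ ‖A k n * B n m‖ * ‖C m h‖ := _root_.norm_mul_le _ _
    _ ≤ (u (k * n⁻¹) * v (n * m⁻¹)) * ∑' y, w y :=
        mul_le_mul (hA.norm_mul_le hB k n m) ((hC.2.2 m h).trans (hC.le_tsum _))
          (norm_nonneg _) (mul_nonneg (hA.1 _) (hB.1 _))

end Dom

end Vale.Agent.Lib.P184
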