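import Vale.Agent.Lib.P184.MatrixForm

/-!
# The linear corollary

If `ρ : G → GL_n(𝕜)` is a representation over a field with an absolute value and `ρ g` has an
eigenvalue of absolute value different from `1`, the vanishing theorem applies to the function
`ψ h = log (sum of |r × r minors| of ρ h * X)`, where the columns of `X` form a basis of the
eigenspace.
-/

namespace Vale.Agent.Lib.P184

open scoped BigOperators

section Minor

variable {𝕜 : Type*} [Field 𝕜] (abv : AbsoluteValue 𝕜 ℝ) {n r : ℕ}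

/-- Sum of the absolute values of the determinants of all `r`-row selections of `X`. -/
noncomputable def minorSum (X : Matrix (Fin n) (Fin r) 𝕜) : ℝ :=
  ∑ f : Fin r → Fin n, abv (X.submatrix f id).det

theorem minorSum_nonneg (X : Matrix (Fin n) (Fin r) 𝕜) : 0 ≤ minorSum abv X :=
  Finset.sum_nonneg (fun _ _ => abv.nonneg _)

theorem minorSum_mul_right (X : Matrix (Fin n) (Fin r) 𝕜) (A : Matrix (Fin r) (Fin r) 𝕜) :
    minorSum abv (X * A) = minorSum abv X * abv A.det := by
  unfold minorSum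
  rw [Finset.sum_mul]
  refine Finset.sum_congr rfl (fun f _ => ?_)
  rw [Matrix.submatrix_mul X A f id id Function.bijective_id, Matrix.submatrix_id_id,
    Matrix.det_mul, map_mul]

theorem det_mul_rect (P : Matrix (Fin r) (Fin n) 𝕜) (X : Matrix (Fin n) (Fin r) 𝕜) :
    (P * X).det = ∑ f : Fin r → Fin n, (∏ i, P i (f i)) * (X.submatrix f id).det := by
  have h1 : P * X = fun i => ∑ k, P i k • X k := by
    ext i j
    simp [Matrix.mul_apply]
  have h2 := (Matrix.detRowAlternating (R := 𝕜) (n := Fin r)).toMultilinearMap.map_sum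
    (fun i k => P i k • X k)
  have h3 : ∀ f : Fin r → Fin n,
      (Matrix.detRowAlternating (R := 𝕜) (n := Fin r)).toMultilinearMap
        (fun i => P i (f i) • X (f i)) = (∏ i, P i (f i)) * (X.submatrix f id).det := by
    intro f
    rw [MultilinearMap.map_smul_univ]
    rfl
  rw [h1]
  exact h2.trans (Finset.sum_congr rfl (fun f _ => h3 f))

/-- The constant controlling left multiplication by `M`. -/
noncomputable def lconst (M : Matrix (Fin n) (Fin n) 𝕜) (r : ℕ) : ℝ :=
  ∑ f : Fin r → Fin n, ∑ f' : Fin r → Fin n, ∏ i, abv (M (f i) (f' i))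

theorem minorSum_mul_left (M : Matrix (Fin n) (Fin n) 𝕜) (X : Matrix (Fin n) (Fin r) 𝕜) :
    minorSum abv (M * X) ≤ lconst abv M r * minorSum abv X := by
  unfold minorSum lconst
  rw [Finset.sum_mul]
  refine Finset.sum_le_sum (fun f _ => ?_)
  rw [Matrix.submatrix_mul M X f id id Function.bijective_id, Matrix.submatrix_id_id,
    det_mul_rect]
  calc abv (∑ f' : Fin r → Fin n, (∏ i, M.submatrix f id i (f' i)) * (X.submatrix f' id).det)
      ≤ ∑ f' : Fin r → Fin n,
          abv ((∏ i, M.submatrix f id i (f' i)) * (X.submatrix f' id).det) := abv.sum_le _ _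
    _ = ∑ f' : Fin r → Fin n, (∏ i, abv (M (f i) (f' i))) * abv (X.submatrix f' id).det := by
        refine Finset.sum_congr rfl (fun f' _ => ?_)
        rw [map_mul, map_prod]
        rfl
    _ ≤ ∑ f' : Fin r → Fin n, (∏ i, abv (M (f i) (f' i)))
          * ∑ f'' : Fin r → Fin n, abv (X.submatrix f'' id).det := by
        refine Finset.sum_le_sum (fun f' _ =>
          mul_le_mul_of_nonneg_left ?_ (Finset.prod_nonneg (fun i _ => abv.nonneg _)))
        exact Finset.single_le_sum (f := fun f'' : Fin r → Fin n => abv (X.submatrix f'' id).det)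
          (fun _ _ => abv.nonneg _) (Finset.mem_univ f')
    _ = (∑ f' : Fin r → Fin n, ∏ i, abv (M (f i) (f' i)))
          * ∑ f'' : Fin r → Fin n, abv (X.submatrix f'' id).det := by rw [Finset.sum_mul]

theorem minorSum_pos (X : Matrix (Fin n) (Fin r) 𝕜) (L : Matrix (Fin r) (Fin n) 𝕜)
    (hL : L * X = 1) : 0 < minorSum abv X := by
  by_contra hneg
  have h0 : minorSum abv X = 0 := le_antisymm (not_lt.mp hneg) (minorSum_nonneg abv X)
  have h1 : ∀ f : Fin r → Fin n, (X.submatrix f id).det = 0 := by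
    intro f
    have h := (Finset.sum_eq_zero_iff_of_nonneg (fun f _ => abv.nonneg _)).mp h0 f
      (Finset.mem_univ f)
    exact abv.eq_zero.mp h
  have h2 : (L * X).det = 0 := by
    rw [det_mul_rect]
    exact Finset.sum_eq_zero (fun f _ => by rw [h1 f, mul_zero])
  rw [hL, Matrix.det_one] at h2
  exact one_ne_zero h2

theorem exists_eigen_data (M : Matrix (Fin n) (Fin n) 𝕜) (lam : 𝕜) (v : Fin n → 𝕜) (hv : v ≠ 0)
    (hev : M.mulVec v = lam • v) :
    ∃ (r : ℕ) (X : Matrix (Fin n) (Fin r) 𝕜) (L : Matrix (Fin r) (Fin n) 𝕜),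
      0 < r ∧ L * X = 1 ∧ M * X = lam • X ∧
      ∀ w : Fin n → 𝕜, M.mulVec w = lam • w → ∃ c : Fin r → 𝕜, w = X.mulVec c := by
  classical
  let E : Submodule 𝕜 (Fin n → 𝕜) := Module.End.eigenspace (Matrix.toLin' M) lam
  have hE : ∀ w, w ∈ E ↔ M.mulVec w = lam • w := fun w => by
    rw [Module.End.mem_eigenspace_iff, Matrix.toLin'_apply]
  let b := Module.finBasis 𝕜 E
  let T : (Fin (Module.finrank 𝕜 E) → 𝕜) →ₗ[𝕜] (Fin n → 𝕜) :=
    E.subtype ∘ₗ b.equivFun.symm.toLinearMap
  obtain ⟨P, hP⟩ := LinearMap.exists_leftInverse_of_injective E.subtype (Submodule.ker_subtype E)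
  let S : (Fin n → 𝕜) →ₗ[𝕜] (Fin (Module.finrank 𝕜 E) → 𝕜) := b.equivFun.toLinearMap ∘ₗ P
  have hST : S ∘ₗ T = LinearMap.id := by
    refine LinearMap.ext (fun c => ?_)
    have h1 : P (E.subtype (b.equivFun.symm c)) = b.equivFun.symm c := by
      have := LinearMap.congr_fun hP (b.equivFun.symm c)
      simpa using this
    simp only [S, T, LinearMap.comp_apply, LinearEquiv.coe_coe, LinearMap.id_apply]
    rw [h1]
    exact b.equivFun.apply_symm_apply c
  have hTmem : ∀ c, T c ∈ E := fun c => by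
    simp only [T, LinearMap.comp_apply, LinearEquiv.coe_coe, Submodule.subtype_apply]
    exact Submodule.coe_mem _
  refine ⟨Module.finrank 𝕜 E, LinearMap.toMatrix' T, LinearMap.toMatrix' S, ?_, ?_, ?_, ?_⟩
  · rw [Module.finrank_pos_iff_exists_ne_zero]
    exact ⟨⟨v, (hE v).mpr hev⟩, fun h => hv (congrArg Subtype.val h)⟩
  · rw [← LinearMap.toMatrix'_comp, hST, LinearMap.toMatrix'_id]
  · apply Matrix.mulVec_injective
    funext c
    rw [← Matrix.mulVec_mulVec, LinearMap.toMatrix'_mulVec, Matrix.smul_mulVec,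
      LinearMap.toMatrix'_mulVec]
    exact (hE _).mp (hTmem c)
  · intro w hw
    refine ⟨b.equivFun ⟨w, (hE w).mpr hw⟩, ?_⟩
    rw [LinearMap.toMatrix'_mulVec]
    simp [T]

end Minor

theorem linear_class_trace {G : Type*} [Group G] {𝕜 : Type*} [Field 𝕜] (abv : AbsoluteValue 𝕜 ℝ)
    {n : ℕ} (ρ : G →* Matrix (Fin n) (Fin n) 𝕜) (g : G) (lam : 𝕜) (v : Fin n → 𝕜) (hv : v ≠ 0)
    (hev : (ρ g).mulVec v = lam • v) (hlam : abv lam ≠ 1)
    (q : ℕ) (e : Fin q → Fin q → G → ℂ)
    (he_sum : ∀ i j, Summable (fun x => ‖e i j x‖))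
    (he_idem : ∀ i j x, ∑ l, ∑' y, e i l y * e l j (y⁻¹ * x) = e i j x) :
    HasSum (fun c : {c : G // IsConj g c} => ∑ i, e i i c.1) 0 := by
  classical
  obtain ⟨r, X, L, hr, hL, hX, hspan⟩ := exists_eigen_data (ρ g) lam v hv hev
  obtain ⟨N, hN⟩ : ∃ N : G → ℝ, N = fun h => minorSum abv (ρ h * X) := ⟨_, rfl⟩
  have hN1 : N 1 = minorSum abv X := by
    rw [hN]
    simp
  have hN0 : ∀ h, 0 ≤ N h := fun h => by
    rw [hN]
    exact minorSum_nonneg abv _
  have hNleft : ∀ m h, N (m * h) ≤ lconst abv (ρ m) r * N h := by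
    intro m h
    rw [hN]
    simp only [map_mul, Matrix.mul_assoc]
    exact minorSum_mul_left abv (ρ m) (ρ h * X)
  have hNpos : ∀ h, 0 < N h := by
    intro h
    have h1 : 0 < N 1 := by
      rw [hN1]
      exact minorSum_pos abv X L hL
    have h2 := hNleft h⁻¹ h
    rw [inv_mul_cancel] at h2
    by_contra hneg
    have h3 : N h = 0 := le_antisymm (not_lt.mp hneg) (hN0 h)
    rw [h3, mul_zero] at h2
    linarith
  have hcpos : ∀ m, 0 < lconst abv (ρ m) r := by
    intro m
    have h2 := hNleft m 1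
    rw [mul_one] at h2
    by_contra hneg
    have h3 : lconst abv (ρ m) r * N 1 ≤ 0 :=
      mul_nonpos_of_nonpos_of_nonneg (not_lt.mp hneg) (hNpos 1).le
    linarith [hNpos m]
  have hright : ∀ z, z * g = g * z → ∃ d : ℝ, 0 < d ∧ ∀ h, N (h * z) = N h * d := by
    intro z hz
    have hcol : ∀ j : Fin r, ∃ c : Fin r → 𝕜,
        (ρ z * X).mulVec (Pi.single j 1) = X.mulVec c := by
      intro j
      apply hspan
      rw [Matrix.mulVec_mulVec, ← Matrix.mul_assoc, ← map_mul, ← hz, map_mul, Matrix.mul_assoc,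
        hX, Matrix.mul_smul, Matrix.smul_mulVec]
    choose C hC using hcol
    obtain ⟨A, hAdef⟩ : ∃ A : Matrix (Fin r) (Fin r) 𝕜, A = Matrix.of (fun i j => C j i) :=
      ⟨_, rfl⟩
    have hA : ρ z * X = X * A := by
      apply Matrix.ext_of_mulVec_single
      intro j
      rw [hC j, ← Matrix.mulVec_mulVec]
      congr 1
      ext i
      simp [hAdef, Matrix.mulVec_single]
    have hd : ∀ h, N (h * z) = N h * abv A.det := by
      intro h
      rw [hN]
      simp only [map_mul]
      rw [Matrix.mul_assoc, hA, ← Matrix.mul_assoc, minorSum_mul_right]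
    refine ⟨abv A.det, ?_, hd⟩
    have h1 := hd 1
    by_contra hneg
    have h0 : abv A.det = 0 := le_antisymm (not_lt.mp hneg) (abv.nonneg _)
    rw [h0, mul_zero, one_mul] at h1
    linarith [hNpos z]
  have hNg : N g = N 1 * abv lam ^ r := by
    have h1 : ρ g * X = X * (lam • (1 : Matrix (Fin r) (Fin r) 𝕜)) := by
      rw [hX]
      simp
    rw [hN]
    simp only [map_one, Matrix.one_mul]
    rw [h1, minorSum_mul_right, Matrix.det_smul, Matrix.det_one, mul_one, Fintype.card_fin,
      map_pow]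
  have hlam0 : 0 < abv lam := by
    by_contra hneg
    have h0 : abv lam = 0 := le_antisymm (not_lt.mp hneg) (abv.nonneg _)
    rw [h0, zero_pow hr.ne', mul_zero] at hNg
    linarith [hNpos g]
  refine matrix_class_trace q e he_sum he_idem g (fun h => Real.log (N h)) ?_ ?_ ?_
  · intro m
    refine ⟨|Real.log (lconst abv (ρ m) r)| + |Real.log (lconst abv (ρ m⁻¹) r)|, fun h => ?_⟩
    have h1 : Real.log (N (m * h)) ≤ Real.log (lconst abv (ρ m) r) + Real.log (N h) := by
      rw [← Real.log_mul (hcpos m).ne' (hNpos h).ne']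
      exact Real.log_le_log (hNpos _) (hNleft m h)
    have h2 : Real.log (N h) ≤ Real.log (lconst abv (ρ m⁻¹) r) + Real.log (N (m * h)) := by
      rw [← Real.log_mul (hcpos _).ne' (hNpos _).ne']
      have h3 := hNleft m⁻¹ (m * h)
      rw [inv_mul_cancel_left] at h3
      exact Real.log_le_log (hNpos _) h3
    rw [abs_le]
    constructor
    · linarith [le_abs_self (Real.log (lconst abv (ρ m⁻¹) r)),
        abs_nonneg (Real.log (lconst abv (ρ m) r))]
    · linarith [le_abs_self (Real.log (lconst abv (ρ m) r)),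
        abs_nonneg (Real.log (lconst abv (ρ m⁻¹) r))]
  · intro z hz h
    obtain ⟨d, hd, hdN⟩ := hright z hz
    have e1 := hdN h
    have e2 := hdN 1
    rw [one_mul] at e2
    rw [e1, e2, Real.log_mul (hNpos h).ne' hd.ne', Real.log_mul (hNpos 1).ne' hd.ne']
    ring
  · rw [hNg, Real.log_mul (hNpos 1).ne' (pow_pos hlam0 r).ne', Real.log_pow]
    intro h
    have h1 : (r : ℝ) * Real.log (abv lam) = 0 := by linarith
    rcases mul_eq_zero.mp h1 with h' | h'
    · exact hr.ne' (by exact_mod_cast h')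
    · exact Real.log_ne_zero_of_pos_of_ne_one hlam0 hlam h'

end Vale.Agent.Lib.P184
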