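import Vale.Agent.Lib.P184.TranscAbs

/-!
# Linear groups in positive characteristic

`charP_class_trace`: if `ρ` is a finite-dimensional representation of `G` over a field of prime
characteristic and `ρ g` has infinite order, then the coefficient at the class of `g` vanishes.

Proof: some eigenvalue of `ρ g` (in an algebraic closure) is not a root of unity, hence is
transcendental over the prime field, hence has absolute value different from `1` for a suitable
absolute value of the algebraic closure.
-/

namespace Vale.Agent.Lib.P184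

open scoped BigOperators

/-- A nonzero element of a field which is algebraic over `ZMod p` is a root of unity. -/
theorem exists_pow_eq_one_of_isAlgebraic {Ω : Type*} [Field Ω] (p : ℕ) [Fact p.Prime]
    [Algebra (ZMod p) Ω] (x : Ω) (hx : IsAlgebraic (ZMod p) x) (hx0 : x ≠ 0) :
    ∃ k : ℕ, 0 < k ∧ x ^ k = 1 := by
  classical
  have hfd : FiniteDimensional (ZMod p) (IntermediateField.adjoin (ZMod p) ({x} : Set Ω)) :=
    IntermediateField.adjoin.finiteDimensional hx.isIntegral
  have hfin : Finite (IntermediateField.adjoin (ZMod p) ({x} : Set Ω)) :=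
    Module.finite_of_finite (ZMod p)
  have := Fintype.ofFinite (IntermediateField.adjoin (ZMod p) ({x} : Set Ω))
  have hy0 : IntermediateField.AdjoinSimple.gen (ZMod p) x ≠ 0 := by
    intro h
    apply hx0
    have := congrArg (fun z : IntermediateField.adjoin (ZMod p) ({x} : Set Ω) => (z : Ω)) h
    simpa using this
  have h1 := FiniteField.pow_card_sub_one_eq_one (IntermediateField.AdjoinSimple.gen (ZMod p) x) hy0
  refine ⟨Fintype.card (IntermediateField.adjoin (ZMod p) ({x} : Set Ω)) - 1, ?_, ?_⟩
  · have := Fintype.one_lt_card (α := IntermediateField.adjoin (ZMod p) ({x} : Set Ω))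
    omega
  · have := congrArg (fun z : IntermediateField.adjoin (ZMod p) ({x} : Set Ω) => (z : Ω)) h1
    simpa using this

theorem charP_class_trace {G : Type*} [Group G] {𝕜 : Type*} [Field 𝕜] (p : ℕ) [Fact p.Prime]
    [CharP 𝕜 p] {n : ℕ} (ρ : G →* Matrix (Fin n) (Fin n) 𝕜) (g : G)
    (hg : ∀ k : ℕ, 0 < k → ρ g ^ k ≠ 1)
    (q : ℕ) (e : Fin q → Fin q → G → ℂ)
    (he_sum : ∀ i j, Summable (fun x => ‖e i j x‖))
    (he_idem : ∀ i j x, ∑ l, ∑' y, e i l y * e l j (y⁻¹ * x) = e i j x) :
    HasSum (fun c : {c : G // IsConj g c} => ∑ i, e i i c.1) 0 := by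
  classical
  have hn : n ≠ 0 := by
    rintro rfl
    exact hg 1 one_pos (Subsingleton.elim _ _)
  have : Nonempty (Fin n) := ⟨⟨0, Nat.pos_of_ne_zero hn⟩⟩
  have hg' : ∀ k : ℕ, 0 < k → (ρ g ^ k - 1) ^ n ≠ 0 := by
    intro k hk h0
    have hp : 1 < p := (Fact.out : p.Prime).one_lt
    have h1 : (ρ g ^ k - 1) ^ (p ^ n) = 0 :=
      pow_eq_zero_of_le (Nat.lt_pow_self hp).le h0
    rw [sub_pow_char_pow_of_commute _ _ (Commute.one_right _), one_pow, sub_eq_zero,
      ← pow_mul] at h1
    exact hg (k * p ^ n) (by positivity) h1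
  have : CharP (AlgebraicClosure 𝕜) p :=
    charP_of_injective_algebraMap (algebraMap 𝕜 (AlgebraicClosure 𝕜)).injective p
  let _ : Algebra (ZMod p) (AlgebraicClosure 𝕜) := ZMod.algebra (AlgebraicClosure 𝕜) p
  obtain ⟨lam, v, hv, hev, hlam⟩ := exists_eigen_not_root_of_unity (L := AlgebraicClosure 𝕜)
    (ρ g) (IsAlgClosed.splits _) hg'
  have hex : ∃ abv : AbsoluteValue (AlgebraicClosure 𝕜) ℝ, abv lam ≠ 1 := by
    by_cases h0 : lam = 0
    · refine ⟨AbsoluteValue.trivial, ?_⟩
      rw [h0, map_zero]
      exact zero_ne_one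
    · by_cases halg : IsAlgebraic (ZMod p) lam
      · obtain ⟨k, hk, hk1⟩ := exists_pow_eq_one_of_isAlgebraic p lam halg h0
        exact absurd hk1 (hlam k hk)
      · exact exists_absoluteValue_of_transcendental' lam halg
  obtain ⟨abv, habv⟩ := hex
  exact linear_class_trace abv
    ((RingHom.mapMatrix (algebraMap 𝕜 (AlgebraicClosure 𝕜))).toMonoidHom.comp ρ)
    g lam v hv hev habv q e he_sum he_idem

end Vale.Agent.Lib.P184
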