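import Vale.Agent.Lib.P184.Trace

/-!
# Vanishing of class traces of idempotents under a twisting function

The abstract form of the main result for problem P184: if `e : G → R` is an absolutely summable
idempotent for convolution with values in a complete normed `ℂ`-algebra `R` carrying a continuous
trace `τ`, and `ψ : G → ℝ` is a function with bounded left differences which is translated by a
constant under right multiplication by every element commuting with `g`, with `ψ g ≠ ψ 1`, then the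
sum of `τ (e c)` over the conjugacy class of `g` vanishes.
-/

namespace Vale.Agent.Lib.P184

open scoped BigOperators Topology
open Filter

set_option linter.unusedSectionVars false
set_option linter.unusedSimpArgs false

section Algebra

variable {S : Type*} [Ring S] {M : Type*} [AddCommGroup M]

/-- For idempotents `e`, `f` of a ring and a trace `τ`, all odd powers of `f - e` have trace
`τ f - τ e`. -/
theorem trace_sub_pow (τ : S →+ M) (hτ : ∀ a b, τ (a * b) = τ (b * a)) {e f : S}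
    (he : e * e = e) (hf : f * f = f) (n : ℕ) :
    τ ((f - e) ^ (2 * n + 1)) = τ f - τ e := by
  have he' : ∀ x, e * (e * x) = e * x := fun x => by rw [← mul_assoc, he]
  have hf' : ∀ x, f * (f * x) = f * x := fun x => by rw [← mul_assoc, hf]
  obtain ⟨c, hc⟩ : ∃ c : S, c = (f - e) * (f - e) := ⟨_, rfl⟩
  have hce : c * e = e - e * (f * e) := by
    simp only [hc, mul_sub, sub_mul, mul_assoc, he, hf, he', hf']; abel
  have hec : e * c = e - e * (f * e) := by
    simp only [hc, mul_sub, sub_mul, mul_assoc, he, hf, he', hf']; abel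
  have hcf : c * f = f - f * (e * f) := by
    simp only [hc, mul_sub, sub_mul, mul_assoc, he, hf, he', hf']; abel
  have hfc : f * c = f - f * (e * f) := by
    simp only [hc, mul_sub, sub_mul, mul_assoc, he, hf, he', hf']; abel
  have hcomm_e : Commute c e := hce.trans hec.symm
  have hcomm_f : Commute c f := hcf.trans hfc.symm
  have key : ∀ n : ℕ, τ (c ^ n * f) - τ (c ^ n * e) = τ f - τ e := by
    intro n
    induction n with
    | zero => simp
    | succ n ih =>
      have h1 : c ^ (n + 1) * f = c ^ n * f - c ^ n * (f * (e * f)) := by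
        rw [pow_succ, mul_assoc, hcf, mul_sub]
      have h2 : c ^ (n + 1) * e = c ^ n * e - c ^ n * (e * (f * e)) := by
        rw [pow_succ, mul_assoc, hce, mul_sub]
      have h3 : τ (c ^ n * (f * (e * f))) = τ (c ^ n * (f * e)) := by
        have e1 : c ^ n * (f * (e * f)) = (c ^ n * (f * e)) * f := by simp only [mul_assoc]
        have e2 : f * (c ^ n * (f * e)) = c ^ n * (f * e) := by
          rw [← mul_assoc, ← (hcomm_f.pow_left n).eq, mul_assoc, hf']
        rw [e1, hτ, e2]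
      have h4 : τ (c ^ n * (e * (f * e))) = τ (c ^ n * (f * e)) := by
        have e1 : c ^ n * (e * (f * e)) = (c ^ n * (e * f)) * e := by simp only [mul_assoc]
        have e2 : e * (c ^ n * (e * f)) = e * (c ^ n * f) := by
          rw [← mul_assoc, ← (hcomm_e.pow_left n).eq, mul_assoc, he', ← mul_assoc,
            (hcomm_e.pow_left n).eq, mul_assoc]
        have e3 : c ^ n * (f * e) = (c ^ n * f) * e := by simp only [mul_assoc]
        rw [e1, hτ, e2, e3, hτ]
      rw [h1, h2, map_sub, map_sub, h3, h4, ← ih]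
      abel
  have hpow : (f - e) ^ (2 * n + 1) = c ^ n * (f - e) := by
    rw [pow_succ, pow_mul, pow_two, hc]
  rw [hpow, mul_sub, map_sub, key]

end Algebra

section Main

variable {G : Type*} [Group G] {R : Type*} [NormedRing R] [NormedAlgebra ℂ R] [CompleteSpace R]

/-- The twisted convolution kernel `(k, h) ↦ exp (i t (ψ k - ψ h)) • e (k * h⁻¹)`. -/
noncomputable def twist (e : G → R) (he : Summable (fun x => ‖e x‖)) (g : G) (ψ : G → ℝ)
    (hψ2 : ∀ z, z * g = g * z → ∀ h, ψ (h * z) - ψ h = ψ z - ψ 1) (t : ℝ) : DKer G R g where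
  K k h := Complex.exp (Complex.I * ((t * (ψ k - ψ h) : ℝ) : ℂ)) • e (k * h⁻¹)
  inv' z hz k h := by
    have h1 := hψ2 z hz k
    have h2 := hψ2 z hz h
    have h3 : ψ (k * z) - ψ (h * z) = ψ k - ψ h := by linarith
    have h4 : k * z * (h * z)⁻¹ = k * h⁻¹ := by group
    rw [h3, h4]
  dom' := ⟨fun x => ‖e x‖, fun x => norm_nonneg _, he, fun k h => by
    rw [norm_smul, Complex.norm_exp_I_mul_ofReal, one_mul]⟩

theorem twist_K (e : G → R) (he : Summable (fun x => ‖e x‖)) (g : G) (ψ : G → ℝ)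
    (hψ2 : ∀ z, z * g = g * z → ∀ h, ψ (h * z) - ψ h = ψ z - ψ 1) (t : ℝ) (k h : G) :
    (twist e he g ψ hψ2 t).K k h
      = Complex.exp (Complex.I * ((t * (ψ k - ψ h) : ℝ) : ℂ)) • e (k * h⁻¹) := rfl

theorem twist_mul (e : G → R) (he : Summable (fun x => ‖e x‖))
    (he_idem : ∀ x, ∑' y, e y * e (y⁻¹ * x) = e x) (g : G) (ψ : G → ℝ)
    (hψ2 : ∀ z, z * g = g * z → ∀ h, ψ (h * z) - ψ h = ψ z - ψ 1) (t : ℝ) :
    twist e he g ψ hψ2 t * twist e he g ψ hψ2 t = twist e he g ψ hψ2 t := by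
  refine DKer.ext' (fun k h => ?_)
  rw [DKer.mul_K]
  simp only [twist_K]
  have h1 : ∀ m, (Complex.exp (Complex.I * ((t * (ψ k - ψ m) : ℝ) : ℂ)) • e (k * m⁻¹))
      * (Complex.exp (Complex.I * ((t * (ψ m - ψ h) : ℝ) : ℂ)) • e (m * h⁻¹))
      = Complex.exp (Complex.I * ((t * (ψ k - ψ h) : ℝ) : ℂ)) • (e (k * m⁻¹) * e (m * h⁻¹)) := by
    intro m
    rw [smul_mul_smul_comm, ← Complex.exp_add]
    congr 2
    push_cast
    ring
  rw [tsum_congr h1, tsum_const_smul'']
  congr 1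
  rw [← he_idem (k * h⁻¹)]
  have h2 := Equiv.tsum_eq ((Equiv.inv G).trans (Equiv.mulLeft k))
    (fun y => e y * e (y⁻¹ * (k * h⁻¹)))
  rw [← h2]
  refine tsum_congr (fun m => ?_)
  simp [mul_assoc]

/-- Abstract form of the main theorem. -/
theorem class_trace_eq_zero (τ : R →L[ℂ] ℂ) (hτ : ∀ a b, τ (a * b) = τ (b * a))
    (e : G → R) (he : Summable (fun x => ‖e x‖))
    (he_idem : ∀ x, ∑' y, e y * e (y⁻¹ * x) = e x)
    (g : G) (ψ : G → ℝ) (hψ1 : ∀ m, ∃ K, ∀ h, |ψ (m * h) - ψ h| ≤ K)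
    (hψ2 : ∀ z, z * g = g * z → ∀ h, ψ (h * z) - ψ h = ψ z - ψ 1) (hψ3 : ψ g ≠ ψ 1) :
    ∑' c : {c : G // IsConj g c}, τ (e c.1) = 0 := by
  classical
  choose Kf hKf using hψ1
  have hKf0 : ∀ m, 0 ≤ Kf m := fun m => (abs_nonneg _).trans (hKf m 1)
  obtain ⟨S, hS⟩ : ∃ S : ℂ, S = ∑' c : {c : G // IsConj g c}, τ (e c.1) := ⟨_, rfl⟩
  obtain ⟨c₀, hc₀⟩ : ∃ c₀ : ℝ, c₀ = ψ g - ψ 1 := ⟨_, rfl⟩
  have hc₀ne : c₀ ≠ 0 := by rw [hc₀]; exact sub_ne_zero.mpr hψ3
  obtain ⟨E, hE⟩ : ∃ E : ℝ → DKer G R g, E = twist e he g ψ hψ2 := ⟨_, rfl⟩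
  -- the trace of `E t`
  have htr : ∀ t, DKer.tr τ (E t) = Complex.exp (Complex.I * ((t * c₀ : ℝ) : ℂ)) * S := by
    intro t
    have h1 : ∀ c : {c : G // IsConj g c},
        τ ((E t).K (c.1 * rep g c) (rep g c))
          = Complex.exp (Complex.I * ((t * c₀ : ℝ) : ℂ)) * τ (e c.1) := by
      intro c
      have h2 : ψ (c.1 * rep g c) - ψ (rep g c) = c₀ := by
        rw [rep_mul, hψ2 g rfl (rep g c), hc₀]
      rw [hE, twist_K, h2, mul_inv_cancel_right, map_smul, smul_eq_mul]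
    rw [DKer.tr, tsum_congr h1, tsum_mul_left, hS]
  -- the dominating weights of `E t - E 0`
  obtain ⟨w, hw_def⟩ : ∃ w : ℝ → G → ℝ, w = fun t x => min 2 (|t| * Kf x) * ‖e x‖ := ⟨_, rfl⟩
  have hw0 : ∀ t x, 0 ≤ w t x := fun t x => by
    rw [hw_def]
    exact mul_nonneg (le_min zero_le_two (mul_nonneg (abs_nonneg _) (hKf0 x))) (norm_nonneg _)
  have hw2 : ∀ t x, w t x ≤ 2 * ‖e x‖ := fun t x => by
    rw [hw_def]
    exact mul_le_mul_of_nonneg_right (min_le_left _ _) (norm_nonneg _)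
  have hws : ∀ t, Summable (w t) := fun t =>
    Summable.of_nonneg_of_le (hw0 t) (hw2 t) (he.mul_left 2)
  have hw : ∀ t, Dom (w t) (E t - E 0).K := by
    intro t
    refine ⟨hw0 t, hws t, fun k h => ?_⟩
    have h1 : (E t - E 0).K k h
        = (Complex.exp (Complex.I * ((t * (ψ k - ψ h) : ℝ) : ℂ)) - 1) • e (k * h⁻¹) := by
      rw [DKer.sub_K, hE, twist_K, twist_K, sub_smul]
      simp
    rw [h1, norm_smul, hw_def]
    refine mul_le_mul_of_nonneg_right (le_min ?_ ?_) (norm_nonneg _)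
    · calc ‖Complex.exp (Complex.I * ((t * (ψ k - ψ h) : ℝ) : ℂ)) - 1‖
          ≤ ‖Complex.exp (Complex.I * ((t * (ψ k - ψ h) : ℝ) : ℂ))‖ + ‖(1 : ℂ)‖ := norm_sub_le _ _
        _ = 2 := by rw [Complex.norm_exp_I_mul_ofReal, norm_one]; norm_num
    · calc ‖Complex.exp (Complex.I * ((t * (ψ k - ψ h) : ℝ) : ℂ)) - 1‖
          ≤ ‖t * (ψ k - ψ h)‖ := Real.norm_exp_I_mul_ofReal_sub_one_le
        _ = |t| * |ψ k - ψ h| := by rw [Real.norm_eq_abs, abs_mul]
        _ ≤ |t| * Kf (k * h⁻¹) := by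
            refine mul_le_mul_of_nonneg_left ?_ (abs_nonneg _)
            have h2 := hKf (k * h⁻¹) h
            rwa [inv_mul_cancel_right] at h2
  -- the total mass of the weights tends to zero
  have hlim : Tendsto (fun t => ∑' x, w t x) (𝓝 0) (𝓝 0) := by
    have h1 := tendsto_tsum_of_dominated_convergence (𝓕 := 𝓝 (0 : ℝ)) (f := w)
      (g := fun _ => (0 : ℝ)) (bound := fun x => 2 * ‖e x‖) (he.mul_left 2)
      (fun x => by
        have hc : Continuous (fun t : ℝ => w t x) := by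
          rw [hw_def]
          fun_prop
        have h0 : w 0 x = 0 := by rw [hw_def]; simp
        simpa [h0] using hc.tendsto 0)
      (Eventually.of_forall (fun t x => by
        rw [Real.norm_eq_abs, abs_of_nonneg (hw0 t x)]
        exact hw2 t x))
    simpa using h1
  -- choose a good parameter
  obtain ⟨t, ht1, ht2⟩ : ∃ t : ℝ, ∑' x, w t x < 1 ∧
      Complex.exp (Complex.I * ((t * c₀ : ℝ) : ℂ)) ≠ 1 := by
    have h1 := hlim.eventually_lt_const zero_lt_one
    obtain ⟨ε, hε, hball⟩ := Metric.eventually_nhds_iff.mp h1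
    obtain ⟨θ, hθ⟩ : ∃ θ : ℝ, θ = min (ε * |c₀| / 2) Real.pi := ⟨_, rfl⟩
    have hc₀pos : 0 < |c₀| := abs_pos.mpr hc₀ne
    have hθpos : 0 < θ := by
      rw [hθ]
      exact lt_min (by positivity) Real.pi_pos
    have hθ1 : θ ≤ ε * |c₀| / 2 := by rw [hθ]; exact min_le_left _ _
    have hθ2 : θ ≤ Real.pi := by rw [hθ]; exact min_le_right _ _
    refine ⟨θ / c₀, hball ?_, ?_⟩
    · rw [Real.dist_eq, sub_zero, abs_div, abs_of_pos hθpos, div_lt_iff₀ hc₀pos]
      nlinarith
    · rw [div_mul_cancel₀ _ hc₀ne]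
      intro h
      have h2 := Complex.norm_exp_I_mul_ofReal_sub_one θ
      rw [h, sub_self, norm_zero] at h2
      have h3 : 0 < Real.sin (θ / 2) :=
        Real.sin_pos_of_pos_of_lt_pi (by positivity) (by linarith [Real.pi_pos])
      have h4 : (2 * Real.sin (θ / 2)) = 0 := norm_eq_zero.mp h2.symm
      linarith
  -- the trace identity for odd powers
  have hid : ∀ n : ℕ, DKer.tr τ ((E t - E 0) ^ (2 * n + 1))
      = DKer.tr τ (E t) - DKer.tr τ (E 0) := by
    intro n
    have h1 := trace_sub_pow (DKer.trHom (g := g) τ) (DKer.tr_mul_comm τ hτ)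
      (e := E 0) (f := E t) (by rw [hE]; exact twist_mul e he he_idem g ψ hψ2 0)
      (by rw [hE]; exact twist_mul e he he_idem g ψ hψ2 t) n
    exact h1
  have hbound : ∀ n : ℕ, ‖DKer.tr τ (E t) - DKer.tr τ (E 0)‖
      ≤ ‖τ‖ * (∑' x, w t x) ^ (2 * n + 1) := by
    intro n
    rw [← hid n]
    obtain ⟨w', hw', hle⟩ := DKer.dom_pow (E t - E 0) (hw t) (2 * n)
    exact (DKer.norm_tr_le τ _ hw').trans (mul_le_mul_of_nonneg_left hle (norm_nonneg _))
  have hzero : DKer.tr τ (E t) - DKer.tr τ (E 0) = 0 := by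
    have hs0 : 0 ≤ ∑' x, w t x := tsum_nonneg (hw0 t)
    have h1 := tendsto_pow_atTop_nhds_zero_of_lt_one hs0 ht1
    have h2 : Tendsto (fun n : ℕ => 2 * n + 1) atTop atTop :=
      tendsto_atTop_mono (fun n => by
        change n ≤ 2 * n + 1
        omega) tendsto_id
    have h3 : Tendsto (fun n : ℕ => ‖τ‖ * (∑' x, w t x) ^ (2 * n + 1)) atTop (𝓝 0) := by
      simpa using (h1.comp h2).const_mul ‖τ‖
    exact norm_le_zero_iff.mp (ge_of_tendsto' h3 hbound)
  rw [htr t, htr 0] at hzero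
  have h5 : (Complex.exp (Complex.I * ((t * c₀ : ℝ) : ℂ)) - 1) * S = 0 := by
    have h6 : Complex.exp (Complex.I * (((0 : ℝ) * c₀ : ℝ) : ℂ)) = 1 := by simp
    rw [h6] at hzero
    linear_combination hzero
  rcases mul_eq_zero.mp h5 with h | h
  · exact absurd (sub_eq_zero.mp h) ht2
  · rw [← hS]
    exact h

end Main

end Vale.Agent.Lib.P184
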