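import Mathlib

/-!
# Formal Moyal extension of a ring: definitions

For a ring `S` with two commuting derivations `d1`, `d2`, the formal power series in one variable
`s` over `S` carry the Moyal product `x ⋆ y = ∑ s ^ k / k! * d1 ^ k x * d2 ^ k y`.  This file
fixes the carrier, the operations and the basic operators; the ring axioms are proved in another
file.
-/

namespace Vale.Agent.Lib.P184

open scoped BigOperators

set_option linter.unusedSectionVars false
set_option linter.unusedVariables false

/-- Two commuting derivations of a ring. -/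
structure MoyalData (S : Type*) [Ring S] where
  d1 : S →+ S
  d2 : S →+ S
  leib1 : ∀ x y, d1 (x * y) = d1 x * y + x * d1 y
  leib2 : ∀ x y, d2 (x * y) = d2 x * y + x * d2 y
  comm : ∀ x, d1 (d2 x) = d2 (d1 x)

/-- Formal power series in one variable over `S`, to be multiplied by the Moyal product. -/
@[ext] structure Moyal {S : Type*} [Ring S] (P : MoyalData S) where
  coeff : ℕ → S

namespace Moyal

variable {S : Type*} [Ring S] [Algebra ℚ S] {P : MoyalData S}

instance : Zero (Moyal P) := ⟨⟨fun _ => 0⟩⟩
instance : Add (Moyal P) := ⟨fun x y => ⟨fun n => x.coeff n + y.coeff n⟩⟩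
instance : Neg (Moyal P) := ⟨fun x => ⟨fun n => -x.coeff n⟩⟩
instance : Sub (Moyal P) := ⟨fun x y => ⟨fun n => x.coeff n - y.coeff n⟩⟩
instance : SMul ℚ (Moyal P) := ⟨fun c x => ⟨fun n => c • x.coeff n⟩⟩
instance : One (Moyal P) := ⟨⟨fun n => if n = 0 then 1 else 0⟩⟩

/-- The Moyal product: the coefficient of `s ^ n` in `x ⋆ y` is the sum over `i + j + k = n` of
`(1 / k!) • (d1 ^ k (x i) * d2 ^ k (y j))`. -/
noncomputable instance : Mul (Moyal P) := ⟨fun x y => ⟨fun n =>
  ∑ p ∈ Finset.HasAntidiagonal.antidiagonal n, ∑ q ∈ Finset.HasAntidiagonal.antidiagonal p.1,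
    ((q.2.factorial : ℚ)⁻¹) • ((⇑P.d1)^[q.2] (x.coeff q.1) * (⇑P.d2)^[q.2] (y.coeff p.2))⟩⟩

@[simp] theorem zero_coeff (n : ℕ) : (0 : Moyal P).coeff n = 0 := rfl
@[simp] theorem add_coeff (x y : Moyal P) (n : ℕ) : (x + y).coeff n = x.coeff n + y.coeff n := rfl
@[simp] theorem neg_coeff (x : Moyal P) (n : ℕ) : (-x).coeff n = -x.coeff n := rfl
@[simp] theorem sub_coeff (x y : Moyal P) (n : ℕ) : (x - y).coeff n = x.coeff n - y.coeff n := rfl
@[simp] theorem smul_coeff (c : ℚ) (x : Moyal P) (n : ℕ) : (c • x).coeff n = c • x.coeff n := rfl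
theorem one_coeff (n : ℕ) : (1 : Moyal P).coeff n = if n = 0 then 1 else 0 := rfl

theorem mul_coeff (x y : Moyal P) (n : ℕ) : (x * y).coeff n
    = ∑ p ∈ Finset.HasAntidiagonal.antidiagonal n, ∑ q ∈ Finset.HasAntidiagonal.antidiagonal p.1,
      ((q.2.factorial : ℚ)⁻¹) • ((⇑P.d1)^[q.2] (x.coeff q.1) * (⇑P.d2)^[q.2] (y.coeff p.2)) :=
  rfl

instance : AddCommGroup (Moyal P) where
  add_assoc x y z := Moyal.ext (funext fun n => add_assoc (x.coeff n) (y.coeff n) (z.coeff n))
  zero_add x := Moyal.ext (funext fun n => zero_add (x.coeff n))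
  add_zero x := Moyal.ext (funext fun n => add_zero (x.coeff n))
  nsmul := nsmulRec
  zsmul := zsmulRec
  neg_add_cancel x := Moyal.ext (funext fun n => neg_add_cancel (x.coeff n))
  add_comm x y := Moyal.ext (funext fun n => add_comm (x.coeff n) (y.coeff n))
  sub_eq_add_neg x y := Moyal.ext (funext fun n => sub_eq_add_neg (x.coeff n) (y.coeff n))

instance : Module ℚ (Moyal P) where
  one_smul x := Moyal.ext (funext fun n => one_smul ℚ (x.coeff n))
  mul_smul a b x := Moyal.ext (funext fun n => mul_smul a b (x.coeff n))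
  smul_zero a := Moyal.ext (funext fun _ => smul_zero a)
  smul_add a x y := Moyal.ext (funext fun n => smul_add a (x.coeff n) (y.coeff n))
  add_smul a b x := Moyal.ext (funext fun n => add_smul a b (x.coeff n))
  zero_smul x := Moyal.ext (funext fun n => zero_smul ℚ (x.coeff n))

/-- The constant series. -/
def const (a : S) : Moyal P := ⟨fun n => if n = 0 then a else 0⟩

theorem const_coeff (a : S) (n : ℕ) : (const a : Moyal P).coeff n = if n = 0 then a else 0 := rfl

/-- Coefficientwise extension of an additive map. -/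
def lift (f : S →+ S) : Moyal P →+ Moyal P where
  toFun x := ⟨fun n => f (x.coeff n)⟩
  map_zero' := Moyal.ext (funext fun n => map_zero f)
  map_add' x y := Moyal.ext (funext fun n => map_add f _ _)

@[simp] theorem lift_coeff (f : S →+ S) (x : Moyal P) (n : ℕ) :
    (lift f x).coeff n = f (x.coeff n) := rfl

/-- The formal derivative with respect to the variable. -/
def ds : Moyal P →+ Moyal P where
  toFun x := ⟨fun n => (n + 1) • x.coeff (n + 1)⟩
  map_zero' := Moyal.ext (funext fun n => smul_zero _)
  map_add' x y := Moyal.ext (funext fun n => smul_add _ _ _)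

@[simp] theorem ds_coeff (x : Moyal P) (n : ℕ) : (ds x).coeff n = (n + 1) • x.coeff (n + 1) := rfl

/-- Coefficientwise application of an additive map with values in another group. -/
def tr {M : Type*} [AddCommGroup M] (τ : S →+ M) : Moyal P →+ (ℕ → M) where
  toFun x := fun n => τ (x.coeff n)
  map_zero' := funext fun n => map_zero τ
  map_add' x y := funext fun n => map_add τ _ _

@[simp] theorem tr_apply {M : Type*} [AddCommGroup M] (τ : S →+ M) (x : Moyal P) (n : ℕ) :
    tr τ x n = τ (x.coeff n) := rfl

end Moyal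

end Vale.Agent.Lib.P184
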