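import Vale.Agent.Lib.P184.MoyalDefs

/-!
# The formal Moyal extension is a ring and a rational algebra
-/

namespace Vale.Agent.Lib.P184

open scoped BigOperators
open Finset

set_option linter.unusedSectionVars false
set_option linter.unusedVariables false

namespace Moyal

variable {S : Type*} [Ring S] [Algebra ℚ S] {P : MoyalData S}

/-! ### Iterates of additive maps -/

theorem m1_iter_eq (d : S →+ S) (k : ℕ) :
    ∃ D : S →+ S, ⇑D = (⇑d)^[k] :=
  ⟨((show AddMonoid.End S from d) ^ k : AddMonoid.End S), rfl⟩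

theorem m1_iter_sum {ι : Type*} (d : S →+ S) (k : ℕ) (s : Finset ι) (f : ι → S) :
    (⇑d)^[k] (∑ i ∈ s, f i) = ∑ i ∈ s, (⇑d)^[k] (f i) := by
  obtain ⟨D, hD⟩ := m1_iter_eq d k
  rw [← hD]; exact map_sum D _ _

theorem m1_iter_add (d : S →+ S) (k : ℕ) (a b : S) :
    (⇑d)^[k] (a + b) = (⇑d)^[k] a + (⇑d)^[k] b := by
  obtain ⟨D, hD⟩ := m1_iter_eq d k
  rw [← hD]; exact map_add D _ _

theorem m1_iter_zero (d : S →+ S) (k : ℕ) : (⇑d)^[k] (0 : S) = 0 := by
  obtain ⟨D, hD⟩ := m1_iter_eq d k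
  rw [← hD]; exact map_zero D

theorem m1_iter_qsmul (d : S →+ S) (k : ℕ) (c : ℚ) (a : S) :
    (⇑d)^[k] (c • a) = c • (⇑d)^[k] a := by
  obtain ⟨D, hD⟩ := m1_iter_eq d k
  rw [← hD]; exact map_rat_smul D c a

theorem m1_iter_nsmul (d : S →+ S) (k : ℕ) (c : ℕ) (a : S) :
    (⇑d)^[k] (c • a) = c • (⇑d)^[k] a := by
  obtain ⟨D, hD⟩ := m1_iter_eq d k
  rw [← hD]; exact map_nsmul D c a

theorem m1_iter_add_apply (d : S →+ S) (k l : ℕ) (a : S) :
    (⇑d)^[k] ((⇑d)^[l] a) = (⇑d)^[k + l] a := (Function.iterate_add_apply _ k l a).symm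

theorem m1_iter_comm (d e : S →+ S) (h : ∀ x, d (e x) = e (d x)) (k l : ℕ) (a : S) :
    (⇑d)^[k] ((⇑e)^[l] a) = (⇑e)^[l] ((⇑d)^[k] a) := by
  have hc : Function.Commute (⇑d) (⇑e) := fun x => h x
  exact (hc.iterate_iterate k l) a

theorem m1_d_one (d : S →+ S) (h : ∀ x y, d (x * y) = d x * y + x * d y) : d 1 = 0 := by
  have h1 := h 1 1
  simp only [mul_one, one_mul] at h1
  have h2 : d 1 + 0 = d 1 + d 1 := by rw [add_zero]; exact h1
  exact (add_left_cancel h2).symm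

theorem m1_iter_one (d : S →+ S) (h : ∀ x y, d (x * y) = d x * y + x * d y) (k : ℕ) :
    (⇑d)^[k] (1 : S) = if k = 0 then 1 else 0 := by
  cases k with
  | zero => simp
  | succ k =>
    rw [Function.iterate_succ_apply, m1_d_one d h, m1_iter_zero]
    simp

/-- The general Leibniz rule for an additive map satisfying the product rule. -/
theorem m1_leibniz (d : S →+ S) (h : ∀ x y, d (x * y) = d x * y + x * d y) (n : ℕ) (a b : S) :
    (⇑d)^[n] (a * b)
      = ∑ ij ∈ antidiagonal n, n.choose ij.1 • ((⇑d)^[ij.1] a * (⇑d)^[ij.2] b) := by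
  induction n with
  | zero => simp
  | succ n ih =>
    rw [Finset.sum_antidiagonal_choose_succ_nsmul (M := S)
      (fun i j => (⇑d)^[i] a * (⇑d)^[j] b) n]
    simp only [Function.iterate_succ_apply', ih, map_sum, map_nsmul, h, smul_add,
      sum_add_distrib]
    rw [add_comm]
    congr 1
    refine sum_congr rfl fun ⟨i, j⟩ hij => ?_
    rw [n.choose_symm_of_eq_add (mem_antidiagonal.1 hij).symm]

/-! ### The bidifferential operators of the product -/

/-- The `k`-th bidifferential operator of the product. -/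
noncomputable def m1_B (P : MoyalData S) (k : ℕ) (a b : S) : S :=
  ((k.factorial : ℚ)⁻¹) • ((⇑P.d1)^[k] a * (⇑P.d2)^[k] b)

theorem m1_mul_coeff (x y : Moyal P) (n : ℕ) : (x * y).coeff n
    = ∑ p ∈ antidiagonal n, ∑ q ∈ antidiagonal p.1,
        m1_B P q.2 (x.coeff q.1) (y.coeff p.2) := rfl

theorem m1_B_sum_left {ι : Type*} (k : ℕ) (s : Finset ι) (f : ι → S) (b : S) :
    m1_B P k (∑ i ∈ s, f i) b = ∑ i ∈ s, m1_B P k (f i) b := by
  unfold m1_B
  rw [m1_iter_sum, Finset.sum_mul, Finset.smul_sum]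

theorem m1_B_sum_right {ι : Type*} (k : ℕ) (s : Finset ι) (a : S) (f : ι → S) :
    m1_B P k a (∑ i ∈ s, f i) = ∑ i ∈ s, m1_B P k a (f i) := by
  unfold m1_B
  rw [m1_iter_sum, Finset.mul_sum, Finset.smul_sum]

theorem m1_B_add_left (k : ℕ) (a a' b : S) :
    m1_B P k (a + a') b = m1_B P k a b + m1_B P k a' b := by
  unfold m1_B
  rw [m1_iter_add, add_mul, smul_add]

theorem m1_B_add_right (k : ℕ) (a b b' : S) :
    m1_B P k a (b + b') = m1_B P k a b + m1_B P k a b' := by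
  unfold m1_B
  rw [m1_iter_add, mul_add, smul_add]

theorem m1_B_zero_left (k : ℕ) (b : S) : m1_B P k 0 b = 0 := by
  unfold m1_B
  rw [m1_iter_zero, zero_mul, smul_zero]

theorem m1_B_zero_right (k : ℕ) (a : S) : m1_B P k a 0 = 0 := by
  unfold m1_B
  rw [m1_iter_zero, mul_zero, smul_zero]

theorem m1_B_smul_left (k : ℕ) (r : ℚ) (a b : S) :
    m1_B P k (r • a) b = r • m1_B P k a b := by
  unfold m1_B
  rw [m1_iter_qsmul, smul_mul_assoc, smul_comm]

theorem m1_B_smul_right (k : ℕ) (r : ℚ) (a b : S) :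
    m1_B P k a (r • b) = r • m1_B P k a b := by
  unfold m1_B
  rw [m1_iter_qsmul, mul_smul_comm, smul_comm]

theorem m1_B_one_left (k : ℕ) (b : S) : m1_B P k 1 b = if k = 0 then b else 0 := by
  unfold m1_B
  rw [m1_iter_one P.d1 P.leib1]
  by_cases hk : k = 0
  · subst hk; simp
  · simp [hk]

theorem m1_B_one_right (k : ℕ) (a : S) : m1_B P k a 1 = if k = 0 then a else 0 := by
  unfold m1_B
  rw [m1_iter_one P.d2 P.leib2]
  by_cases hk : k = 0
  · subst hk; simp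
  · simp [hk]

/-- The common summand of both bracketings. -/
noncomputable def m1_W (P : MoyalData S) (a b c : S) (k t r : ℕ) : S :=
  ((k.factorial : ℚ)⁻¹ * (t.factorial : ℚ)⁻¹ * (r.factorial : ℚ)⁻¹) •
    ((⇑P.d1)^[t + k] a * (⇑P.d1)^[r] ((⇑P.d2)^[k] b) * (⇑P.d2)^[t + r] c)

theorem m1_scalar (k t r : ℕ) :
    ((t + r).factorial : ℚ)⁻¹ * (k.factorial : ℚ)⁻¹ * ((t + r).choose t : ℚ)
      = (k.factorial : ℚ)⁻¹ * (t.factorial : ℚ)⁻¹ * (r.factorial : ℚ)⁻¹ := by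
  rw [Nat.cast_add_choose]
  have h1 : ((t + r).factorial : ℚ) ≠ 0 := Nat.cast_ne_zero.mpr (Nat.factorial_ne_zero _)
  have h2 : (t.factorial : ℚ) ≠ 0 := Nat.cast_ne_zero.mpr (Nat.factorial_ne_zero _)
  have h3 : (r.factorial : ℚ) ≠ 0 := Nat.cast_ne_zero.mpr (Nat.factorial_ne_zero _)
  have h4 : (k.factorial : ℚ) ≠ 0 := Nat.cast_ne_zero.mpr (Nat.factorial_ne_zero _)
  field_simp

theorem m1_scalar' (k t r : ℕ) :
    ((t + r).factorial : ℚ)⁻¹ * (k.factorial : ℚ)⁻¹ * ((t + r).choose t : ℚ)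
      = (t.factorial : ℚ)⁻¹ * (r.factorial : ℚ)⁻¹ * (k.factorial : ℚ)⁻¹ := by
  rw [m1_scalar]; ring

theorem m1_left_expand (P : MoyalData S) (a b c : S) (k k' : ℕ) :
    m1_B P k' (m1_B P k a b) c = ∑ q ∈ antidiagonal k', m1_W P a b c k q.1 q.2 := by
  unfold m1_B
  rw [m1_iter_qsmul, m1_leibniz P.d1 P.leib1, smul_mul_assoc, Finset.sum_mul, Finset.smul_sum,
    Finset.smul_sum]
  refine Finset.sum_congr rfl fun q hq => ?_
  have hq' : q.1 + q.2 = k' := HasAntidiagonal.mem_antidiagonal.1 hq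
  subst hq'
  unfold m1_W
  rw [m1_iter_add_apply, ← Nat.cast_smul_eq_nsmul ℚ, smul_mul_assoc, smul_smul, smul_smul,
    m1_scalar]

theorem m1_right_expand (P : MoyalData S) (a b c : S) (k k' : ℕ) :
    m1_B P k' a (m1_B P k b c) = ∑ q ∈ antidiagonal k', m1_W P a b c q.1 q.2 k := by
  unfold m1_B
  rw [m1_iter_qsmul, m1_leibniz P.d2 P.leib2, mul_smul_comm, Finset.mul_sum, Finset.smul_sum,
    Finset.smul_sum]
  refine Finset.sum_congr rfl fun q hq => ?_
  have hq' : q.1 + q.2 = k' := HasAntidiagonal.mem_antidiagonal.1 hq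
  subst hq'
  unfold m1_W
  rw [m1_iter_add_apply, ← Nat.cast_smul_eq_nsmul ℚ, mul_smul_comm, smul_smul, smul_smul,
    m1_scalar', m1_iter_comm P.d2 P.d1 (fun x => (P.comm x).symm), ← mul_assoc,
    add_comm q.2 q.1]

/-- The order `M` part of associativity. -/
theorem m1_key (P : MoyalData S) (M : ℕ) (a b c : S) :
    ∑ p ∈ antidiagonal M, m1_B P p.2 (m1_B P p.1 a b) c
      = ∑ p ∈ antidiagonal M, m1_B P p.2 a (m1_B P p.1 b c) := by
  simp only [m1_left_expand, m1_right_expand]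
  rw [Finset.sum_sigma', Finset.sum_sigma']
  refine Finset.sum_nbij' (fun x => ⟨(x.2.2, x.1.1 + x.2.1), (x.1.1, x.2.1)⟩)
    (fun x => ⟨(x.2.1, x.2.2 + x.1.1), (x.2.2, x.1.1)⟩) ?_ ?_ ?_ ?_ ?_
  · rintro ⟨⟨k, k'⟩, ⟨t, r⟩⟩ h
    simp only [mem_sigma, HasAntidiagonal.mem_antidiagonal, and_true] at h ⊢
    omega
  · rintro ⟨⟨k, k'⟩, ⟨t, r⟩⟩ h
    simp only [mem_sigma, HasAntidiagonal.mem_antidiagonal, and_true] at h ⊢
    omega
  · rintro ⟨⟨k, k'⟩, ⟨t, r⟩⟩ h
    simp only [mem_sigma, HasAntidiagonal.mem_antidiagonal] at h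
    simp only [Sigma.mk.injEq, Prod.mk.injEq, heq_eq_eq, and_true, true_and]
    omega
  · rintro ⟨⟨k, k'⟩, ⟨t, r⟩⟩ h
    simp only [mem_sigma, HasAntidiagonal.mem_antidiagonal] at h
    simp only [Sigma.mk.injEq, Prod.mk.injEq, heq_eq_eq, and_true, true_and]
    omega
  · rintro ⟨⟨k, k'⟩, ⟨t, r⟩⟩ h
    rfl

/-! ### Index sets -/

/-- Triples of natural numbers with sum `n`. -/
def m1_T3 (n : ℕ) : Finset (ℕ × ℕ × ℕ) :=
  ((range (n + 1)) ×ˢ (range (n + 1)) ×ˢ (range (n + 1))).filter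
    (fun t => t.1 + t.2.1 + t.2.2 = n)

theorem m1_mem_T3 {n : ℕ} {t : ℕ × ℕ × ℕ} : t ∈ m1_T3 n ↔ t.1 + t.2.1 + t.2.2 = n := by
  unfold m1_T3
  simp only [mem_filter, mem_product, mem_range]
  constructor
  · exact fun h => h.2
  · intro h
    exact ⟨⟨by omega, by omega, by omega⟩, h⟩

/-- Quadruples of natural numbers with sum `n`. -/
def m1_T4 (n : ℕ) : Finset (ℕ × ℕ × ℕ × ℕ) :=
  ((range (n + 1)) ×ˢ (range (n + 1)) ×ˢ (range (n + 1)) ×ˢ (range (n + 1))).filter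
    (fun t => t.1 + t.2.1 + t.2.2.1 + t.2.2.2 = n)

theorem m1_mem_T4 {n : ℕ} {t : ℕ × ℕ × ℕ × ℕ} :
    t ∈ m1_T4 n ↔ t.1 + t.2.1 + t.2.2.1 + t.2.2.2 = n := by
  unfold m1_T4
  simp only [mem_filter, mem_product, mem_range]
  constructor
  · exact fun h => h.2
  · intro h
    exact ⟨⟨by omega, by omega, by omega, by omega⟩, h⟩

theorem m1_sum_T3 (F : ℕ → ℕ → ℕ → S) (n : ℕ) :
    ∑ p ∈ antidiagonal n, ∑ q ∈ antidiagonal p.1, F q.1 p.2 q.2
      = ∑ t ∈ m1_T3 n, F t.1 t.2.1 t.2.2 := by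
  rw [Finset.sum_sigma']
  refine Finset.sum_nbij' (fun x => (x.2.1, x.1.2, x.2.2))
    (fun t => ⟨(t.1 + t.2.2, t.2.1), (t.1, t.2.2)⟩) ?_ ?_ ?_ ?_ ?_
  · rintro ⟨⟨m, j⟩, ⟨i, k⟩⟩ h
    simp only [mem_sigma, HasAntidiagonal.mem_antidiagonal, m1_mem_T3] at h ⊢
    omega
  · rintro ⟨i, j, k⟩ h
    simp only [mem_sigma, HasAntidiagonal.mem_antidiagonal, m1_mem_T3, and_true] at h ⊢
    omega
  · rintro ⟨⟨m, j⟩, ⟨i, k⟩⟩ h
    simp only [mem_sigma, HasAntidiagonal.mem_antidiagonal] at h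
    simp only [Sigma.mk.injEq, Prod.mk.injEq, heq_eq_eq, and_true]
    omega
  · rintro ⟨i, j, k⟩ h
    rfl
  · rintro ⟨⟨m, j⟩, ⟨i, k⟩⟩ h
    rfl

theorem m1_coeff_T3 (x y : Moyal P) (n : ℕ) :
    (x * y).coeff n = ∑ t ∈ m1_T3 n, m1_B P t.2.2 (x.coeff t.1) (y.coeff t.2.1) :=
  m1_sum_T3 (fun i j k => m1_B P k (x.coeff i) (y.coeff j)) n

theorem m1_assoc_left (x y z : Moyal P) (n : ℕ) :
    ((x * y) * z).coeff n = ∑ u ∈ m1_T4 n, ∑ r ∈ antidiagonal u.2.2.2,
      m1_B P r.2 (m1_B P r.1 (x.coeff u.1) (y.coeff u.2.1)) (z.coeff u.2.2.1) := by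
  rw [m1_coeff_T3]
  simp only [m1_coeff_T3 x y, m1_B_sum_left]
  rw [Finset.sum_sigma', Finset.sum_sigma']
  refine Finset.sum_nbij'
    (fun w => ⟨(w.2.1, w.2.2.1, w.1.2.1, w.2.2.2 + w.1.2.2), (w.2.2.2, w.1.2.2)⟩)
    (fun w => ⟨(w.1.1 + w.1.2.1 + w.2.1, w.1.2.2.1, w.2.2), (w.1.1, w.1.2.1, w.2.1)⟩)
    ?_ ?_ ?_ ?_ ?_
  · rintro ⟨⟨m, l, k'⟩, ⟨i, j, k⟩⟩ h
    simp only [mem_sigma, HasAntidiagonal.mem_antidiagonal, m1_mem_T3, m1_mem_T4,
      and_true] at h ⊢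
    omega
  · rintro ⟨⟨i, j, l, M⟩, ⟨k, k'⟩⟩ h
    simp only [mem_sigma, HasAntidiagonal.mem_antidiagonal, m1_mem_T3, m1_mem_T4,
      and_true] at h ⊢
    omega
  · rintro ⟨⟨m, l, k'⟩, ⟨i, j, k⟩⟩ h
    simp only [mem_sigma, m1_mem_T3] at h
    simp only [Sigma.mk.injEq, Prod.mk.injEq, heq_eq_eq, and_true]
    omega
  · rintro ⟨⟨i, j, l, M⟩, ⟨k, k'⟩⟩ h
    simp only [mem_sigma, HasAntidiagonal.mem_antidiagonal, m1_mem_T4] at h
    simp only [Sigma.mk.injEq, Prod.mk.injEq, heq_eq_eq, and_true, true_and]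
    omega
  · rintro ⟨⟨m, l, k'⟩, ⟨i, j, k⟩⟩ h
    rfl

theorem m1_assoc_right (x y z : Moyal P) (n : ℕ) :
    (x * (y * z)).coeff n = ∑ u ∈ m1_T4 n, ∑ r ∈ antidiagonal u.2.2.2,
      m1_B P r.2 (x.coeff u.1) (m1_B P r.1 (y.coeff u.2.1) (z.coeff u.2.2.1)) := by
  rw [m1_coeff_T3]
  simp only [m1_coeff_T3 y z, m1_B_sum_right]
  rw [Finset.sum_sigma', Finset.sum_sigma']
  refine Finset.sum_nbij'
    (fun w => ⟨(w.1.1, w.2.1, w.2.2.1, w.2.2.2 + w.1.2.2), (w.2.2.2, w.1.2.2)⟩)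
    (fun w => ⟨(w.1.1, w.1.2.1 + w.1.2.2.1 + w.2.1, w.2.2), (w.1.2.1, w.1.2.2.1, w.2.1)⟩)
    ?_ ?_ ?_ ?_ ?_
  · rintro ⟨⟨i, m, k'⟩, ⟨j, l, k⟩⟩ h
    simp only [mem_sigma, HasAntidiagonal.mem_antidiagonal, m1_mem_T3, m1_mem_T4,
      and_true] at h ⊢
    omega
  · rintro ⟨⟨i, j, l, M⟩, ⟨k, k'⟩⟩ h
    simp only [mem_sigma, HasAntidiagonal.mem_antidiagonal, m1_mem_T3, m1_mem_T4,
      and_true] at h ⊢
    omega
  · rintro ⟨⟨i, m, k'⟩, ⟨j, l, k⟩⟩ h
    simp only [mem_sigma, m1_mem_T3] at h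
    simp only [Sigma.mk.injEq, Prod.mk.injEq, heq_eq_eq, and_true, true_and]
    omega
  · rintro ⟨⟨i, j, l, M⟩, ⟨k, k'⟩⟩ h
    simp only [mem_sigma, HasAntidiagonal.mem_antidiagonal, m1_mem_T4] at h
    simp only [Sigma.mk.injEq, Prod.mk.injEq, heq_eq_eq, and_true, true_and]
    omega
  · rintro ⟨⟨i, m, k'⟩, ⟨j, l, k⟩⟩ h
    rfl

theorem m1_mul_assoc (x y z : Moyal P) : x * y * z = x * (y * z) := by
  refine Moyal.ext (funext fun n => ?_)
  rw [m1_assoc_left, m1_assoc_right]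
  exact Finset.sum_congr rfl fun u _ => m1_key P _ _ _ _

theorem m1_one_mul (y : Moyal P) : 1 * y = y := by
  refine Moyal.ext (funext fun n => ?_)
  rw [m1_coeff_T3]
  rw [Finset.sum_eq_single (0, n, 0)]
  · rw [one_coeff, if_pos rfl, m1_B_one_left, if_pos rfl]
  · rintro ⟨i, j, k⟩ h hne
    rw [m1_mem_T3] at h
    rw [one_coeff]
    by_cases hi : i = 0
    · subst hi
      rw [if_pos rfl, m1_B_one_left]
      have hk : k ≠ 0 := by
        intro hk
        apply hne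
        simp only [Prod.mk.injEq, true_and]
        simp only at h
        omega
      exact if_neg hk
    · simp only [hi, if_false]
      exact m1_B_zero_left _ _
  · intro h
    exact absurd (m1_mem_T3.2 (by simp)) h

theorem m1_mul_one (x : Moyal P) : x * 1 = x := by
  refine Moyal.ext (funext fun n => ?_)
  rw [m1_coeff_T3]
  rw [Finset.sum_eq_single (n, 0, 0)]
  · rw [one_coeff, if_pos rfl, m1_B_one_right, if_pos rfl]
  · rintro ⟨i, j, k⟩ h hne
    rw [m1_mem_T3] at h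
    rw [one_coeff]
    by_cases hj : j = 0
    · subst hj
      rw [if_pos rfl, m1_B_one_right]
      have hk : k ≠ 0 := by
        intro hk
        apply hne
        simp only [Prod.mk.injEq, true_and]
        simp only at h
        omega
      exact if_neg hk
    · simp only [hj, if_false]
      exact m1_B_zero_right _ _
  · intro h
    exact absurd (m1_mem_T3.2 (by simp)) h

theorem m1_left_distrib (x y z : Moyal P) : x * (y + z) = x * y + x * z := by
  refine Moyal.ext (funext fun n => ?_)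
  simp only [add_coeff, m1_mul_coeff, m1_B_add_right, Finset.sum_add_distrib]

theorem m1_right_distrib (x y z : Moyal P) : (x + y) * z = x * z + y * z := by
  refine Moyal.ext (funext fun n => ?_)
  simp only [add_coeff, m1_mul_coeff, m1_B_add_left, Finset.sum_add_distrib]

theorem m1_zero_mul (x : Moyal P) : 0 * x = 0 := by
  refine Moyal.ext (funext fun n => ?_)
  simp only [zero_coeff, m1_mul_coeff, m1_B_zero_left, Finset.sum_const_zero]

theorem m1_mul_zero (x : Moyal P) : x * 0 = 0 := by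
  refine Moyal.ext (funext fun n => ?_)
  simp only [zero_coeff, m1_mul_coeff, m1_B_zero_right, Finset.sum_const_zero]

theorem m1_smul_mul (r : ℚ) (x y : Moyal P) : r • x * y = r • (x * y) := by
  refine Moyal.ext (funext fun n => ?_)
  simp only [smul_coeff, m1_mul_coeff, m1_B_smul_left, Finset.smul_sum]

theorem m1_mul_smul (r : ℚ) (x y : Moyal P) : x * r • y = r • (x * y) := by
  refine Moyal.ext (funext fun n => ?_)
  simp only [smul_coeff, m1_mul_coeff, m1_B_smul_right, Finset.smul_sum]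

/-! ### The statements -/

theorem mul_coeff_zero (x y : Moyal P) : (x * y).coeff 0 = x.coeff 0 * y.coeff 0 := by
  rw [m1_coeff_T3, Finset.sum_eq_single (0, 0, 0)]
  · unfold m1_B
    simp
  · rintro ⟨i, j, k⟩ h hne
    rw [m1_mem_T3] at h
    exfalso
    apply hne
    simp only [Prod.mk.injEq]
    simp only at h
    omega
  · intro h
    exact absurd (m1_mem_T3.2 (by simp)) h

noncomputable instance instRing : Ring (Moyal P) :=
  { (inferInstance : AddCommGroup (Moyal P)) with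
    mul := (· * ·)
    one := 1
    left_distrib := m1_left_distrib
    right_distrib := m1_right_distrib
    zero_mul := m1_zero_mul
    mul_zero := m1_mul_zero
    mul_assoc := m1_mul_assoc
    one_mul := m1_one_mul
    mul_one := m1_mul_one }

noncomputable instance instAlgebra : Algebra ℚ (Moyal P) :=
  Algebra.ofModule (fun r x y => m1_smul_mul r x y) (fun r x y => m1_mul_smul r x y)

end Moyal

end Vale.Agent.Lib.P184
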