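import Mathlib

/-!
# Commutator identities in a group with central commutators
-/

namespace Vale.Agent.Lib.P184

open scoped commutatorElement

variable {P : Type*} [Group P]

theorem nil2_mul_eq (x y : P) : x * y = ⁅x, y⁆ * (y * x) := by
  rw [commutatorElement_def]
  group

theorem nil2_comm_mul_left (hc : ∀ x y z : P, ⁅x, y⁆ * z = z * ⁅x, y⁆) (x y z : P) :
    ⁅x * y, z⁆ = ⁅x, z⁆ * ⁅y, z⁆ := by
  calc ⁅x * y, z⁆ = x * ⁅y, z⁆ * z * x⁻¹ * z⁻¹ := by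
        simp only [commutatorElement_def]
        group
    _ = ⁅y, z⁆ * x * z * x⁻¹ * z⁻¹ := by rw [hc y z x]
    _ = ⁅y, z⁆ * ⁅x, z⁆ := by
        simp only [commutatorElement_def]
        group
    _ = ⁅x, z⁆ * ⁅y, z⁆ := hc y z _

theorem nil2_comm_mul_right (hc : ∀ x y z : P, ⁅x, y⁆ * z = z * ⁅x, y⁆) (x y z : P) :
    ⁅x, y * z⁆ = ⁅x, y⁆ * ⁅x, z⁆ := by
  calc ⁅x, y * z⁆ = x * y * x⁻¹ * (⁅x, z⁆ * y⁻¹) := by
        simp only [commutatorElement_def]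
        group
    _ = x * y * x⁻¹ * (y⁻¹ * ⁅x, z⁆) := by rw [hc x z y⁻¹]
    _ = ⁅x, y⁆ * ⁅x, z⁆ := by
        simp only [commutatorElement_def]
        group

theorem nil2_comm_inv_left (hc : ∀ x y z : P, ⁅x, y⁆ * z = z * ⁅x, y⁆) (x y : P) :
    ⁅x⁻¹, y⁆ = ⁅x, y⁆⁻¹ := by
  apply eq_inv_of_mul_eq_one_left
  rw [← nil2_comm_mul_left hc, inv_mul_cancel, commutatorElement_one_left]

theorem nil2_comm_inv_right (hc : ∀ x y z : P, ⁅x, y⁆ * z = z * ⁅x, y⁆) (x y : P) :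
    ⁅x, y⁻¹⁆ = ⁅x, y⁆⁻¹ := by
  apply eq_inv_of_mul_eq_one_left
  rw [← nil2_comm_mul_right hc, inv_mul_cancel, commutatorElement_one_right]

theorem nil2_comm_pow_left (hc : ∀ x y z : P, ⁅x, y⁆ * z = z * ⁅x, y⁆) (x y : P) (k : ℕ) :
    ⁅x ^ k, y⁆ = ⁅x, y⁆ ^ k := by
  induction k with
  | zero => rw [pow_zero, pow_zero, commutatorElement_one_left]
  | succ k ih => rw [pow_succ, nil2_comm_mul_left hc, ih, pow_succ]

theorem nil2_comm_pow_right (hc : ∀ x y z : P, ⁅x, y⁆ * z = z * ⁅x, y⁆) (x y : P) (k : ℕ) :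
    ⁅x, y ^ k⁆ = ⁅x, y⁆ ^ k := by
  induction k with
  | zero => rw [pow_zero, pow_zero, commutatorElement_one_right]
  | succ k ih => rw [pow_succ, nil2_comm_mul_right hc, ih, pow_succ]

theorem nil2_comm_zpow_left (hc : ∀ x y z : P, ⁅x, y⁆ * z = z * ⁅x, y⁆) (x y : P) (k : ℤ) :
    ⁅x ^ k, y⁆ = ⁅x, y⁆ ^ k := by
  obtain ⟨n, rfl | rfl⟩ := Int.eq_nat_or_neg k
  · rw [zpow_natCast, zpow_natCast, nil2_comm_pow_left hc]
  · rw [zpow_neg, zpow_neg, zpow_natCast, zpow_natCast, nil2_comm_inv_left hc,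
      nil2_comm_pow_left hc]

theorem nil2_comm_zpow_right (hc : ∀ x y z : P, ⁅x, y⁆ * z = z * ⁅x, y⁆) (x y : P) (k : ℤ) :
    ⁅x, y ^ k⁆ = ⁅x, y⁆ ^ k := by
  obtain ⟨n, rfl | rfl⟩ := Int.eq_nat_or_neg k
  · rw [zpow_natCast, zpow_natCast, nil2_comm_pow_right hc]
  · rw [zpow_neg, zpow_neg, zpow_natCast, zpow_natCast, nil2_comm_inv_right hc,
      nil2_comm_pow_right hc]

theorem nil2_commutator_central (hc : ∀ x y z : P, ⁅x, y⁆ * z = z * ⁅x, y⁆) (c : P)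
    (hcm : c ∈ commutator P) (z : P) : c * z = z * c := by
  rw [commutator_eq_closure] at hcm
  induction hcm using Subgroup.closure_induction with
  | mem x hx =>
    rw [mem_commutatorSet_iff] at hx
    obtain ⟨a, b, rfl⟩ := hx
    exact hc a b z
  | one => rw [one_mul, mul_one]
  | mul x y _ _ hx hy => rw [mul_assoc, hy, ← mul_assoc, hx, mul_assoc]
  | inv x _ hx => exact (Commute.inv_left (show Commute x z from hx)).eq

theorem nil2_comm_central_left (c : P) (hcc : ∀ z : P, c * z = z * c) (y : P) : ⁅c, y⁆ = 1 :=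
  commutatorElement_eq_one_iff_mul_comm.mpr (hcc y)

theorem nil2_comm_central_right (c : P) (hcc : ∀ z : P, c * z = z * c) (x : P) : ⁅x, c⁆ = 1 :=
  commutatorElement_eq_one_iff_mul_comm.mpr (hcc x).symm

theorem nil2_pow_mem_commutator_iff (x : P) :
    (∃ k : ℕ, 0 < k ∧ x ^ k ∈ commutator P) ↔ IsOfFinOrder (Abelianization.of x) := by
  have key : ∀ y : P, y ∈ commutator P ↔ Abelianization.of y = 1 := by
    intro y
    rw [← Abelianization.ker_of P, MonoidHom.mem_ker]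
  rw [isOfFinOrder_iff_pow_eq_one]
  constructor
  · rintro ⟨k, hk, h⟩
    refine ⟨k, hk, ?_⟩
    rw [← map_pow]
    exact (key _).mp h
  · rintro ⟨k, hk, h⟩
    refine ⟨k, hk, (key _).mpr ?_⟩
    rw [map_pow]
    exact h

end Vale.Agent.Lib.P184
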