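import Vale.Agent.Lib.P184.Nil2Basic

/-!
Collection of ordered monomials in a group whose commutators are central
-/

namespace Vale.Agent.Lib.P184

open scoped BigOperators commutatorElement

variable {P : Type*} [Group P]

/-- The ordered product `u 0 ^ n 0 * u 1 ^ n 1 * ⋯ * u (r - 1) ^ n (r - 1)`. -/
def nil2Sigma : (r : ℕ) → (Fin r → P) → (Fin r → ℤ) → P
  | 0, _, _ => 1
  | r + 1, u, n => u 0 ^ n 0 * nil2Sigma r (Fin.tail u) (Fin.tail n)

/-- The recursion of the ordered product. -/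
theorem nil2Collect_sigma_succ (r : ℕ) (u : Fin (r + 1) → P) (n : Fin (r + 1) → ℤ) :
    nil2Sigma (r + 1) u n = u 0 ^ n 0 * nil2Sigma r (Fin.tail u) (Fin.tail n) := rfl

theorem nil2Sigma_zero (r : ℕ) (u : Fin r → P) : nil2Sigma r u 0 = 1 := by
  induction r with
  | zero => rfl
  | succ r ih =>
    have h : Fin.tail (0 : Fin (r + 1) → ℤ) = 0 := rfl
    rw [nil2Collect_sigma_succ, h, ih, Pi.zero_apply, zpow_zero, one_mul]

/-- An additive function vanishes at the unit. -/
theorem nil2Collect_map_one (φ : P → ℤ) (hφ : ∀ x y, φ (x * y) = φ x + φ y) : φ 1 = 0 := by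
  have h := hφ 1 1
  rw [mul_one] at h
  omega

/-- An additive function is homogeneous on integer powers. -/
theorem nil2Collect_map_zpow (φ : P → ℤ) (hφ : ∀ x y, φ (x * y) = φ x + φ y) (x : P) (k : ℤ) :
    φ (x ^ k) = k * φ x := by
  have h1 : φ 1 = 0 := nil2Collect_map_one φ hφ
  have hinv : ∀ y : P, φ y⁻¹ = -φ y := by
    intro y
    have h := hφ y y⁻¹
    rw [mul_inv_cancel, h1] at h
    omega
  have hnat : ∀ m : ℕ, φ (x ^ m) = (m : ℤ) * φ x := by
    intro m
    induction m with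
    | zero => rw [pow_zero, h1, Nat.cast_zero, zero_mul]
    | succ m ihm =>
      rw [pow_succ, hφ, ihm]
      push_cast
      ring
  cases k with
  | ofNat m =>
    rw [Int.ofNat_eq_natCast, zpow_natCast, hnat]
  | negSucc m =>
    rw [zpow_negSucc, hinv, hnat, Int.negSucc_eq]
    push_cast
    ring

theorem nil2Sigma_map (φ : P → ℤ) (hφ : ∀ x y, φ (x * y) = φ x + φ y) (r : ℕ) (u : Fin r → P)
    (n : Fin r → ℤ) : φ (nil2Sigma r u n) = ∑ i, n i * φ (u i) := by
  induction r with
  | zero =>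
    rw [Finset.univ_eq_empty, Finset.sum_empty]
    exact nil2Collect_map_one φ hφ
  | succ r ih =>
    rw [nil2Collect_sigma_succ, hφ, nil2Collect_map_zpow φ hφ, ih, Fin.sum_univ_succ]
    rfl

/-- Exchange of the two middle factors when the second one is central. -/
theorem nil2Collect_swap (A B C D : P) (hB : ∀ z : P, B * z = z * B) :
    A * B * (C * D) = A * C * (B * D) := by
  rw [mul_assoc A B, ← mul_assoc B C D, hB C, mul_assoc C B D, ← mul_assoc A C]

/-- The product of two monomials with a common leading generator. -/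
theorem nil2Collect_prod (hc : ∀ x y z : P, ⁅x, y⁆ * z = z * ⁅x, y⁆) (a b s t S k : P)
    (h1 : s * t = S * k) : a * s * (b * t) = a * b * S * (k * ⁅s, b⁆) := by
  have e1 := nil2_mul_eq s b
  have hcz := hc s b
  calc a * s * (b * t) = a * (s * b) * t := by simp only [mul_assoc]
    _ = a * (⁅s, b⁆ * (b * s)) * t := by rw [← e1]
    _ = a * b * (s * t) * ⁅s, b⁆ := by
      rw [hcz (b * s)]
      simp only [mul_assoc]
      rw [hcz t]
    _ = a * b * (S * k) * ⁅s, b⁆ := by rw [h1]
    _ = a * b * S * (k * ⁅s, b⁆) := by simp only [mul_assoc]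

/-- Commutators lie in the commutator subgroup. -/
theorem nil2Collect_comm_mem (x y : P) : ⁅x, y⁆ ∈ commutator P := by
  rw [commutator_def]
  exact Subgroup.commutator_mem_commutator (Subgroup.mem_top x) (Subgroup.mem_top y)

theorem nil2_collect (hc : ∀ x y z : P, ⁅x, y⁆ * z = z * ⁅x, y⁆) (r : ℕ) (u : Fin r → P) :
    ∃ K : (Fin r → ℤ) → (Fin r → ℤ) → P,
      (∀ n m, nil2Sigma r u n * nil2Sigma r u m = nil2Sigma r u (n + m) * K n m) ∧
      (∀ n m, K n m ∈ commutator P) ∧
      (∀ n n' m, K (n + n') m = K n m * K n' m) ∧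
      (∀ n m m', K n (m + m') = K n m * K n m') := by
  induction r with
  | zero =>
    refine ⟨fun _ _ => 1, ?_, ?_, ?_, ?_⟩
    · intro n m
      exact (mul_one 1).trans (mul_one 1).symm
    · intro n m
      exact Subgroup.one_mem _
    · intro n n' m
      exact (mul_one 1).symm
    · intro n m m'
      exact (mul_one 1).symm
  | succ r ih =>
    obtain ⟨K', h1, h2, h3, h4⟩ := ih (Fin.tail u)
    have hcen : ∀ c : P, c ∈ commutator P → ∀ z : P, c * z = z * c :=
      fun c hcm z => nil2_commutator_central hc c hcm z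
    refine ⟨fun n m => K' (Fin.tail n) (Fin.tail m) *
      ⁅nil2Sigma r (Fin.tail u) (Fin.tail n), u 0 ^ m 0⁆, ?_, ?_, ?_, ?_⟩
    · intro n m
      show nil2Sigma (r + 1) u n * nil2Sigma (r + 1) u m = nil2Sigma (r + 1) u (n + m) *
        (K' (Fin.tail n) (Fin.tail m) * ⁅nil2Sigma r (Fin.tail u) (Fin.tail n), u 0 ^ m 0⁆)
      have ht : Fin.tail (n + m) = Fin.tail n + Fin.tail m := rfl
      rw [nil2Collect_sigma_succ r u n, nil2Collect_sigma_succ r u m,
        nil2Collect_sigma_succ r u (n + m), ht, Pi.add_apply, zpow_add]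
      exact nil2Collect_prod hc _ _ _ _ _ _ (h1 _ _)
    · intro n m
      exact Subgroup.mul_mem _ (h2 _ _) (nil2Collect_comm_mem _ _)
    · intro n n' m
      show K' (Fin.tail (n + n')) (Fin.tail m) *
          ⁅nil2Sigma r (Fin.tail u) (Fin.tail (n + n')), u 0 ^ m 0⁆
        = K' (Fin.tail n) (Fin.tail m) * ⁅nil2Sigma r (Fin.tail u) (Fin.tail n), u 0 ^ m 0⁆ *
          (K' (Fin.tail n') (Fin.tail m) * ⁅nil2Sigma r (Fin.tail u) (Fin.tail n'), u 0 ^ m 0⁆)
      have ht : Fin.tail (n + n') = Fin.tail n + Fin.tail n' := rfl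
      have hs : nil2Sigma r (Fin.tail u) (Fin.tail n + Fin.tail n')
          = nil2Sigma r (Fin.tail u) (Fin.tail n) * nil2Sigma r (Fin.tail u) (Fin.tail n') *
            (K' (Fin.tail n) (Fin.tail n'))⁻¹ :=
        eq_mul_inv_of_mul_eq (h1 _ _).symm
      have hk1 : ⁅(K' (Fin.tail n) (Fin.tail n'))⁻¹, u 0 ^ m 0⁆ = 1 :=
        nil2_comm_central_left _ (hcen _ (Subgroup.inv_mem _ (h2 _ _))) _
      rw [ht, h3, hs, nil2_comm_mul_left hc, nil2_comm_mul_left hc, hk1, mul_one]
      exact nil2Collect_swap _ _ _ _ (hcen _ (h2 _ _))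
    · intro n m m'
      show K' (Fin.tail n) (Fin.tail (m + m')) *
          ⁅nil2Sigma r (Fin.tail u) (Fin.tail n), u 0 ^ (m + m') 0⁆
        = K' (Fin.tail n) (Fin.tail m) * ⁅nil2Sigma r (Fin.tail u) (Fin.tail n), u 0 ^ m 0⁆ *
          (K' (Fin.tail n) (Fin.tail m') * ⁅nil2Sigma r (Fin.tail u) (Fin.tail n), u 0 ^ m' 0⁆)
      have ht : Fin.tail (m + m') = Fin.tail m + Fin.tail m' := rfl
      rw [ht, h4, Pi.add_apply, zpow_add, nil2_comm_mul_right hc]
      exact nil2Collect_swap _ _ _ _ (hcen _ (h2 _ _))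

end Vale.Agent.Lib.P184
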