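import Vale.Agent.Lib.P184.FieldEmb

/-!
# `ℂ` is abstractly isomorphic to the algebraic closure of `ℚ_[p]`

Both are algebraically closed fields of characteristic zero and cardinality continuum.
-/

namespace Vale.Agent.Lib.P184

open Cardinal

theorem mk_padic (p : ℕ) [Fact p.Prime] : #ℚ_[p] = 𝔠 := by
  apply le_antisymm
  · have h1 : #ℚ_[p] ≤ #(PadicSeq p) := mk_le_of_surjective (f := Padic.mk) Quotient.mk'_surjective
    have h2 : #(PadicSeq p) ≤ #(ℕ → ℚ) := mk_subtype_le _
    have h3 : #(ℕ → ℚ) = 𝔠 := by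
      rw [mk_arrow]
      simp
    exact h1.trans (h2.trans h3.le)
  · exact continuum_le_cardinal_of_nontriviallyNormedField ℚ_[p]

theorem mk_padicAlgCl (p : ℕ) [Fact p.Prime] : #(PadicAlgCl p) = 𝔠 := by
  apply le_antisymm
  · have h1 := Algebra.IsAlgebraic.cardinalMk_le_max ℚ_[p] (PadicAlgCl p)
    rw [mk_padic, max_eq_left aleph0_lt_continuum.le] at h1
    exact h1
  · rw [← mk_padic p]
    exact mk_le_of_injective (algebraMap ℚ_[p] (PadicAlgCl p)).injective

theorem nonempty_complex_ringEquiv_padicAlgCl (p : ℕ) [Fact p.Prime] :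
    Nonempty (ℂ ≃+* PadicAlgCl p) := by
  have : CharZero (PadicAlgCl p) :=
    charZero_of_injective_algebraMap (algebraMap ℚ_[p] (PadicAlgCl p)).injective
  refine IsAlgClosed.ringEquiv_of_equiv_of_charZero ?_ ?_
  · rw [mk_complex]
    exact aleph0_lt_continuum
  · exact Cardinal.eq.mp (by rw [mk_complex, mk_padicAlgCl])

end Vale.Agent.Lib.P184
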