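import Vale.Agent.Lib.P184.PadicCard

/-!
# A root of `p`-adic norm `> 1`

A monic rational polynomial having a coefficient which is not an integer has, for a suitable
prime `p`, a root of norm `> 1` in the algebraic closure of `ℚ_[p]`.
-/

namespace Vale.Agent.Lib.P184

open Polynomial

theorem norm_coeff_prod_X_sub_C_le_one {K : Type*} [NormedField K]
    (hna : IsNonarchimedean (norm : K → ℝ)) (s : Multiset K) (hs : ∀ a ∈ s, ‖a‖ ≤ 1) (k : ℕ) :
    ‖((s.map fun a => X - C a).prod).coeff k‖ ≤ 1 := by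
  induction s using Multiset.induction_on generalizing k with
  | empty =>
    rw [Multiset.map_zero, Multiset.prod_zero, Polynomial.coeff_one]
    split_ifs <;> simp
  | cons a s ih =>
    rw [Multiset.map_cons, Multiset.prod_cons]
    have ha : ‖a‖ ≤ 1 := hs a (Multiset.mem_cons_self a s)
    have ih' := ih (fun b hb => hs b (Multiset.mem_cons_of_mem hb))
    rw [sub_mul, Polynomial.coeff_sub, Polynomial.coeff_C_mul]
    cases k with
    | zero =>
      rw [Polynomial.coeff_X_mul_zero, zero_sub, norm_neg, norm_mul]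
      exact mul_le_one₀ ha (norm_nonneg _) (ih' 0)
    | succ k =>
      rw [Polynomial.coeff_X_mul, sub_eq_add_neg]
      refine (hna _ _).trans (max_le (ih' k) ?_)
      rw [norm_neg, norm_mul]
      exact mul_le_one₀ ha (norm_nonneg _) (ih' (k + 1))

theorem one_lt_padic_norm_of_dvd_den (p : ℕ) [Fact p.Prime] (c : ℚ) (hp : p ∣ c.den) :
    1 < ‖(c : ℚ_[p])‖ := by
  have h1 : (c : ℚ_[p]) = (c.num : ℚ_[p]) / (c.den : ℚ_[p]) := by
    conv_lhs => rw [← Rat.num_div_den c]
    push_cast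
    rfl
  have hden : ‖(c.den : ℚ_[p])‖ < 1 := Padic.norm_natCast_lt_one_iff.mpr hp
  have hden0 : 0 < ‖(c.den : ℚ_[p])‖ := by
    rw [norm_pos_iff]
    exact_mod_cast c.den_ne_zero
  have hnum : ‖(c.num : ℚ_[p])‖ = 1 := by
    rw [Padic.norm_intCast_eq_one_iff]
    have hcop : Nat.Coprime c.num.natAbs c.den := c.reduced
    have h2 : Nat.Coprime c.num.natAbs p := Nat.Coprime.coprime_dvd_right hp hcop
    rw [Int.isCoprime_iff_gcd_eq_one]
    exact h2
  rw [h1, norm_div, hnum, lt_div_iff₀ hden0, one_mul]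
  exact hden

theorem exists_padic_root_norm_gt_one (f : ℚ[X]) (hf : f.Monic) (i : ℕ)
    (hi : (f.coeff i).den ≠ 1) :
    ∃ (p : ℕ) (_ : Fact p.Prime) (μ : PadicAlgCl p), aeval μ f = 0 ∧ 1 < ‖μ‖ := by
  obtain ⟨p, hp, hpd⟩ := Nat.exists_prime_and_dvd hi
  have : Fact p.Prime := ⟨hp⟩
  refine ⟨p, ⟨hp⟩, ?_⟩
  have hc : 1 < ‖((f.coeff i : ℚ) : ℚ_[p])‖ := one_lt_padic_norm_of_dvd_den p _ hpd
  by_contra hcon
  push Not at hcon
  have hg : (f.map (algebraMap ℚ (PadicAlgCl p))).Monic := hf.map _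
  have hsplit : (f.map (algebraMap ℚ (PadicAlgCl p))).Splits := IsAlgClosed.splits _
  have hprod := hsplit.eq_prod_roots_of_monic hg
  have hroots : ∀ a ∈ (f.map (algebraMap ℚ (PadicAlgCl p))).roots, ‖a‖ ≤ 1 := by
    intro a ha
    apply hcon
    rw [Polynomial.mem_roots hg.ne_zero, IsRoot, eval_map_algebraMap] at ha
    exact ha
  have h3 := norm_coeff_prod_X_sub_C_le_one (PadicAlgCl.isNonarchimedean p) _ hroots i
  rw [← hprod, coeff_map] at h3
  have h4 : algebraMap ℚ (PadicAlgCl p) (f.coeff i)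
      = algebraMap ℚ_[p] (PadicAlgCl p) ((f.coeff i : ℚ) : ℚ_[p]) := by
    rw [IsScalarTower.algebraMap_apply ℚ ℚ_[p] (PadicAlgCl p)]
    rfl
  rw [h4] at h3
  have h5 := PadicAlgCl.norm_extends p ((f.coeff i : ℚ) : ℚ_[p])
  rw [h5] at h3
  exact absurd h3 (not_le.mpr hc)

end Vale.Agent.Lib.P184
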