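import Vale.Agent.Lib.P184.Undistorted

/-!
# Left-invariant hyperbolic pseudo-metrics with real values

`RHyp G` packages a real-valued left-invariant pseudo-metric on a group `G` satisfying Gromov's
four-point condition with constant `δ`.  If `G` acts by isometries on a pseudo-metric space `X`
satisfying the four-point condition and `x₀ : X`, then `(a, b) ↦ dist (a • x₀) (b • x₀)` is of
this kind (`RHyp.ofAction`).
-/

namespace Vale.Agent.Lib.P184

/-- A left-invariant pseudo-metric with real values on a group, satisfying the four-point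
condition with constant `δ`. -/
structure RHyp (G : Type*) [Group G] where
  /-- the distance -/
  d : G → G → ℝ
  /-- the hyperbolicity constant -/
  δ : ℝ
  d_self : ∀ x, d x x = 0
  d_comm : ∀ x y, d x y = d y x
  d_tri : ∀ x y z, d x z ≤ d x y + d y z
  d_inv : ∀ a x y, d (a * x) (a * y) = d x y
  hyp : ∀ x y z w, d x z + d y w ≤ max (d x y + d z w) (d x w + d y z) + 2 * δ

namespace RHyp

variable {G : Type*} [Group G] (M : RHyp G)

theorem d_nonneg (x y : G) : 0 ≤ M.d x y := by
  have h1 := M.d_tri x y x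
  rw [M.d_self, M.d_comm y x] at h1
  linarith

theorem δ_nonneg : 0 ≤ M.δ := by
  have h := M.hyp 1 1 1 1
  rw [M.d_self, max_self] at h
  linarith

theorem d_eq_len (x y : G) : M.d x y = M.d 1 (x⁻¹ * y) := by
  have h := M.d_inv x⁻¹ x y
  rw [inv_mul_cancel] at h
  exact h.symm

theorem len_inv (x : G) : M.d 1 x⁻¹ = M.d 1 x := by
  have h := M.d_inv x 1 x⁻¹
  rw [mul_one, mul_inv_cancel] at h
  rw [← h, M.d_comm]

theorem len_one : M.d 1 1 = 0 := M.d_self 1

theorem len_mul_le (x y : G) : M.d 1 (x * y) ≤ M.d 1 x + M.d 1 y := by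
  have h1 := M.d_tri 1 x (x * y)
  have h2 := M.d_inv x 1 y
  rw [mul_one] at h2
  linarith

theorem len_pow_le (g : G) (n : ℕ) : M.d 1 (g ^ n) ≤ n * M.d 1 g := by
  induction n with
  | zero => simp [M.len_one]
  | succ n ih =>
    have h := M.len_mul_le (g ^ n) g
    rw [← pow_succ] at h
    push_cast
    linarith

theorem d_pow (g : G) (i j : ℕ) : M.d (g ^ i) (g ^ (i + j)) = M.d 1 (g ^ j) := by
  have h := M.d_inv (g ^ i) 1 (g ^ j)
  rw [mul_one, ← pow_add] at h
  exact h

theorem len_zpow_neg (g : G) (j : ℤ) : M.d 1 (g ^ (-j)) = M.d 1 (g ^ j) := by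
  rw [zpow_neg, M.len_inv]

theorem len_inv_pow (g : G) (n : ℕ) : M.d 1 (g⁻¹ ^ n) = M.d 1 (g ^ n) := by
  rw [inv_pow, M.len_inv]

/-- The left-invariant pseudo-metric on `G` induced by an isometric action on a pseudo-metric
space satisfying the four-point condition, through the orbit of a base point. -/
noncomputable def ofAction {X : Type*} [PseudoMetricSpace X] [MulAction G X]
    [IsIsometricSMul G X] (δ : ℝ)
    (hδ : ∀ x y z w : X, dist x z + dist y w
      ≤ max (dist x y + dist z w) (dist x w + dist y z) + 2 * δ) (x₀ : X) : RHyp G where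
  d a b := dist (a • x₀) (b • x₀)
  δ := δ
  d_self a := dist_self _
  d_comm a b := dist_comm _ _
  d_tri a b c := dist_triangle _ _ _
  d_inv a x y := by
    rw [mul_smul, mul_smul, dist_smul]
  hyp a b c e := hδ _ _ _ _

end RHyp

end Vale.Agent.Lib.P184
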