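import Vale.Agent.Lib.P184.RHyp
import Vale.Agent.Lib.P184.HypVirtCyclic

/-!
# Centralizers of loxodromic elements for real-valued hyperbolic pseudo-metrics

`RHyp.relIndex_ne_zero_of`: let `M` be a left-invariant hyperbolic pseudo-metric on `G` and let
`g : G` be such that `M.d 1 (g ^ n)` grows linearly and such that the centralizer of `g` has
finite balls.  Then the cyclic group generated by `g` has finite index in the centralizer of
`g`.  The geometric input `hC` is the centralizer bound for strongly loxodromic elements.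
-/

namespace Vale.Agent.Lib.P184

theorem RHyp.relIndex_ne_zero_of {G : Type*} [Group G] (M : RHyp G)
    (hC : ∀ g' : G, M.d 1 g' + 3 * M.δ < M.d 1 (g' ^ 2) → ∀ h : G, h * g' = g' * h →
      (∀ j : ℤ, M.d 1 h ≤ M.d 1 (h * g' ^ j)) → M.d 1 h ≤ 5 * M.d 1 g' + 14 * M.δ)
    (g : G) (ε : ℝ) (hε : 0 < ε) (hgrow : ∀ n : ℕ, ε * n ≤ M.d 1 (g ^ n))
    (hfin : ∀ r : ℝ, {h : G | h * g = g * h ∧ M.d 1 h ≤ r}.Finite) :
    (Subgroup.zpowers g).relIndex (Subgroup.centralizer ({g} : Set G)) ≠ 0 := by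
  classical
  have hδ := M.δ_nonneg
  -- a strongly loxodromic power
  have hS : ∃ k : ℕ, M.d 1 (g ^ 2 ^ k) + 3 * M.δ < M.d 1 (g ^ 2 ^ (k + 1)) := by
    by_contra hcon
    push Not at hcon
    have h1 : ∀ k : ℕ, M.d 1 (g ^ 2 ^ k) ≤ M.d 1 g + 3 * M.δ * k := by
      intro k
      induction k with
      | zero => simp
      | succ k ih =>
        have h2 := hcon k
        push_cast
        linarith
    obtain ⟨a, ha⟩ := exists_nat_ge (M.d 1 g / ε)
    obtain ⟨b, hb⟩ := exists_nat_ge (3 * M.δ / ε)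
    obtain ⟨k, hk⟩ := exists_lt_two_pow a b
    have h4 := hgrow (2 ^ k)
    have h5 := h1 k
    have ha' : M.d 1 g ≤ ε * a := by
      rw [div_le_iff₀ hε] at ha
      linarith
    have hb' : 3 * M.δ ≤ ε * b := by
      rw [div_le_iff₀ hε] at hb
      linarith
    have hk' : ((a + b * k : ℕ) : ℝ) < ((2 ^ k : ℕ) : ℝ) := by exact_mod_cast hk
    push_cast at hk' h4
    have h6 : 3 * M.δ * k ≤ ε * b * k :=
      mul_le_mul_of_nonneg_right hb' (Nat.cast_nonneg k)
    have h7 : ε * (a + b * k) < ε * 2 ^ k := mul_lt_mul_of_pos_left hk' hε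
    nlinarith
  obtain ⟨k, hk⟩ := hS
  obtain ⟨h, hh⟩ : ∃ h : G, h = g ^ 2 ^ k := ⟨_, rfl⟩
  have hh2 : h ^ 2 = g ^ 2 ^ (k + 1) := by
    rw [hh, ← pow_mul, pow_succ]
  have hSL : M.d 1 h + 3 * M.δ < M.d 1 (h ^ 2) := by
    rw [hh2, hh]
    exact hk
  have hZmem : ∀ z : G, z ∈ Subgroup.centralizer ({g} : Set G) ↔ z * g = g * z := by
    intro z
    rw [Subgroup.mem_centralizer_iff]
    constructor
    · intro hz
      exact (hz g rfl).symm
    · intro hz x hx
      rw [Set.mem_singleton_iff.mp hx]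
      exact hz.symm
  have hhZ : ∀ j : ℤ, h ^ j ∈ Subgroup.centralizer ({g} : Set G) := by
    intro j
    rw [hZmem, hh]
    have h1 : Commute (g ^ 2 ^ k) g := (Commute.refl g).pow_left _
    exact (h1.zpow_left j).eq
  have hhpow : ∀ j : ℤ, h ^ j ∈ Subgroup.zpowers g := by
    intro j
    rw [hh, ← zpow_natCast, ← zpow_mul]
    exact Subgroup.zpow_mem_zpowers g _
  -- linear growth of the powers of `h`
  have hε2 : 0 < ε * 2 ^ k := by positivity
  have hgrowh : ∀ j : ℤ, ε * 2 ^ k * |(j : ℝ)| ≤ M.d 1 (h ^ j) := by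
    intro j
    have key : ∀ n : ℕ, ε * 2 ^ k * (n : ℝ) ≤ M.d 1 (h ^ n) := by
      intro n
      have h1 := hgrow (2 ^ k * n)
      rw [hh, ← pow_mul]
      push_cast at h1
      linarith
    rcases le_total 0 j with hj | hj
    · obtain ⟨n, rfl⟩ := Int.eq_ofNat_of_zero_le hj
      rw [zpow_natCast]
      have h2 : |((n : ℤ) : ℝ)| = (n : ℝ) := by
        rw [Int.cast_natCast]
        exact abs_of_nonneg (Nat.cast_nonneg n)
      rw [h2]
      exact key n
    · obtain ⟨n, hn⟩ := Int.eq_ofNat_of_zero_le (neg_nonneg.mpr hj)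
      have hj' : j = -(n : ℤ) := by omega
      rw [hj', M.len_zpow_neg, zpow_natCast]
      have h2 : |((-(n : ℤ) : ℤ) : ℝ)| = (n : ℝ) := by
        rw [Int.cast_neg, Int.cast_natCast, abs_neg]
        exact abs_of_nonneg (Nat.cast_nonneg n)
      rw [h2]
      exact key n
  -- every element of the centralizer is a short element times a power of `h`
  have hshort : ∀ z ∈ Subgroup.centralizer ({g} : Set G), ∃ j : ℤ,
      M.d 1 (z * h ^ j) ≤ 5 * M.d 1 h + 14 * M.δ := by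
    intro z hz
    obtain ⟨j₀, hj₀⟩ : ∃ j₀ : ℤ, ∀ j : ℤ, M.d 1 (z * h ^ j₀) ≤ M.d 1 (z * h ^ j) := by
      have hfinJ : {j : ℤ | M.d 1 (z * h ^ j) ≤ M.d 1 (z * h ^ (0 : ℤ))}.Finite := by
        obtain ⟨N, hN⟩ := exists_nat_ge (2 * M.d 1 z / (ε * 2 ^ k))
        refine (Set.finite_Icc (-(N : ℤ)) (N : ℤ)).subset ?_
        intro j hj
        change M.d 1 (z * h ^ j) ≤ M.d 1 (z * h ^ (0 : ℤ)) at hj
        rw [zpow_zero, mul_one] at hj
        have h1 := hgrowh j
        have h2 : M.d 1 (h ^ j) ≤ M.d 1 z + M.d 1 (z * h ^ j) := by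
          have h3 := M.len_mul_le z⁻¹ (z * h ^ j)
          rw [inv_mul_cancel_left, M.len_inv] at h3
          exact h3
        have h4 : ε * 2 ^ k * |(j : ℝ)| ≤ 2 * M.d 1 z := by linarith
        have h5 : |(j : ℝ)| ≤ (N : ℝ) := by
          rw [div_le_iff₀ hε2] at hN
          have h6 : ε * 2 ^ k * |(j : ℝ)| ≤ ε * 2 ^ k * (N : ℝ) := by linarith
          exact le_of_mul_le_mul_left h6 hε2
        have h7 : |j| ≤ (N : ℤ) := by exact_mod_cast h5
        rw [Set.mem_Icc]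
        exact abs_le.mp h7
      obtain ⟨j₀, hj₀mem, hj₀⟩ := Set.exists_min_image _ (fun j : ℤ => M.d 1 (z * h ^ j)) hfinJ
        ⟨0, show M.d 1 (z * h ^ (0 : ℤ)) ≤ M.d 1 (z * h ^ (0 : ℤ)) from le_refl _⟩
      refine ⟨j₀, fun j => ?_⟩
      by_cases hj : j ∈ {j : ℤ | M.d 1 (z * h ^ j) ≤ M.d 1 (z * h ^ (0 : ℤ))}
      · exact hj₀ j hj
      · have hj' : M.d 1 (z * h ^ (0 : ℤ)) < M.d 1 (z * h ^ j) := not_le.mp hj
        have hj₀' : M.d 1 (z * h ^ j₀) ≤ M.d 1 (z * h ^ (0 : ℤ)) := hj₀mem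
        linarith
    refine ⟨j₀, hC h hSL (z * h ^ j₀) ?_ ?_⟩
    · have h1 : Commute z g := (hZmem z).mp hz
      have h2 : Commute z h := by
        rw [hh]
        exact h1.pow_right _
      have h3 : Commute (z * h ^ j₀) h := h2.mul_left ((Commute.refl h).zpow_left j₀)
      exact h3.eq
    · intro j
      rw [mul_assoc, ← zpow_add]
      exact hj₀ (j₀ + j)
  have hSfin := hfin (5 * M.d 1 h + 14 * M.δ)
  have hfinite : Finite (Subgroup.centralizer ({g} : Set G) ⧸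
      (Subgroup.zpowers g).subgroupOf (Subgroup.centralizer ({g} : Set G))) := by
    have : Finite ↥{b : G | b * g = g * b ∧ M.d 1 b ≤ 5 * M.d 1 h + 14 * M.δ} :=
      hSfin.to_subtype
    let f : ↥{b : G | b * g = g * b ∧ M.d 1 b ≤ 5 * M.d 1 h + 14 * M.δ} →
        Subgroup.centralizer ({g} : Set G) ⧸
          (Subgroup.zpowers g).subgroupOf (Subgroup.centralizer ({g} : Set G)) :=
      fun b => QuotientGroup.mk ⟨b.1, (hZmem b.1).mpr b.2.1⟩
    refine Finite.of_surjective f ?_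
    intro q
    obtain ⟨z, rfl⟩ := QuotientGroup.mk_surjective q
    obtain ⟨j, hj⟩ := hshort z.1 z.2
    have hbZ : z.1 * h ^ j ∈ Subgroup.centralizer ({g} : Set G) :=
      Subgroup.mul_mem _ z.2 (hhZ j)
    refine ⟨⟨z.1 * h ^ j, (hZmem _).mp hbZ, hj⟩, ?_⟩
    change (QuotientGroup.mk ⟨z.1 * h ^ j, _⟩ : Subgroup.centralizer ({g} : Set G) ⧸
          (Subgroup.zpowers g).subgroupOf (Subgroup.centralizer ({g} : Set G))) = _
    rw [QuotientGroup.eq, Subgroup.mem_subgroupOf, Subgroup.coe_mul, Subgroup.coe_inv]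
    have h1 : (z.1 * h ^ j)⁻¹ * z.1 = (h ^ j)⁻¹ := by group
    rw [h1]
    exact Subgroup.inv_mem _ (hhpow j)
  exact Subgroup.index_ne_zero_of_finite

end Vale.Agent.Lib.P184
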