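import Vale.Agent.Lib.P184.Linear

/-!
# Eigenvalues that are not roots of unity

If no positive power of a square matrix `A` is unipotent, then over any field in which the
characteristic polynomial of `A` splits, `A` has an eigenvalue which is not a root of unity.
-/

namespace Vale.Agent.Lib.P184

open Polynomial

theorem exists_eigen_not_root_of_unity {F L : Type*} [Field F] [Field L] [Algebra F L] {n : ℕ}
    (A : Matrix (Fin n) (Fin n) F) (hsplit : (A.charpoly.map (algebraMap F L)).Splits)
    (hA : ∀ k : ℕ, 0 < k → (A ^ k - 1) ^ n ≠ 0) :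
    ∃ (lam : L) (v : Fin n → L), v ≠ 0 ∧ (A.map (algebraMap F L)).mulVec v = lam • v ∧
      ∀ k : ℕ, 0 < k → lam ^ k ≠ 1 := by
  classical
  obtain ⟨B, hB⟩ : ∃ B : Matrix (Fin n) (Fin n) L, B = A.map (algebraMap F L) := ⟨_, rfl⟩
  rw [← hB]
  have hchar : B.charpoly = A.charpoly.map (algebraMap F L) := by
    rw [hB]
    exact Matrix.charpoly_map A _
  have hmonic : B.charpoly.Monic := Matrix.charpoly_monic B
  have hsplitB : B.charpoly.Splits := by
    rw [hchar]
    exact hsplit
  by_contra hcon
  push Not at hcon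
  have hroot : ∀ lam ∈ B.charpoly.roots, ∃ k : ℕ, 0 < k ∧ lam ^ k = 1 := by
    intro lam hlam
    have hr : B.charpoly.IsRoot lam := (Polynomial.mem_roots hmonic.ne_zero).mp hlam
    have h1 : Module.End.HasEigenvalue (Matrix.toLin' B) lam := by
      rw [Module.End.hasEigenvalue_iff_isRoot_charpoly, Matrix.charpoly_toLin']
      exact hr
    obtain ⟨v, hv⟩ := h1.exists_hasEigenvector
    refine hcon lam v hv.2 ?_
    have h2 := hv.apply_eq_smul
    rwa [Matrix.toLin'_apply] at h2
  choose! kf hkf using hroot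
  obtain ⟨N, hNdef⟩ : ∃ N : ℕ, N = ∏ lam ∈ B.charpoly.roots.toFinset, kf lam := ⟨_, rfl⟩
  have hNpos : 0 < N := by
    rw [hNdef]
    exact Finset.prod_pos (fun lam hl => (hkf lam (Multiset.mem_toFinset.mp hl)).1)
  have hN : ∀ lam ∈ B.charpoly.roots, lam ^ N = 1 := by
    intro lam hl
    obtain ⟨c, hc⟩ : kf lam ∣ N := by
      rw [hNdef]
      exact Finset.dvd_prod_of_mem _ (Multiset.mem_toFinset.mpr hl)
    rw [hc, pow_mul, (hkf lam hl).2, one_pow]
  have hdvd : B.charpoly ∣ (X ^ N - 1 : L[X]) ^ n := by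
    have h1 : B.charpoly = (B.charpoly.roots.map (fun a => X - C a)).prod :=
      hsplitB.eq_prod_roots_of_monic hmonic
    have h2 : (B.charpoly.roots.map (fun a => X - C a)).prod
        ∣ (B.charpoly.roots.map (fun _ => (X ^ N - 1 : L[X]))).prod := by
      apply Multiset.prod_dvd_prod_of_dvd
      intro a ha
      rw [Polynomial.dvd_iff_isRoot]
      simp [hN a ha]
    have h3 : (B.charpoly.roots.map (fun _ => (X ^ N - 1 : L[X]))).prod = (X ^ N - 1) ^ n := by
      rw [Multiset.map_const', Multiset.prod_replicate, ← hsplitB.natDegree_eq_card_roots,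
        Matrix.charpoly_natDegree_eq_dim, Fintype.card_fin]
    rw [h3] at h2
    exact h1 ▸ h2
  obtain ⟨Q, hQ⟩ := hdvd
  have h4 : Polynomial.aeval B ((X ^ N - 1 : L[X]) ^ n) = 0 := by
    rw [hQ, map_mul, Matrix.aeval_self_charpoly, zero_mul]
  have h5 : (B ^ N - 1) ^ n = 0 := by
    simpa using h4
  have h6 : (A ^ N - 1) ^ n = 0 := by
    have hinj : Function.Injective (RingHom.mapMatrix (algebraMap F L) :
        Matrix (Fin n) (Fin n) F → Matrix (Fin n) (Fin n) L) :=
      Matrix.map_injective (algebraMap F L).injective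
    apply hinj
    rw [map_zero, map_pow, map_sub, map_pow, map_one]
    rw [hB] at h5
    exact h5
  exact hA N hNpos h6

end Vale.Agent.Lib.P184
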