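import Vale.Agent.Lib.P184.DKer

/-!
# The class trace on dominated invariant kernels
-/

namespace Vale.Agent.Lib.P184

open scoped BigOperators Topology

set_option linter.unusedSectionVars false

section GroupLemmas

variable {G : Type*} [Group G]

theorem comm_aux {r r' y g c : G} (hr : r * g * r⁻¹ = c) (hr' : r' * g * r'⁻¹ = y * c * y⁻¹) :
    (r⁻¹ * y⁻¹ * r') * g = g * (r⁻¹ * y⁻¹ * r') := by
  subst hr
  have h : r' * g = y * r * g * r⁻¹ * y⁻¹ * r' := by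
    calc r' * g = (r' * g * r'⁻¹) * r' := by group
      _ = y * r * g * r⁻¹ * y⁻¹ * r' := by rw [hr']; group
  calc r⁻¹ * y⁻¹ * r' * g = r⁻¹ * y⁻¹ * (r' * g) := by group
    _ = r⁻¹ * y⁻¹ * (y * r * g * r⁻¹ * y⁻¹ * r') := by rw [h]
    _ = g * (r⁻¹ * y⁻¹ * r') := by group

theorem comm_aux2 {r r' y g c : G} (hr : r * g * r⁻¹ = c) (hr' : r' * g * r'⁻¹ = y * c * y⁻¹) :
    (r⁻¹ * c * y⁻¹ * r') * g = g * (r⁻¹ * c * y⁻¹ * r') := by
  have h1 := comm_aux hr hr'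
  subst hr
  have h2 : r⁻¹ * (r * g * r⁻¹) * y⁻¹ * r' = g * (r⁻¹ * y⁻¹ * r') := by group
  rw [h2, mul_assoc, h1, mul_assoc]

/-- A chosen conjugator for each element of the conjugacy class of `g`. -/
noncomputable def rep (g : G) (c : {c : G // IsConj g c}) : G :=
  Classical.choose (isConj_iff.mp c.2)

theorem rep_spec (g : G) (c : {c : G // IsConj g c}) : rep g c * g * (rep g c)⁻¹ = c.1 :=
  Classical.choose_spec (isConj_iff.mp c.2)

theorem rep_mul (g : G) (c : {c : G // IsConj g c}) : c.1 * rep g c = rep g c * g := by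
  rw [← rep_spec g c]
  group

/-- The involution `(c, y) ↦ (y * c * y⁻¹, c * y⁻¹)`. -/
def swapEquiv (g : G) : {c : G // IsConj g c} × G ≃ {c : G // IsConj g c} × G where
  toFun p := (⟨p.2 * p.1.1 * p.2⁻¹, p.1.2.trans (isConj_iff.mpr ⟨p.2, rfl⟩)⟩, p.1.1 * p.2⁻¹)
  invFun p := (⟨p.2 * p.1.1 * p.2⁻¹, p.1.2.trans (isConj_iff.mpr ⟨p.2, rfl⟩)⟩, p.1.1 * p.2⁻¹)
  left_inv := by
    rintro ⟨⟨c, hc⟩, y⟩
    simp [mul_assoc]
  right_inv := by
    rintro ⟨⟨c, hc⟩, y⟩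
    simp [mul_assoc]

end GroupLemmas

variable {G : Type*} [Group G] {R : Type*} [NormedRing R] [NormedAlgebra ℂ R] {g : G}

namespace DKer

/-- Invariance in a convenient form. -/
theorem K_eq_of (A : DKer G R g) {a b a' b' : G} (h1 : a⁻¹ * a' = b⁻¹ * b')
    (h2 : (a⁻¹ * a') * g = g * (a⁻¹ * a')) : A.K a' b' = A.K a b := by
  have h3 := A.inv' (a⁻¹ * a') h2 a b
  rw [← h3]
  have e1 : a * (a⁻¹ * a') = a' := by group
  have e2 : b * (a⁻¹ * a') = b' := by rw [h1]; group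
  rw [e1, e2]

/-- The class trace. -/
noncomputable def tr (τ : R →L[ℂ] ℂ) (A : DKer G R g) : ℂ :=
  ∑' c : {c : G // IsConj g c}, τ (A.K (c.1 * rep g c) (rep g c))

theorem norm_diag_le (τ : R →L[ℂ] ℂ) (A : DKer G R g) {u : G → ℝ} (hu : Dom u A.K)
    (c : {c : G // IsConj g c}) : ‖τ (A.K (c.1 * rep g c) (rep g c))‖ ≤ ‖τ‖ * u c.1 := by
  refine (τ.le_opNorm _).trans (mul_le_mul_of_nonneg_left ?_ (norm_nonneg _))
  have h := hu.2.2 (c.1 * rep g c) (rep g c)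
  simpa using h

theorem summable_diag_bound (τ : R →L[ℂ] ℂ) {u : G → ℝ} (hu : Summable u) :
    Summable (fun c : {c : G // IsConj g c} => ‖τ‖ * u c.1) :=
  (hu.mul_left ‖τ‖).subtype _

theorem summable_diag (τ : R →L[ℂ] ℂ) (A : DKer G R g) :
    Summable (fun c : {c : G // IsConj g c} => τ (A.K (c.1 * rep g c) (rep g c))) := by
  obtain ⟨u, hu⟩ := A.dom'
  exact Summable.of_norm_bounded (summable_diag_bound τ hu.2.1) (norm_diag_le τ A hu)

theorem norm_tr_le (τ : R →L[ℂ] ℂ) (A : DKer G R g) {u : G → ℝ} (hu : Dom u A.K) :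
    ‖tr τ A‖ ≤ ‖τ‖ * ∑' x, u x := by
  have hs := summable_diag_bound (g := g) τ hu.2.1
  have hb := norm_diag_le τ A hu
  have hn : Summable (fun c : {c : G // IsConj g c} => ‖τ (A.K (c.1 * rep g c) (rep g c))‖) :=
    Summable.of_nonneg_of_le (fun _ => norm_nonneg _) hb hs
  calc ‖tr τ A‖ ≤ ∑' c : {c : G // IsConj g c}, ‖τ (A.K (c.1 * rep g c) (rep g c))‖ :=
        norm_tsum_le_tsum_norm hn
    _ ≤ ∑' c : {c : G // IsConj g c}, ‖τ‖ * u c.1 := hn.tsum_le_tsum hb hs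
    _ ≤ ∑' x, ‖τ‖ * u x :=
        Summable.tsum_subtype_le (fun x => ‖τ‖ * u x) {c | IsConj g c}
          (fun a => mul_nonneg (norm_nonneg _) (hu.1 a)) (hu.2.1.mul_left _)
    _ = ‖τ‖ * ∑' x, u x := tsum_mul_left

theorem tr_zero (τ : R →L[ℂ] ℂ) : tr τ (0 : DKer G R g) = 0 := by
  simp [tr]

theorem tr_add (τ : R →L[ℂ] ℂ) (A B : DKer G R g) : tr τ (A + B) = tr τ A + tr τ B := by
  simp only [tr, add_K, map_add]
  exact (summable_diag τ A).tsum_add (summable_diag τ B)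

variable [CompleteSpace R]

/-- The class trace as an additive map. -/
noncomputable def trHom (τ : R →L[ℂ] ℂ) : DKer G R g →+ ℂ where
  toFun := tr τ
  map_zero' := tr_zero τ
  map_add' := tr_add τ

/-- The summand of the class trace of a product. -/
noncomputable def trF (τ : R →L[ℂ] ℂ) (A B : DKer G R g) (p : {c : G // IsConj g c} × G) : ℂ :=
  τ (A.K (p.1.1 * rep g p.1) (p.2 * rep g p.1) * B.K (p.2 * rep g p.1) (rep g p.1))

theorem summable_trF (τ : R →L[ℂ] ℂ) (A B : DKer G R g) : Summable (trF τ A B) := by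
  obtain ⟨u, hu⟩ := A.dom'
  obtain ⟨v, hv⟩ := B.dom'
  have h1 := (summable_shear hu.2.1 hv.2.1 hu.1 hv.1).mul_left ‖τ‖
  have hinj : Function.Injective (fun p : {c : G // IsConj g c} × G => (p.1.1, p.2)) := by
    rintro ⟨⟨c, hc⟩, y⟩ ⟨⟨c', hc'⟩, y'⟩ h
    simp only [Prod.mk.injEq] at h
    obtain ⟨rfl, rfl⟩ := h
    rfl
  have h2 := h1.comp_injective hinj
  refine Summable.of_norm_bounded h2 ?_
  rintro ⟨c, y⟩
  simp only [trF, Function.comp]
  refine (τ.le_opNorm _).trans (mul_le_mul_of_nonneg_left ?_ (norm_nonneg _))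
  have h3 := hu.norm_mul_le hv (c.1 * rep g c) (y * rep g c) (rep g c)
  have e1 : c.1 * rep g c * (y * rep g c)⁻¹ = c.1 * y⁻¹ := by group
  have e2 : y * rep g c * (rep g c)⁻¹ = y := by group
  rw [e1, e2] at h3
  exact h3

theorem tr_mul_eq (τ : R →L[ℂ] ℂ) (A B : DKer G R g) : tr τ (A * B) = ∑' p, trF τ A B p := by
  rw [(summable_trF τ A B).tsum_prod]
  refine tsum_congr (fun c => ?_)
  rw [mul_K, τ.map_tsum (summable_mul A B _ _)]
  have h1 := Equiv.tsum_eq (Equiv.mulRight (rep g c))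
    (fun m => τ (A.K (c.1 * rep g c) m * B.K m (rep g c)))
  rw [← h1]
  rfl

theorem trF_swap (τ : R →L[ℂ] ℂ) (hτ : ∀ a b, τ (a * b) = τ (b * a)) (A B : DKer G R g)
    (p : {c : G // IsConj g c} × G) : trF τ B A (swapEquiv g p) = trF τ A B p := by
  obtain ⟨c, y⟩ := p
  have hr := rep_spec g c
  have hr' := rep_spec g (swapEquiv g (c, y)).1
  have hc' : ((swapEquiv g (c, y)).1 : G) = y * c.1 * y⁻¹ := rfl
  have hy' : (swapEquiv g (c, y)).2 = c.1 * y⁻¹ := rfl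
  rw [hc'] at hr'
  simp only [trF]
  rw [hτ, hc', hy']
  generalize rep g (swapEquiv g (c, y)).1 = r' at hr' ⊢
  generalize rep g c = r at hr ⊢
  have hA : A.K (c.1 * y⁻¹ * r') r' = A.K (c.1 * r) (y * r) := by
    refine A.K_eq_of ?_ ?_
    · group
    · have hz : (c.1 * r)⁻¹ * (c.1 * y⁻¹ * r') = r⁻¹ * y⁻¹ * r' := by group
      rw [hz]
      exact comm_aux hr hr'
  have hB : B.K (y * c.1 * y⁻¹ * r') (c.1 * y⁻¹ * r') = B.K (y * r) r := by
    refine B.K_eq_of ?_ ?_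
    · group
    · have hz : (y * r)⁻¹ * (y * c.1 * y⁻¹ * r') = r⁻¹ * c.1 * y⁻¹ * r' := by group
      rw [hz]
      exact comm_aux2 hr hr'
  rw [hA, hB]

theorem tr_mul_comm (τ : R →L[ℂ] ℂ) (hτ : ∀ a b, τ (a * b) = τ (b * a)) (A B : DKer G R g) :
    tr τ (A * B) = tr τ (B * A) := by
  rw [tr_mul_eq, tr_mul_eq, ← Equiv.tsum_eq (swapEquiv g) (trF τ B A)]
  exact tsum_congr (fun p => (trF_swap τ hτ A B p).symm)

/-- Powers of a kernel dominated by `u` are dominated by weights of total mass at most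
`(∑ u) ^ n`. -/
theorem dom_pow (A : DKer G R g) {u : G → ℝ} (hu : Dom u A.K) (n : ℕ) :
    ∃ w : G → ℝ, Dom w (A ^ (n + 1)).K ∧ ∑' x, w x ≤ (∑' x, u x) ^ (n + 1) := by
  induction n with
  | zero => exact ⟨u, by simpa using hu, by simp⟩
  | succ n ih =>
    obtain ⟨w, hw, hle⟩ := ih
    refine ⟨wconv w u, ?_, ?_⟩
    · rw [pow_succ]
      exact hw.mul hu
    · rw [tsum_wconv hw.2.1 hu.2.1 hw.1 hu.1, pow_succ]
      exact mul_le_mul_of_nonneg_right hle (tsum_nonneg hu.1)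

end DKer

end Vale.Agent.Lib.P184
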