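import Vale.Agent.Lib.P184.RootsOfUnity

/-!
# Absolute values detecting transcendental elements

* `exists_absoluteValue_of_transcendental`: if `lam` is transcendental over a subfield `F₀` of `𝕜`
  and `𝕜` is algebraic over `F₀(lam)`, then `𝕜` carries an absolute value with `|lam| < 1`:
  embed `F₀(lam) ≅ F₀(X)` into the Laurent series field `F₀((X))`, and `𝕜` into its algebraic
  closure, which carries the spectral norm.
-/

namespace Vale.Agent.Lib.P184

open scoped LaurentSeries Valued RatFunc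

theorem laurent_isRankOneDiscrete (F : Type*) [Field F] :
    Valuation.IsRankOneDiscrete (Valued.v : Valuation F⸨X⸩ (WithZero (Multiplicative ℤ))) :=
  Valuation.IsRankOneDiscrete.mk' ((PowerSeries.idealX F).valuation F⸨X⸩)

/-- The `X`-adic valuation on Laurent series has rank one. -/
@[instance_reducible]
noncomputable def laurentRankOne (F : Type*) [Field F] :
    Valuation.RankOne (Valued.v : Valuation F⸨X⸩ (WithZero (Multiplicative ℤ))) :=
  have := laurent_isRankOneDiscrete F
  Valuation.IsRankOneDiscrete.rankOne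
    (Valued.v : Valuation F⸨X⸩ (WithZero (Multiplicative ℤ))) (e := 2) (by norm_num)

attribute [local instance] laurentRankOne

theorem laurent_norm_X_lt_one (F : Type*) [Field F] :
    ‖(algebraMap (RatFunc F) F⸨X⸩ RatFunc.X)‖ < 1 := by
  have h1 : algebraMap (RatFunc F) F⸨X⸩ RatFunc.X = HahnSeries.single 1 1 := RatFunc.coe_X
  rw [h1, Valued.toNormedField.norm_lt_one_iff, LaurentSeries.valuation_single_zpow,
    ← WithZero.exp_zero, WithZero.exp_lt_exp]
  norm_num

theorem exists_absoluteValue_of_transcendental {F₀ 𝕜 : Type*} [Field F₀] [Field 𝕜] [Algebra F₀ 𝕜]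
    (lam : 𝕜) (htr : Transcendental F₀ lam)
    (halg : Algebra.IsAlgebraic (IntermediateField.adjoin F₀ ({lam} : Set 𝕜)) 𝕜) :
    ∃ abv : AbsoluteValue 𝕜 ℝ, abv lam ≠ 1 := by
  classical
  let _ : NormedField (AlgebraicClosure F₀⸨X⸩) :=
    spectralNorm.normedField F₀⸨X⸩ (AlgebraicClosure F₀⸨X⸩)
  let j : IntermediateField.adjoin F₀ ({lam} : Set 𝕜) →+* AlgebraicClosure F₀⸨X⸩ :=
    (algebraMap F₀⸨X⸩ (AlgebraicClosure F₀⸨X⸩)).comp
      ((algebraMap (RatFunc F₀) F₀⸨X⸩).comp
        (RatFunc.algEquivOfTranscendental lam htr).symm.toAlgHom.toRingHom)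
  let _ : Algebra (IntermediateField.adjoin F₀ ({lam} : Set 𝕜)) (AlgebraicClosure F₀⸨X⸩) :=
    j.toAlgebra
  have htf : Module.IsTorsionFree (IntermediateField.adjoin F₀ ({lam} : Set 𝕜))
      (AlgebraicClosure F₀⸨X⸩) := DivisionSemiring.to_moduleIsTorsionFree
  let φ : 𝕜 →ₐ[IntermediateField.adjoin F₀ ({lam} : Set 𝕜)] AlgebraicClosure F₀⸨X⸩ :=
    IsAlgClosed.lift
  refine ⟨(NormedField.toAbsoluteValue (AlgebraicClosure F₀⸨X⸩)).comp
    (f := φ.toRingHom) φ.toRingHom.injective, ?_⟩
  have h1 : φ lam = j (IntermediateField.AdjoinSimple.gen F₀ lam) :=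
    φ.commutes (IntermediateField.AdjoinSimple.gen F₀ lam)
  have h3 : (RatFunc.algEquivOfTranscendental lam htr).symm
      (IntermediateField.AdjoinSimple.gen F₀ lam) = RatFunc.X := by
    rw [AlgEquiv.symm_apply_eq]
    apply Subtype.ext
    simp
  have h4 : j (IntermediateField.AdjoinSimple.gen F₀ lam)
      = algebraMap F₀⸨X⸩ (AlgebraicClosure F₀⸨X⸩) (algebraMap (RatFunc F₀) F₀⸨X⸩ RatFunc.X) := by
    simp only [j, RingHom.comp_apply]
    congr 2
  have h5 : ‖φ lam‖ < 1 := by
    rw [h1, h4]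
    have h6 : ‖algebraMap F₀⸨X⸩ (AlgebraicClosure F₀⸨X⸩) (algebraMap (RatFunc F₀) F₀⸨X⸩ RatFunc.X)‖
        = ‖algebraMap (RatFunc F₀) F₀⸨X⸩ RatFunc.X‖ := spectralNorm_extends _
    rw [h6]
    exact laurent_norm_X_lt_one F₀
  intro h
  have h7 : ‖φ lam‖ = 1 := h
  rw [h7] at h5
  exact lt_irrefl _ h5

end Vale.Agent.Lib.P184

namespace Vale.Agent.Lib.P184

open scoped IntermediateField.algebraAdjoinAdjoin

/-- Every element of a field which is transcendental over some subfield has absolute value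
different from `1` for a suitable absolute value of the field. -/
theorem exists_absoluteValue_of_transcendental' {k₀ 𝕜 : Type*} [Field k₀] [Field 𝕜]
    [Algebra k₀ 𝕜] (lam : 𝕜) (htr : Transcendental k₀ lam) :
    ∃ abv : AbsoluteValue 𝕜 ℝ, abv lam ≠ 1 := by
  classical
  have hs : AlgebraicIndepOn k₀ id ({lam} : Set 𝕜) :=
    (algebraicIndependent_singleton_iff (⟨lam, rfl⟩ : ({lam} : Set 𝕜))).mpr htr
  obtain ⟨B, hlB, hB⟩ := exists_isTranscendenceBasis_superset hs
  obtain ⟨i₀, hi₀⟩ : ∃ i₀ : B, (i₀ : 𝕜) = lam := ⟨⟨lam, hlB rfl⟩, rfl⟩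
  obtain ⟨S, hS⟩ : ∃ S : Set 𝕜, S = ((↑) : B → 𝕜) '' {i₀}ᶜ := ⟨_, rfl⟩
  have h3 : Transcendental (Algebra.adjoin k₀ S) lam := by
    have := hB.1.transcendental_adjoin (s := {i₀}ᶜ) (i := i₀) (by simp)
    rw [hi₀, ← hS] at this
    exact this
  have h4 : Transcendental (IntermediateField.adjoin k₀ S) lam := by
    intro halg
    exact h3 ((IsFractionRing.isAlgebraic_iff (Algebra.adjoin k₀ S)
      (IntermediateField.adjoin k₀ S) 𝕜).mpr halg)
  have h5 : Algebra.IsAlgebraic (IntermediateField.adjoin k₀ (Set.range ((↑) : B → 𝕜))) 𝕜 :=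
    hB.isAlgebraic_field
  have hle : ∀ y : 𝕜, y ∈ IntermediateField.adjoin k₀ (Set.range ((↑) : B → 𝕜)) →
      y ∈ IntermediateField.adjoin (IntermediateField.adjoin k₀ S) ({lam} : Set 𝕜) := by
    have h6 : IntermediateField.adjoin k₀ (Set.range ((↑) : B → 𝕜))
        ≤ (IntermediateField.adjoin (IntermediateField.adjoin k₀ S)
            ({lam} : Set 𝕜)).restrictScalars k₀ := by
      rw [IntermediateField.adjoin_le_iff]
      rintro _ ⟨b, rfl⟩
      by_cases hb : b = i₀
      · rw [hb, hi₀]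
        exact IntermediateField.mem_adjoin_simple_self _ lam
      · have hbS : (b : 𝕜) ∈ S := by
          rw [hS]
          exact ⟨b, hb, rfl⟩
        have hbF : (b : 𝕜) ∈ IntermediateField.adjoin k₀ S :=
          IntermediateField.subset_adjoin k₀ S hbS
        exact (IntermediateField.adjoin (IntermediateField.adjoin k₀ S)
          ({lam} : Set 𝕜)).algebraMap_mem ⟨(b : 𝕜), hbF⟩
    exact fun y hy => h6 hy
  let f : IntermediateField.adjoin k₀ (Set.range ((↑) : B → 𝕜)) →+*
      IntermediateField.adjoin (IntermediateField.adjoin k₀ S) ({lam} : Set 𝕜) :=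
    { toFun := fun y => ⟨y.1, hle y.1 y.2⟩
      map_one' := rfl
      map_mul' := fun _ _ => rfl
      map_zero' := rfl
      map_add' := fun _ _ => rfl }
  let _ : Algebra (IntermediateField.adjoin k₀ (Set.range ((↑) : B → 𝕜)))
      (IntermediateField.adjoin (IntermediateField.adjoin k₀ S) ({lam} : Set 𝕜)) := f.toAlgebra
  have : IsScalarTower (IntermediateField.adjoin k₀ (Set.range ((↑) : B → 𝕜)))
      (IntermediateField.adjoin (IntermediateField.adjoin k₀ S) ({lam} : Set 𝕜)) 𝕜 :=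
    IsScalarTower.of_algebraMap_eq (congrFun rfl)
  have h7 : Algebra.IsAlgebraic
      (IntermediateField.adjoin (IntermediateField.adjoin k₀ S) ({lam} : Set 𝕜)) 𝕜 :=
    Algebra.IsAlgebraic.extendScalars
      (R := IntermediateField.adjoin k₀ (Set.range ((↑) : B → 𝕜))) f.injective
  exact exists_absoluteValue_of_transcendental lam h4 h7

end Vale.Agent.Lib.P184
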