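import Vale.Agent.Lib.P184.MatrixForm

/-!
# The tree corollary

If `G` acts by isometries on a pseudo-metric space satisfying the four-point inequality of
`0`-hyperbolic spaces (for instance a tree), and `dist x₀ (g • x₀) < dist x₀ (g • g • x₀)`
(that is, `g` acts as a hyperbolic isometry), then the vanishing theorem applies to a Busemann
function of the orbit `g ^ k • x₀`, defined as a limit along a non-principal ultrafilter.
-/

namespace Vale.Agent.Lib.P184

open scoped BigOperators Topology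
open Filter

/-- A bounded real sequence converges along the hyperfilter. -/
theorem exists_ulim (u : ℕ → ℝ) (M : ℝ) (hu : ∀ k, |u k| ≤ M) :
    ∃ a : ℝ, Tendsto u (hyperfilter ℕ : Filter ℕ) (𝓝 a) := by
  have hc : IsCompact (Set.Icc (-M) M) := isCompact_Icc
  have hle : ((Ultrafilter.map u (hyperfilter ℕ) : Ultrafilter ℝ) : Filter ℝ)
      ≤ 𝓟 (Set.Icc (-M) M) := by
    rw [Ultrafilter.coe_map, Filter.le_principal_iff, Filter.mem_map]
    exact Filter.univ_mem' (fun k => abs_le.mp (hu k))
  obtain ⟨a, _, ha⟩ := hc.ultrafilter_le_nhds (Ultrafilter.map u (hyperfilter ℕ)) hle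
  exact ⟨a, by rwa [Ultrafilter.coe_map] at ha⟩

theorem tree_class_trace {G : Type*} [Group G] {X : Type*} [PseudoMetricSpace X] [MulAction G X]
    [IsIsometricSMul G X]
    (htree : ∀ x y z w : X, dist x y + dist z w ≤ max (dist x z + dist y w) (dist x w + dist y z))
    (g : G) (x₀ : X) (hg : dist x₀ (g • x₀) < dist x₀ (g • g • x₀))
    (q : ℕ) (e : Fin q → Fin q → G → ℂ)
    (he_sum : ∀ i j, Summable (fun x => ‖e i j x‖))
    (he_idem : ∀ i j x, ∑ l, ∑' y, e i l y * e l j (y⁻¹ * x) = e i j x) :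
    HasSum (fun c : {c : G // IsConj g c} => ∑ i, e i i c.1) 0 := by
  classical
  obtain ⟨w, hw⟩ : ∃ w : ℕ → X, w = fun k => g ^ k • x₀ := ⟨_, rfl⟩
  obtain ⟨a, ha⟩ : ∃ a : ℕ → ℝ, a = fun k => dist x₀ (w k) := ⟨_, rfl⟩
  have hw0 : w 0 = x₀ := by rw [hw]; simp
  have hwsucc : ∀ k, g • w k = w (k + 1) := fun k => by
    rw [hw]
    simp only
    rw [← mul_smul, ← pow_succ']
  have hdist : ∀ i j, dist (w i) (w (i + j)) = a j := by
    intro i j
    rw [ha, hw]
    simp only
    rw [pow_add, mul_smul, dist_smul]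
  have ha1 : a 1 = dist x₀ (g • x₀) := by rw [ha, hw]; simp
  have ha2 : a 2 = dist x₀ (g • g • x₀) := by
    rw [ha, hw]
    simp only
    rw [pow_two, mul_smul]
  obtain ⟨ℓ, hℓ⟩ : ∃ ℓ : ℝ, ℓ = a 2 - a 1 := ⟨_, rfl⟩
  have hℓpos : 0 < ℓ := by rw [hℓ, ha1, ha2]; linarith
  -- the distances `a k` grow linearly
  have hkey : ∀ j : ℕ, a 1 < a (j + 2) → a (j + 3) + a (j + 1) = 2 * a (j + 2) := by
    intro j hj
    have hA := htree x₀ (w (j + 2)) (w 1) (w (j + 3))
    have hB := htree x₀ (w (j + 3)) (w 1) (w (j + 2))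
    have e1 : dist (w 1) (w (j + 3)) = a (j + 2) := by
      have := hdist 1 (j + 2)
      rwa [show 1 + (j + 2) = j + 3 by omega] at this
    have e2 : dist (w (j + 2)) (w (j + 3)) = a 1 := hdist (j + 2) 1
    have e3 : dist (w 1) (w (j + 2)) = a (j + 1) := by
      have := hdist 1 (j + 1)
      rwa [show 1 + (j + 1) = j + 2 by omega] at this
    have e4 : dist x₀ (w 1) = a 1 := by rw [ha]
    have e5 : dist x₀ (w (j + 2)) = a (j + 2) := by rw [ha]
    have e6 : dist x₀ (w (j + 3)) = a (j + 3) := by rw [ha]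
    rw [e5, e1, e4, e2, e6, dist_comm (w (j + 2)) (w 1), e3] at hA
    rw [e6, e3, e4, dist_comm (w (j + 3)) (w (j + 2)), e2, e5, dist_comm (w (j + 3)) (w 1), e1]
      at hB
    rcases le_max_iff.mp hA with h | h
    · linarith
    · rcases le_max_iff.mp hB with h' | h'
      · linarith
      · linarith
  have hform : ∀ j : ℕ, a (j + 1) = a 1 + j * ℓ ∧ a (j + 2) = a 1 + (j + 1) * ℓ := by
    intro j
    induction j with
    | zero =>
      refine ⟨by simp, ?_⟩
      rw [hℓ]
      ring
    | succ j ih =>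
      obtain ⟨h1, h2⟩ := ih
      refine ⟨by rw [h2]; push_cast; ring, ?_⟩
      have hgt : a 1 < a (j + 2) := by
        rw [h2]
        have : (0 : ℝ) ≤ (j : ℝ) := Nat.cast_nonneg j
        nlinarith
      have h3 := hkey j hgt
      have h4 : a (j + 1 + 2) = a (j + 3) := rfl
      rw [h4]
      push_cast
      linarith
  have hstep : ∀ k : ℕ, 1 ≤ k → a (k + 1) - a k = ℓ := by
    intro k hk
    obtain ⟨j, rfl⟩ : ∃ j, k = j + 1 := ⟨k - 1, by omega⟩
    obtain ⟨h1, h2⟩ := hform j
    rw [h2, h1]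
    ring
  have hatop : Tendsto a atTop atTop := by
    have h1 : Tendsto (fun j : ℕ => a 1 + ℓ * (j : ℝ)) atTop atTop :=
      tendsto_atTop_add_const_left _ _ (tendsto_natCast_atTop_atTop.const_mul_atTop hℓpos)
    have h2 : Tendsto (fun j : ℕ => a (j + 1)) atTop atTop := by
      refine h1.congr (fun j => ?_)
      rw [(hform j).1]
      ring
    exact (tendsto_add_atTop_iff_nat 1).mp h2
  -- the Busemann function
  have hbd : ∀ y k, |dist y (w k) - a k| ≤ dist y x₀ := fun y k => by
    rw [ha]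
    exact abs_dist_sub_le y x₀ (w k)
  choose β hβ using fun y => exists_ulim (fun k => dist y (w k) - a k) (dist y x₀) (hbd y)
  have hsub : ∀ y y', Tendsto (fun k => dist y (w k) - dist y' (w k)) (hyperfilter ℕ : Filter ℕ)
      (𝓝 (β y - β y')) := by
    intro y y'
    refine ((hβ y).sub (hβ y')).congr (fun k => ?_)
    ring
  have hLip : ∀ y y', |β y - β y'| ≤ dist y y' := by
    intro y y'
    have ht := hsub y y'
    have hk : ∀ k, |dist y (w k) - dist y' (w k)| ≤ dist y y' := fun k => abs_dist_sub_le y y' (w k)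
    rw [abs_le]
    exact ⟨ge_of_tendsto' ht (fun k => (abs_le.mp (hk k)).1),
      le_of_tendsto' ht (fun k => (abs_le.mp (hk k)).2)⟩
  -- equivariance under elements commuting with `g`
  have hEq : ∀ z : G, z * g = g * z → ∀ y y', β (z • y) - β y = β (z • y') - β y' := by
    intro z hz y y'
    obtain ⟨w', hw'⟩ : ∃ w' : ℕ → X, w' = fun k => g ^ k • (z⁻¹ • x₀) := ⟨_, rfl⟩
    have hcomm : ∀ k : ℕ, z⁻¹ * g ^ k = g ^ k * z⁻¹ := fun k =>
      ((show Commute z g from hz).inv_left.pow_right k).eq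
    have hzw : ∀ (y : X) (k : ℕ), dist (z • y) (w k) = dist y (w' k) := by
      intro y k
      rw [← dist_smul z⁻¹ (z • y) (w k), inv_smul_smul, hw, hw']
      simp only
      rw [← mul_smul, ← mul_smul, hcomm k]
    have hww' : ∀ k, dist (w k) (w' k) = dist x₀ (z⁻¹ • x₀) := fun k => by
      rw [hw, hw']
      simp only
      rw [dist_smul]
    have hT : ∀ y : X, Tendsto (fun k => dist y (w' k) - dist y (w k)) (hyperfilter ℕ : Filter ℕ)
        (𝓝 (β (z • y) - β y)) := by
      intro y
      refine (hsub (z • y) y).congr (fun k => ?_)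
      rw [hzw]
    have hev : ∀ᶠ k in atTop, dist y (w' k) - dist y (w k) = dist y' (w' k) - dist y' (w k) := by
      have h1 := hatop.eventually_gt_atTop
        (dist y y' + dist x₀ (z⁻¹ • x₀) + dist y x₀ + dist y' x₀)
      filter_upwards [h1] with k hk
      have hA := htree y (w k) y' (w' k)
      have hB := htree y (w' k) y' (w k)
      rw [hww' k] at hA
      rw [dist_comm (w' k) (w k), hww' k] at hB
      have b1 := abs_le.mp (hbd y k)
      have b2 := abs_le.mp (hbd y' k)
      have p1 : 0 ≤ dist y' (w' k) := dist_nonneg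
      have p2 : 0 ≤ dist y (w' k) := dist_nonneg
      rw [dist_comm (w k) y'] at hA
      rw [dist_comm (w' k) y'] at hB
      rcases le_max_iff.mp hA with h | h
      · linarith
      · rcases le_max_iff.mp hB with h' | h'
        · linarith
        · linarith
    have hev' : ∀ᶠ k in (hyperfilter ℕ : Filter ℕ),
        dist y (w' k) - dist y (w k) = dist y' (w' k) - dist y' (w k) :=
      Nat.hyperfilter_le_atTop hev
    exact tendsto_nhds_unique ((hT y).congr' hev') (hT y')
  -- the translation length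
  have hgval : β (g⁻¹ • x₀) - β x₀ = ℓ := by
    have ht := hsub (g⁻¹ • x₀) x₀
    have hev : ∀ᶠ k in atTop, dist (g⁻¹ • x₀) (w k) - dist x₀ (w k) = ℓ := by
      filter_upwards [eventually_ge_atTop 1] with k hk
      have h1 : dist (g⁻¹ • x₀) (w k) = a (k + 1) := by
        rw [← dist_smul g (g⁻¹ • x₀) (w k), smul_inv_smul, hwsucc, ha]
      have h2 : dist x₀ (w k) = a k := by rw [ha]
      rw [h1, h2]
      exact hstep k hk
    have hev' : ∀ᶠ k in (hyperfilter ℕ : Filter ℕ),
        dist (g⁻¹ • x₀) (w k) - dist x₀ (w k) = ℓ := Nat.hyperfilter_le_atTop hev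
    exact tendsto_nhds_unique ht (tendsto_const_nhds.congr' (hev'.mono (fun k hk => hk.symm)))
  -- apply the vanishing theorem to `ψ h = β (h⁻¹ • x₀)`
  refine matrix_class_trace q e he_sum he_idem g (fun h => β (h⁻¹ • x₀)) ?_ ?_ ?_
  · intro m
    refine ⟨dist (m⁻¹ • x₀) x₀, fun h => ?_⟩
    refine (hLip _ _).trans (le_of_eq ?_)
    rw [mul_inv_rev, mul_smul, dist_smul]
  · intro z hz h
    have hz' : z⁻¹ * g = g * z⁻¹ := ((show Commute z g from hz).inv_left).eq
    have h1 := hEq z⁻¹ hz' (h⁻¹ • x₀) x₀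
    rw [mul_inv_rev, mul_smul, inv_one, one_smul]
    exact h1
  · rw [inv_one, one_smul]
    intro h
    rw [h, sub_self] at hgval
    exact hℓpos.ne hgval

end Vale.Agent.Lib.P184
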