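import Vale.Agent.Lib.P184.FiniteIndex

/-!
# Length functions dominating a character of the centralizer

* `length_character_class_trace`: if `ℓ` is a length function on `G`, `Z₀` is a finite-index
  subgroup of the centralizer of `g` containing `g`, and `κ : Z₀ → ℝ` is additive, dominated by
  `ℓ` and nonzero at `g`, then the coefficient at the class of `g` vanishes.  The twisting
  function is `ψ h = ⨅ z : Z₀, (ℓ (h * z) + κ z)`.
* `undistorted_class_trace`: if `G` acts by isometries on a pseudo-metric space, the orbit of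
  `x₀` under the powers of `g` grows linearly and the cyclic group generated by `g` has finite
  index in the centralizer of `g`, then the coefficient at the class of `g` vanishes.
-/

namespace Vale.Agent.Lib.P184

open scoped BigOperators Topology

theorem length_character_class_trace {G : Type*} [Group G] (q : ℕ) (e : Fin q → Fin q → G → ℂ)
    (he_sum : ∀ i j, Summable (fun x => ‖e i j x‖))
    (he_idem : ∀ i j x, ∑ l, ∑' y, e i l y * e l j (y⁻¹ * x) = e i j x)
    (ℓ : G → ℝ) (hℓ_mul : ∀ x y, ℓ (x * y) ≤ ℓ x + ℓ y) (hℓ_inv : ∀ x, ℓ x⁻¹ = ℓ x)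
    (g : G) (Z₀ : Subgroup (Subgroup.centralizer ({g} : Set G))) [Z₀.FiniteIndex]
    (κ : Z₀ → ℝ) (hκ_mul : ∀ z w, κ (z * w) = κ z + κ w)
    (hκ_le : ∀ z : Z₀, κ z ≤ ℓ ((z : Subgroup.centralizer ({g} : Set G)) : G))
    (zg : Z₀) (hzg : ((zg : Subgroup.centralizer ({g} : Set G)) : G) = g) (hκg : κ zg ≠ 0) :
    HasSum (fun c : {c : G // IsConj g c} => ∑ i, e i i c.1) 0 := by
  classical
  have hκ1 : κ 1 = 0 := by
    have := hκ_mul 1 1
    rw [one_mul] at this
    linarith
  have hκinv : ∀ z, κ z⁻¹ = - κ z := by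
    intro z
    have := hκ_mul z z⁻¹
    rw [mul_inv_cancel, hκ1] at this
    linarith
  have hlow : ∀ (h : G) (z : Z₀),
      - ℓ h ≤ ℓ (h * ((z : Subgroup.centralizer ({g} : Set G)) : G)) + κ z := by
    intro h z
    have h1 := hℓ_mul h⁻¹ (h * ((z : Subgroup.centralizer ({g} : Set G)) : G))
    rw [inv_mul_cancel_left, hℓ_inv] at h1
    have h2 := hκ_le z⁻¹
    rw [hκinv] at h2
    simp only [Subgroup.coe_inv] at h2
    rw [hℓ_inv] at h2
    linarith
  have hbdd : ∀ h : G, BddBelow (Set.range fun z : Z₀ =>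
      ℓ (h * ((z : Subgroup.centralizer ({g} : Set G)) : G)) + κ z) := by
    intro h
    refine ⟨- ℓ h, ?_⟩
    rintro _ ⟨z, rfl⟩
    exact hlow h z
  obtain ⟨ψ, hψ⟩ : ∃ ψ : G → ℝ, ψ = fun h => ⨅ z : Z₀,
      (ℓ (h * ((z : Subgroup.centralizer ({g} : Set G)) : G)) + κ z) := ⟨_, rfl⟩
  have hψle : ∀ (m h : G), ψ (m * h) ≤ ψ h + ℓ m := by
    intro m h
    rw [hψ]
    simp only
    rw [← sub_le_iff_le_add]
    refine le_ciInf fun z => ?_
    rw [sub_le_iff_le_add]
    refine (ciInf_le (hbdd (m * h)) z).trans ?_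
    have := hℓ_mul m (h * ((z : Subgroup.centralizer ({g} : Set G)) : G))
    rw [← mul_assoc] at this
    linarith
  have hineq : ∀ (h : G) (w : Z₀),
      ψ (h * ((w : Subgroup.centralizer ({g} : Set G)) : G)) ≤ ψ h - κ w := by
    intro h w
    rw [le_sub_iff_add_le]
    conv_rhs => rw [hψ]
    simp only
    refine le_ciInf fun z => ?_
    have h1 : ψ (h * ((w : Subgroup.centralizer ({g} : Set G)) : G))
        ≤ ℓ (h * ((w : Subgroup.centralizer ({g} : Set G)) : G)
            * (((w⁻¹ * z : Z₀) : Subgroup.centralizer ({g} : Set G)) : G)) + κ (w⁻¹ * z) := by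
      rw [hψ]
      exact ciInf_le (hbdd _) (w⁻¹ * z)
    have h2 : h * ((w : Subgroup.centralizer ({g} : Set G)) : G)
        * (((w⁻¹ * z : Z₀) : Subgroup.centralizer ({g} : Set G)) : G)
        = h * ((z : Subgroup.centralizer ({g} : Set G)) : G) := by
      simp [mul_assoc]
    rw [h2, hκ_mul, hκinv] at h1
    linarith
  have heq : ∀ (h : G) (w : Z₀),
      ψ (h * ((w : Subgroup.centralizer ({g} : Set G)) : G)) = ψ h - κ w := by
    intro h w
    refine le_antisymm (hineq h w) ?_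
    have h1 := hineq (h * ((w : Subgroup.centralizer ({g} : Set G)) : G)) w⁻¹
    have h2 : h * ((w : Subgroup.centralizer ({g} : Set G)) : G)
        * (((w⁻¹ : Z₀) : Subgroup.centralizer ({g} : Set G)) : G) = h := by
      simp [mul_assoc]
    rw [h2, hκinv] at h1
    linarith
  refine matrix_class_trace_fi q e he_sum he_idem g ψ ?_ Z₀ ⟨zg.1, zg.2, hzg⟩ ?_ ?_
  · intro m
    refine ⟨ℓ m, fun h => ?_⟩
    rw [abs_le]
    constructor
    · have h1 := hψle m⁻¹ (m * h)
      rw [inv_mul_cancel_left, hℓ_inv] at h1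
      linarith
    · have h1 := hψle m h
      linarith
  · intro z hz h
    have h1 := heq h ⟨z, hz⟩
    have h2 := heq 1 ⟨z, hz⟩
    simp only [one_mul] at h1 h2
    rw [h1, h2]
    ring
  · have h1 := heq 1 zg
    rw [one_mul, hzg] at h1
    intro h
    rw [h] at h1
    apply hκg
    linarith

theorem undistorted_class_trace {G : Type*} [Group G] (q : ℕ) (e : Fin q → Fin q → G → ℂ)
    (he_sum : ∀ i j, Summable (fun x => ‖e i j x‖))
    (he_idem : ∀ i j x, ∑ l, ∑' y, e i l y * e l j (y⁻¹ * x) = e i j x)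
    {X : Type*} [PseudoMetricSpace X] [MulAction G X] [IsIsometricSMul G X]
    (g : G) (x₀ : X) (ε : ℝ) (hε : 0 < ε)
    (hgrow : ∀ n : ℕ, ε * n ≤ dist x₀ (g ^ n • x₀))
    (hfin : (Subgroup.zpowers g).relIndex (Subgroup.centralizer ({g} : Set G)) ≠ 0) :
    HasSum (fun c : {c : G // IsConj g c} => ∑ i, e i i c.1) 0 := by
  classical
  obtain ⟨ℓ, hℓ⟩ : ∃ ℓ : G → ℝ, ℓ = fun h => dist x₀ (h • x₀) := ⟨_, rfl⟩
  have hℓ_mul : ∀ x y, ℓ (x * y) ≤ ℓ x + ℓ y := by
    intro x y
    rw [hℓ]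
    simp only
    have h1 := dist_triangle x₀ (x • x₀) ((x * y) • x₀)
    rw [mul_smul, dist_smul] at h1
    rw [mul_smul]
    exact h1
  have hℓ_inv : ∀ x, ℓ x⁻¹ = ℓ x := by
    intro x
    rw [hℓ]
    simp only
    have h1 := dist_smul x x₀ (x⁻¹ • x₀)
    rw [smul_inv_smul] at h1
    rw [← h1, dist_comm]
  have hgrowZ : ∀ k : ℤ, ε * |(k : ℝ)| ≤ ℓ (g ^ k) := by
    intro k
    rcases le_total 0 k with hk | hk
    · obtain ⟨n, rfl⟩ := Int.eq_ofNat_of_zero_le hk
      have h1 := hgrow n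
      rw [hℓ]
      simp only [zpow_natCast]
      rw [abs_of_nonneg (by positivity)]
      exact_mod_cast h1
    · obtain ⟨n, hn⟩ := Int.eq_ofNat_of_zero_le (neg_nonneg.mpr hk)
      have hk' : k = -(n : ℤ) := by omega
      have h1 := hgrow n
      rw [hk', zpow_neg, hℓ_inv, hℓ]
      simp only [zpow_natCast]
      have h2 : |((-(n : ℤ) : ℤ) : ℝ)| = (n : ℝ) := by
        push_cast
        rw [abs_neg, abs_of_nonneg (by positivity)]
      rw [h2]
      exact h1
  have hlow : ∀ (h : G) (k : ℤ), - ℓ h ≤ ℓ (h * g ^ k) + ε * k := by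
    intro h k
    have h1 := hℓ_mul h⁻¹ (h * g ^ k)
    rw [inv_mul_cancel_left, hℓ_inv] at h1
    have h2 := hgrowZ k
    have h3 : 0 ≤ ε * |(k : ℝ)| + ε * k := by
      have := neg_abs_le (k : ℝ)
      nlinarith
    linarith
  have hbdd : ∀ h : G, BddBelow (Set.range fun k : ℤ => ℓ (h * g ^ k) + ε * k) := by
    intro h
    refine ⟨- ℓ h, ?_⟩
    rintro _ ⟨k, rfl⟩
    exact hlow h k
  obtain ⟨ψ, hψ⟩ : ∃ ψ : G → ℝ, ψ = fun h => ⨅ k : ℤ, (ℓ (h * g ^ k) + ε * k) := ⟨_, rfl⟩
  have hψle : ∀ (m h : G), ψ (m * h) ≤ ψ h + ℓ m := by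
    intro m h
    rw [hψ]
    simp only
    rw [← sub_le_iff_le_add]
    refine le_ciInf fun k => ?_
    rw [sub_le_iff_le_add]
    refine (ciInf_le (hbdd (m * h)) k).trans ?_
    have := hℓ_mul m (h * g ^ k)
    rw [← mul_assoc] at this
    linarith
  have hineq : ∀ (h : G) (j : ℤ), ψ (h * g ^ j) ≤ ψ h - ε * j := by
    intro h j
    rw [le_sub_iff_add_le]
    conv_rhs => rw [hψ]
    simp only
    refine le_ciInf fun k => ?_
    have h1 : ψ (h * g ^ j) ≤ ℓ (h * g ^ j * g ^ (k - j)) + ε * ((k - j : ℤ) : ℝ) := by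
      rw [hψ]
      exact ciInf_le (hbdd _) (k - j)
    have h2 : h * g ^ j * g ^ (k - j) = h * g ^ k := by
      rw [mul_assoc, ← zpow_add]
      congr 2
      ring
    rw [h2] at h1
    push_cast at h1
    linarith
  have heq : ∀ (h : G) (j : ℤ), ψ (h * g ^ j) = ψ h - ε * j := by
    intro h j
    refine le_antisymm (hineq h j) ?_
    have h1 := hineq (h * g ^ j) (-j)
    have h2 : h * g ^ j * g ^ (-j) = h := by
      rw [mul_assoc, ← zpow_add, add_neg_cancel, zpow_zero, mul_one]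
    rw [h2] at h1
    push_cast at h1
    linarith
  have hFI : ((Subgroup.zpowers g).subgroupOf (Subgroup.centralizer ({g} : Set G))).FiniteIndex :=
    ⟨hfin⟩
  refine matrix_class_trace_fi q e he_sum he_idem g ψ ?_
    ((Subgroup.zpowers g).subgroupOf (Subgroup.centralizer ({g} : Set G)))
    ⟨⟨g, Subgroup.mem_centralizer_singleton_iff.mpr rfl⟩,
      Subgroup.mem_subgroupOf.mpr (Subgroup.mem_zpowers g), rfl⟩ ?_ ?_
  · intro m
    refine ⟨ℓ m, fun h => ?_⟩
    rw [abs_le]
    constructor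
    · have h1 := hψle m⁻¹ (m * h)
      rw [inv_mul_cancel_left, hℓ_inv] at h1
      linarith
    · have h1 := hψle m h
      linarith
  · intro z hz h
    obtain ⟨j, hj⟩ := Subgroup.mem_zpowers_iff.mp (Subgroup.mem_subgroupOf.mp hz)
    have h1 := heq h j
    have h2 := heq 1 j
    rw [one_mul] at h2
    rw [hj] at h1 h2
    rw [h1, h2]
    ring
  · have h1 := heq 1 1
    rw [one_mul, zpow_one] at h1
    intro h
    rw [h] at h1
    push_cast at h1
    linarith

end Vale.Agent.Lib.P184
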