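import Vale.Agent.Lib.P184.Abel

/-!
A twist function for a group with a normal commutative subgroup of finite index: an explicit
finite sum over the cosets of the subgroup.
-/

namespace Vale.Agent.Lib.P184

open scoped BigOperators

/-- The abstract computation: `cl` is the class map to a finite set of classes, `r` a choice of
representatives, `L` is additive on the subgroup `N`, `f` measures the position in the coset
and `mu` is the weight of the coset. -/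
theorem virtAbelian_core {P : Type*} [Group P] {Q : Type*} [Fintype Q] (N : Subgroup P)
    (cl : P → Q) (r : Q → P) (L f mu : P → ℝ) (g : P) (m : ℕ)
    (hr : ∀ y : P, (r (cl y))⁻¹ * y ∈ N)
    (hcl : ∀ c, cl (r c) = c)
    (hσ : ∀ z : P, ∃ σ : Q ≃ Q, ∀ y, cl (z * y) = σ (cl y))
    (hf1 : ∀ y a, a ∈ N → f (y * a) = f y + L a)
    (hf2 : ∀ c, f (r c) = 0)
    (hm1 : ∀ y a, a ∈ N → mu (y * a) = mu y)
    (hm2 : ∀ z, z * g = g * z → ∀ y, mu (z * y) = mu y)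
    (hm3 : ∃ c, mu (r c) ≠ 0)
    (hm4 : ∀ y, ∃ b ∈ N, g ^ m * y = y * b ∧ L b = mu y) :
    ∃ ψ : P → ℝ, (∀ m' : P, ∃ C : ℝ, ∀ h : P, |ψ (m' * h) - ψ h| ≤ C) ∧
      (∀ z : P, z * g = g * z → ∀ h : P, ψ (h * z) - ψ h = ψ z - ψ 1) ∧ ψ g ≠ ψ 1 := by
  have hdec : ∀ y : P, ∃ a ∈ N, y = r (cl y) * a :=
    fun y => ⟨(r (cl y))⁻¹ * y, hr y, by group⟩
  obtain ⟨ψ, hψ⟩ : ∃ ψ : P → ℝ, ψ = fun h => ∑ c, f (h * r c) * mu (r c) := ⟨_, rfl⟩
  have hψ' : ∀ h, ψ h = ∑ c, f (h * r c) * mu (r c) := fun h => by rw [hψ]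
  have hψ1 : ψ 1 = 0 := by
    rw [hψ']
    apply Finset.sum_eq_zero
    intro c _
    rw [one_mul, hf2, zero_mul]
  have hadd : ∀ z : P, z * g = g * z → ∀ h : P, ψ (h * z) = ψ h + ψ z := by
    intro z hz h
    obtain ⟨σ, hσz⟩ := hσ z
    have hzc : ∀ c, ∃ a ∈ N, z * r c = r (σ c) * a := by
      intro c
      obtain ⟨a, ha, h1⟩ := hdec (z * r c)
      rw [hσz, hcl] at h1
      exact ⟨a, ha, h1⟩
    choose a ha hza using hzc
    have h1 : ∀ c, f (h * z * r c) = f (h * r (σ c)) + L (a c) := by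
      intro c
      rw [mul_assoc h z, hza c, ← mul_assoc, hf1 _ _ (ha c)]
    have h2 : ∀ c, mu (r c) = mu (r (σ c)) := by
      intro c
      rw [← hm2 z hz (r c), hza c, hm1 _ _ (ha c)]
    have h3 : ∀ c, f (z * r c) = L (a c) := by
      intro c
      rw [hza c, hf1 _ _ (ha c), hf2, zero_add]
    rw [hψ' (h * z), hψ' h, hψ' z]
    have h4 : ∑ c, f (h * r c) * mu (r c) = ∑ c, f (h * r (σ c)) * mu (r (σ c)) :=
      (Equiv.sum_comp σ (fun c => f (h * r c) * mu (r c))).symm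
    rw [h4, ← Finset.sum_add_distrib]
    apply Finset.sum_congr rfl
    intro c _
    rw [h1 c, h3 c, ← h2 c]
    ring
  refine ⟨ψ, ?_, ?_, ?_⟩
  · intro m'
    have hdiff : ∀ y, f (m' * y) - f y = f (m' * r (cl y)) := by
      intro y
      obtain ⟨a, ha, hy⟩ := hdec y
      have e1 : f (m' * y) = f (m' * r (cl y)) + L a := by
        rw [← hf1 _ _ ha, mul_assoc, ← hy]
      have e2 : f y = L a := by
        have h5 := hf1 (r (cl y)) a ha
        rw [← hy, hf2, zero_add] at h5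
        exact h5
      rw [e1, e2]
      ring
    refine ⟨(∑ c, |f (m' * r c)|) * ∑ c, |mu (r c)|, fun h => ?_⟩
    rw [hψ', hψ', ← Finset.sum_sub_distrib]
    have hB : ∀ y, |f (m' * y) - f y| ≤ ∑ c, |f (m' * r c)| := by
      intro y
      rw [hdiff]
      exact Finset.single_le_sum (f := fun c => |f (m' * r c)|) (fun c _ => abs_nonneg _)
        (Finset.mem_univ (cl y))
    calc |∑ c, (f (m' * h * r c) * mu (r c) - f (h * r c) * mu (r c))|
        ≤ ∑ c, |f (m' * h * r c) * mu (r c) - f (h * r c) * mu (r c)| :=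
          Finset.abs_sum_le_sum_abs _ _
      _ ≤ ∑ c, (∑ c', |f (m' * r c')|) * |mu (r c)| := by
          apply Finset.sum_le_sum
          intro c _
          rw [← sub_mul, abs_mul, mul_assoc m' h (r c)]
          exact mul_le_mul_of_nonneg_right (hB _) (abs_nonneg _)
      _ = (∑ c, |f (m' * r c)|) * ∑ c, |mu (r c)| := by
          rw [Finset.mul_sum]
  · intro z hz h
    rw [hadd z hz h, hψ1]
    ring
  · rw [hψ1]
    have hpow : ∀ k : ℕ, ψ (g ^ k) = k * ψ g := by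
      intro k
      induction k with
      | zero => simp [hψ1]
      | succ k ih =>
        rw [pow_succ, hadd g rfl, ih]
        push_cast
        ring
    have hgm : ψ (g ^ m) = ∑ c, mu (r c) ^ 2 := by
      rw [hψ']
      apply Finset.sum_congr rfl
      intro c _
      obtain ⟨b, hb, hb1, hb2⟩ := hm4 (r c)
      rw [hb1, hf1 _ _ hb, hf2, zero_add, hb2]
      ring
    obtain ⟨c₁, hc₁⟩ := hm3
    have hpos : 0 < ∑ c, mu (r c) ^ 2 := by
      have h1 : mu (r c₁) ^ 2 ≤ ∑ c, mu (r c) ^ 2 :=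
        Finset.single_le_sum (f := fun c => mu (r c) ^ 2) (fun c _ => sq_nonneg _)
          (Finset.mem_univ c₁)
      have h2 : 0 < mu (r c₁) ^ 2 := by positivity
      linarith
    intro h0
    rw [hpow, h0, mul_zero] at hgm
    linarith

theorem virtAbelian_twist {P : Type*} [Group P] (N : Subgroup P) [N.Normal] [N.FiniteIndex]
    (hN : ∀ a ∈ N, ∀ b ∈ N, a * b = b * a) (g : P) (hg : ∀ k : ℕ, 0 < k → g ^ k ≠ 1) :
    ∃ ψ : P → ℝ, (∀ m : P, ∃ C : ℝ, ∀ h : P, |ψ (m * h) - ψ h| ≤ C) ∧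
      (∀ z : P, z * g = g * z → ∀ h : P, ψ (h * z) - ψ h = ψ z - ψ 1) ∧ ψ g ≠ ψ 1 := by
  classical
  have : Fintype (P ⧸ N) := Fintype.ofFinite _
  obtain ⟨m, hm, hgm⟩ : ∃ m : ℕ, 0 < m ∧ g ^ m ∈ N :=
    ⟨N.index, Nat.pos_of_ne_zero Subgroup.FiniteIndex.index_ne_zero, Subgroup.pow_index_mem N g⟩
  have hcomm : IsMulCommutative N := ⟨⟨fun a b => Subtype.ext (hN a a.2 b b.2)⟩⟩
  have hcb : commutator N = ⊥ := (commutator_eq_bot_iff N).mpr hcomm
  have hgP : ¬ IsOfFinOrder (Abelianization.of (⟨g ^ m, hgm⟩ : N)) := by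
    intro hfin
    obtain ⟨k, hk, hk1⟩ := isOfFinOrder_iff_pow_eq_one.mp hfin
    rw [← map_pow] at hk1
    have h1 : (⟨g ^ m, hgm⟩ : N) ^ k ∈ (Abelianization.of (G := N)).ker := hk1
    rw [Abelianization.ker_of, hcb, Subgroup.mem_bot] at h1
    have h2 : (g ^ m) ^ k = 1 := by
      have := congrArg (fun x : N => (x : P)) h1
      simpa using this
    exact hg (m * k) (Nat.mul_pos hm hk) (by rw [pow_mul]; exact h2)
  obtain ⟨lam, hlam, hlamg⟩ := exists_hom_real (⟨g ^ m, hgm⟩ : N) hgP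
  have hlam1 : lam 1 = 0 := by
    have := hlam 1 1
    rw [one_mul] at this
    linarith
  obtain ⟨L, hL⟩ : ∃ L : P → ℝ, L = fun y => if hy : y ∈ N then lam ⟨y, hy⟩ else 0 :=
    ⟨_, rfl⟩
  have hLmem : ∀ y (hy : y ∈ N), L y = lam ⟨y, hy⟩ := by
    intro y hy
    rw [hL]
    exact dif_pos hy
  have hLmul : ∀ a b, a ∈ N → b ∈ N → L (a * b) = L a + L b := by
    intro a b ha hb
    rw [hLmem _ (N.mul_mem ha hb), hLmem a ha, hLmem b hb, ← hlam]
    rfl
  have hL1 : L 1 = 0 := by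
    rw [hLmem 1 N.one_mem]
    exact hlam1
  have hconj : ∀ n a, n ∈ N → a ∈ N → a⁻¹ * n * a = n := by
    intro n a hn ha
    rw [mul_assoc, hN n hn a ha, ← mul_assoc, inv_mul_cancel, one_mul]
  have hnorm : ∀ y : P, y⁻¹ * g ^ m * y ∈ N := by
    intro y
    have h1 := ‹N.Normal›.conj_mem (g ^ m) hgm y⁻¹
    rwa [inv_inv] at h1
  obtain ⟨r, hrdef⟩ : ∃ r : P ⧸ N → P, r = fun c => Quotient.out c := ⟨_, rfl⟩
  have hrcl : ∀ c : P ⧸ N, ((r c : P) : P ⧸ N) = c := by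
    intro c
    rw [hrdef]
    exact QuotientGroup.out_eq' c
  have hrN : ∀ y : P, (r (y : P ⧸ N))⁻¹ * y ∈ N :=
    fun y => QuotientGroup.eq.mp (hrcl (y : P ⧸ N))
  refine virtAbelian_core N (fun y => (y : P ⧸ N)) r L (fun y => L ((r (y : P ⧸ N))⁻¹ * y))
    (fun y => L (y⁻¹ * g ^ m * y)) g m hrN hrcl ?_ ?_ ?_ ?_ ?_ ?_ ?_
  · intro z
    exact ⟨Equiv.mulLeft (z : P ⧸ N), fun y => rfl⟩
  · intro y a ha
    show L ((r ((y * a : P) : P ⧸ N))⁻¹ * (y * a)) = L ((r (y : P ⧸ N))⁻¹ * y) + L a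
    have h1 : ((y * a : P) : P ⧸ N) = (y : P ⧸ N) := QuotientGroup.mk_mul_of_mem y ha
    rw [h1, ← mul_assoc, hLmul _ _ (hrN y) ha]
  · intro c
    show L ((r ((r c : P) : P ⧸ N))⁻¹ * r c) = 0
    rw [hrcl, inv_mul_cancel, hL1]
  · intro y a ha
    show L ((y * a)⁻¹ * g ^ m * (y * a)) = L (y⁻¹ * g ^ m * y)
    have h1 : (y * a)⁻¹ * g ^ m * (y * a) = a⁻¹ * (y⁻¹ * g ^ m * y) * a := by group
    rw [h1, hconj _ _ (hnorm y) ha]
  · intro z hz y
    show L ((z * y)⁻¹ * g ^ m * (z * y)) = L (y⁻¹ * g ^ m * y)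
    have hzm : z * g ^ m = g ^ m * z := ((show Commute z g from hz).pow_right m).eq
    have hzm' : z⁻¹ * g ^ m * z = g ^ m := by
      rw [mul_assoc, ← hzm, ← mul_assoc, inv_mul_cancel, one_mul]
    have h1 : (z * y)⁻¹ * g ^ m * (z * y) = y⁻¹ * (z⁻¹ * g ^ m * z) * y := by group
    rw [h1, hzm']
  · refine ⟨((1 : P) : P ⧸ N), ?_⟩
    show L ((r ((1 : P) : P ⧸ N))⁻¹ * g ^ m * r ((1 : P) : P ⧸ N)) ≠ 0
    have hr1 : r ((1 : P) : P ⧸ N) ∈ N := by
      have h1 := hrN 1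
      rw [mul_one] at h1
      exact N.inv_mem_iff.mp h1
    rw [hconj _ _ hgm hr1, hLmem _ hgm]
    exact hlamg
  · intro y
    exact ⟨y⁻¹ * g ^ m * y, hnorm y, by group, rfl⟩

end Vale.Agent.Lib.P184
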