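import Vale.Agent.Lib.P184.MatrixForm

/-!
# Elements skewering a wall of a space with walls

Let a group `G` act on a set `X` preserving a family `W` of subsets (half-spaces) such that any two
points are separated by finitely many members of `W`.  If `g • k ⊂ k` strictly for some `k ∈ W`
(`g` skewers `k`), then the Hattori-Stallings coefficient at the class of `g` of every idempotent
matrix over the Banach group algebra vanishes.

The twisting function is `h ↦ c(x₀, h⁻¹ x₀)`, where `c(x, y) = ∑_{k ∈ σ} (1_k(x) - 1_k(y))` and `σ`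
is the set of half-spaces skewered by `g`; `σ` is invariant under the centralizer of `g`.
-/

namespace Vale.Agent.Lib.P184

open scoped BigOperators Pointwise

section Walls

variable {G : Type*} [Group G] {X : Type*} [MulAction G X]

/-- The term of the wall cocycle attached to the half-space `k`. -/
noncomputable def wallTerm (τ : Set (Set X)) (x y : X) (k : Set X) : ℝ :=
  Set.indicator τ (fun k : Set X => Set.indicator k (fun _ => (1 : ℝ)) x
    - Set.indicator k (fun _ => (1 : ℝ)) y) k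

/-- The wall cocycle: the signed number of half-spaces in `τ` separating `x` from `y`. -/
noncomputable def wallCocycle (τ : Set (Set X)) (x y : X) : ℝ :=
  ∑ᶠ k, wallTerm τ x y k

theorem wallTerm_abs_le (τ : Set (Set X)) (x y : X) (k : Set X) : |wallTerm τ x y k| ≤ 1 := by
  classical
  unfold wallTerm
  by_cases hk : k ∈ τ
  · rw [Set.indicator_of_mem hk]
    by_cases hx : x ∈ k <;> by_cases hy : y ∈ k <;> simp [hx, hy]
  · rw [Set.indicator_of_notMem hk]
    simp

theorem wallTerm_support (W τ : Set (Set X)) (hτ : τ ⊆ W) (x y : X) :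
    Function.support (wallTerm τ x y)
      ⊆ {k ∈ W | x ∈ k ∧ y ∉ k} ∪ {k ∈ W | y ∈ k ∧ x ∉ k} := by
  classical
  intro k hk
  rw [Function.mem_support] at hk
  unfold wallTerm at hk
  by_cases hkτ : k ∈ τ
  · rw [Set.indicator_of_mem hkτ] at hk
    by_cases hx : x ∈ k <;> by_cases hy : y ∈ k
    · simp [hx, hy] at hk
    · exact Or.inl ⟨hτ hkτ, hx, hy⟩
    · exact Or.inr ⟨hτ hkτ, hy, hx⟩
    · simp [hx, hy] at hk
  · rw [Set.indicator_of_notMem hkτ] at hk
    exact absurd rfl hk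

theorem wallTerm_finite (W τ : Set (Set X)) (hτ : τ ⊆ W)
    (hfin : ∀ x y : X, {k ∈ W | x ∈ k ∧ y ∉ k}.Finite) (x y : X) :
    (Function.support (wallTerm τ x y)).Finite :=
  ((hfin x y).union (hfin y x)).subset (wallTerm_support W τ hτ x y)

theorem wallTerm_add (τ : Set (Set X)) (x y z : X) (k : Set X) :
    wallTerm τ x z k = wallTerm τ x y k + wallTerm τ y z k := by
  classical
  unfold wallTerm
  by_cases hk : k ∈ τ
  · rw [Set.indicator_of_mem hk, Set.indicator_of_mem hk, Set.indicator_of_mem hk]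
    ring
  · rw [Set.indicator_of_notMem hk, Set.indicator_of_notMem hk, Set.indicator_of_notMem hk]
    ring

theorem wallCocycle_add (W τ : Set (Set X)) (hτ : τ ⊆ W)
    (hfin : ∀ x y : X, {k ∈ W | x ∈ k ∧ y ∉ k}.Finite) (x y z : X) :
    wallCocycle τ x z = wallCocycle τ x y + wallCocycle τ y z := by
  unfold wallCocycle
  rw [← finsum_add_distrib (wallTerm_finite W τ hτ hfin x y) (wallTerm_finite W τ hτ hfin y z)]
  exact finsum_congr (fun k => wallTerm_add τ x y z k)

theorem wallCocycle_self (τ : Set (Set X)) (x : X) : wallCocycle τ x x = 0 := by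
  classical
  unfold wallCocycle
  have : wallTerm τ x x = fun _ => 0 := by
    funext k
    unfold wallTerm
    by_cases hk : k ∈ τ
    · rw [Set.indicator_of_mem hk]
      ring
    · rw [Set.indicator_of_notMem hk]
  rw [this]
  exact finsum_zero

theorem wallTerm_smul (τ : Set (Set X)) (a : G) (ha : ∀ k : Set X, a • k ∈ τ ↔ k ∈ τ) (x y : X)
    (k : Set X) : wallTerm τ (a • x) (a • y) (a • k) = wallTerm τ x y k := by
  classical
  unfold wallTerm
  by_cases hk : k ∈ τ
  · rw [Set.indicator_of_mem hk, Set.indicator_of_mem ((ha k).mpr hk)]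
    simp only [Set.indicator, Set.smul_mem_smul_set_iff]
  · rw [Set.indicator_of_notMem hk, Set.indicator_of_notMem (fun h => hk ((ha k).mp h))]

theorem wallCocycle_smul (τ : Set (Set X)) (a : G) (ha : ∀ k : Set X, a • k ∈ τ ↔ k ∈ τ)
    (x y : X) : wallCocycle τ (a • x) (a • y) = wallCocycle τ x y := by
  unfold wallCocycle
  rw [← finsum_comp_equiv (MulAction.toPerm a : Set X ≃ Set X)]
  exact finsum_congr (fun k => wallTerm_smul τ a ha x y k)

/-- The wall pseudo-distance: the number of members of `W` separating `x` and `y`. -/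
noncomputable def wallDist (W : Set (Set X)) (x y : X) : ℝ :=
  ∑ᶠ k, |wallTerm W x y k|

theorem wallDist_smul (W : Set (Set X)) (a : G) (ha : ∀ k : Set X, a • k ∈ W ↔ k ∈ W)
    (x y : X) : wallDist W (a • x) (a • y) = wallDist W x y := by
  unfold wallDist
  rw [← finsum_comp_equiv (MulAction.toPerm a : Set X ≃ Set X)]
  exact finsum_congr (fun k => by
    change |wallTerm W (a • x) (a • y) (a • k)| = _
    rw [wallTerm_smul W a ha x y k])

theorem wallCocycle_abs_le (W τ : Set (Set X)) (hτ : τ ⊆ W)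
    (hfin : ∀ x y : X, {k ∈ W | x ∈ k ∧ y ∉ k}.Finite) (x y : X) :
    |wallCocycle τ x y| ≤ wallDist W x y := by
  classical
  obtain ⟨S, hS⟩ : ∃ S : Finset (Set X), (↑S : Set (Set X))
      = {k ∈ W | x ∈ k ∧ y ∉ k} ∪ {k ∈ W | y ∈ k ∧ x ∉ k} :=
    ⟨((hfin x y).union (hfin y x)).toFinset, Set.Finite.coe_toFinset _⟩
  have h1 : Function.support (wallTerm τ x y) ⊆ ↑S := by
    rw [hS]
    exact wallTerm_support W τ hτ x y
  have h2 : Function.support (fun k => |wallTerm W x y k|) ⊆ ↑S := by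
    rw [hS]
    intro k hk
    apply wallTerm_support W W subset_rfl x y
    rw [Function.mem_support] at hk ⊢
    intro h0
    apply hk
    rw [h0, abs_zero]
  unfold wallCocycle wallDist
  rw [finsum_eq_sum_of_support_subset _ h1, finsum_eq_sum_of_support_subset _ h2]
  refine (Finset.abs_sum_le_sum_abs _ _).trans (Finset.sum_le_sum (fun k hk => ?_))
  have hkW : k ∈ W := by
    have : k ∈ (↑S : Set (Set X)) := hk
    rw [hS] at this
    rcases this with h | h
    · exact h.1
    · exact h.1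
  by_cases hkτ : k ∈ τ
  · unfold wallTerm
    rw [Set.indicator_of_mem hkτ, Set.indicator_of_mem hkW]
  · have : wallTerm τ x y k = 0 := by
      unfold wallTerm
      rw [Set.indicator_of_notMem hkτ]
    rw [this, abs_zero]
    exact abs_nonneg _

end Walls

theorem walls_class_trace {G : Type*} [Group G] {X : Type*} [MulAction G X]
    (W : Set (Set X)) (hW : ∀ a : G, ∀ k ∈ W, a • k ∈ W)
    (hfin : ∀ x y : X, {k ∈ W | x ∈ k ∧ y ∉ k}.Finite)
    (g : G) (k₀ : Set X) (hk₀ : k₀ ∈ W) (hg : g • k₀ ⊂ k₀)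
    (q : ℕ) (e : Fin q → Fin q → G → ℂ)
    (he_sum : ∀ i j, Summable (fun x => ‖e i j x‖))
    (he_idem : ∀ i j x, ∑ l, ∑' y, e i l y * e l j (y⁻¹ * x) = e i j x) :
    HasSum (fun c : {c : G // IsConj g c} => ∑ i, e i i c.1) 0 := by
  classical
  have hWiff : ∀ (a : G) (k : Set X), a • k ∈ W ↔ k ∈ W := by
    intro a k
    refine ⟨fun h => ?_, hW a k⟩
    have := hW a⁻¹ _ h
    rwa [inv_smul_smul] at this
  obtain ⟨σ, hσ⟩ : ∃ σ : Set (Set X), σ = {k | k ∈ W ∧ g • k ⊂ k} := ⟨_, rfl⟩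
  have hσW : σ ⊆ W := by
    rw [hσ]
    exact fun k hk => hk.1
  have hσz : ∀ z : G, z * g = g * z → ∀ k : Set X, k ∈ σ → z • k ∈ σ := by
    intro z hz k hk
    rw [hσ] at hk ⊢
    refine ⟨hW z k hk.1, ?_⟩
    rw [smul_smul, ← hz, ← smul_smul]
    exact ⟨Set.smul_set_mono hk.2.1, fun h => hk.2.2 (Set.smul_set_subset_smul_set_iff.mp h)⟩
  have hσiff : ∀ z : G, z * g = g * z → ∀ k : Set X, z • k ∈ σ ↔ k ∈ σ := by
    intro z hz k
    refine ⟨fun h => ?_, hσz z hz k⟩
    have hz' : z⁻¹ * g = g * z⁻¹ := by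
      have : Commute z g := hz
      exact this.inv_left.eq
    have := hσz z⁻¹ hz' _ h
    rwa [inv_smul_smul] at this
  obtain ⟨x₀, hx₀, hx₀'⟩ := Set.exists_of_ssubset hg
  obtain ⟨ψ, hψ⟩ : ∃ ψ : G → ℝ, ψ = fun h => wallCocycle σ x₀ (h⁻¹ • x₀) := ⟨_, rfl⟩
  have hψ1 : ψ 1 = 0 := by
    rw [hψ]
    simp only [inv_one, one_smul]
    exact wallCocycle_self σ x₀
  refine matrix_class_trace q e he_sum he_idem g ψ ?_ ?_ ?_
  · intro m
    refine ⟨wallDist W x₀ (m⁻¹ • x₀), fun h => ?_⟩
    rw [hψ]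
    simp only [mul_inv_rev, mul_smul]
    rw [wallCocycle_add W σ hσW hfin x₀ (h⁻¹ • x₀) (h⁻¹ • m⁻¹ • x₀), add_sub_cancel_left]
    refine (wallCocycle_abs_le W σ hσW hfin _ _).trans ?_
    rw [wallDist_smul W h⁻¹ (hWiff h⁻¹)]
  · intro z hz h
    have hz' : z⁻¹ * g = g * z⁻¹ := by
      have : Commute z g := hz
      exact this.inv_left.eq
    rw [hψ1, hψ]
    simp only [mul_inv_rev, mul_smul]
    rw [wallCocycle_add W σ hσW hfin x₀ (z⁻¹ • x₀) (z⁻¹ • h⁻¹ • x₀),
      wallCocycle_smul σ z⁻¹ (hσiff z⁻¹ hz')]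
    ring
  · rw [hψ1, hψ]
    have hk₀σ : k₀ ∈ σ := by
      rw [hσ]
      exact ⟨hk₀, hg⟩
    have hterm : ∀ k : Set X, 0 ≤ wallTerm σ x₀ (g⁻¹ • x₀) k := by
      intro k
      unfold wallTerm
      by_cases hk : k ∈ σ
      · rw [Set.indicator_of_mem hk]
        have hk' : g • k ⊂ k := by
          rw [hσ] at hk
          exact hk.2
        by_cases hx : g⁻¹ • x₀ ∈ k
        · have : x₀ ∈ k := hk'.1 (Set.mem_smul_set_iff_inv_smul_mem.mpr hx)
          simp [hx, this]
        · by_cases hx2 : x₀ ∈ k <;> simp [hx, hx2]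
      · rw [Set.indicator_of_notMem hk]
    have hterm₀ : wallTerm σ x₀ (g⁻¹ • x₀) k₀ = 1 := by
      unfold wallTerm
      rw [Set.indicator_of_mem hk₀σ]
      have : g⁻¹ • x₀ ∉ k₀ := fun h => hx₀' (Set.mem_smul_set_iff_inv_smul_mem.mpr h)
      simp [hx₀, this]
    have hfinsupp := wallTerm_finite W σ hσW hfin x₀ (g⁻¹ • x₀)
    have h1 : wallCocycle σ x₀ (g⁻¹ • x₀)
        = ∑ k ∈ hfinsupp.toFinset, wallTerm σ x₀ (g⁻¹ • x₀) k := by
      unfold wallCocycle
      exact finsum_eq_sum_of_support_subset _ (by rw [Set.Finite.coe_toFinset])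
    have hmem : k₀ ∈ hfinsupp.toFinset := by
      rw [Set.Finite.mem_toFinset, Function.mem_support, hterm₀]
      exact one_ne_zero
    have h2 : wallTerm σ x₀ (g⁻¹ • x₀) k₀ ≤ ∑ k ∈ hfinsupp.toFinset, wallTerm σ x₀ (g⁻¹ • x₀) k :=
      Finset.single_le_sum (fun k _ => hterm k) hmem
    change wallCocycle σ x₀ (g⁻¹ • x₀) ≠ 0
    rw [h1]
    rw [hterm₀] at h2
    linarith

end Vale.Agent.Lib.P184
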